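import Vale.Agent.P245.H895.QuadD

/-!
P245, KLS: reduction to the isotropic case for regular potentials (row NORM, second copy, helper235).
-/

set_option linter.all false

open MeasureTheory Filter Topology Set Metric Matrix
open scoped NNReal ENNReal ContDiff
open Vale.Agent.P227.M Vale.Agent.P254 Vale.Agent.P245.Q895

namespace Vale.Agent.P245.K2.Norm

variable {n : ℕ} {V : E n → ℝ} {c1 C1 : ℝ}

/-- the Poincaré inequality with constant `C` for all regular isotropic potentials -/
def PoincIso (C : ℝ) : Prop := ∀ (n : ℕ) (V : E n → ℝ) (c1 C1 : ℝ), Reg V c1 C1 →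
  (∀ i, Ex V (fun x => x i) = 0) →
  (∀ i j, Ex V (fun x => x i * x j) = if i = j then 1 else 0) →
  ∀ f : E n → ℝ, Test f →
    Ex V (fun x => f x ^ 2) - (Ex V f) ^ 2 ≤ C * Ex V (fun x => ∑ i, (pd i f x) ^ 2)

/-- existence of the isotropic affine copy of a regular potential -/
theorem iso_copy (hV : Reg V c1 C1)
    {b : Fin n → ℝ} (hb : ∀ i, Ex V (fun x => x i) = b i)
    {K : Matrix (Fin n) (Fin n) ℝ} (hK : ∀ i j, Ex V (fun x => (x i - b i) * (x j - b j)) = K i j) :
    ∃ (P : Matrix (Fin n) (Fin n) ℝ) (c2 C2 : ℝ), IsUnit P ∧ P * Pᵀ = K ∧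
      Reg (fun y => V (S5.aff P b y)) c2 C2 ∧
      (∀ i, Ex (fun y => V (S5.aff P b y)) (fun y => y i) = 0) ∧
      (∀ i j, Ex (fun y => V (S5.aff P b y)) (fun y => y i * y j) = if i = j then 1 else 0) := by
  obtain ⟨P, m, hP, hPP, hPT⟩ := diag_pair (cov_posDef hV hK) (T := 0) (by simp)
  have hPdet := (Matrix.isUnit_iff_isUnit_det _).1 hP
  obtain ⟨c2, C2, hV'⟩ := S5.R669.reg_aff hV hP b
  have hG : ∀ i, Gr (fun x : E n => x i - b i) := fun i => (Gr.coord i).sub (Gr.const _)
  set L : Matrix (Fin n) (Fin n) ℝ := P⁻¹ with hL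
  have hLP : L * P = 1 := Matrix.nonsing_inv_mul P hPdet
  have haff : ∀ (y : E n) (i : Fin n), (S5.aff P b y) i - b i = (P *ᵥ y.ofLp) i := by
    intro y i
    show (P *ᵥ y.ofLp + b) i - b i = _
    simp
  have hy : ∀ (y : E n) (i : Fin n), y i = ∑ j, L i j * ((S5.aff P b y) j - b j) := by
    intro y i
    simp only [haff]
    show y i = (L *ᵥ (P *ᵥ y.ofLp)) i
    rw [Matrix.mulVec_mulVec, hLP, Matrix.one_mulVec]
  refine ⟨P, c2, C2, hP, hPP, hV', ?_, ?_⟩
  · intro i
    have e1 : (fun y : E n => y i) = fun y => (fun x : E n => ∑ j, L i j * (x j - b j)) (S5.aff P b y) :=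
      funext fun y => hy y i
    rw [e1, Ex_aff hP b V (fun x : E n => ∑ j, L i j * (x j - b j)),
      Ex_sum hV _ fun j _ => (hG j).const_mul _]
    refine Finset.sum_eq_zero fun j _ => ?_
    rw [Ex_const_mul, Ex_sub hV (Gr.coord j) (Gr.const _), hb, Ex_const hV, sub_self, mul_zero]
  · intro i j
    have e1 : (fun y : E n => y i * y j) = fun y => (fun x : E n => ∑ k, ∑ l, L i k * L j l *
        ((x k - b k) * (x l - b l))) (S5.aff P b y) := by
      funext y
      rw [hy y i, hy y j, Finset.sum_mul_sum]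
      exact Finset.sum_congr rfl fun k _ => Finset.sum_congr rfl fun l _ => by ring
    rw [e1, Ex_aff hP b V (fun x : E n => ∑ k, ∑ l, L i k * L j l *
        ((x k - b k) * (x l - b l))),
      Ex_sum hV _ fun k _ => Gr.sum _ fun l _ => ((hG k).mul (hG l)).const_mul _]
    have e2 : ∀ k, Ex V (fun x => ∑ l, L i k * L j l * ((x k - b k) * (x l - b l))) =
        ∑ l, L i k * L j l * K k l := by
      intro k
      rw [Ex_sum hV _ fun l _ => ((hG k).mul (hG l)).const_mul _]
      exact Finset.sum_congr rfl fun l _ => by rw [Ex_const_mul, hK]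
    rw [Finset.sum_congr rfl fun k _ => e2 k]
    have e3 : ∑ k, ∑ l, L i k * L j l * K k l = (L * K * Lᵀ) i j := by
      rw [Matrix.mul_apply]
      simp only [Matrix.mul_apply, Finset.sum_mul, Matrix.transpose_apply]
      rw [Finset.sum_comm]
      exact Finset.sum_congr rfl fun l _ => Finset.sum_congr rfl fun k _ => by ring
    rw [e3, ← hPP]
    have e4 : L * (P * Pᵀ) * Lᵀ = (L * P) * (L * P)ᵀ := by
      rw [Matrix.transpose_mul]
      simp only [Matrix.mul_assoc]
    rw [e4, hLP, Matrix.transpose_one, Matrix.one_mul, Matrix.one_apply]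

/-- partial derivatives of `f ∘ aff` -/
theorem pd_aff {f : E n → ℝ} (hf : Differentiable ℝ f) (P : Matrix (Fin n) (Fin n) ℝ)
    (a : Fin n → ℝ) (y : E n) (i : Fin n) :
    pd i (fun y => f (S5.aff P a y)) y = ∑ j, P j i * pd j f (S5.aff P a y) := by
  unfold pd
  rw [(S5.R669.hasFDerivAt_comp_aff hf P a y).fderiv]
  show fderiv ℝ f (S5.aff P a y) (S5.R669.ML P (ei i)) = _
  have e1 : S5.R669.ML P (ei i) = ∑ j, P j i • (ei j : E n) := by
    ext k
    rw [S5.R669.ML_apply]
    simp [ei, Matrix.mulVec, dotProduct, Finset.sum_apply, EuclideanSpace.single_apply,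
      WithLp.ofLp_sum, Pi.single_apply]
  rw [e1, map_sum]
  exact Finset.sum_congr rfl fun j _ => by rw [map_smul, smul_eq_mul]

/-- the affine map as a homeomorphism-like statement: compact support is preserved -/
theorem test_aff {f : E n → ℝ} (hf : Test f) {P : Matrix (Fin n) (Fin n) ℝ} (hP : IsUnit P)
    (a : Fin n → ℝ) : Test (fun y => f (S5.aff P a y)) := by
  refine ⟨S5.R669.contDiff_aff hf.1 P a, ?_⟩
  obtain ⟨N, hN⟩ := hP.exists_left_inv
  have hNP : P * N = 1 := by
    rw [mul_eq_one_comm]; exact hN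
  -- inverse map
  have hinv : ∀ x : E n, ∀ y : E n, S5.aff P a y = x →
      y = S5.R669.ML N (x - WithLp.toLp 2 a) := by
    intro x y hxy
    rw [← hxy, S5.R669.aff_eq, add_sub_cancel_right, S5.R669.ML_apply, S5.R669.ML_apply]
    show y = WithLp.toLp 2 (N *ᵥ (P *ᵥ y.ofLp))
    rw [mulVec_mulVec, hN, one_mulVec]
  have hcont : Continuous (fun x : E n => S5.R669.ML N (x - WithLp.toLp 2 a)) :=
    (S5.R669.ML N).continuous.comp (continuous_id.sub continuous_const)
  refine HasCompactSupport.intro (hf.2.isCompact.image hcont) fun y hy => ?_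
  by_contra hne
  refine hy ⟨S5.aff P a y, subset_tsupport _ hne, ?_⟩
  exact (hinv _ y rfl).symm

/-- **NORM**: the Poincaré inequality for all regular potentials -/
theorem poinc_reg {C : ℝ} (hC : PoincIso C) (hV : Reg V c1 C1)
    {b : Fin n → ℝ} (hb : ∀ i, Ex V (fun x => x i) = b i)
    {K : Matrix (Fin n) (Fin n) ℝ} (hK : ∀ i j, Ex V (fun x => (x i - b i) * (x j - b j)) = K i j)
    {f : E n → ℝ} (hf : Test f) :
    Ex V (fun x => f x ^ 2) - (Ex V f) ^ 2 ≤
      C * Ex V (fun x => ∑ i, ∑ j, K i j * (pd i f x * pd j f x)) := by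
  obtain ⟨P, c2, C2, hP, hPP, hV', h0, h1⟩ := iso_copy hV hb hK
  have key := hC n _ c2 C2 hV' h0 h1 _ (test_aff hf hP b)
  have hfd : Differentiable ℝ f := hf.1.differentiable (by simp)
  have e1 : Ex (fun y => V (S5.aff P b y)) (fun y => f (S5.aff P b y) ^ 2) = Ex V (fun x => f x ^ 2) :=
    Ex_aff hP b V (fun x => f x ^ 2)
  have e2 : Ex (fun y => V (S5.aff P b y)) (fun y => f (S5.aff P b y)) = Ex V f :=
    Ex_aff hP b V f
  have e3 : Ex (fun y => V (S5.aff P b y)) (fun y => ∑ i, (pd i (fun y => f (S5.aff P b y)) y) ^ 2) =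
      Ex V (fun x => ∑ i, ∑ j, K i j * (pd i f x * pd j f x)) := by
    rw [← Ex_aff hP b V]
    refine Ex_congr _ fun y => ?_
    simp only [pd_aff hfd]
    set p : Fin n → ℝ := fun j => pd j f (S5.aff P b y) with hp
    have h2 : ∀ i j, K i j = ∑ k, P i k * P j k := by
      intro i j
      rw [← hPP, Matrix.mul_apply]
      rfl
    calc ∑ i, (∑ j, P j i * p j) ^ 2 = ∑ i, ∑ j, ∑ k, (P j i * P k i) * (p j * p k) := by
          refine Finset.sum_congr rfl fun i _ => ?_
          rw [sq, Finset.sum_mul_sum]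
          exact Finset.sum_congr rfl fun j _ => Finset.sum_congr rfl fun k _ => by ring
      _ = ∑ j, ∑ k, ∑ i, (P j i * P k i) * (p j * p k) := by
          rw [Finset.sum_comm]
          exact Finset.sum_congr rfl fun j _ => Finset.sum_comm
      _ = ∑ i, ∑ j, K i j * (p i * p j) := by
          refine Finset.sum_congr rfl fun i _ => Finset.sum_congr rfl fun j _ => ?_
          rw [h2, Finset.sum_mul]
  rw [e1, e2, e3] at key
  exact key

/-- **NORM**, operator norm form -/
theorem poinc_reg_op {C : ℝ} (hC0 : 0 ≤ C) (hC : PoincIso C) (hV : Reg V c1 C1)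
    {b : Fin n → ℝ} (hb : ∀ i, Ex V (fun x => x i) = b i)
    {K : Matrix (Fin n) (Fin n) ℝ} (hK : ∀ i j, Ex V (fun x => (x i - b i) * (x j - b j)) = K i j)
    {lam : ℝ} (hlam : ∀ v : Fin n → ℝ, v ⬝ᵥ (K *ᵥ v) ≤ lam * ∑ i, v i ^ 2)
    {f : E n → ℝ} (hf : Test f) :
    Ex V (fun x => f x ^ 2) - (Ex V f) ^ 2 ≤ C * lam * Ex V (fun x => ∑ i, (pd i f x) ^ 2) := by
  refine (poinc_reg hC hV hb hK hf).trans ?_
  rw [mul_assoc]
  refine mul_le_mul_of_nonneg_left ?_ hC0
  rw [← Ex_const_mul]
  have hpdc : ∀ i, Continuous (pd i f) := fun i =>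
    ((hf.1.continuous_fderiv (by simp)).clm_apply continuous_const)
  have hz : ∀ x, x ∉ tsupport f → ∀ i, pd i f x = 0 := by
    intro x hx i
    unfold pd
    rw [fderiv_of_notMem_tsupport (𝕜 := ℝ) hx]
    rfl
  have hint : ∀ g : E n → ℝ, Continuous g → HasCompactSupport g →
      Integrable (fun x => g x * Real.exp (-V x)) := by
    intro g hg hs
    refine Continuous.integrable_of_hasCompactSupport (hg.mul (Real.continuous_exp.comp hV.cont.neg)) ?_
    exact hs.mul_right
  unfold Ex
  refine div_le_div_of_nonneg_right ?_ hV.Z_pos.le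
  refine integral_mono (hint _ ?_ ?_) (hint _ ?_ ?_) fun x => ?_
  · exact continuous_finset_sum _ fun i _ => continuous_finset_sum _ fun j _ =>
      continuous_const.mul ((hpdc i).mul (hpdc j))
  · refine HasCompactSupport.intro hf.2.isCompact fun x hx => ?_
    simp [hz x hx]
  · exact continuous_const.mul (continuous_finset_sum _ fun i _ => (hpdc i).pow 2)
  · refine HasCompactSupport.intro hf.2.isCompact fun x hx => ?_
    simp [hz x hx]
  · refine mul_le_mul_of_nonneg_right ?_ (Real.exp_pos _).le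
    have h2 := hlam (fun i => pd i f x)
    refine le_trans (le_of_eq ?_) h2
    unfold dotProduct Matrix.mulVec dotProduct
    refine Finset.sum_congr rfl fun i _ => ?_
    rw [Finset.mul_sum]
    exact Finset.sum_congr rfl fun j _ => by ring

end Vale.Agent.P245.K2.Norm
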