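import Vale.Agent.P245.K.Iface
import Vale.Agent.P245.K.OP3

/-!
P245, row IDENT (second seat, helper522): the form `K_G(z,e) = E ∑ G_ij Γ(z_i, e_j)` in terms of `G`, `A G`,
and the Cauchy-Schwarz inequality (h2).
-/

set_option linter.all false

open MeasureTheory Filter Topology Set
open scoped NNReal ENNReal ContDiff
open Vale.Agent.P227.M Vale.Agent.P227.M.K814 Vale.Agent.P254.SN

namespace Vale.Agent.P245.K.Ident522

open Vale.Agent.P245.H464 (TE Lt mu integral_mu memLp_iff mu_ac ac_mu test_diff)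
open Vale.Agent.P245.K.OP3

section gen
variable {α : Type*} [MeasurableSpace α] {μ : Measure α} {f g : ℕ → α → ℝ} {u v b : α → ℝ}

theorem memLp_bmul (hb : AEStronglyMeasurable b μ) {B : ℝ} (hB : ∀ᵐ x ∂μ, |b x| ≤ B) {w : α → ℝ}
    (hw : MemLp w 2 μ) : MemLp (fun x => b x * w x) 2 μ := by
  refine MemLp.of_le_mul (c := B) hw (hb.mul hw.1) ?_
  filter_upwards [hB] with x hx
  rw [norm_mul]
  exact mul_le_mul_of_nonneg_right hx (norm_nonneg _)

theorem bmulae (hb : AEStronglyMeasurable b μ) {B : ℝ} (hB : ∀ᵐ x ∂μ, |b x| ≤ B)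
    (hf : L2to μ f u) : L2to μ (fun m x => b x * f m x) (fun x => b x * u x) := by
  refine ⟨fun m => memLp_bmul hb hB (hf.mem m), memLp_bmul hb hB hf.lim, ?_⟩
  have h0 : Tendsto (fun m => B ^ 2 * ∫ x, (f m x - u x) ^ 2 ∂μ) atTop (𝓝 0) := by
    simpa using hf.conv.const_mul (B ^ 2)
  refine squeeze_zero (fun m => integral_nonneg fun x => sq_nonneg _) (fun m => ?_) h0
  have i1 : Integrable (fun x => (f m x - u x) ^ 2) μ := int_sq ((hf.mem m).sub hf.lim)
  rw [← integral_const_mul]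
  refine integral_mono_of_nonneg (Eventually.of_forall fun x => sq_nonneg _)
    (i1.const_mul _) ?_
  filter_upwards [hB] with x hx
  show (b x * f m x - b x * u x) ^ 2 ≤ B ^ 2 * (f m x - u x) ^ 2
  have h1 : (b x * f m x - b x * u x) ^ 2 = (b x) ^ 2 * (f m x - u x) ^ 2 := by ring
  rw [h1]
  have h2 : (b x) ^ 2 ≤ B ^ 2 := by
    rw [← sq_abs (b x)]
    exact pow_le_pow_left₀ (abs_nonneg _) hx 2
  exact mul_le_mul_of_nonneg_right h2 (sq_nonneg _)

/-- Cauchy-Schwarz for an integral -/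
theorem cs_int' {p q r : α → ℝ} (hp : Integrable p μ) (hq : Integrable q μ) (hr : Integrable r μ)
    (hp0 : ∀ᵐ x ∂μ, 0 ≤ p x) (hq0 : ∀ᵐ x ∂μ, 0 ≤ q x) (h : ∀ᵐ x ∂μ, r x ^ 2 ≤ p x * q x) :
    (∫ x, r x ∂μ) ^ 2 ≤ (∫ x, p x ∂μ) * ∫ x, q x ∂μ := by
  have h1 : ∀ s : ℝ, 0 ≤ (∫ x, q x ∂μ) * (s * s) + (2 * ∫ x, r x ∂μ) * s + ∫ x, p x ∂μ := by
    intro s
    have h2 : (∫ x, q x ∂μ) * (s * s) + (2 * ∫ x, r x ∂μ) * s + ∫ x, p x ∂μ =
        ∫ x, ((s * s) * q x + (2 * s) * r x + p x) ∂μ := by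
      have i1 : Integrable (fun x => (s * s) * q x) μ := hq.const_mul _
      have i2 : Integrable (fun x => (2 * s) * r x) μ := hr.const_mul _
      have i3 : Integrable (fun x => (s * s) * q x + (2 * s) * r x) μ := i1.add i2
      rw [integral_add i3 hp, integral_add i1 i2, integral_const_mul, integral_const_mul]
      ring
    rw [h2]
    refine integral_nonneg_of_ae ?_
    filter_upwards [hp0, hq0, h] with x a1 a2 a3
    show (0 : ℝ) ≤ (s * s) * q x + (2 * s) * r x + p x
    -- discriminant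
    have h4 : |r x| ≤ Real.sqrt (p x) * Real.sqrt (q x) := by
      rw [← Real.sqrt_mul a1]
      exact Real.abs_le_sqrt a3
    have h5 := Real.sq_sqrt a1
    have h6 := Real.sq_sqrt a2
    have h7 : -(|s| * |r x|) ≤ s * r x := by
      rw [← abs_mul]; exact neg_abs_le _
    have h8 : |s| * |r x| ≤ |s| * (Real.sqrt (p x) * Real.sqrt (q x)) :=
      mul_le_mul_of_nonneg_left h4 (abs_nonneg _)
    have h9 : s * s = |s| ^ 2 := by rw [sq_abs]; ring
    nlinarith [sq_nonneg (Real.sqrt (p x) - |s| * Real.sqrt (q x))]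
  have h3 := discrim_le_zero h1
  unfold discrim at h3
  nlinarith

end gen

variable {n : ℕ} {V : E n → ℝ} {c1 C1 c C : ℝ} {t : E n → Matrix (Fin n) (Fin n) ℝ}

theorem gb_lc {f : E n → ℝ} (hf : LC f) : GB f := by
  refine ⟨hf.1.continuous.measurable, ?_⟩
  obtain ⟨B, hB⟩ := hf.2.exists_bound_of_continuous hf.1.continuous
  exact ⟨B, hB⟩

theorem test_mul' {f g : E n → ℝ} (hf : Test f) (hg : Test g) : Test (fun x => f x * g x) :=
  ⟨hf.1.mul hg.1, hf.2.mul_right⟩

/-- product rule for `L` -/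
theorem Lt_mul' (hs : ∀ x i j, t x i j = t x j i) {f g : E n → ℝ} (hf : Test f) (hg : Test g) (x : E n) :
    Lt t (fun y => f y * g y) x = f x * Lt t g x + Lt t f x * g x +
      2 * ∑ a, ∑ b, t x a b * pd a f x * pd b g x := by
  have h1 : ∀ j, pd j (fun y => f y * g y) = fun y => pd j f y * g y + f y * pd j g y := fun j =>
    funext fun y => rpd_mul (test_diff hf y) (test_diff hg y)
  have h2 : ∀ i j, pd i (fun y => pd j f y * g y + f y * pd j g y) x =
      (pd i (pd j f) x * g x + pd j f x * pd i g x) + (pd i f x * pd j g x + f x * pd i (pd j g) x) := by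
    intro i j
    have e1 := pd_add1 (test_mul' (test_pd1 hf j) hg) (test_mul' hf (test_pd1 hg j)) i
    rw [e1]
    show pd i (fun y => pd j f y * g y) x + pd i (fun y => f y * pd j g y) x = _
    rw [rpd_mul (test_diff (test_pd1 hf j) x) (test_diff hg x),
      rpd_mul (test_diff hf x) (test_diff (test_pd1 hg j) x)]
  unfold Lt hess
  simp only [h1, h2]
  have e3 : ∑ i, ∑ j, t x i j * (pd i (pd j f) x * g x + pd j f x * pd i g x +
      (pd i f x * pd j g x + f x * pd i (pd j g) x)) =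
      (∑ i, ∑ j, t x i j * pd i (pd j f) x) * g x + f x * (∑ i, ∑ j, t x i j * pd i (pd j g) x)
        + (∑ i, ∑ j, t x i j * pd j f x * pd i g x) + ∑ i, ∑ j, t x i j * pd i f x * pd j g x := by
    simp only [Finset.sum_mul, Finset.mul_sum, ← Finset.sum_add_distrib]
    exact Finset.sum_congr rfl fun i _ => Finset.sum_congr rfl fun j _ => by ring
  have e4 : ∑ i, ∑ j, t x i j * pd j f x * pd i g x = ∑ a, ∑ b, t x a b * pd a f x * pd b g x := by
    rw [Finset.sum_comm]
    exact Finset.sum_congr rfl fun i _ => Finset.sum_congr rfl fun j _ => by rw [hs x j i]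
  have e5 : ∑ i, x i * (pd i f x * g x + f x * pd i g x) =
      (∑ i, x i * pd i f x) * g x + f x * ∑ i, x i * pd i g x := by
    simp only [Finset.sum_mul, Finset.mul_sum, ← Finset.sum_add_distrib]
    exact Finset.sum_congr rfl fun i _ => by ring
  rw [e3, e4, e5]
  ring


/-! ## limits -/

section
variable (hR : Reg V c1 C1) (hT : TB V t)
include hR hT

theorem mb (a b : Fin n) {g : E n → ℝ} (hg : AEStronglyMeasurable g (mu V)) {B : ℝ}
    (hB : ∀ᵐ x ∂(mu V), |g x| ≤ B) :
    ∃ B', AEStronglyMeasurable (fun x => g x * t x a b) (mu V) ∧ ∀ᵐ x ∂(mu V), |g x * t x a b| ≤ B' := by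
  obtain ⟨h1, B2, hB2⟩ := gb_t hT a b
  refine ⟨B * B2, hg.mul h1.aestronglyMeasurable, ?_⟩
  filter_upwards [hB] with x hx
  rw [abs_mul]
  exact mul_le_mul hx (hB2 x) (abs_nonneg _) ((abs_nonneg _).trans hx)

/-- `∫ g ∑∑ t p q` as a double sum -/
theorem int_form_g {g : E n → ℝ} (hg : AEStronglyMeasurable g (mu V)) {B : ℝ}
    (hB : ∀ᵐ x ∂(mu V), |g x| ≤ B) {p q : Fin n → E n → ℝ} (hp : ∀ a, MemLp (p a) 2 (mu V))
    (hq : ∀ a, MemLp (q a) 2 (mu V)) :
    Integrable (fun x => g x * ∑ a, ∑ b, t x a b * p a x * q b x) (mu V) ∧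
    ∫ x, g x * (∑ a, ∑ b, t x a b * p a x * q b x) ∂(mu V) =
      ∑ a, ∑ b, ∫ x, ((g x * t x a b) * p a x) * q b x ∂(mu V) := by
  have hm : ∀ a b, MemLp (fun x => (g x * t x a b) * p a x) 2 (mu V) := by
    intro a b
    obtain ⟨B', h1, h2⟩ := mb hR hT a b hg hB
    exact memLp_bmul h1 h2 (hp a)
  have hi : ∀ a b, Integrable (fun x => ((g x * t x a b) * p a x) * q b x) (mu V) := fun a b =>
    int_mul (hm a b) (hq b)
  have e : (fun x => g x * ∑ a, ∑ b, t x a b * p a x * q b x) =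
      fun x => ∑ a, ∑ b, ((g x * t x a b) * p a x) * q b x := by
    funext x
    simp only [Finset.mul_sum]
    exact Finset.sum_congr rfl fun i _ => Finset.sum_congr rfl fun j _ => by ring
  rw [e]
  refine ⟨integrable_finsetSum _ fun a _ => integrable_finsetSum _ fun b _ => hi a b, ?_⟩
  rw [integral_finsetSum _ fun a _ => integrable_finsetSum _ fun b _ => hi a b]
  refine Finset.sum_congr rfl fun a _ => ?_
  rw [integral_finsetSum _ fun b _ => hi a b]

theorem form_lim_g {g : E n → ℝ} (hg : AEStronglyMeasurable g (mu V)) {B : ℝ}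
    (hB : ∀ᵐ x ∂(mu V), |g x| ≤ B) {f h : ℕ → Fin n → E n → ℝ} {p q : Fin n → E n → ℝ}
    (hf : ∀ a, L2to (mu V) (fun m => f m a) (p a)) (hh : ∀ a, L2to (mu V) (fun m => h m a) (q a)) :
    Tendsto (fun m => ∫ x, g x * (∑ a, ∑ b, t x a b * f m a x * h m b x) ∂(mu V)) atTop
      (𝓝 (∫ x, g x * (∑ a, ∑ b, t x a b * p a x * q b x) ∂(mu V))) := by
  rw [(int_form_g hR hT hg hB (fun a => (hf a).lim) (fun a => (hh a).lim)).2]
  have e : (fun m => ∫ x, g x * (∑ a, ∑ b, t x a b * f m a x * h m b x) ∂(mu V)) =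
      fun m => ∑ a, ∑ b, ∫ x, ((g x * t x a b) * f m a x) * h m b x ∂(mu V) := by
    funext m
    exact (int_form_g hR hT hg hB (fun a => (hf a).mem m) (fun a => (hh a).mem m)).2
  rw [e]
  refine tendsto_finsetSum _ fun a _ => tendsto_finsetSum _ fun b _ => ?_
  obtain ⟨B', h1, h2⟩ := mb hR hT a b hg hB
  exact (bmulae h1 h2 (hf a)).mul (hh b)

/-- test version of the first identity -/
theorem testA {g Ag : E n → ℝ} {Dg : Fin n → E n → ℝ} (hg : DomE V t g Dg Ag) {z e : E n → ℝ}
    (hz : Test z) (he : Test e) :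
    2 * ∫ x, g x * (∑ a, ∑ b, t x a b * pd a z x * pd b e x) ∂(mu V) =
      ∫ x, g x * (z x * (-Lt t e x)) ∂(mu V) + ∫ x, g x * (-Lt t z x * e x) ∂(mu V)
        - ∫ x, Ag x * (z x * e x) ∂(mu V) := by
  have h1 := (DomE.test hR hT (test_mul' hz he)).symm hR hT hg
  have gz := gb_lc (lc_test hz)
  have ge := gb_lc (lc_test he)
  have gLz := gb_lc (lt_lc hT hz)
  have gLe := gb_lc (lt_lc hT he)
  have m1 : MemLp (fun x => z x * (-Lt t e x)) 2 (mu V) := memLp_GB hR (gz.mul gLe.neg)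
  have m2 : MemLp (fun x => -Lt t z x * e x) 2 (mu V) := memLp_GB hR (gLz.neg.mul ge)
  have m3 : MemLp (fun x => ∑ a, ∑ b, t x a b * pd a z x * pd b e x) 2 (mu V) :=
    memLp_GB hR (GB.sum _ fun a _ => GB.sum _ fun b _ =>
      ((gb_t hT a b).mul (gb_pd_lc (lc_test hz) a)).mul (gb_pd_lc (lc_test he) b))
  have i1 := int_mul hg.mem m1
  have i2 := int_mul hg.mem m2
  have i3 := int_mul hg.mem m3
  have e1 : ∫ x, g x * (-Lt t (fun y => z y * e y) x) ∂(mu V) =
      ∫ x, g x * (z x * (-Lt t e x)) ∂(mu V) + ∫ x, g x * (-Lt t z x * e x) ∂(mu V)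
        - 2 * ∫ x, g x * (∑ a, ∑ b, t x a b * pd a z x * pd b e x) ∂(mu V) := by
    have j12 : Integrable (fun x => g x * (z x * (-Lt t e x)) + g x * (-Lt t z x * e x)) (mu V) := i1.add i2
    have j3 : Integrable (fun x => 2 * (g x * ∑ a, ∑ b, t x a b * pd a z x * pd b e x)) (mu V) :=
      i3.const_mul 2
    rw [← integral_const_mul, ← integral_add i1 i2, ← integral_sub j12 j3]
    refine integral_congr_ae (Eventually.of_forall fun x => ?_)
    show g x * (-Lt t (fun y => z y * e y) x) = g x * (z x * (-Lt t e x)) + g x * (-Lt t z x * e x)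
      - 2 * (g x * ∑ a, ∑ b, t x a b * pd a z x * pd b e x)
    rw [Lt_mul' hT.symm hz he x]
    ring
  have e2 : ∫ x, (fun y => z y * e y) x * Ag x ∂(mu V) = ∫ x, Ag x * (z x * e x) ∂(mu V) :=
    integral_congr_ae (Eventually.of_forall fun x => by ring)
  have h2 : ∫ x, g x * (-Lt t (fun y => z y * e y) x) ∂(mu V) = ∫ x, Ag x * (z x * e x) ∂(mu V) := by
    rw [← e2]; exact h1
  linarith

theorem genA {g Ag : E n → ℝ} {Dg : Fin n → E n → ℝ} (hg : DomE V t g Dg Ag) {B : ℝ}
    (hB : ∀ᵐ x ∂(mu V), |g x| ≤ B) (hB2 : ∀ᵐ x ∂(mu V), |Ag x| ≤ B)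
    {z Az e Ae : E n → ℝ} {Dz De : Fin n → E n → ℝ} (hz : DomE V t z Dz Az) (he : DomE V t e De Ae) :
    2 * ∫ x, g x * (∑ a, ∑ b, t x a b * Dz a x * De b x) ∂(mu V) =
      ∫ x, g x * (z x * Ae x) ∂(mu V) + ∫ x, g x * (Az x * e x) ∂(mu V)
        - ∫ x, Ag x * (z x * e x) ∂(mu V) := by
  obtain ⟨f, hf, f1, f2, f3⟩ := hz
  obtain ⟨h, hh, k1, k2, k3⟩ := he
  have gm := hg.mem.1
  have Am := hg.memA.1
  have l0 := (form_lim_g hR hT gm hB (f := fun m a => pd a (f m)) (h := fun m a => pd a (h m)) f2 k2).const_mul 2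
  have l1 : Tendsto (fun m => ∫ x, g x * (f m x * (-Lt t (h m) x)) ∂(mu V)) atTop
      (𝓝 (∫ x, g x * (z x * Ae x) ∂(mu V))) := by
    have := (bmulae gm hB f1).mul k3
    simpa only [mul_assoc] using this
  have l2 : Tendsto (fun m => ∫ x, g x * (-Lt t (f m) x * h m x) ∂(mu V)) atTop
      (𝓝 (∫ x, g x * (Az x * e x) ∂(mu V))) := by
    have := (bmulae gm hB f3).mul k1
    simpa only [mul_assoc] using this
  have l3 : Tendsto (fun m => ∫ x, Ag x * (f m x * h m x) ∂(mu V)) atTop
      (𝓝 (∫ x, Ag x * (z x * e x) ∂(mu V))) := by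
    have := (bmulae Am hB2 f1).mul k1
    simpa only [mul_assoc] using this
  refine tendsto_nhds_unique l0 (((l1.add l2).sub l3).congr fun m => ?_)
  exact (testA hR hT hg (hf m) (hh m)).symm

/-- test version of the second identity -/
theorem testB {g Ag : E n → ℝ} {Dg : Fin n → E n → ℝ} (hg : DomE V t g Dg Ag) {z e : E n → ℝ}
    (hz : Test z) (he : Test e) :
    ∫ x, g x * (-Lt t z x * e x) ∂(mu V) =
      ∫ x, g x * (∑ a, ∑ b, t x a b * pd a e x * pd b z x) ∂(mu V)
        + ∫ x, e x * (∑ a, ∑ b, t x a b * Dg a x * pd b z x) ∂(mu V) := by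
  obtain ⟨f, hf, f1, f2, f3⟩ := hg
  have gz := gb_lc (lc_test hz)
  have ge := gb_lc (lc_test he)
  have gLz := gb_lc (lt_lc hT hz)
  have m1 : MemLp (fun x => -Lt t z x * e x) 2 (mu V) := memLp_GB hR (gLz.neg.mul ge)
  have m3 : MemLp (fun x => ∑ a, ∑ b, t x a b * pd a e x * pd b z x) 2 (mu V) :=
    memLp_GB hR (GB.sum _ fun a _ => GB.sum _ fun b _ =>
      ((gb_t hT a b).mul (gb_pd_lc (lc_test he) a)).mul (gb_pd_lc (lc_test hz) b))
  obtain ⟨gem, Be, hBe⟩ := ge
  have l1 := f1.mul (L2to.const m1)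
  have l2 := f1.mul (L2to.const m3)
  have l3 := form_lim_g hR hT gem.aestronglyMeasurable (Eventually.of_forall hBe)
    (f := fun m a => pd a (f m)) (h := fun m a => pd a z) f2
    (fun a => L2to.const (memLp_GB hR (gb_pd_lc (lc_test hz) a)))
  refine tendsto_nhds_unique l1 ((l2.add l3).congr fun m => ?_)
  have hφ : LC (fun x => f m x * e x) := lc_test (test_mul' (hf m) he)
  have h1 := test_form hT hz hφ
  have e1 : ∫ x, f m x * (-Lt t z x * e x) ∂(mu V) = ∫ x, (f m x * e x) * (-Lt t z x) ∂(mu V) :=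
    integral_congr_ae (Eventually.of_forall fun x => by ring)
  rw [e1, h1]
  have i1 : Integrable (fun x => f m x * ∑ a, ∑ b, t x a b * pd a e x * pd b z x) (mu V) :=
    int_mul (memLp_test hR (hf m)) m3
  have i2 : Integrable (fun x => e x * ∑ a, ∑ b, t x a b * pd a (f m) x * pd b z x) (mu V) :=
    (int_form_g hR hT gem.aestronglyMeasurable (Eventually.of_forall hBe)
      (fun a => memLp_GB hR (gb_pd_lc (lc_test (hf m)) a))
      (fun a => memLp_GB hR (gb_pd_lc (lc_test hz) a))).1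
  rw [← integral_add i1 i2]
  refine integral_congr_ae (Eventually.of_forall fun x => ?_)
  show f m x * (∑ a, ∑ b, t x a b * pd a e x * pd b z x) + e x * (∑ a, ∑ b, t x a b * pd a (f m) x * pd b z x)
    = ∑ a, ∑ b, t x a b * pd a (fun x => f m x * e x) x * pd b z x
  have h2 : ∀ a, pd a (fun x => f m x * e x) x = pd a (f m) x * e x + f m x * pd a e x := fun a =>
    rpd_mul (test_diff (hf m) x) (test_diff he x)
  simp only [h2, Finset.mul_sum, ← Finset.sum_add_distrib]
  exact Finset.sum_congr rfl fun i _ => Finset.sum_congr rfl fun j _ => by ring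

theorem genB {g Ag : E n → ℝ} {Dg : Fin n → E n → ℝ} (hg : DomE V t g Dg Ag) {B : ℝ}
    (hB : ∀ᵐ x ∂(mu V), |g x| ≤ B) (hB2 : ∀ a, ∀ᵐ x ∂(mu V), |Dg a x| ≤ B)
    {z Az e Ae : E n → ℝ} {Dz De : Fin n → E n → ℝ} (hz : DomE V t z Dz Az) (he : DomE V t e De Ae) :
    ∫ x, g x * (Az x * e x) ∂(mu V) =
      ∫ x, g x * (∑ a, ∑ b, t x a b * De a x * Dz b x) ∂(mu V)
        + ∫ x, (∑ a, ∑ b, t x a b * Dg a x * Dz b x) * e x ∂(mu V) := by
  obtain ⟨f, hf, f1, f2, f3⟩ := hz
  obtain ⟨h, hh, k1, k2, k3⟩ := he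
  have gm := hg.mem.1
  have l0 : Tendsto (fun m => ∫ x, g x * (-Lt t (f m) x * h m x) ∂(mu V)) atTop
      (𝓝 (∫ x, g x * (Az x * e x) ∂(mu V))) := by
    have := (bmulae gm hB f3).mul k1
    simpa only [mul_assoc] using this
  have l1 := form_lim_g hR hT gm hB (f := fun m a => pd a (h m)) (h := fun m a => pd a (f m)) k2 f2
  -- the remainder
  have hbd : ∀ a b, ∃ B', AEStronglyMeasurable (fun x => Dg a x * t x a b) (mu V) ∧
      ∀ᵐ x ∂(mu V), |Dg a x * t x a b| ≤ B' := fun a b =>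
    mb hR hT a b (hg.memD a).1 (hB2 a)
  have hexp : ∀ {q : Fin n → E n → ℝ} {w : E n → ℝ}, (∀ a, MemLp (q a) 2 (mu V)) → MemLp w 2 (mu V) →
      Integrable (fun x => (∑ a, ∑ b, t x a b * Dg a x * q b x) * w x) (mu V) ∧
      ∫ x, (∑ a, ∑ b, t x a b * Dg a x * q b x) * w x ∂(mu V) =
        ∑ a, ∑ b, ∫ x, ((Dg a x * t x a b) * q b x) * w x ∂(mu V) := by
    intro q w hq hw
    have hi : ∀ a b, Integrable (fun x => ((Dg a x * t x a b) * q b x) * w x) (mu V) := by
      intro a b
      obtain ⟨B', h1, h2⟩ := hbd a b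
      exact int_mul (memLp_bmul h1 h2 (hq b)) hw
    have e : (fun x => (∑ a, ∑ b, t x a b * Dg a x * q b x) * w x) =
        fun x => ∑ a, ∑ b, ((Dg a x * t x a b) * q b x) * w x := by
      funext x
      simp only [Finset.sum_mul]
      exact Finset.sum_congr rfl fun i _ => Finset.sum_congr rfl fun j _ => by ring
    rw [e]
    refine ⟨integrable_finsetSum _ fun a _ => integrable_finsetSum _ fun b _ => hi a b, ?_⟩
    rw [integral_finsetSum _ fun a _ => integrable_finsetSum _ fun b _ => hi a b]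
    refine Finset.sum_congr rfl fun a _ => ?_
    rw [integral_finsetSum _ fun b _ => hi a b]
  have l2 : Tendsto (fun m => ∫ x, (∑ a, ∑ b, t x a b * Dg a x * pd b (f m) x) * h m x ∂(mu V)) atTop
      (𝓝 (∫ x, (∑ a, ∑ b, t x a b * Dg a x * Dz b x) * e x ∂(mu V))) := by
    rw [(hexp (fun a => (f2 a).lim) k1.lim).2]
    have e : (fun m => ∫ x, (∑ a, ∑ b, t x a b * Dg a x * pd b (f m) x) * h m x ∂(mu V)) =
        fun m => ∑ a, ∑ b, ∫ x, ((Dg a x * t x a b) * pd b (f m) x) * h m x ∂(mu V) := by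
      funext m
      exact (hexp (fun a => (f2 a).mem m) (k1.mem m)).2
    rw [e]
    refine tendsto_finsetSum _ fun a _ => tendsto_finsetSum _ fun b _ => ?_
    obtain ⟨B', h1, h2⟩ := hbd a b
    exact (bmulae h1 h2 (f2 b)).mul k1
  refine tendsto_nhds_unique l0 ((l1.add l2).congr fun m => ?_)
  rw [testB hR hT hg (hf m) (hh m)]
  congr 1
  exact integral_congr_ae (Eventually.of_forall fun x => by ring)

end


/-! ## the matrix statement -/

theorem ident : StmtIdent := by
  intro n V t c C hBase δ B G AG DG hMF hDom hAG z Az e Ae Dz De hz he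
  obtain ⟨c1, C1, hR⟩ := hBase.reg
  have hT : TB V t := hBase.toTB
  have hV : Continuous V := hT.V2.continuous
  have hg : ∀ i j, DomE V t (fun x => G x i j) (fun a x => DG a x i j) (fun x => AG x i j) := by
    intro i j
    obtain ⟨f, hf⟩ := hDom i j
    exact DomE.of hT hf
  have hz' : ∀ i, DomE V t (z i) (Dz i) (Az i) := by
    intro i; obtain ⟨f, hf⟩ := hz i; exact DomE.of hT hf
  have he' : ∀ i, DomE V t (e i) (De i) (Ae i) := by
    intro i; obtain ⟨f, hf⟩ := he i; exact DomE.of hT hf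
  have hGb : ∀ i j, ∀ᵐ x ∂(mu V), |G x i j| ≤ B := fun i j => by
    filter_upwards [(mu_ac V).ae_le hMF.upp] with x hx
    exact hx i j
  have hAb : ∀ i j, ∀ᵐ x ∂(mu V), |AG x i j| ≤ B := fun i j => by
    filter_upwards [(mu_ac V).ae_le hAG] with x hx
    exact hx i j
  have hDb : ∀ i j a, ∀ᵐ x ∂(mu V), |DG a x i j| ≤ B := fun i j a => by
    filter_upwards [(mu_ac V).ae_le hMF.dupp] with x hx
    exact hx a i j
  -- products with bounded entries
  have pint : ∀ {M : E n → Matrix (Fin n) (Fin n) ℝ}, (∀ i j, AEStronglyMeasurable (fun x => M x i j) (mu V)) →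
      (∀ i j, ∀ᵐ x ∂(mu V), |M x i j| ≤ B) → ∀ {p q : Fin n → E n → ℝ}, (∀ i, MemLp (p i) 2 (mu V)) →
      (∀ i, MemLp (q i) 2 (mu V)) →
      Integrable (fun x => ∑ i, ∑ j, M x i j * p i x * q j x) (mu V) ∧
      I V (fun x => ∑ i, ∑ j, M x i j * p i x * q j x) =
        ∑ i, ∑ j, ∫ x, M x i j * (p i x * q j x) ∂(mu V) := by
    intro M hM hMb p q hp hq
    have hi : ∀ i j, Integrable (fun x => M x i j * (p i x * q j x)) (mu V) := by
      intro i j
      have := int_mul (memLp_bmul (hM i j) (hMb i j) (hp i)) (hq j)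
      refine this.congr (Eventually.of_forall fun x => by ring)
    have e0 : (fun x => ∑ i, ∑ j, M x i j * p i x * q j x) =
        fun x => ∑ i, ∑ j, M x i j * (p i x * q j x) := by
      funext x
      exact Finset.sum_congr rfl fun i _ => Finset.sum_congr rfl fun j _ => by ring
    rw [← integral_muI hV, e0]
    refine ⟨integrable_finsetSum _ fun a _ => integrable_finsetSum _ fun b _ => hi a b, ?_⟩
    rw [integral_finsetSum _ fun a _ => integrable_finsetSum _ fun b _ => hi a b]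
    refine Finset.sum_congr rfl fun a _ => ?_
    rw [integral_finsetSum _ fun b _ => hi a b]
  have kint : ∀ {P Q : Fin n → Fin n → E n → ℝ}, (∀ i a, MemLp (P i a) 2 (mu V)) →
      (∀ i a, MemLp (Q i a) 2 (mu V)) →
      Integrable (fun x => ∑ i, ∑ j, G x i j * ip t (fun y a => P i a y) (fun y a => Q j a y) x) (mu V) ∧
      KG V t G P Q = ∑ i, ∑ j, ∫ x, G x i j * (∑ a, ∑ b, t x a b * P i a x * Q j b x) ∂(mu V) := by
    intro P Q hP hQ
    have hi : ∀ i j, Integrable (fun x => G x i j * (∑ a, ∑ b, t x a b * P i a x * Q j b x)) (mu V) :=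
      fun i j => (int_form_g hR hT (hg i j).mem.1 (hGb i j) (hP i) (hQ j)).1
    unfold KG
    rw [← integral_muI hV]
    refine ⟨integrable_finsetSum _ fun a _ => integrable_finsetSum _ fun b _ => hi a b, ?_⟩
    have e0 : (fun x => ∑ i, ∑ j, G x i j * ip t (fun y a => P i a y) (fun y a => Q j a y) x) =
        fun x => ∑ i, ∑ j, G x i j * (∑ a, ∑ b, t x a b * P i a x * Q j b x) := rfl
    rw [e0, integral_finsetSum _ fun a _ => integrable_finsetSum _ fun b _ => hi a b]
    refine Finset.sum_congr rfl fun a _ => ?_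
    rw [integral_finsetSum _ fun b _ => hi a b]
  have hGm : ∀ i j, AEStronglyMeasurable (fun x => G x i j) (mu V) := fun i j => (hg i j).mem.1
  have hAm : ∀ i j, AEStronglyMeasurable (fun x => AG x i j) (mu V) := fun i j => (hg i j).memA.1
  constructor
  · rw [(kint (fun i a => (hz' i).memD a) (fun i a => (he' i).memD a)).2]
    unfold BG
    rw [(pint hGm hGb (fun i => (hz' i).mem) (fun i => (he' i).memA)).2,
      (pint hGm hGb (fun i => (hz' i).memA) (fun i => (he' i).mem)).2,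
      (pint hAm hAb (fun i => (hz' i).mem) (fun i => (he' i).mem)).2]
    rw [Finset.mul_sum, ← Finset.sum_add_distrib, ← Finset.sum_sub_distrib]
    refine Finset.sum_congr rfl fun i _ => ?_
    rw [Finset.mul_sum, ← Finset.sum_add_distrib, ← Finset.sum_sub_distrib]
    exact Finset.sum_congr rfl fun j _ =>
      genA hR hT (hg i j) (hGb i j) (hAb i j) (hz' i) (he' j)
  · intro σ hσ hCS
    have hK := kint (fun i a => (hz' i).memD a) (fun i a => (he' i).memD a)
    have hKz := kint (fun i a => (hz' i).memD a) (fun i a => (hz' i).memD a)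
    have hB1 := pint hGm hGb (fun i => (hz' i).memA) (fun i => (he' i).mem)
    have hB2 := pint hGm hGb (fun i => (he' i).mem) (fun i => (he' i).mem)
    -- the remainder
    obtain ⟨R, hRd⟩ : ∃ R : E n → ℝ, R = fun x =>
        ∑ i, ∑ j, (∑ a, ∑ b, t x a b * DG a x i j * Dz i b x) * e j x := ⟨_, rfl⟩
    have hri : ∀ i j, Integrable (fun x => (∑ a, ∑ b, t x a b * DG a x i j * Dz i b x) * e j x) (mu V) := by
      intro i j
      have hi : ∀ a b, Integrable (fun x => ((DG a x i j * t x a b) * Dz i b x) * e j x) (mu V) := by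
        intro a b
        obtain ⟨B', h1, h2⟩ := mb hR hT a b ((hg i j).memD a).1 (hDb i j a)
        exact int_mul (memLp_bmul h1 h2 ((hz' i).memD b)) (he' j).mem
      have e0 : (fun x => (∑ a, ∑ b, t x a b * DG a x i j * Dz i b x) * e j x) =
          fun x => ∑ a, ∑ b, ((DG a x i j * t x a b) * Dz i b x) * e j x := by
        funext x
        simp only [Finset.sum_mul]
        exact Finset.sum_congr rfl fun i _ => Finset.sum_congr rfl fun j _ => by ring
      rw [e0]
      exact integrable_finsetSum _ fun a _ => integrable_finsetSum _ fun b _ => hi a b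
    have hRi : Integrable R (mu V) := by
      rw [hRd]
      exact integrable_finsetSum _ fun a _ => integrable_finsetSum _ fun b _ => hri a b
    have hRe : BG V G Az e - KG V t G Dz De = ∫ x, R x ∂(mu V) := by
      have h1 : BG V G Az e = ∑ i, ∑ j, ∫ x, G x i j * (Az i x * e j x) ∂(mu V) := hB1.2
      rw [h1, hK.2, hRd, integral_finsetSum _ fun a _ => integrable_finsetSum _ fun b _ => hri a b,
        ← Finset.sum_sub_distrib]
      refine Finset.sum_congr rfl fun i _ => ?_
      rw [integral_finsetSum _ fun b _ => hri i b, ← Finset.sum_sub_distrib]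
      refine Finset.sum_congr rfl fun j _ => ?_
      have h2 := genB hR hT (hg i j) (hGb i j) (fun a => hDb i j a) (hz' i) (he' j)
      have h3 : ∫ x, G x i j * (∑ a, ∑ b, t x a b * De j a x * Dz i b x) ∂(mu V) =
          ∫ x, G x i j * (∑ a, ∑ b, t x a b * Dz i a x * De j b x) ∂(mu V) := by
        refine integral_congr_ae (Eventually.of_forall fun x => ?_)
        show G x i j * (∑ a, ∑ b, t x a b * De j a x * Dz i b x) =
          G x i j * (∑ a, ∑ b, t x a b * Dz i a x * De j b x)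
        rw [form_symm hT x (fun a => De j a x) (fun a => Dz i a x)]
      linarith
    rw [hRe]
    have hP : BG V G e e = ∫ x, (∑ i, ∑ j, G x i j * e i x * e j x) ∂(mu V) := (integral_muI hV _).symm
    have hQ : KG V t G Dz Dz = ∫ x, (∑ i, ∑ j, G x i j *
        ip t (fun y a => Dz i a y) (fun y a => Dz j a y) x) ∂(mu V) := (integral_muI hV _).symm
    rw [hP, hQ]
    have hs : σ * (∫ x, (∑ i, ∑ j, G x i j * ip t (fun y a => Dz i a y) (fun y a => Dz j a y) x) ∂(mu V)) =
        ∫ x, σ * (∑ i, ∑ j, G x i j * ip t (fun y a => Dz i a y) (fun y a => Dz j a y) x) ∂(mu V) :=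
      (integral_const_mul _ _).symm
    rw [hs]
    -- pointwise positivity
    have hGpos : ∀ᵐ x ∂(mu V), ∀ v : Fin n → ℝ, 0 ≤ ∑ i, ∑ j, G x i j * v i * v j := by
      filter_upwards [(mu_ac V).ae_le hMF.low] with x hx v
      exact le_trans (mul_nonneg hMF.d_pos.le (Finset.sum_nonneg fun i _ => sq_nonneg _)) (hx v)
    -- the two rearrangements
    have r1 : ∀ x, R x = ∑ a, ∑ b, t x a b * ∑ k, ∑ l, DG a x k l * (fun l => e l x) l * (fun b k => Dz k b x) b k := by
      intro x
      rw [hRd]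
      show ∑ i, ∑ j, (∑ a, ∑ b, t x a b * DG a x i j * Dz i b x) * e j x =
        ∑ a, ∑ b, t x a b * ∑ k, ∑ l, DG a x k l * e l x * Dz k b x
      simp only [Finset.mul_sum, Finset.sum_mul]
      calc ∑ i, ∑ j, ∑ a, ∑ b, t x a b * DG a x i j * Dz i b x * e j x
          = ∑ i, ∑ a, ∑ j, ∑ b, t x a b * DG a x i j * Dz i b x * e j x :=
            Finset.sum_congr rfl fun i _ => Finset.sum_comm
        _ = ∑ a, ∑ i, ∑ j, ∑ b, t x a b * DG a x i j * Dz i b x * e j x := Finset.sum_comm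
        _ = ∑ a, ∑ i, ∑ b, ∑ j, t x a b * DG a x i j * Dz i b x * e j x :=
            Finset.sum_congr rfl fun a _ => Finset.sum_congr rfl fun i _ => Finset.sum_comm
        _ = ∑ a, ∑ b, ∑ i, ∑ j, t x a b * DG a x i j * Dz i b x * e j x :=
            Finset.sum_congr rfl fun a _ => Finset.sum_comm
        _ = _ := Finset.sum_congr rfl fun a _ => Finset.sum_congr rfl fun b _ =>
            Finset.sum_congr rfl fun i _ => Finset.sum_congr rfl fun j _ => by ring
    have r2 : ∀ x, ∑ i, ∑ j, G x i j * ip t (fun y a => Dz i a y) (fun y a => Dz j a y) x =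
        ∑ a, ∑ b, t x a b * ∑ k, ∑ l, G x k l * (fun b k => Dz k b x) a k * (fun b k => Dz k b x) b l := by
      intro x
      show ∑ i, ∑ j, G x i j * (∑ a, ∑ b, t x a b * Dz i a x * Dz j b x) =
        ∑ a, ∑ b, t x a b * ∑ k, ∑ l, G x k l * Dz k a x * Dz l b x
      simp only [Finset.mul_sum]
      calc ∑ i, ∑ j, ∑ a, ∑ b, G x i j * (t x a b * Dz i a x * Dz j b x)
          = ∑ i, ∑ a, ∑ j, ∑ b, G x i j * (t x a b * Dz i a x * Dz j b x) :=
            Finset.sum_congr rfl fun i _ => Finset.sum_comm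
        _ = ∑ a, ∑ i, ∑ j, ∑ b, G x i j * (t x a b * Dz i a x * Dz j b x) := Finset.sum_comm
        _ = ∑ a, ∑ i, ∑ b, ∑ j, G x i j * (t x a b * Dz i a x * Dz j b x) :=
            Finset.sum_congr rfl fun a _ => Finset.sum_congr rfl fun i _ => Finset.sum_comm
        _ = ∑ a, ∑ b, ∑ i, ∑ j, G x i j * (t x a b * Dz i a x * Dz j b x) :=
            Finset.sum_congr rfl fun a _ => Finset.sum_comm
        _ = _ := Finset.sum_congr rfl fun a _ => Finset.sum_congr rfl fun b _ =>
            Finset.sum_congr rfl fun i _ => Finset.sum_congr rfl fun j _ => by ring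
    have hpt : ∀ᵐ x ∂(mu V), R x ^ 2 ≤
        (σ * ∑ i, ∑ j, G x i j * ip t (fun y a => Dz i a y) (fun y a => Dz j a y) x) *
          ∑ i, ∑ j, G x i j * e i x * e j x := by
      filter_upwards [(mu_ac V).ae_le hCS] with x hx
      have h1 := hx (fun l => e l x) (fun b k => Dz k b x)
      rw [r1 x, r2 x]
      refine h1.trans (le_of_eq ?_)
      ring
    rcases hσ.eq_or_lt with h0 | hpos
    · -- `σ = 0`
      have hR0 : ∀ᵐ x ∂(mu V), R x = 0 := by
        filter_upwards [hpt] with x hx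
        rw [← h0, zero_mul, zero_mul] at hx
        exact pow_eq_zero_iff (two_ne_zero) |>.1 (le_antisymm hx (sq_nonneg _))
      rw [integral_congr_ae hR0, ← h0]
      simp
    · have hQpos : ∀ᵐ x ∂(mu V), 0 ≤ σ * ∑ i, ∑ j, G x i j *
          ip t (fun y a => Dz i a y) (fun y a => Dz j a y) x := by
        rcases isEmpty_or_nonempty (Fin n) with hn | hn
        · refine Eventually.of_forall fun x => ?_
          simp
        · obtain ⟨i0⟩ := hn
          filter_upwards [(mu_ac V).ae_le hCS, (mu_ac V).ae_le hMF.low] with x hx hlow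
          have h1 := hx (Pi.single i0 1) (fun b k => Dz k b x)
          have h2 := hlow (Pi.single i0 1)
          have h3 : 0 < ∑ k, ∑ l, G x k l * (Pi.single i0 (1 : ℝ) : Fin n → ℝ) k *
              (Pi.single i0 (1 : ℝ) : Fin n → ℝ) l := by
            refine lt_of_lt_of_le ?_ h2
            refine mul_pos hMF.d_pos ?_
            refine lt_of_lt_of_le zero_lt_one ?_
            have := Finset.single_le_sum (f := fun i => (Pi.single i0 (1 : ℝ) : Fin n → ℝ) i ^ 2)
              (fun i _ => sq_nonneg _) (Finset.mem_univ i0)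
            simpa using this
          rw [r2 x]
          have h4 := (sq_nonneg _).trans h1
          have h5 : 0 ≤ (∑ k, ∑ l, G x k l * (Pi.single i0 (1 : ℝ) : Fin n → ℝ) k *
              (Pi.single i0 (1 : ℝ) : Fin n → ℝ) l) *
              (σ * ∑ a, ∑ b, t x a b * ∑ k, ∑ l, G x k l * (fun b k => Dz k b x) a k *
                (fun b k => Dz k b x) b l) := by
            refine h4.trans (le_of_eq ?_)
            ring
          exact nonneg_of_mul_nonneg_right h5 h3
      refine cs_int' (hKz.1.const_mul σ) hB2.1 hRi hQpos ?_ hpt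
      filter_upwards [hGpos] with x hx
      exact hx fun i => e i x

end Vale.Agent.P245.K.Ident522
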