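import Vale.Agent.P245.K.KID
import Vale.Agent.P245.K.OP3

/-!
P245 (KLS project), row KATO, second copy (helper828): domination `|R1 γ| ≤ (1 + s/2 + s A)⁻¹ |γ|`.
-/

set_option linter.all false

open MeasureTheory Filter Topology Set Metric
open scoped NNReal ENNReal ContDiff Matrix
open Vale.Agent.P227.M Vale.Agent.P227.M.K814 Vale.Agent.P254 Vale.Agent.P254.SN
open Vale.Agent.P245.K828 Vale.Agent.P245.K Vale.Agent.P245.K.KID
open Vale.Agent.P245.H464 hiding Gam Dom

namespace Vale.Agent.P245.K2.Kato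

variable {n : ℕ} {V : E n → ℝ} {t : E n → Matrix (Fin n) (Fin n) ℝ} {c C : ℝ}

/-- the test function `w = (|u|_e - e - f)⁺` -/
noncomputable def wt (t : E n → Matrix (Fin n) (Fin n) ℝ) (e : ℝ) (u : E n → Fin n → ℝ) (f : E n → ℝ)
    (x : E n) : ℝ := max (nrm t e u x - e - f x) 0

/-- the test field -/
noncomputable def bt (t : E n → Matrix (Fin n) (Fin n) ℝ) (e : ℝ) (u : E n → Fin n → ℝ) (f : E n → ℝ)
    (x : E n) (a : Fin n) : ℝ := wt t e u f x / nrm t e u x * u x a

theorem wt_nonneg (t : E n → Matrix (Fin n) (Fin n) ℝ) (e : ℝ) (u : E n → Fin n → ℝ) (f : E n → ℝ)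
    (x : E n) : 0 ≤ wt t e u f x := le_max_right _ _

theorem lc_v (h : TE V t c C) {u : E n → Fin n → ℝ} (hu : LCF u) {e : ℝ} (he : 0 < e) :
    LC (fun x => nrm t e u x - e) := by
  refine ⟨ll_sub (ll_nrm h hu he) (ll_const e), ?_⟩
  have h1 := (lc_ip h.toTB hu hu).2
  have h2 : (fun x => nrm t e u x - e) = (fun s : ℝ => Real.sqrt (s + e ^ 2) - e) ∘ (ip t u u) := rfl
  rw [h2]
  refine h1.comp_left ?_
  simp only [zero_add]
  rw [Real.sqrt_sq he.le, sub_self]

theorem lc_wt (h : TE V t c C) {u : E n → Fin n → ℝ} (hu : LCF u) {e : ℝ} (he : 0 < e)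
    {f : E n → ℝ} (hf : LC f) : LC (wt t e u f) := by
  have h1 := (lc_v h hu he).sub hf
  refine ⟨?_, ?_⟩
  · exact ll_comp (g := fun s : ℝ => max s 0) (K := 1) (LipschitzWith.id.max_const 0) h1.1
  · have h2 : wt t e u f = (fun s : ℝ => max s 0) ∘ (fun x => nrm t e u x - e - f x) := rfl
    rw [h2]
    exact h1.2.comp_left (by simp)

theorem pd_max {g : E n → ℝ} {x : E n} (hg : DifferentiableAt ℝ g x)
    (hw : DifferentiableAt ℝ (fun y => max (g y) 0) x) :
    (∀ k, pd k (fun y => max (g y) 0) x = pd k g x) ∨ (∀ k, pd k (fun y => max (g y) 0) x = 0) := by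
  by_cases h : 0 < g x
  · left
    intro k
    have h1 : (fun y => max (g y) 0) =ᶠ[𝓝 x] g := by
      filter_upwards [hg.continuousAt.eventually (lt_mem_nhds h)] with y hy
      exact max_eq_left (le_of_lt hy)
    unfold pd
    rw [h1.fderiv_eq]
  · right
    intro k
    have h1 : IsLocalMin (fun y => max (g y) 0) x := by
      refine Eventually.of_forall fun y => ?_
      simp only [max_eq_right (not_lt.1 h)]
      exact le_max_right _ _
    unfold pd
    rw [h1.fderiv_eq_zero]
    rfl

/-- `Γ(w, q) - Γ(w, f) = Γ(w, w)` pointwise -/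
theorem gam_w (h : TE V t c C) {u : E n → Fin n → ℝ} {e : ℝ} {f : E n → ℝ} {x : E n}
    (h1 : DifferentiableAt ℝ (nrm t e u) x) (h2 : DifferentiableAt ℝ f x)
    (h3 : DifferentiableAt ℝ (wt t e u f) x) :
    Gam t (wt t e u f) (nrm t e u) x = Gam t (wt t e u f) f x + Gam t (wt t e u f) (wt t e u f) x ∧
    Gam t (wt t e u f) (wt t e u f) x ≤ 2 * Gam t (nrm t e u) (nrm t e u) x + 2 * Gam t f f x := by
  have hT := TE.posDef h x
  have hg : DifferentiableAt ℝ (fun y => nrm t e u y - e - f y) x := (h1.sub_const e).sub h2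
  have hp : ∀ k, pd k (fun y => nrm t e u y - e - f y) x = pd k (nrm t e u) x - pd k f x := by
    intro k
    have e1 : (fun y => nrm t e u y - e - f y) = fun y => nrm t e u y - (e + f y) := by
      funext y; ring
    rw [e1, rpd_sub h1 (h2.const_add e), rpd_add (differentiableAt_const e) h2, rpd_const]
    ring
  have key : Gam t (nrm t e u) (nrm t e u) x + Gam t f f x - 2 * Gam t (nrm t e u) f x ≤
      2 * Gam t (nrm t e u) (nrm t e u) x + 2 * Gam t f f x := by
    have h5 := q2_nonneg (t x) hT.posSemidef (fun a => pd a (nrm t e u) x + pd a f x)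
    rw [q2_add_left, q2_add_right, q2_add_right, ← Gam_eq, ← Gam_eq, ← Gam_eq, ← Gam_eq,
      Gam_symm hT f (nrm t e u)] at h5
    linarith
  rcases pd_max hg h3 with h4 | h4
  · have e1 : ∀ k, pd k (wt t e u f) x = pd k (nrm t e u) x + (-1) * pd k f x := by
      intro k
      have := h4 k
      rw [hp k] at this
      rw [show wt t e u f = (fun y => max (nrm t e u y - e - f y) 0) from rfl, this]
      ring
    have e2 : (fun k => pd k (wt t e u f) x) = fun k => pd k (nrm t e u) x + (-1) * pd k f x :=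
      funext e1
    have s1 : Gam t (wt t e u f) (nrm t e u) x =
        Gam t (nrm t e u) (nrm t e u) x - Gam t (nrm t e u) f x := by
      rw [Gam_eq, e2, q2_add_left, q2_smul_left, ← Gam_eq, ← Gam_eq, Gam_symm hT f]
      ring
    have s2 : Gam t (wt t e u f) f x = Gam t (nrm t e u) f x - Gam t f f x := by
      rw [Gam_eq, e2, q2_add_left, q2_smul_left, ← Gam_eq, ← Gam_eq]
      ring
    have s3 : Gam t (wt t e u f) (wt t e u f) x =
        Gam t (nrm t e u) (nrm t e u) x + Gam t f f x - 2 * Gam t (nrm t e u) f x := by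
      rw [Gam_eq, e2, q2_add_left, q2_smul_left, q2_add_right, q2_add_right, q2_smul_right,
        q2_smul_right, ← Gam_eq, ← Gam_eq, ← Gam_eq, ← Gam_eq, Gam_symm hT f (nrm t e u)]
      ring
    rw [s1, s2, s3]
    exact ⟨by ring, key⟩
  · have e2 : (fun k => pd k (wt t e u f) x) = fun k => 0 * pd k f x := by
      funext k
      rw [zero_mul]
      exact h4 k
    have s : ∀ g : E n → ℝ, Gam t (wt t e u f) g x = 0 := by
      intro g
      rw [Gam_eq, e2, q2_smul_left, zero_mul]
    rw [s, s, s]
    have g1 := Gam_nonneg hT (nrm t e u)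
    have g2 := Gam_nonneg hT f
    exact ⟨by ring, by linarith⟩

/-! ## `L²` membership -/

theorem Imu (hV : Continuous V) (g : E n → ℝ) : I V g = ∫ x, g x ∂(mu V) := (integral_mu hV g).symm

theorem L2.mem (hV : Continuous V) {g : E n → ℝ} (hg : L2 V g) : MemLp g 2 (mu V) :=
  (memLp_iff hV hg.1.aestronglyMeasurable).2 hg.2

theorem ip_le (h : TE V t c C) (u : E n → Fin n → ℝ) (x : E n) : ip t u u x ≤ C * ∑ a, u x a ^ 2 := by
  have h1 := h.up x (WithLp.toLp 2 (u x))
  rw [← sum_sq_eq] at h1
  exact h1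

theorem meas_ip (h : TE V t c C) {u v : E n → Fin n → ℝ} (hu : ∀ a, Measurable (fun x => u x a))
    (hv : ∀ a, Measurable (fun x => v x a)) : Measurable (ip t u v) := by
  unfold ip
  refine Finset.measurable_sum _ fun a _ => Finset.measurable_sum _ fun b _ => ?_
  exact (((tll h.toTB.toTF a b).continuous.measurable).mul (hu a)).mul (hv b)

theorem mem_nt (h : TE V t c C) {γ : E n → Fin n → ℝ} (hγ : ∀ a, L2 V (fun x => γ x a)) :
    MemLp (nt t γ) 2 (mu V) := by
  have hV : Continuous V := h.V2.continuous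
  have hm : Measurable (nt t γ) := (meas_ip h (fun a => (hγ a).1) (fun a => (hγ a).1)).sqrt
  rw [memLp_two_iff_integrable_sq (hm.aestronglyMeasurable)]
  have h1 : Integrable (fun x => C * ∑ a, γ x a ^ 2) (mu V) :=
    (integrable_finsetSum _ fun a _ => (L2.mem hV (hγ a)).integrable_sq).const_mul C
  refine h1.mono' (hm.pow_const 2).aestronglyMeasurable (Eventually.of_forall fun x => ?_)
  have h2 : 0 ≤ ip t γ γ x := ip_nonneg (TE.posDef h x) γ
  have h3 : nt t γ x ^ 2 = ip t γ γ x := Real.sq_sqrt h2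
  rw [Real.norm_eq_abs, h3, abs_of_nonneg h2]
  exact ip_le h γ x

theorem nt_sq (h : TE V t c C) (γ : E n → Fin n → ℝ) (x : E n) : nt t γ x ^ 2 = ip t γ γ x :=
  Real.sq_sqrt (ip_nonneg (TE.posDef h x) γ)

theorem int_ip (h : TE V t c C) {u v : E n → Fin n → ℝ} (hu : ∀ a, MemLp (fun x => u x a) 2 (mu V))
    (hv : ∀ a, LC (fun x => v x a)) : Integrable (ip t u v) (mu V) := by
  have hV : Continuous V := h.V2.continuous
  refine integrable_finsetSum _ fun a _ => integrable_finsetSum _ fun b _ => ?_
  have h1 : MemLp (fun x => t x a b * v x b) 2 (mu V) :=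
    memLp_ci hV (CI.of_lc (LC.mul_left (tll h.toTB.toTF a b) (hv b)))
  have h2 := (hu a).integrable_mul h1
  refine h2.congr (Eventually.of_forall fun x => ?_)
  simp only [Pi.mul_apply]
  ring

/-! ## the quantitative inequality -/

theorem kq (h : Base V t c C) {s e : ℝ} (hs : 0 < s) (he : 0 < e) {u γ : E n → Fin n → ℝ}
    (hu : LCF u) (hγ : ∀ a, L2 V (fun x => γ x a)) {f : E n → ℝ} (hf : Test f) {ε : ℝ}
    (hyp : ∀ β : E n → Fin n → ℝ, LCF β →
      |NN V t s u β - I V (ip t γ β)| ≤ ε * Real.sqrt (NN V t s β β)) :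
    (1 + s / 2) * I V (fun x => wt t e u f x ^ 2) ≤
      I V (fun x => wt t e u f x * (nt t γ x - ((1 + s / 2) * f x - s * Lt t f x)))
      + ε * Real.sqrt (NN V t s (bt t e u f) (bt t e u f)) := by
  have hTE : TE V t c C := h.toTE
  have hVc : Continuous V := h.V2.continuous
  obtain ⟨c1, C1, hR⟩ := h.reg
  have hfl : LC f := Vale.Agent.P245.K.OP3.lc_test hf
  have hw : LC (wt t e u f) := lc_wt hTE hu he hfl
  have hβ : LCF (bt t e u f) := lcf_test hTE hu he hw
  have hv : LC (fun x => nrm t e u x - e) := lc_v hTE hu he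
  have hq : LocallyLipschitz (nrm t e u) := ll_nrm hTE hu he
  have k1 := kid n V t c C h u hu (wt t e u f) hw (wt_nonneg t e u f) e he
  -- the zero order term
  set A1 := I V (fun x => wt t e u f x * ip t u u x / nrm t e u x) with hA1
  have e1 : I V (ip t u (bt t e u f)) = A1 := by
    refine congrArg (I V) ?_
    funext x
    unfold bt ip
    rw [Finset.mul_sum, Finset.sum_div]
    refine Finset.sum_congr rfl fun a _ => ?_
    rw [Finset.mul_sum, Finset.sum_div]
    exact Finset.sum_congr rfl fun b _ => by ring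
  have e2 : I V (fun x => wt t e u f x * (nrm t e u x - e)) ≤ A1 := by
    refine I_mono hVc (CI.of_lc (hw.mul_right hv.1)) ?_ (Eventually.of_forall fun x => ?_)
    · have : (fun x => wt t e u f x * ip t u u x / nrm t e u x) =
          fun x => (wt t e u f x / nrm t e u x) * ip t u u x := by
        funext x; ring
      rw [this]
      exact CI.of_lc ((lc_div hTE hu he hw).mul_right (lc_ip h.toTB hu hu).1)
    · have h2 := ip_div_nrm he (TE.posDef hTE x) (u := u)
      have h3 := mul_le_mul_of_nonneg_left h2 (wt_nonneg t e u f x)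
      rw [mul_div_assoc]
      exact h3
  -- the scalar equation
  have e3 : I V (fun x => wt t e u f x * (-Lt t f x)) = I V (Gam t (wt t e u f) f) := by
    have h5 := Vale.Agent.P245.K.OP3.test_form h.toTB hf hw
    rw [integral_mu hVc, integral_mu hVc] at h5
    exact h5
  have hwL : CI (fun x => wt t e u f x * (-Lt t f x)) :=
    CI.of_lc (hw.mul_right (by
      have := (Vale.Agent.P245.K.OP3.lt_lc h.toTB hf).1
      simpa using ll_sub (ll_const 0) this))
  have hwf : CI (fun x => wt t e u f x * f x) := CI.of_lc (hw.mul_right hfl.1)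
  -- gamma
  have g1 : CI (Gam t (wt t e u f) (nrm t e u)) := ci_gam hTE hw hq
  have g2 : CI (Gam t (wt t e u f) f) := ci_gam hTE hw hfl.1
  have e4 : I V (Gam t (wt t e u f) f) ≤ I V (Gam t (wt t e u f) (nrm t e u)) := by
    refine I_mono hVc g2 g1 ?_
    have hnd : ∀ᵐ x, DifferentiableAt ℝ (nrm t e u) x := by
      filter_upwards [tae h.toTB.toTF, lcf_ae hu] with x h1 h2
      exact dif_nrm he (TE.posDef hTE x) h1 h2
    filter_upwards [hnd, hfl.ae_diff, hw.ae_diff] with x h1 h2 h3
    have h4 := (gam_w hTE h1 h2 h3).1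
    rw [h4]
    have := Gam_nonneg (TE.posDef hTE x) (wt t e u f)
    linarith
  -- the right-hand side
  have hγm : ∀ a, MemLp (fun x => γ x a) 2 (mu V) := fun a => L2.mem hVc (hγ a)
  have hnt := mem_nt hTE hγ
  have hwm : MemLp (wt t e u f) 2 (mu V) := memLp_ci hVc (CI.of_lc hw)
  have i1 : Integrable (fun x => wt t e u f x * nt t γ x) (mu V) := hwm.integrable_mul hnt
  have e5 : I V (ip t γ (bt t e u f)) ≤ I V (fun x => wt t e u f x * nt t γ x) := by
    have i2 : Integrable (ip t γ (bt t e u f)) (mu V) := int_ip hTE hγm hβ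
    have h6 : ∫ x, ip t γ (bt t e u f) x ∂(mu V) ≤ ∫ x, wt t e u f x * nt t γ x ∂(mu V) := by
      refine integral_mono i2 i1 fun x => ?_
      have hT := TE.posDef hTE x
      have hr := nrm_pos he hT (u := u)
      have h7 : ip t γ (bt t e u f) x = wt t e u f x / nrm t e u x * ip t γ u x := by
        unfold bt ip
        rw [Finset.mul_sum]
        refine Finset.sum_congr rfl fun a _ => ?_
        rw [Finset.mul_sum]
        exact Finset.sum_congr rfl fun b _ => by ring
      have h8 : ip t γ u x ≤ nt t γ x * nrm t e u x := by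
        have h9 := ip_cs hT γ u
        have h10 := nt_sq hTE γ x
        have h11 := ip_le_nrm_sq he hT (u := u)
        have h12 : 0 ≤ nt t γ x := Real.sqrt_nonneg _
        refine abs_le_of_sq_le_sq' ?_ (by positivity) |>.2
        rw [mul_pow, h10]
        exact h9.trans (mul_le_mul_of_nonneg_left h11 (ip_nonneg hT γ))
      show ip t γ (bt t e u f) x ≤ wt t e u f x * nt t γ x
      rw [h7]
      have h13 : 0 ≤ wt t e u f x / nrm t e u x := div_nonneg (wt_nonneg t e u f x) hr.le
      calc wt t e u f x / nrm t e u x * ip t γ u x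
          ≤ wt t e u f x / nrm t e u x * (nt t γ x * nrm t e u x) :=
            mul_le_mul_of_nonneg_left h8 h13
        _ = wt t e u f x * nt t γ x := by field_simp
    rw [integral_mu hVc, integral_mu hVc] at h6
    exact h6
  have hmain := (abs_le.1 (hyp (bt t e u f) hβ)).2
  have hNN : NN V t s u (bt t e u f) = A1 + s * I V (ee t u (bt t e u f)) := by
    unfold NN; rw [e1]
  have k1' : I V (Gam t (wt t e u f) (nrm t e u)) + 1 / 2 * A1 ≤ I V (ee t u (bt t e u f)) := k1
  -- w (v - f) = w^2
  have e6 : I V (fun x => wt t e u f x ^ 2) =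
      I V (fun x => wt t e u f x * (nrm t e u x - e)) - I V (fun x => wt t e u f x * f x) := by
    rw [← I_sub hVc (CI.of_lc (hw.mul_right hv.1)) hwf]
    refine congrArg (I V) ?_
    funext x
    unfold wt
    rcases le_total (nrm t e u x - e - f x) 0 with h1 | h1
    · rw [max_eq_right h1]; ring
    · rw [max_eq_left h1]; ring
  have e7 : I V (fun x => wt t e u f x * (nt t γ x - ((1 + s / 2) * f x - s * Lt t f x))) =
      I V (fun x => wt t e u f x * nt t γ x) - (1 + s / 2) * I V (fun x => wt t e u f x * f x)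
        - s * I V (fun x => wt t e u f x * (-Lt t f x)) := by
    have i3 : Integrable (fun x => wt t e u f x * f x) (mu V) :=
      (integrable_mu hVc _).2 (hwf.integrable hVc)
    have i4 : Integrable (fun x => wt t e u f x * (-Lt t f x)) (mu V) :=
      (integrable_mu hVc _).2 (hwL.integrable hVc)
    have i5 : Integrable (fun x => wt t e u f x * nt t γ x - (1 + s / 2) * (wt t e u f x * f x))
        (mu V) := i1.sub (i3.const_mul _)
    rw [Imu hVc, Imu hVc, Imu hVc, Imu hVc, ← integral_const_mul, ← integral_const_mul,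
      ← integral_sub i1 (i3.const_mul _), ← integral_sub i5 (i4.const_mul _)]
    refine integral_congr_ae (Eventually.of_forall fun x => ?_)
    simp only
    ring
  rw [e7, e3, e6]
  have s2 : 0 ≤ s / 2 := by linarith
  nlinarith [mul_le_mul_of_nonneg_left e2 (by linarith : (0:ℝ) ≤ 1 + s / 2),
    mul_le_mul_of_nonneg_left e4 hs.le, mul_le_mul_of_nonneg_left k1' hs.le]

/-! ## the energy of the test field -/

theorem nn_bound (h : Base V t c C) {s e F : ℝ} (hs : 0 < s) (he : 0 < e) {u : E n → Fin n → ℝ}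
    (hu : LCF u) {f : E n → ℝ} (hf : LC f) (hF : ∀ x, |f x| ≤ F) :
    NN V t s (bt t e u f) (bt t e u f) ≤
      (8 + 6 * (1 + F / e) ^ 2) * NN V t s u u + 2 * I V (fun x => f x ^ 2)
        + 8 * s * I V (Gam t f f) := by
  have hTE : TE V t c C := h.toTE
  have hVc : Continuous V := h.V2.continuous
  obtain ⟨c1, C1, hR⟩ := h.reg
  have hw : LC (wt t e u f) := lc_wt hTE hu he hf
  have hβ : LCF (bt t e u f) := lcf_test hTE hu he hw
  set k := 1 + F / e with hk
  have hF0 : 0 ≤ F := (abs_nonneg _).trans (hF 0)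
  have hk1 : 1 ≤ k := by
    have : 0 ≤ F / e := div_nonneg hF0 he.le
    linarith
  have hwr : ∀ x, wt t e u f x / nrm t e u x ≤ k := by
    intro x
    have hr := nrm_pos he (TE.posDef hTE x) (u := u)
    have hre := e_le_nrm he (TE.posDef hTE x) (u := u)
    rw [div_le_iff₀ hr]
    unfold wt
    refine max_le ?_ (by positivity)
    have h1 : -f x ≤ F := (neg_le_abs _).trans (hF x)
    have h2 : F ≤ F / e * nrm t e u x := by
      calc F = F / e * e := by field_simp
        _ ≤ _ := mul_le_mul_of_nonneg_left hre (div_nonneg hF0 he.le)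
    rw [hk, add_mul, one_mul]
    linarith
  have hip0 : ∀ x, 0 ≤ ip t u u x := fun x => ip_nonneg (TE.posDef hTE x) u
  -- zero order
  have z1 : I V (ip t (bt t e u f) (bt t e u f)) ≤
      2 * I V (ip t u u) + 2 * I V (fun x => f x ^ 2) := by
    have c1 := CI.of_lc (lc_ip h.toTB hu hu)
    have c2 : CI (fun x => f x ^ 2) := by
      have : (fun x => f x ^ 2) = fun x => f x * f x := by funext x; ring
      rw [this]; exact CI.of_lc (hf.mul_right hf.1)
    have c3 : CI (fun x => 2 * ip t u u x) := CI.mul_left (Bd.of_cont continuous_const) c1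
    have c4 : CI (fun x => 2 * f x ^ 2) := CI.mul_left (Bd.of_cont continuous_const) c2
    rw [← I_cmul, ← I_cmul, ← I_add hVc c3 c4]
    refine I_mono hVc (CI.of_lc (lc_ip h.toTB hβ hβ)) (c3.add c4) (Eventually.of_forall fun x => ?_)
    have hT := TE.posDef hTE x
    have hr := nrm_pos he hT (u := u)
    have hre := e_le_nrm he hT (u := u)
    have hr2 := nrm_sq he hT (u := u)
    have h1 : ip t (bt t e u f) (bt t e u f) x = (wt t e u f x / nrm t e u x) ^ 2 * ip t u u x := by
      unfold bt ip
      rw [Finset.mul_sum]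
      refine Finset.sum_congr rfl fun a _ => ?_
      rw [Finset.mul_sum]
      exact Finset.sum_congr rfl fun b _ => by ring
    have h2 : (wt t e u f x / nrm t e u x) ^ 2 * ip t u u x ≤ wt t e u f x ^ 2 := by
      have h3 := ip_le_nrm_sq he hT (u := u)
      calc (wt t e u f x / nrm t e u x) ^ 2 * ip t u u x
          ≤ (wt t e u f x / nrm t e u x) ^ 2 * nrm t e u x ^ 2 :=
            mul_le_mul_of_nonneg_left h3 (sq_nonneg _)
        _ = _ := by field_simp
    have h4 : wt t e u f x ^ 2 ≤ 2 * ip t u u x + 2 * f x ^ 2 := by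
      have h5 : wt t e u f x ^ 2 ≤ (nrm t e u x - e - f x) ^ 2 := by
        unfold wt
        rcases le_total (nrm t e u x - e - f x) 0 with h1 | h1
        · rw [max_eq_right h1]
          have := sq_nonneg (nrm t e u x - e - f x)
          simpa using this
        · rw [max_eq_left h1]
      have h6 : (nrm t e u x - e) ^ 2 ≤ ip t u u x := by nlinarith
      nlinarith [sq_nonneg (nrm t e u x - e + f x)]
    rw [h1]
    exact h2.trans h4
  -- first order
  have hQ : ∀ {v : E n → Fin n → ℝ}, LCF v → ∀ a i, LC (fun y => v y a * v y i) := fun hv a i =>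
    LC.mul_left (hv a).1 (hv i)
  have cG : ∀ {v : E n → Fin n → ℝ}, LCF v →
      CI (fun x => ee t v v x + 1 / 2 * ∑ a, ∑ i, SP V t a i (fun y => v y a * v y i) x) :=
    fun hv => (ci_ee hTE hv hv).add (CI.mul_left (Bd.of_cont continuous_const)
      (CI.sum _ fun a _ => CI.sum _ fun i _ => ci_sp hTE (hQ hv a i) a i))
  have cgf : CI (Gam t f f) := ci_gam hTE hf hf.1
  have z2 : I V (ee t (bt t e u f) (bt t e u f)) ≤
      (8 + 6 * k ^ 2) * I V (ee t u u) + 8 * I V (Gam t f f) := by
    rw [← int_sp hTE hβ hβ, ← int_sp hTE hu hu]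
    have c3 : CI (fun x => (8 + 6 * k ^ 2) * (ee t u u x +
        1 / 2 * ∑ a, ∑ i, SP V t a i (fun y => u y a * u y i) x)) :=
      CI.mul_left (Bd.of_cont continuous_const) (cG hu)
    have c4 : CI (fun x => 8 * Gam t f f x) := CI.mul_left (Bd.of_cont continuous_const) cgf
    rw [← I_cmul, ← I_cmul, ← I_add hVc c3 c4]
    refine I_mono hVc (cG hβ) (c3.add c4) ?_
    filter_upwards [tae h.toTB.toTF, h.tot, lcf_ae hu, lcf_ae hβ, hw.ae_diff, hf.ae_diff] with
      x g1 g2 g3 g4 g5 g6
    have hT := TE.posDef hTE x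
    have hs' := h.symm
    have hr := nrm_pos he hT (u := u)
    rw [← dip_ric hT hs' g1 g2 g3 g3, ← dip_ric hT hs' g1 g2 g4 g4]
    have m1 := (gam_w hTE (dif_nrm he hT g1 g3) g6 g5).2
    have m2 := kato' he hT hs' g1 g3
    have m3 : Ric V t (bt t e u f) (bt t e u f) x =
        (wt t e u f x / nrm t e u x) ^ 2 * Ric V t u u x := by
      unfold bt Ric
      rw [Finset.mul_sum]
      refine Finset.sum_congr rfl fun a _ => ?_
      rw [Finset.mul_sum]
      exact Finset.sum_congr rfl fun b _ => by ring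
    have m4 : 0 ≤ Ric V t u u x := by
      have k2 := Ric_ge (V := V) hT hs' g2 (hess_nonneg hR x) u
      have := hip0 x
      linarith
    have m5 : (wt t e u f x / nrm t e u x) ^ 2 ≤ k ^ 2 := by
      have h0 : 0 ≤ wt t e u f x / nrm t e u x := div_nonneg (wt_nonneg t e u f x) hr.le
      have := hwr x
      gcongr
    have m6 : Dip t (bt t e u f) (bt t e u f) x ≤
        4 * Gam t (wt t e u f) (wt t e u f) x + 6 * (wt t e u f x / nrm t e u x) ^ 2 * Dip t u u x := by
      have hh := kato_up hT (hs' x) (fun k a => DD t u k a x) (u x)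
        (fun k => pd k (wt t e u f) x) hr (wt_nonneg t e u f x) (ip_le_nrm_sq he hT (u := u))
      have hz : (fun k a => DD t (bt t e u f) k a x) = fun l b =>
          (1 / nrm t e u x * pd l (wt t e u f) x + -(wt t e u f x / nrm t e u x ^ 3) *
            ipT (t x) (fun a => DD t u l a x) (u x)) * u x b
            + wt t e u f x / nrm t e u x * DD t u l b x := by
        funext l b
        have q1 : DD t (bt t e u f) l b x =
            pd l (fun y => wt t e u f y / nrm t e u y) x * u x b +
              wt t e u f x / nrm t e u x * DD t u l b x :=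
          DD_smul (dif_div he hT hs' g1 g3 g5) g3 l b
        have q2' : nrm t e u x * pd l (nrm t e u) x = ipT (t x) (fun a => DD t u l a x) (u x) :=
          pd_nrm he hT hs' g1 g3 l
        rw [q1, pd_div he hT hs' g1 g3 g5, ← q2']
        field_simp
        ring
      have hd : Dip t (bt t e u f) (bt t e u f) x = BT (t x)
          (fun k a => DD t (bt t e u f) k a x) (fun k a => DD t (bt t e u f) k a x) := rfl
      rw [hd, hz]
      exact hh
    have m7 := Dip_nonneg hT u
    have m8 : (wt t e u f x / nrm t e u x) ^ 2 * Dip t u u x ≤ k ^ 2 * Dip t u u x :=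
      mul_le_mul_of_nonneg_right m5 m7
    have m9 : (wt t e u f x / nrm t e u x) ^ 2 * Ric V t u u x ≤ k ^ 2 * Ric V t u u x :=
      mul_le_mul_of_nonneg_right m5 m4
    have m10 : 0 ≤ k ^ 2 * Ric V t u u x := mul_nonneg (sq_nonneg _) m4
    rw [m3]
    nlinarith
  have hip : 0 ≤ I V (ip t u u) := by
    rw [Imu hVc]
    exact integral_nonneg hip0
  have hee : 0 ≤ I V (ee t u u) := by
    rw [← int_sp hTE hu hu, Imu hVc]
    refine integral_nonneg_of_ae ?_
    refine (mu_ac V).ae_le ?_
    filter_upwards [tae h.toTB.toTF, h.tot, lcf_ae hu] with x g1 g2 g3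
    have hT := TE.posDef hTE x
    show 0 ≤ ee t u u x + 1 / 2 * ∑ a, ∑ i, SP V t a i (fun y => u y a * u y i) x
    rw [← dip_ric hT h.symm g1 g2 g3 g3]
    have k2 := Ric_ge (V := V) hT h.symm g2 (hess_nonneg hR x) u
    have := hip0 x
    have := Dip_nonneg hT u
    linarith
  unfold NN
  have hsz := mul_le_mul_of_nonneg_left z2 hs.le
  have : 0 ≤ k ^ 2 * I V (ip t u u) := mul_nonneg (sq_nonneg _) hip
  nlinarith

/-! ## the limits -/

theorem tri (h : TE V t c C) (U u : E n → Fin n → ℝ) (x : E n) :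
    nt t U x ≤ nt t u x + nt t (fun y a => u y a - U y a) x := by
  have hT := TE.posDef h x
  have h1 := ip_cs hT u (fun y a => u y a - U y a)
  have e1 := nt_sq h U x
  have e2 := nt_sq h u x
  have e3 := nt_sq h (fun y a => u y a - U y a) x
  have p1 : 0 ≤ nt t u x := Real.sqrt_nonneg _
  have p2 : 0 ≤ nt t (fun y a => u y a - U y a) x := Real.sqrt_nonneg _
  have h2 : ip t U U x = ip t u u x - 2 * ip t u (fun y a => u y a - U y a) x
      + ip t (fun y a => u y a - U y a) (fun y a => u y a - U y a) x := by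
    have hU : ip t U U x = q2 (t x) (fun a => u x a + (-1) * (u x a - U x a))
        (fun a => u x a + (-1) * (u x a - U x a)) := by
      rw [ip_eq]
      congr 1 <;> funext a <;> ring
    rw [hU, q2_add_left, q2_smul_left, q2_add_right, q2_add_right, q2_smul_right, q2_smul_right,
      q2_symm (t x) hT.posSemidef (fun a => u x a - U x a) (u x)]
    rw [ip_eq, ip_eq, ip_eq]
    ring
  have h3 : |ip t u (fun y a => u y a - U y a) x| ≤
      nt t u x * nt t (fun y a => u y a - U y a) x := by
    refine abs_le_of_sq_le_sq ?_ (mul_nonneg p1 p2)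
    rw [mul_pow, e2, e3]
    exact h1
  refine le_of_sq_le_sq ?_ (add_nonneg p1 p2)
  have h4 := (abs_le.1 h3).1
  rw [e1, h2]
  nlinarith

theorem kato : StmtKato := by
  intro n V t c C h s hs γ U hR1 hf Ah Dh hdom heq
  have hTE : TE V t c C := h.toTE
  have hVc : Continuous V := h.V2.continuous
  obtain ⟨c1, C1, hR⟩ := h.reg
  obtain ⟨u, ε, huL, huU, ⟨B, hB⟩, hε0, hε, hyp⟩ := hR1.core
  obtain ⟨f, hD⟩ := hdom
  set g := hf with hg
  haveI : IsFiniteMeasure (mu V) := Vale.Agent.P245.K.OP3.finite_mu hR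
  have hC0 : 0 ≤ C ∨ n = 0 := by
    rcases Nat.eq_zero_or_pos n with h0 | h0
    · right; exact h0
    · left
      have i0 : Fin n := ⟨0, h0⟩
      have h1 := h.low 0 (ei i0)
      have h2 := h.up 0 (ei i0)
      rw [ei_norm] at h1 h2
      have := h.lam_pos
      nlinarith
  have hgm : MemLp g 2 (mu V) := (memLp_iff hVc hD.mu.aestronglyMeasurable).2 hD.iu
  have hAm : MemLp Ah 2 (mu V) := (memLp_iff hVc hD.mA.aestronglyMeasurable).2 hD.iA
  have hUm : ∀ a, MemLp (fun x => U x a) 2 (mu V) := fun a => L2.mem hVc (hR1.U2 a)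
  have hntU := mem_nt hTE hR1.U2
  have hntγ := mem_nt hTE hR1.g2
  -- the quantity
  set J := ∫ x, (max (nt t U x - g x) 0) ^ 2 ∂(mu V) with hJ
  have hJm : MemLp (fun x => max (nt t U x - g x) 0) 2 (mu V) := by
    have h1 := hntU.sub hgm
    refine MemLp.of_le (g := fun x => nt t U x - g x) h1 ?_ (Eventually.of_forall fun x => ?_)
    · exact (h1.1.aemeasurable.max aemeasurable_const).aestronglyMeasurable
    · rw [Real.norm_eq_abs, Real.norm_eq_abs, abs_of_nonneg (le_max_right _ _)]
      exact max_le (le_abs_self _) (abs_nonneg _)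
  -- main estimate for fixed k, m, e
  have hfl : ∀ k, LC (f k) := fun k => Vale.Agent.P245.K.OP3.lc_test (hD.test k)
  have hfm : ∀ k, MemLp (f k) 2 (mu V) := fun k => memLp_ci hVc (CI.of_lc (hfl k))
  have hLm : ∀ k, MemLp (fun x => -Lt t (f k) x) 2 (mu V) := fun k =>
    (memLp_ci hVc (CI.of_lc (Vale.Agent.P245.K.OP3.lt_lc h.toTB (hD.test k)))).neg
  set D : ℕ → ℝ := fun k => 2 * (1 + s / 2) ^ 2 * I V (fun x => (f k x - g x) ^ 2)
      + 2 * s ^ 2 * I V (fun x => (-(Lt t (f k) x) - Ah x) ^ 2) with hDd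
  have hqm : ∀ k, MemLp (fun x => nt t γ x - ((1 + s / 2) * f k x - s * Lt t (f k) x)) 2 (mu V) := by
    intro k
    have h1 : MemLp (fun x => (1 + s / 2) * f k x) 2 (mu V) := (hfm k).const_mul _
    have h2 : MemLp (fun x => s * (-Lt t (f k) x)) 2 (mu V) := (hLm k).const_mul _
    have h3 := hntγ.sub (h1.add h2)
    refine h3.congr_norm ?_ (Eventually.of_forall fun x => ?_) |> id
    · have : (fun x => nt t γ x - ((1 + s / 2) * f k x - s * Lt t (f k) x)) =
          fun x => nt t γ x - ((1 + s / 2) * f k x + s * (-Lt t (f k) x)) := by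
        funext x; ring
      rw [this]
      exact h3.1
    · simp only [Pi.sub_apply, Pi.add_apply]
      congr 1
      ring
  have hqD : ∀ k, ∫ x, (nt t γ x - ((1 + s / 2) * f k x - s * Lt t (f k) x)) ^ 2 ∂(mu V) ≤ D k := by
    intro k
    have i1 : Integrable (fun x => (f k x - g x) ^ 2) (mu V) := ((hfm k).sub hgm).integrable_sq
    have i2 : Integrable (fun x => (-(Lt t (f k) x) - Ah x) ^ 2) (mu V) :=
      ((hLm k).sub hAm).integrable_sq
    have e1 : D k = ∫ x, (2 * (1 + s / 2) ^ 2 * (f k x - g x) ^ 2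
        + 2 * s ^ 2 * (-(Lt t (f k) x) - Ah x) ^ 2) ∂(mu V) := by
      rw [integral_add (i1.const_mul _) (i2.const_mul _), integral_const_mul, integral_const_mul,
        ← Imu hVc, ← Imu hVc]
    rw [e1]
    refine integral_mono_ae (hqm k).integrable_sq ((i1.const_mul _).add (i2.const_mul _)) ?_
    filter_upwards [(mu_ac V).ae_le heq] with x hx
    have hx' : nt t γ x = (1 + s / 2) * g x + s * Ah x := hx.symm
    rw [hx']
    nlinarith [sq_nonneg ((1 + s / 2) * (f k x - g x) - s * (-(Lt t (f k) x) - Ah x))]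
  set N : ℝ := ∫ x, (1 : ℝ) ∂(mu V) with hN
  have hmain : ∀ k m : ℕ, ∀ e : ℝ, 0 < e → J ≤ 4 * (I V (fun x => (f k x - g x) ^ 2)
      + (D k + 2 * (ε m * Real.sqrt (NN V t s (bt t e (u m) (f k)) (bt t e (u m) (f k)))))
      + ∫ x, ip t (fun y a => u m y a - U y a) (fun y a => u m y a - U y a) x ∂(mu V)
      + e ^ 2 * N) := by
    intro k m e he
    have hw : LC (wt t e (u m) (f k)) := lc_wt hTE (huL m) he (hfl k)
    have hwm : MemLp (wt t e (u m) (f k)) 2 (mu V) := memLp_ci hVc (CI.of_lc hw)
    have h1 := kq h hs he (huL m) hR1.g2 (hD.test k) (hyp m)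
    -- W bound
    have h2 : I V (fun x => wt t e (u m) (f k) x ^ 2) ≤
        D k + 2 * (ε m * Real.sqrt (NN V t s (bt t e (u m) (f k)) (bt t e (u m) (f k)))) := by
      have h3 : I V (fun x => wt t e (u m) (f k) x *
          (nt t γ x - ((1 + s / 2) * f k x - s * Lt t (f k) x))) ≤
          1 / 2 * I V (fun x => wt t e (u m) (f k) x ^ 2) + 1 / 2 * D k := by
        have h4 := hqD k
        have i1 := hwm.integrable_sq
        have i2 := (hqm k).integrable_sq
        have h5 : ∫ x, wt t e (u m) (f k) x *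
          (nt t γ x - ((1 + s / 2) * f k x - s * Lt t (f k) x)) ∂(mu V) ≤
          ∫ x, (1 / 2 * wt t e (u m) (f k) x ^ 2 +
            1 / 2 * (nt t γ x - ((1 + s / 2) * f k x - s * Lt t (f k) x)) ^ 2) ∂(mu V) := by
          refine integral_mono (hwm.integrable_mul (hqm k))
            ((i1.const_mul _).add (i2.const_mul _)) fun x => ?_
          simp only [Pi.mul_apply]
          nlinarith [sq_nonneg (wt t e (u m) (f k) x -
            (nt t γ x - ((1 + s / 2) * f k x - s * Lt t (f k) x)))]
        rw [integral_add (i1.const_mul _) (i2.const_mul _), integral_const_mul,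
          integral_const_mul] at h5
        rw [Imu hVc, Imu hVc]
        linarith
      have h6 : 0 ≤ I V (fun x => wt t e (u m) (f k) x ^ 2) := by
        rw [Imu hVc]; exact integral_nonneg fun x => sq_nonneg _
      nlinarith
    -- pointwise bound
    have i0 : Integrable (fun x => (f k x - g x) ^ 2) (mu V) := ((hfm k).sub hgm).integrable_sq
    have i1 := hwm.integrable_sq
    have huUm : ∀ a, MemLp (fun x => u m x a - U x a) 2 (mu V) := fun a =>
      (memLp_ci hVc (CI.of_lc (huL m a))).sub (hUm a)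
    have i2 : Integrable (ip t (fun y a => u m y a - U y a) (fun y a => u m y a - U y a)) (mu V) := by
      have hL2 : ∀ a, L2 V (fun x => u m x a - U x a) := fun a =>
        ⟨((huL m a).1.continuous.measurable).sub (hR1.U2 a).1,
          (memLp_iff hVc (((huL m a).1.continuous.measurable).sub
            (hR1.U2 a).1).aestronglyMeasurable).1 (huUm a)⟩
      have := (mem_nt hTE hL2).integrable_sq
      refine this.congr (Eventually.of_forall fun x => ?_)
      exact nt_sq hTE _ x
    have i3 : Integrable (fun _ : E n => e ^ 2) (mu V) := integrable_const _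
    have h7 : J ≤ ∫ x, 4 * ((f k x - g x) ^ 2 + wt t e (u m) (f k) x ^ 2
        + ip t (fun y a => u m y a - U y a) (fun y a => u m y a - U y a) x + e ^ 2) ∂(mu V) := by
      refine integral_mono hJm.integrable_sq ((((i0.add i1).add i2).add i3).const_mul 4) fun x => ?_
      have q1 := tri hTE U (u m) x
      have q2' := nt_sq hTE (fun y a => u m y a - U y a) x
      have q3 : nt t (u m) x ≤ nrm t e (u m) x := by
        unfold nt nrm
        exact Real.sqrt_le_sqrt (by have := sq_nonneg e; linarith)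
      have q4 : nrm t e (u m) x - e - f k x ≤ wt t e (u m) (f k) x := le_max_left _ _
      have q5 := wt_nonneg t e (u m) (f k) x
      have q6 : 0 ≤ nt t (fun y a => u m y a - U y a) x := Real.sqrt_nonneg _
      have q7 : max (nt t U x - g x) 0 ≤ |f k x - g x| + wt t e (u m) (f k) x
          + nt t (fun y a => u m y a - U y a) x + e := by
        refine max_le ?_ (by positivity)
        have := le_abs_self (f k x - g x)
        linarith
      have q8 : 0 ≤ max (nt t U x - g x) 0 := le_max_right _ _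
      have q9 : (max (nt t U x - g x) 0) ^ 2 ≤ (|f k x - g x| + wt t e (u m) (f k) x
          + nt t (fun y a => u m y a - U y a) x + e) ^ 2 := by gcongr
      have q10 := sq_abs (f k x - g x)
      show (max (nt t U x - g x) 0) ^ 2 ≤ 4 * ((f k x - g x) ^ 2 + wt t e (u m) (f k) x ^ 2
        + ip t (fun y a => u m y a - U y a) (fun y a => u m y a - U y a) x + e ^ 2)
      rw [← q2', ← q10]
      refine q9.trans ?_
      set a1 := |f k x - g x|
      set a2 := wt t e (u m) (f k) x
      set a3 := nt t (fun y a => u m y a - U y a) x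
      nlinarith [sq_nonneg (a1 - a2), sq_nonneg (a1 - a3), sq_nonneg (a1 - e), sq_nonneg (a2 - a3),
        sq_nonneg (a2 - e), sq_nonneg (a3 - e)]
    have h8 : ∫ x, 4 * ((f k x - g x) ^ 2 + wt t e (u m) (f k) x ^ 2
        + ip t (fun y a => u m y a - U y a) (fun y a => u m y a - U y a) x + e ^ 2) ∂(mu V) =
        4 * (I V (fun x => (f k x - g x) ^ 2) + I V (fun x => wt t e (u m) (f k) x ^ 2)
        + ∫ x, ip t (fun y a => u m y a - U y a) (fun y a => u m y a - U y a) x ∂(mu V)
        + e ^ 2 * N) := by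
      rw [integral_const_mul]
      congr 1
      have e1 : ∫ x, ((f k x - g x) ^ 2 + wt t e (u m) (f k) x ^ 2
        + ip t (fun y a => u m y a - U y a) (fun y a => u m y a - U y a) x + e ^ 2) ∂(mu V) =
        ∫ x, ((f k x - g x) ^ 2 + wt t e (u m) (f k) x ^ 2
        + ip t (fun y a => u m y a - U y a) (fun y a => u m y a - U y a) x) ∂(mu V) +
        ∫ x, e ^ 2 ∂(mu V) := integral_add ((i0.add i1).add i2) i3
      have e2 : ∫ x, ((f k x - g x) ^ 2 + wt t e (u m) (f k) x ^ 2
        + ip t (fun y a => u m y a - U y a) (fun y a => u m y a - U y a) x) ∂(mu V) =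
        ∫ x, ((f k x - g x) ^ 2 + wt t e (u m) (f k) x ^ 2) ∂(mu V)
        + ∫ x, ip t (fun y a => u m y a - U y a) (fun y a => u m y a - U y a) x ∂(mu V) :=
        integral_add (i0.add i1) i2
      have e3 : ∫ x, ((f k x - g x) ^ 2 + wt t e (u m) (f k) x ^ 2) ∂(mu V) =
        ∫ x, (f k x - g x) ^ 2 ∂(mu V) + ∫ x, wt t e (u m) (f k) x ^ 2 ∂(mu V) :=
        integral_add i0 i1
      have e4 : ∫ x, e ^ 2 ∂(mu V) = e ^ 2 * N := by
        rw [hN, ← integral_const_mul]; simp
      rw [e1, e2, e3, e4, Imu hVc, Imu hVc]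
    rw [h8] at h7
    linarith
  -- m → ∞
  have hk : ∀ k : ℕ, ∀ e : ℝ, 0 < e → J ≤ 4 * (I V (fun x => (f k x - g x) ^ 2) + D k + e ^ 2 * N) := by
    intro k e he
    obtain ⟨F, hF⟩ := (hfl k).2.exists_bound_of_continuous (hfl k).1.continuous
    have hF' : ∀ x, |f k x| ≤ F := hF
    set K := (8 + 6 * (1 + F / e) ^ 2) * B + 2 * I V (fun x => f k x ^ 2)
        + 8 * s * I V (Gam t (f k) (f k)) with hK
    have hb : ∀ m, NN V t s (bt t e (u m) (f k)) (bt t e (u m) (f k)) ≤ K := by
      intro m
      have h1 := nn_bound h hs he (huL m) (hfl k) hF'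
      have h2 := mul_le_mul_of_nonneg_left (hB m) (by positivity : 0 ≤ 8 + 6 * (1 + F / e) ^ 2)
      linarith
    have l1 : Tendsto (fun m => ε m * Real.sqrt (NN V t s (bt t e (u m) (f k)) (bt t e (u m) (f k))))
        atTop (𝓝 0) := by
      have h1 : Tendsto (fun m => ε m * Real.sqrt K) atTop (𝓝 (0 * Real.sqrt K)) := hε.mul_const _
      rw [zero_mul] at h1
      exact squeeze_zero (fun m => mul_nonneg (hε0 m) (Real.sqrt_nonneg _))
        (fun m => mul_le_mul_of_nonneg_left (Real.sqrt_le_sqrt (hb m)) (hε0 m)) h1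
    have l2 : Tendsto (fun m => ∫ x, ip t (fun y a => u m y a - U y a)
        (fun y a => u m y a - U y a) x ∂(mu V)) atTop (𝓝 0) := by
      have h1 : Tendsto (fun m => |C| * ∑ a, I V (fun x => (u m x a - U x a) ^ 2)) atTop
          (𝓝 (|C| * ∑ a : Fin n, (0 : ℝ))) :=
        (tendsto_finsetSum _ fun a _ => huU a).const_mul _
      simp only [Finset.sum_const_zero, mul_zero] at h1
      refine squeeze_zero (fun m => integral_nonneg fun x => ip_nonneg (TE.posDef hTE x) _)
        (fun m => ?_) h1
      have huUm : ∀ a, MemLp (fun x => u m x a - U x a) 2 (mu V) := fun a =>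
        (memLp_ci hVc (CI.of_lc (huL m a))).sub (hUm a)
      have h2 : |C| * ∑ a, I V (fun x => (u m x a - U x a) ^ 2) =
          ∫ x, |C| * ∑ a, (u m x a - U x a) ^ 2 ∂(mu V) := by
        rw [integral_const_mul, integral_finsetSum _ fun a _ => (huUm a).integrable_sq]
        simp only [Imu hVc]
      rw [h2]
      refine integral_mono_of_nonneg (Eventually.of_forall fun x => ip_nonneg (TE.posDef hTE x) _)
        ((integrable_finsetSum _ fun a _ => (huUm a).integrable_sq).const_mul _)
        (Eventually.of_forall fun x => ?_)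
      have h3 := ip_le hTE (fun y a => u m y a - U y a) x
      refine h3.trans ?_
      exact mul_le_mul_of_nonneg_right (le_abs_self C) (Finset.sum_nonneg fun a _ => sq_nonneg _)
    have l3 := (((tendsto_const_nhds (x := I V (fun x => (f k x - g x) ^ 2))).add
      ((tendsto_const_nhds (x := D k)).add (l1.const_mul 2))).add l2).add
      (tendsto_const_nhds (x := e ^ 2 * N)) |>.const_mul 4
    have l4 := ge_of_tendsto' l3 (fun m => hmain k m e he)
    simpa using l4
  -- k → ∞
  have hDk : Tendsto D atTop (𝓝 0) := by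
    have h1 := (hD.lu.const_mul (2 * (1 + s / 2) ^ 2)).add (hD.lA.const_mul (2 * s ^ 2))
    simpa using h1
  have he : ∀ e : ℝ, 0 < e → J ≤ 4 * (e ^ 2 * N) := by
    intro e he
    have l3 := ((hD.lu.add hDk).add (tendsto_const_nhds (x := e ^ 2 * N))).const_mul 4
    have l4 := ge_of_tendsto' l3 (fun k => hk k e he)
    simpa using l4
  have hJ0 : J ≤ 0 := by
    have l1 : Tendsto (fun m : ℕ => 4 * ((1 / ((m : ℝ) + 1)) ^ 2 * N)) atTop (𝓝 0) := by
      have h1 := ((tendsto_one_div_add_atTop_nhds_zero_nat (𝕜 := ℝ)).pow 2).mul_const N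
      have h2 := h1.const_mul 4
      simpa using h2
    exact ge_of_tendsto' l1 fun m => he _ (by positivity)
  have hJ1 : J = 0 := le_antisymm hJ0 (integral_nonneg fun x => sq_nonneg _)
  have h9 := (integral_eq_zero_iff_of_nonneg (fun x => sq_nonneg _) hJm.integrable_sq).1 hJ1
  have h10 := (ac_mu hVc).ae_le h9
  filter_upwards [h10] with x hx
  have h11 : (max (nt t U x - g x) 0) ^ 2 = 0 := hx
  have h12 : max (nt t U x - g x) 0 = 0 := by
    exact pow_eq_zero_iff (two_ne_zero) |>.1 h11
  have h13 : nt t U x - g x ≤ max (nt t U x - g x) 0 := le_max_left _ _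
  linarith

end Vale.Agent.P245.K2.Kato
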