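import Vale.Agent.P245.K2.Bridge

/-!
# P245, row KID (helper979, second seat)
-/

set_option linter.all false

open MeasureTheory Filter Topology Set Metric
open scoped NNReal ENNReal ContDiff
open Vale.Agent.P227.M Vale.Agent.P227.M.K814 Vale.Agent.P254 Vale.Agent.P254.SN
open Vale.Agent.P245.H464 (TE Lt)
open Vale.Agent.P245.K Vale.Agent.P245.K2.Br

namespace Vale.Agent.P245.K2.KID

variable {n : ℕ} {V : E n → ℝ} {t : E n → Matrix (Fin n) (Fin n) ℝ} {c C : ℝ}

/-- composition of a locally Lipschitz function with a Lipschitz function on a set -/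
theorem ll_compOn {g : E n → ℝ} (hg : LocallyLipschitz g) {φ : ℝ → ℝ} {K : ℝ≥0} {s : Set ℝ}
    (hφ : LipschitzOnWith K φ s) (hgs : ∀ x, g x ∈ s) : LocallyLipschitz (fun x => φ (g x)) := by
  intro x
  obtain ⟨L, U, hU, hL⟩ := hg x
  exact ⟨K * L, U, hU, hφ.comp hL (fun y _ => hgs y)⟩

theorem lip_sqrt {δ : ℝ} (hδ : 0 < δ) :
    LipschitzOnWith (Real.toNNReal (1 / (2 * δ))) (fun s => Real.sqrt (s + δ ^ 2)) (Ici 0) := by
  refine LipschitzOnWith.of_dist_le_mul fun a ha b hb => ?_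
  rw [Real.coe_toNNReal _ (by positivity), Real.dist_eq, Real.dist_eq]
  have ha' : (0 : ℝ) ≤ a := ha
  have hb' : (0 : ℝ) ≤ b := hb
  have h1 : δ ≤ Real.sqrt (a + δ ^ 2) := Real.le_sqrt_of_sq_le (by linarith)
  have h2 : δ ≤ Real.sqrt (b + δ ^ 2) := Real.le_sqrt_of_sq_le (by linarith)
  have h3 : Real.sqrt (a + δ ^ 2) ^ 2 = a + δ ^ 2 := Real.sq_sqrt (by positivity)
  have h4 : Real.sqrt (b + δ ^ 2) ^ 2 = b + δ ^ 2 := Real.sq_sqrt (by positivity)
  obtain ⟨p, hp⟩ : ∃ p, p = Real.sqrt (a + δ ^ 2) := ⟨_, rfl⟩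
  obtain ⟨q, hq⟩ : ∃ q, q = Real.sqrt (b + δ ^ 2) := ⟨_, rfl⟩
  rw [← hp] at h1 h3 ⊢
  rw [← hq] at h2 h4 ⊢
  have h5 : a - b = (p - q) * (p + q) := by nlinarith
  rw [h5, abs_mul, abs_of_nonneg (by linarith : 0 ≤ p + q)]
  have h6 : 0 ≤ |p - q| := abs_nonneg _
  have h7 : 1 / (2 * δ) * (|p - q| * (p + q)) = |p - q| * ((p + q) / (2 * δ)) := by field_simp
  rw [h7]
  refine le_mul_of_one_le_right h6 ?_
  rw [le_div_iff₀ (by positivity)]
  linarith

theorem lip_inv {δ : ℝ} (hδ : 0 < δ) :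
    LipschitzOnWith (Real.toNNReal (1 / δ ^ 2)) (fun s => s⁻¹) (Ici δ) := by
  refine LipschitzOnWith.of_dist_le_mul fun a ha b hb => ?_
  rw [Real.coe_toNNReal _ (by positivity), Real.dist_eq, Real.dist_eq]
  have ha' : δ ≤ a := ha
  have hb' : δ ≤ b := hb
  have ha0 : 0 < a := lt_of_lt_of_le hδ ha'
  have hb0 : 0 < b := lt_of_lt_of_le hδ hb'
  have h1 : a⁻¹ - b⁻¹ = (b - a) / (a * b) := by field_simp
  rw [h1, abs_div, abs_of_pos (mul_pos ha0 hb0), abs_sub_comm b a, div_le_iff₀ (mul_pos ha0 hb0)]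
  have h2 : δ ^ 2 ≤ a * b := by nlinarith
  have h3 : 1 / δ ^ 2 * |a - b| * (a * b) = |a - b| * ((a * b) / δ ^ 2) := by field_simp
  rw [h3]
  refine le_mul_of_one_le_right (abs_nonneg _) ?_
  rw [le_div_iff₀ (by positivity)]
  linarith

section
variable (h : Base V t c C)
include h

theorem posd (x : E n) : (t x).PosDef := K.TE.posDef h.toTE x

theorem ll_ip {u v : E n → Fin n → ℝ} (hu : LCF u) (hv : LCF v) : LocallyLipschitz (ip t u v) :=
  ll_sum _ fun a _ => ll_sum _ fun b _ =>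
    ll_mul (ll_mul (tll h.toTE.toTB.toTF a b) (hu a).1) (hv b).1

theorem ci_ip {u v : E n → Fin n → ℝ} (hu : LCF u) (hv : LCF v) : CI (ip t u v) :=
  CI.sum _ fun a _ => CI.sum _ fun b _ =>
    CI.mul_left (Bd.of_ll (ll_mul (tll h.toTE.toTB.toTF a b) (hu a).1)) (CI.of_lc (hv b))

theorem ll_nrm {u : E n → Fin n → ℝ} (hu : LCF u) {δ : ℝ} (hδ : 0 < δ) :
    LocallyLipschitz (nrm t δ u) :=
  ll_compOn (ll_ip h hu hu) (lip_sqrt hδ) fun x => ip_nonneg (posd h x) u

theorem ll_nrm_inv {u : E n → Fin n → ℝ} (hu : LCF u) {δ : ℝ} (hδ : 0 < δ) :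
    LocallyLipschitz (fun x => (nrm t δ u x)⁻¹) :=
  ll_compOn (ll_nrm h hu hδ) (lip_inv hδ) fun x => e_le_nrm hδ (posd h x)

theorem lc_wn {u : E n → Fin n → ℝ} (hu : LCF u) {δ : ℝ} (hδ : 0 < δ) {w : E n → ℝ} (hw : LC w) :
    LC (fun x => w x / nrm t δ u x) := by
  simp only [div_eq_mul_inv]
  exact LC.mul_right hw (ll_nrm_inv h hu hδ)

theorem lcf_test {u : E n → Fin n → ℝ} (hu : LCF u) {δ : ℝ} (hδ : 0 < δ) {w : E n → ℝ} (hw : LC w) :
    LCF (fun x a => w x / nrm t δ u x * u x a) := fun a =>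
  LC.mul_left (lc_wn h hu hδ hw).1 (hu a)

theorem ci_ee {u v : E n → Fin n → ℝ} (hu : LCF u) (hv : LCF v) : CI (ee t u v) := by
  refine CI.add ?_ (ci_ip h hu hv)
  have bt := fun i j => Bd.of_ll (tll h.toTE.toTB.toTF i j)
  exact CI.sum _ fun i _ => CI.sum _ fun j _ => CI.sum _ fun a _ => CI.sum _ fun b _ =>
    CI.mul_left (((bt i j).mul (bt a b)).mul (Bd.pd (hu a).1 i)) (CI.pd (hv b) j)

theorem ci_gam {w f : E n → ℝ} (hw : LC w) (hf : LocallyLipschitz f) : CI (Gam t w f) := by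
  have bt := fun i j => Bd.of_ll (tll h.toTE.toTB.toTF i j)
  exact CI.sum _ fun a _ => CI.sum _ fun b _ =>
    CI.mul_right (CI.mul_left (bt a b) (CI.pd hw a)) (Bd.pd hf b)

theorem contV : Continuous V := h.toTE.toTB.toTF.V2.continuous

theorem I_bridge {al be : E n → Fin n → ℝ} (ha : LCF al) (hb : LCF be) :
    I V (fun x => ee t al be x + 1 / 2 * ∑ a, ∑ i, sden V t (fun y => al y a * be y i) a i x) =
      I V (ee t al be) := by
  have hF := h.toTE.toTB.toTF
  have hc := contV h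
  have hQ : ∀ a i, LC (fun y => al y a * be y i) := fun a i => LC.mul_left (ha a).1 (hb i)
  have h1 : CI (fun x => ∑ a, ∑ i, sden V t (fun y => al y a * be y i) a i x) :=
    CI.sum _ fun a _ => CI.sum _ fun i _ => ci_sden hF (hQ a i) a i
  have h2 : CI (fun x => 1 / 2 * ∑ a, ∑ i, sden V t (fun y => al y a * be y i) a i x) :=
    CI.mul_left (Bd.of_cont continuous_const) h1
  rw [I_add hc (ci_ee h ha hb) h2]
  have h3 : I V (fun x => 1 / 2 * ∑ a, ∑ i, sden V t (fun y => al y a * be y i) a i x) =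
      1 / 2 * I V (fun x => ∑ a, ∑ i, sden V t (fun y => al y a * be y i) a i x) :=
    Q895.I_const_mul' _ _
  have h4 : I V (fun x => ∑ a, ∑ i, sden V t (fun y => al y a * be y i) a i x) = 0 := by
    rw [I_sum _ hc fun a _ => CI.sum _ fun i _ => ci_sden hF (hQ a i) a i]
    refine Finset.sum_eq_zero fun a _ => ?_
    rw [I_sum _ hc fun i _ => ci_sden hF (hQ a i) a i]
    exact Finset.sum_eq_zero fun i _ => I_sden hF (hQ a i) a i
  rw [h3, h4]
  ring

/-- the integral of the flat form is the integral of the covariant form -/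
theorem I_ee {al be : E n → Fin n → ℝ} (ha : LCF al) (hb : LCF be) :
    I V (ee t al be) = I V (fun x => Dip t al be x + Ric V t al be x) := by
  rw [← I_bridge h ha hb]
  exact I_congr ((bridge_ae h ha hb).mono fun x hx => hx.symm)

end

/-- the curvature term dominates -/
theorem hessV_nonneg (h : Base V t c C) (x v : E n) : 0 ≤ qf (hess V x) v := by
  obtain ⟨c1, C1, hR⟩ := h.reg
  exact le_trans (mul_nonneg hR.c_pos.le (sq_nonneg _)) (hR.lower x v)

/-- **KID** -/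
theorem kid : StmtKID := by
  intro n V t c C h v hv w hw hw0 δ hδ
  have hc := contV h
  have hF := h.toTE.toTB.toTF
  have hb := lcf_test h hv hδ hw
  have hn := ll_nrm h hv hδ
  have hni := ll_nrm_inv h hv hδ
  have hQ : ∀ a i, LC (fun y => v y a * (fun x a => w x / nrm t δ v x * v x a) y i) := fun a i =>
    LC.mul_left (hv a).1 (hb i)
  have c1 : CI (Gam t w (nrm t δ v)) := ci_gam h hw hn
  have c2 : CI (fun x => w x * ip t v v x / nrm t δ v x) := by
    simp only [div_eq_mul_inv]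
    exact CI.mul_right (CI.mul_left (Bd.of_ll hw.1) (ci_ip h hv hv)) (Bd.of_ll hni)
  have c2' : CI (fun x => 1 / 2 * (w x * ip t v v x / nrm t δ v x)) :=
    CI.mul_left (Bd.of_cont continuous_const) c2
  have c3 : CI (fun x => ee t v (fun x a => w x / nrm t δ v x * v x a) x +
      1 / 2 * ∑ a, ∑ i, sden V t (fun y => v y a * (w y / nrm t δ v y * v y i)) a i x) :=
    CI.add (ci_ee h hv hb) (CI.mul_left (Bd.of_cont continuous_const)
      (CI.sum _ fun a _ => CI.sum _ fun i _ => ci_sden hF (hQ a i) a i))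
  rw [← I_bridge h hv hb]
  have e1 : 1 / 2 * I V (fun x => w x * ip t v v x / nrm t δ v x) =
      I V (fun x => 1 / 2 * (w x * ip t v v x / nrm t δ v x)) := (Q895.I_const_mul' _ _).symm
  rw [e1, ← I_add hc c1 c2']
  refine I_mono hc (CI.add c1 c2') c3 ?_
  have h1 : ∀ᵐ x, Du1 v x := by
    unfold Du1
    rw [ae_all_iff]
    exact fun a => (hv a).ae_diff
  filter_upwards [h1, bridge_ae h hv hb, tae hF, hF.tot, hw.ae_diff] with x x1 x2 x3 x4 x5
  rw [← x2]
  have hT := posd h x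
  have f1 := Dip_test_le hδ hT h.symm x3 x1 x5 (hw0 x)
  have f2 := Ric_ge (V := V) hT h.symm x4 (hessV_nonneg h x) v
  have f3 : Ric V t v (fun x a => w x / nrm t δ v x * v x a) x =
      w x / nrm t δ v x * Ric V t v v x := Ric_smul x (fun x => w x / nrm t δ v x) v v
  have f4 : 0 ≤ w x / nrm t δ v x := div_nonneg (hw0 x) (nrm_pos hδ hT).le
  have f5 := mul_le_mul_of_nonneg_left f2 f4
  rw [f3]
  have f6 : w x / nrm t δ v x * (1 / 2 * ip t v v x) = 1 / 2 * (w x * ip t v v x / nrm t δ v x) := by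
    ring
  rw [f6] at f5
  linarith

end Vale.Agent.P245.K2.KID
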