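import Vale.Agent.P245.K.R1S

/-!
P245, KLS block, row R1E, second copy (helper192): existence of the resolvent on covector fields by
near-minimisers.
-/

set_option linter.all false

open MeasureTheory Filter Topology Set Metric
open scoped NNReal ENNReal ContDiff
open Vale.Agent.P227.M Vale.Agent.P227.M.K814 Vale.Agent.P254 Vale.Agent.P254.SN

namespace Vale.Agent.P245.K2.R1E

open Vale.Agent.P245.K
open Vale.Agent.P245.H464 (TE Lt mu integral_mu integrable_mu memLp_iff exists_meas tendsto_I_of_tendsto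
  ac_mu)
open Vale.Agent.P245.K.OP3 Vale.Agent.P245.K.R1S

variable {n : ℕ} {V : E n → ℝ} {t : E n → Matrix (Fin n) (Fin n) ℝ} {c C c1 C1 s : ℝ}

theorem NN_quad (h : TE V t c C) (s p q : ℝ) {α α' : E n → Fin n → ℝ} (h1 : LCF α) (h2 : LCF α') :
    NN V t s (lin p q α α') (lin p q α α') =
      p ^ 2 * NN V t s α α + 2 * (p * q) * NN V t s α α' + q ^ 2 * NN V t s α' α' := by
  have k1 := LCF.lin p q h1 h2
  rw [NN_lin h p q s h1 h2 k1, NN_symm h s α, NN_symm h s α', NN_lin h p q s h1 h2 h1,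
    NN_lin h p q s h1 h2 h2, NN_symm h s α' α]
  ring

theorem I_nn {f : E n → ℝ} (hf : ∀ x, 0 ≤ f x) : 0 ≤ I V f :=
  integral_nonneg fun x => mul_nonneg (hf x) (Real.exp_pos _).le

/-- the functional -/
noncomputable def JJ (V : E n → ℝ) (t : E n → Matrix (Fin n) (Fin n) ℝ) (s : ℝ)
    (γ u : E n → Fin n → ℝ) : ℝ := NN V t s u u - 2 * I V (ip t γ u)

section
variable (h : TE V t c C) (hR : Reg V c1 C1) (hs : 0 < s) {γ : E n → Fin n → ℝ}
  (hγ : ∀ a, L2 V (fun x => γ x a))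
include h hR hs hγ

theorem two_ip {u : E n → Fin n → ℝ} (hu : LCF u) :
    2 * I V (ip t γ u) ≤ 1 / 2 * NN V t s u u + 2 * I V (ip t γ γ) := by
  have hV := h.V2.continuous
  have hu2 := fun a => l2_of_lcf hR hu hV a
  have i1 := int_ip h hγ hu2
  have i2 := (ci_ip h hu hu).integrable hV
  have i3 := int_ip h hγ hγ
  have e1 : 2 * I V (ip t γ u) ≤ 1 / 2 * I V (ip t u u) + 2 * I V (ip t γ γ) := by
    unfold I
    rw [← integral_const_mul, ← integral_const_mul, ← integral_const_mul,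
      ← integral_add (i2.const_mul _) (i3.const_mul _)]
    refine integral_mono (i1.const_mul 2) ((i2.const_mul _).add (i3.const_mul _)) fun x => ?_
    have k := ip_nonneg h (lin 1 (-2) u γ) x
    have k2 : ip t (lin 1 (-2) u γ) (lin 1 (-2) u γ) x =
        ip t u u x - 4 * ip t γ u x + 4 * ip t γ γ x := by
      rw [ip_lin, ip_symm h u, ip_symm h γ, ip_lin, ip_lin, ip_symm h u γ]
      ring
    rw [k2] at k
    show 2 * (ip t γ u x * Real.exp (-V x)) ≤
      1 / 2 * (ip t u u x * Real.exp (-V x)) + 2 * (ip t γ γ x * Real.exp (-V x))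
    have hp := (Real.exp_pos (-V x)).le
    nlinarith [mul_nonneg k hp]
  have e2 : I V (ip t u u) ≤ NN V t s u u := by
    unfold NN
    have := mul_nonneg hs.le (I_nn (V := V) (ee_nonneg h u))
    linarith
  linarith

theorem JJ_low {u : E n → Fin n → ℝ} (hu : LCF u) :
    1 / 2 * NN V t s u u - 2 * I V (ip t γ γ) ≤ JJ V t s γ u := by
  have := two_ip h hR hs hγ hu
  unfold JJ
  linarith

theorem JJ_lin {u β : E n → Fin n → ℝ} (hu : LCF u) (hβ : LCF β) (r : ℝ) :
    JJ V t s γ (lin 1 r u β) =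
      JJ V t s γ u + 2 * r * (NN V t s u β - I V (ip t γ β)) + r ^ 2 * NN V t s β β := by
  have hV := h.V2.continuous
  have e1 : I V (ip t γ (lin 1 r u β)) = 1 * I V (ip t γ u) + r * I V (ip t γ β) := by
    refine I_lin 1 r (int_ip h hγ fun a => l2_of_lcf hR hu hV a)
      (int_ip h hγ fun a => l2_of_lcf hR hβ hV a) (Eventually.of_forall fun x => ?_)
    rw [ip_symm h γ, ip_lin, ip_symm h u, ip_symm h β]
  unfold JJ
  rw [NN_quad h s 1 r hu hβ, e1]
  ring

end

theorem lcf_zero : LCF (fun (_ : E n) (_ : Fin n) => (0 : ℝ)) := fun a =>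
  ⟨ll_const 0, HasCompactSupport.zero⟩

theorem JJ_zero (γ : E n → Fin n → ℝ) : JJ V t s γ (fun _ _ => 0) = 0 := by
  have e1 : ∀ α : E n → Fin n → ℝ, ∀ x, ip t α (fun _ _ => 0) x = 0 := by
    intro α x; unfold ip; simp
  have e2 : ∀ x, ee t (fun (_ : E n) (_ : Fin n) => (0 : ℝ)) (fun _ _ => 0) x = 0 := by
    intro x
    unfold ee
    rw [e1]
    have : ∀ i : Fin n, pd i (fun _ : E n => (0 : ℝ)) x = 0 := by
      intro i; unfold pd; simp
    simp [this]
  have e3 : ∀ α : E n → Fin n → ℝ, I V (ip t α (fun _ _ => 0)) = 0 := by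
    intro α; unfold I; simp [e1]
  have e4 : I V (ee t (fun (_ : E n) (_ : Fin n) => (0 : ℝ)) (fun _ _ => 0)) = 0 := by
    unfold I; simp [e2]
  unfold JJ NN
  rw [e3, e3, e4]; ring

theorem comp_le (h : TE V t c C) (hs : 0 < s) {β : E n → Fin n → ℝ} (hβ : LCF β) (a : Fin n) :
    c * I V (fun x => β x a ^ 2) ≤ NN V t s β β := by
  have hV := h.V2.continuous
  have hc : CI (fun x => c * β x a ^ 2) := by
    have := CI.mul_left (Bd.of_ll (ll_const (n := n) c)) (CI.mul_right (CI.of_lc (hβ a)) (Bd.of_ll (hβ a).1))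
    have e : (fun x => c * β x a ^ 2) = fun x => c * (β x a * β x a) := by funext x; ring
    rw [e]; exact this
  have h1 : I V (fun x => c * β x a ^ 2) ≤ I V (ip t β β) := by
    refine I_mono hV hc (ci_ip h hβ hβ) (Eventually.of_forall fun x => ?_)
    have k := form_low h x (β x)
    have k2 : β x a ^ 2 ≤ ∑ b, β x b ^ 2 :=
      Finset.single_le_sum (f := fun b => β x b ^ 2) (fun b _ => sq_nonneg _) (Finset.mem_univ a)
    exact (mul_le_mul_of_nonneg_left k2 h.lam_pos.le).trans k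
  have h2 : I V (fun x => c * β x a ^ 2) = c * I V (fun x => β x a ^ 2) := by
    unfold I
    rw [← integral_const_mul]
    congr 1; funext x; ring
  have h3 : I V (ip t β β) ≤ NN V t s β β := by
    unfold NN
    have := mul_nonneg hs.le (I_nn (V := V) (ee_nonneg h β))
    linarith
  linarith

theorem disc {a b d : ℝ} (ha : 0 ≤ a) (hd : 0 ≤ d) (h : ∀ r : ℝ, 0 ≤ a * r ^ 2 + 2 * r * b + d) :
    |b| ≤ Real.sqrt (d * a) := by
  refine Real.le_sqrt_of_sq_le ?_
  rw [sq_abs]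
  rcases eq_or_lt_of_le ha with h0 | h0
  · -- a = 0
    have hb : b = 0 := by
      by_contra hb
      have := h (-(d + 1) / (2 * b))
      rw [← h0] at this
      have e : (0 : ℝ) * (-(d + 1) / (2 * b)) ^ 2 + 2 * (-(d + 1) / (2 * b)) * b + d = -1 := by
        field_simp; ring
      rw [e] at this
      linarith
    rw [hb, ← h0]; simp
  · have := h (-b / a)
    have e : a * (-b / a) ^ 2 + 2 * (-b / a) * b + d = d - b ^ 2 / a := by
      field_simp; ring
    rw [e] at this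
    have h2 : b ^ 2 / a ≤ d := by linarith
    rwa [div_le_iff₀ h0] at h2

theorem exists_near (h : Base V t c C) (hs : 0 < s) {γ : E n → Fin n → ℝ}
    (hγ : ∀ a, L2 V (fun x => γ x a)) :
    ∃ (u : ℕ → E n → Fin n → ℝ), (∀ m, LCF (u m)) ∧ (∃ B, ∀ m, NN V t s (u m) (u m) ≤ B) ∧
      ∀ m : ℕ, ∀ β : E n → Fin n → ℝ, LCF β →
        |NN V t s (u m) β - I V (ip t γ β)| ≤ (1 / ((m : ℝ) + 1)) * Real.sqrt (NN V t s β β) := by
  obtain ⟨c1, C1, hR⟩ := h.reg
  have hT := h.toTE
  set K : ℝ := 2 * I V (ip t γ γ) with hK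
  let S : Set ℝ := {y | ∃ u : E n → Fin n → ℝ, LCF u ∧ JJ V t s γ u = y}
  have hS0 : S.Nonempty := ⟨0, fun _ _ => 0, lcf_zero, JJ_zero γ⟩
  have hSb : BddBelow S := by
    refine ⟨-K, ?_⟩
    rintro y ⟨u, hu, rfl⟩
    have h1 := JJ_low hT hR hs hγ hu
    have h2 := NN_nonneg hT hs.le u
    linarith
  have hex : ∀ m : ℕ, ∃ u : E n → Fin n → ℝ, LCF u ∧ JJ V t s γ u < sInf S + (1 / ((m : ℝ) + 1)) ^ 2 := by
    intro m
    have hp : (0 : ℝ) < (1 / ((m : ℝ) + 1)) ^ 2 := by positivity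
    obtain ⟨y, ⟨u, hu, rfl⟩, hy⟩ := exists_lt_of_csInf_lt hS0 (lt_add_of_pos_right (sInf S) hp)
    exact ⟨u, hu, hy⟩
  choose u hu hJ using hex
  refine ⟨u, hu, ⟨2 * (1 + K), fun m => ?_⟩, fun m β hβ => ?_⟩
  · have h1 := JJ_low hT hR hs hγ (hu m)
    have h2 : sInf S ≤ 0 := csInf_le hSb ⟨fun _ _ => 0, lcf_zero, JJ_zero γ⟩
    have h3 : (1 / ((m : ℝ) + 1)) ^ 2 ≤ 1 := by
      have : (1 : ℝ) / ((m : ℝ) + 1) ≤ 1 := by
        rw [div_le_one (by positivity)]
        have : (0 : ℝ) ≤ m := Nat.cast_nonneg m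
        linarith
      exact pow_le_one₀ (by positivity) this
    have h4 := hJ m
    linarith
  · have h1 : ∀ r : ℝ, 0 ≤ NN V t s β β * r ^ 2 + 2 * r * (NN V t s (u m) β - I V (ip t γ β)) +
        (1 / ((m : ℝ) + 1)) ^ 2 := by
      intro r
      have k1 : sInf S ≤ JJ V t s γ (lin 1 r (u m) β) :=
        csInf_le hSb ⟨_, LCF.lin 1 r (hu m) hβ, rfl⟩
      rw [JJ_lin hT hR hs hγ (hu m) hβ r] at k1
      have k2 := hJ m
      linarith
    have h2 := disc (NN_nonneg hT hs.le β) (by positivity) h1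
    rwa [Real.sqrt_mul (by positivity), Real.sqrt_sq (by positivity)] at h2

theorem r1e : StmtR1E := by
  intro n V t c C h s hs γ hγ
  obtain ⟨c1, C1, hR⟩ := h.reg
  have hT := h.toTE
  have hV := hT.V2.continuous
  obtain ⟨u, hu, hB, hn⟩ := exists_near h hs hγ
  have hcpos := hT.lam_pos
  have hm2 : ∀ a m, MemLp (fun x => u m x a) 2 (mu V) := fun a m => memLp_LC hR (hu m a)
  -- Cauchy
  have hN : ∀ m k, Real.sqrt (NN V t s (lin 1 (-1) (u m) (u k)) (lin 1 (-1) (u m) (u k))) ≤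
      1 / ((m : ℝ) + 1) + 1 / ((k : ℝ) + 1) := by
    intro m k
    set β := lin 1 (-1) (u m) (u k) with hβ
    have hβL : LCF β := LCF.lin 1 (-1) (hu m) (hu k)
    set q := Real.sqrt (NN V t s β β) with hq
    have hq0 : 0 ≤ q := Real.sqrt_nonneg _
    have hqq : q * q = NN V t s β β := Real.mul_self_sqrt (NN_nonneg hT hs.le β)
    have e1 : NN V t s β β = NN V t s (u m) β - NN V t s (u k) β := by
      conv_lhs => rw [hβ]
      rw [NN_lin hT 1 (-1) s (hu m) (hu k) (by rw [← hβ]; exact hβL), ← hβ]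
      ring
    have h1 := abs_le.1 (hn m β hβL)
    have h2 := abs_le.1 (hn k β hβL)
    have h3 : q * q ≤ (1 / ((m : ℝ) + 1) + 1 / ((k : ℝ) + 1)) * q := by
      rw [hqq, e1, add_mul]
      linarith [h1.2, h2.1]
    rcases eq_or_lt_of_le hq0 with h0 | h0
    · rw [← h0]; positivity
    · exact le_of_mul_le_mul_right h3 h0
  have hcau : ∀ a, CauchySeq (fun m => (hm2 a m).toLp (fun x => u m x a)) := by
    intro a
    refine cauchySeq_of_le_tendsto_0' (fun m : ℕ => 2 * (1 / ((m : ℝ) + 1)) / Real.sqrt c) ?_ ?_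
    · intro m k hmk
      rw [dist_eq_norm, ← MemLp.toLp_sub (hm2 a m) (hm2 a k), norm_toLp1 ((hm2 a m).sub (hm2 a k))]
      have e1 : ∫ x, ((fun x => u m x a) - (fun x => u k x a)) x ^ 2 ∂(mu V) =
          I V (fun x => (lin 1 (-1) (u m) (u k)) x a ^ 2) := by
        rw [integral_mu hV]
        unfold I lin
        congr 1; funext x
        simp only [Pi.sub_apply]; ring
      rw [e1]
      have h1 := comp_le (s := s) hT hs (LCF.lin 1 (-1) (hu m) (hu k)) a
      have h2 : I V (fun x => (lin 1 (-1) (u m) (u k)) x a ^ 2) ≤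
          NN V t s (lin 1 (-1) (u m) (u k)) (lin 1 (-1) (u m) (u k)) / c := by
        rw [le_div_iff₀ hcpos]; linarith
      refine (Real.sqrt_le_sqrt h2).trans ?_
      rw [Real.sqrt_div (NN_nonneg hT hs.le _)]
      refine div_le_div_of_nonneg_right ?_ (Real.sqrt_nonneg _)
      refine (hN m k).trans ?_
      have h3 : 1 / ((k : ℝ) + 1) ≤ 1 / ((m : ℝ) + 1) := by
        have : (m : ℝ) ≤ k := by exact_mod_cast hmk
        exact one_div_le_one_div_of_le (by positivity) (by linarith)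
      linarith
    · have h1 := (tendsto_one_div_add_atTop_nhds_zero_nat (𝕜 := ℝ)).const_mul 2
      have h2 := h1.div_const (Real.sqrt c)
      simpa using h2
  have hlim : ∀ a, ∃ w : MeasureTheory.Lp ℝ 2 (mu V),
      Tendsto (fun m => (hm2 a m).toLp (fun x => u m x a)) atTop (𝓝 w) := fun a =>
    cauchySeq_tendsto_of_complete (hcau a)
  choose w hw using hlim
  have hmeas := fun a => exists_meas hV (w a)
  choose U hU1 hU2 hU3 using hmeas
  refine ⟨fun x a => U a x, hγ, fun a => ⟨hU1 a, hU3 a⟩, u, fun m => 1 / ((m : ℝ) + 1), hu, fun a => ?_,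
    hB, fun m => by positivity, tendsto_one_div_add_atTop_nhds_zero_nat, hn⟩
  exact tendsto_I_of_tendsto hV (fun m => hm2 a m) (hU2 a) (hw a)

end Vale.Agent.P245.K2.R1E
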