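import Vale.Agent.P245.K2.StepOps
import Vale.Agent.P245.K.Iface2

/-!
P245, row STEP (second): the literal rows `StmtStep` and `StmtStep0`.
-/

set_option linter.all false

open MeasureTheory Filter Topology Set
open Vale.Agent.P227.M Vale.Agent.P227.M.K814 Vale.Agent.P254.SN

namespace Vale.Agent.P245.K2.StepInst

open Vale.Agent.P245.K
open Vale.Agent.P245.H464 (TE Lt mu integral_mu integrable_mu memLp_iff mu_ac ac_mu)
open Vale.Agent.P245.K2.Step (BM BF PosOp FieldOp ipt)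

section general
variable {X : Type*} [MeasurableSpace X] {μ : Measure X} {n : ℕ}

theorem ae_closed {p : X → (Fin n → ℝ) → Prop} (hcl : ∀ x, IsClosed {v | p x v})
    (h : ∀ v : Fin n → ℝ, ∀ᵐ x ∂μ, p x v) : ∀ᵐ x ∂μ, ∀ v, p x v := by
  have key : ∀ᵐ x ∂μ, ∀ q : Fin n → ℚ, p x (fun k => (q k : ℝ)) :=
    ae_all_iff.2 fun q => h fun k => (q k : ℝ)
  filter_upwards [key] with x hx v
  have hd : DenseRange (Pi.map (fun (_ : Fin n) (q : ℚ) => (q : ℝ))) :=
    DenseRange.piMap fun _ => Rat.denseRange_cast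
  have hsub : Set.range (Pi.map (fun (_ : Fin n) (q : ℚ) => (q : ℝ))) ⊆ {v | p x v} := by
    rintro _ ⟨q, rfl⟩
    exact hx q
  have h2 := closure_minimal hsub (hcl x)
  rw [hd.closure_range] at h2
  exact h2 (Set.mem_univ v)

theorem aem_det {G : X → Matrix (Fin n) (Fin n) ℝ} (h : ∀ i j, AEMeasurable (fun x => G x i j) μ) :
    AEMeasurable (fun x => (G x).det) μ := by
  simp only [Matrix.det_apply]
  refine Finset.aemeasurable_fun_sum _ fun σ _ => ?_
  have : AEMeasurable (fun x => ∏ i, G x (σ i) i) μ :=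
    Finset.aemeasurable_fun_prod _ fun i _ => h _ _
  rcases Int.units_eq_one_or (Equiv.Perm.sign σ) with e | e
  · simpa [e] using this
  · have h2 : AEMeasurable (fun x => -∏ i, G x (σ i) i) μ := this.neg
    simpa [e] using h2

theorem aem_inv {G : X → Matrix (Fin n) (Fin n) ℝ} (h : ∀ i j, AEMeasurable (fun x => G x i j) μ)
    (i j : Fin n) : AEMeasurable (fun x => (G x)⁻¹ i j) μ := by
  have e : (fun x => (G x)⁻¹ i j) = fun x => (G x).det⁻¹ * ((G x).updateRow j (Pi.single i 1)).det := by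
    funext x
    rw [Matrix.inv_def, Matrix.smul_apply, Matrix.adjugate_apply, Ring.inverse_eq_inv', smul_eq_mul]
  rw [e]
  refine (aem_det h).inv.mul (aem_det fun k l => ?_)
  rcases eq_or_ne k j with hk | hk
  · subst hk
    have : (fun x => (G x).updateRow k (Pi.single i (1 : ℝ)) k l) = fun _ => (Pi.single i (1 : ℝ) : Fin n → ℝ) l := by
      funext x
      rw [Matrix.updateRow_self]
    rw [this]
    exact aemeasurable_const
  · have : (fun x => (G x).updateRow j (Pi.single i (1 : ℝ)) k l) = fun x => G x k l := by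
      funext x
      rw [Matrix.updateRow_ne hk]
    rw [this]
    exact h k l

theorem posDef_of {G : Matrix (Fin n) (Fin n) ℝ} (hs : ∀ i j, G i j = G j i) {δ : ℝ} (hδ : 0 < δ)
    (h : ∀ v : Fin n → ℝ, δ * ∑ i, v i ^ 2 ≤ ∑ i, ∑ j, G i j * v i * v j) : G.PosDef := by
  refine Matrix.PosDef.of_dotProduct_mulVec_pos ?_ ?_
  · ext i j
    simp only [Matrix.conjTranspose_apply, star_trivial]
    exact hs j i
  · intro v hv
    have h2 : star v ⬝ᵥ G.mulVec v = ∑ a, ∑ b, G a b * v a * v b := by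
      simp only [dotProduct, Matrix.mulVec, Finset.mul_sum, star_trivial]
      exact Finset.sum_congr rfl fun a _ => Finset.sum_congr rfl fun b _ => by ring
    rw [h2]
    refine lt_of_lt_of_le ?_ (h v)
    obtain ⟨i, hi⟩ := Function.ne_iff.1 hv
    have hi' : v i ≠ 0 := hi
    have h3 : 0 < v i ^ 2 := by positivity
    have h4 : v i ^ 2 ≤ ∑ i, v i ^ 2 :=
      Finset.single_le_sum (f := fun i => v i ^ 2) (fun i _ => sq_nonneg _) (Finset.mem_univ i)
    exact mul_pos hδ (lt_of_lt_of_le h3 h4)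

theorem inv_entry {G : Matrix (Fin n) (Fin n) ℝ} (hs : ∀ i j, G i j = G j i) {δ : ℝ} (hδ : 0 < δ)
    (h : ∀ v : Fin n → ℝ, δ * ∑ i, v i ^ 2 ≤ ∑ i, ∑ j, G i j * v i * v j) (i j : Fin n) :
    |G⁻¹ i j| ≤ 1 / δ := by
  have hp := posDef_of hs hδ h
  have hu : IsUnit G.det := (Matrix.isUnit_iff_isUnit_det G).1 hp.isUnit
  have hI : G * G⁻¹ = 1 := Matrix.mul_nonsing_inv G hu
  have h1 := h (fun k => G⁻¹ k j)
  have h2 : ∑ k, ∑ l, G k l * G⁻¹ k j * G⁻¹ l j = G⁻¹ j j := by
    calc ∑ k, ∑ l, G k l * G⁻¹ k j * G⁻¹ l j = ∑ k, G⁻¹ k j * (G * G⁻¹) k j := by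
          refine Finset.sum_congr rfl fun k _ => ?_
          rw [Matrix.mul_apply, Finset.mul_sum]
          exact Finset.sum_congr rfl fun l _ => by ring
      _ = _ := by
          rw [hI]
          simp [Matrix.one_apply]
  rw [h2] at h1
  set S := ∑ k, G⁻¹ k j ^ 2 with hS
  have h3 : G⁻¹ j j ^ 2 ≤ S :=
    Finset.single_le_sum (f := fun k => G⁻¹ k j ^ 2) (fun i _ => sq_nonneg _) (Finset.mem_univ j)
  have h4 : G⁻¹ i j ^ 2 ≤ S :=
    Finset.single_le_sum (f := fun k => G⁻¹ k j ^ 2) (fun i _ => sq_nonneg _) (Finset.mem_univ i)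
  have hS0 : 0 ≤ S := Finset.sum_nonneg fun k _ => sq_nonneg _
  have h5 : (δ * S) ^ 2 ≤ S := (pow_le_pow_left₀ (by positivity) h1 2).trans h3
  have h6 : S ≤ (1 / δ) ^ 2 := by
    rcases hS0.eq_or_lt with h0 | h0
    · rw [← h0]; positivity
    · have h7 : δ ^ 2 * S ≤ 1 := by
        by_contra hcon
        push Not at hcon
        have : S * 1 < S * (δ ^ 2 * S) := mul_lt_mul_of_pos_left hcon h0
        nlinarith
      rw [div_pow, one_pow, le_div_iff₀ (by positivity)]
      linarith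
  exact abs_le_of_sq_le_sq (h4.trans h6) (by positivity)

theorem bm_inv {G : X → Matrix (Fin n) (Fin n) ℝ} (hG : ∀ i j, BM μ (fun x => G x i j))
    (hs : ∀ x i j, G x i j = G x j i) {δ : ℝ} (hδ : 0 < δ)
    (h : ∀ᵐ x ∂μ, ∀ v : Fin n → ℝ, δ * ∑ i, v i ^ 2 ≤ ∑ i, ∑ j, G x i j * v i * v j) (i j : Fin n) :
    BM μ (fun x => (G x)⁻¹ i j) := by
  refine ⟨(aem_inv (fun i j => (hG i j).1.aemeasurable) i j).aestronglyMeasurable, 1 / δ, ?_⟩
  filter_upwards [h] with x hx
  exact inv_entry (hs x) hδ hx i j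

/-- from the Cauchy-Schwarz form to the `Sq` form -/
theorem sq_of_cs {T H : Matrix (Fin n) (Fin n) ℝ} (hT : T.PosSemidef) (hH : H.PosDef)
    (a : Fin n → Fin n → ℝ) {Q : ℝ} (hQ : 0 ≤ Q)
    (h : ∀ ζ : Fin n → Fin n → ℝ, (∑ k, ipt T (a k) (ζ k)) ^ 2 ≤ Q * Step.qf T H ζ ζ) :
    Step.Sq T H a ≤ Q := by
  set y : Fin n → Fin n → ℝ := fun l b => ∑ m, H⁻¹ l m * a m b with hy
  have hTs := Step.isSymm_of_psd hT
  have h1 : Step.qf T H y y = ∑ k, ipt T (y k) (a k) := Step.qf_inv_right hH y a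
  have h2 : ∑ k, ipt T (y k) (a k) = Step.Sq T H a := by
    unfold Step.Sq
    refine Finset.sum_congr rfl fun k _ => ?_
    rw [hy]
    dsimp only
    rw [Step.ipt_sum_left]
    refine Finset.sum_congr rfl fun l _ => ?_
    rw [Step.ipt_smul_left, Step.ipt_comm hTs]
  have h3 : ∑ k, ipt T (a k) (y k) = Step.Sq T H a := by
    rw [← h2]
    exact Finset.sum_congr rfl fun k _ => Step.ipt_comm hTs _ _
  have h4 := h y
  rw [h1, h2, h3] at h4
  have h5 : 0 ≤ Step.Sq T H a := by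
    rw [← h2, ← h1]
    exact Step.qf_self_nonneg hT hH.posSemidef y
  rcases h5.eq_or_lt with h0 | h0
  · rw [← h0]; exact hQ
  · nlinarith

/-- back -/
theorem cs_of_sq {T G : Matrix (Fin n) (Fin n) ℝ} (hT : T.PosSemidef) (hG : G.PosDef)
    (b ζ : Fin n → Fin n → ℝ) :
    (∑ k, ipt T (b k) (ζ k)) ^ 2 ≤ Step.Sq T G b * Step.qf T G ζ ζ := by
  have hTs := Step.isSymm_of_psd hT
  set A := Step.Sq T G b with hA
  set D := Step.qf T G ζ ζ with hD
  have hD0 : 0 ≤ D := Step.qf_self_nonneg hT hG.posSemidef ζ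
  set L := ∑ k, ipt T (b k) (ζ k) with hL
  have key : ∀ r : ℝ, 0 < r → 2 * L ≤ r * A + r⁻¹ * D := by
    intro r hr
    have h1 := Step.pw_amgm hT hG ζ b hr
    have e : ∑ k, ipt T (ζ k) (b k) = L :=
      Finset.sum_congr rfl fun k _ => Step.ipt_comm hTs _ _
    rw [e] at h1
    exact h1
  have key' : ∀ r : ℝ, 0 < r → -(2 * L) ≤ r * A + r⁻¹ * D := by
    intro r hr
    have h1 := Step.pw_amgm hT hG (fun k c => (-1) * ζ k c) b hr
    have e : ∑ k, ipt T (fun c => (-1) * ζ k c) (b k) = -L := by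
      rw [hL, ← Finset.sum_neg_distrib]
      refine Finset.sum_congr rfl fun k _ => ?_
      rw [Step.ipt_smul_left, Step.ipt_comm hTs]; ring
    have e2 : Step.qf T G (fun k c => (-1) * ζ k c) (fun k c => (-1) * ζ k c) = D := by
      rw [hD]
      unfold Step.qf
      refine Finset.sum_congr rfl fun k _ => Finset.sum_congr rfl fun l _ => ?_
      rw [Step.ipt_smul_left, Step.ipt_smul_right]; ring
    rw [e, e2] at h1
    have e3 : ∑ k, ∑ l, G⁻¹ k l * ipt T (b k) (b l) = A := rfl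
    rw [e3] at h1
    linarith
  have habs : ∀ r : ℝ, 0 < r → 2 * |L| ≤ r * A + r⁻¹ * D := by
    intro r hr
    rcases abs_cases L with ⟨h1, _⟩ | ⟨h1, _⟩
    · rw [h1]; exact key r hr
    · rw [h1]; have := key' r hr; linarith
  rw [← sq_abs]
  have hA0 : 0 ≤ A := by
    by_contra hcon
    push Not at hcon
    -- r large
    have h1 := habs ((D + 1) / (-A) + 1) (by have : 0 < (D + 1) / (-A) := div_pos (by linarith) (by linarith); linarith)
    set r := (D + 1) / (-A) + 1 with hr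
    have hr1 : 1 ≤ r := by
      have : 0 < (D + 1) / (-A) := div_pos (by linarith) (by linarith)
      linarith
    have h2 : r⁻¹ * D ≤ D := by
      have : r⁻¹ ≤ 1 := inv_le_one_of_one_le₀ hr1
      nlinarith
    have h3 : r * A ≤ -(D + 1) := by
      have h4 : (D + 1) / (-A) * (-A) = D + 1 := div_mul_cancel₀ _ (by linarith)
      have h5 : r * (-A) = (D + 1) / (-A) * (-A) + (-A) := by rw [hr]; ring
      rw [h4] at h5
      linarith
    have := abs_nonneg L
    linarith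
  rcases hA0.eq_or_lt with h0 | h0
  · -- A = 0
    rw [← h0] at habs
    have hL0 : |L| ≤ 0 := by
      by_contra hcon
      push Not at hcon
      have h1 := habs ((D + 1) / |L|) (div_pos (by linarith) hcon)
      rw [inv_div] at h1
      have h2 : |L| / (D + 1) * D ≤ |L| := by
        rw [div_mul_eq_mul_div, div_le_iff₀ (by linarith)]
        nlinarith
      simp only [mul_zero, zero_add] at h1
      linarith
    have hL1 : |L| = 0 := le_antisymm hL0 (abs_nonneg _)
    rw [hL1, ← h0]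
    simp
  · rcases hD0.eq_or_lt with h1 | h1
    · have hL0 : |L| ≤ 0 := by
        by_contra hcon
        push Not at hcon
        have h2 := habs (|L| / A) (div_pos hcon h0)
        rw [← h1] at h2
        have h3 : |L| / A * A = |L| := div_mul_cancel₀ _ h0.ne'
        rw [h3] at h2
        simp only [mul_zero, add_zero] at h2
        linarith
      have hL1 : |L| = 0 := le_antisymm hL0 (abs_nonneg _)
      rw [hL1, ← h1]
      simp
    · have h2 := habs (Real.sqrt D / Real.sqrt A) (div_pos (Real.sqrt_pos.2 h1) (Real.sqrt_pos.2 h0))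
      have hsA := Real.mul_self_sqrt hA0
      have hsD := Real.mul_self_sqrt hD0
      have pA := Real.sqrt_pos.2 h0
      have pD := Real.sqrt_pos.2 h1
      have e1 : Real.sqrt D / Real.sqrt A * A = Real.sqrt D * Real.sqrt A := by
        rw [div_mul_eq_mul_div, div_eq_iff pA.ne', mul_assoc, hsA]
      have e2 : (Real.sqrt D / Real.sqrt A)⁻¹ * D = Real.sqrt D * Real.sqrt A := by
        rw [inv_div, div_mul_eq_mul_div, div_eq_iff pD.ne', mul_right_comm, hsD, mul_comm]
      rw [e1, e2] at h2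
      have h3 : |L| ≤ Real.sqrt D * Real.sqrt A := by linarith
      calc |L| ^ 2 ≤ (Real.sqrt D * Real.sqrt A) ^ 2 := pow_le_pow_left₀ (abs_nonneg _) h3 2
        _ = A * D := by
            rw [mul_pow, Real.sq_sqrt hD0, Real.sq_sqrt hA0]; ring

end general

/-! ## the plug -/

variable {n : ℕ} {V : E n → ℝ} {t : E n → Matrix (Fin n) (Fin n) ℝ} {c C s : ℝ}

theorem lhs_eq (T : Matrix (Fin n) (Fin n) ℝ) (D : Fin n → Matrix (Fin n) (Fin n) ℝ) (z : Fin n → ℝ)
    (ζ : Fin n → Fin n → ℝ) : ∑ a, ∑ b, T a b * ∑ k, ∑ l, D a k l * z l * ζ b k =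
      ∑ k, ipt T (fun a => ∑ l, z l * D a k l) (fun b => ζ b k) := by
  unfold ipt
  calc ∑ a, ∑ b, T a b * ∑ k, ∑ l, D a k l * z l * ζ b k
      = ∑ a, ∑ b, ∑ k, T a b * (∑ l, z l * D a k l) * ζ b k := by
        refine Finset.sum_congr rfl fun a _ => Finset.sum_congr rfl fun b _ => ?_
        rw [Finset.mul_sum]
        refine Finset.sum_congr rfl fun k _ => ?_
        rw [Finset.mul_sum, Finset.mul_sum, Finset.sum_mul]
        exact Finset.sum_congr rfl fun l _ => by ring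
    _ = ∑ a, ∑ k, ∑ b, T a b * (∑ l, z l * D a k l) * ζ b k :=
        Finset.sum_congr rfl fun a _ => Finset.sum_comm
    _ = _ := Finset.sum_comm

theorem rhs_eq (T H : Matrix (Fin n) (Fin n) ℝ) (ζ : Fin n → Fin n → ℝ) :
    ∑ a, ∑ b, T a b * ∑ k, ∑ l, H k l * ζ a k * ζ b l =
      Step.qf T H (fun k a => ζ a k) (fun k a => ζ a k) := by
  unfold Step.qf ipt
  calc ∑ a, ∑ b, T a b * ∑ k, ∑ l, H k l * ζ a k * ζ b l
      = ∑ a, ∑ b, ∑ k, ∑ l, H k l * (T a b * ζ a k * ζ b l) := by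
        refine Finset.sum_congr rfl fun a _ => Finset.sum_congr rfl fun b _ => ?_
        rw [Finset.mul_sum]
        refine Finset.sum_congr rfl fun k _ => ?_
        rw [Finset.mul_sum]
        exact Finset.sum_congr rfl fun l _ => by ring
    _ = ∑ a, ∑ k, ∑ b, ∑ l, H k l * (T a b * ζ a k * ζ b l) :=
        Finset.sum_congr rfl fun a _ => Finset.sum_comm
    _ = ∑ k, ∑ a, ∑ b, ∑ l, H k l * (T a b * ζ a k * ζ b l) := Finset.sum_comm
    _ = ∑ k, ∑ a, ∑ l, ∑ b, H k l * (T a b * ζ a k * ζ b l) :=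
        Finset.sum_congr rfl fun k _ => Finset.sum_congr rfl fun a _ => Finset.sum_comm
    _ = ∑ k, ∑ l, ∑ a, ∑ b, H k l * (T a b * ζ a k * ζ b l) :=
        Finset.sum_congr rfl fun k _ => Finset.sum_comm
    _ = _ := by
        refine Finset.sum_congr rfl fun k _ => Finset.sum_congr rfl fun l _ => ?_
        rw [Finset.mul_sum]
        exact Finset.sum_congr rfl fun a _ => by rw [Finset.mul_sum]

/-- the weight of the Cauchy-Schwarz form is nonnegative -/
theorem weight_nonneg {T H : Matrix (Fin n) (Fin n) ℝ} {dT dH : ℝ} (hdT : 0 < dT) (hdH : 0 < dH)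
    (hT : ∀ v : Fin n → ℝ, dT * ∑ i, v i ^ 2 ≤ ∑ i, ∑ j, T i j * v i * v j)
    (hH : ∀ v : Fin n → ℝ, dH * ∑ i, v i ^ 2 ≤ ∑ i, ∑ j, H i j * v i * v j)
    {L : (Fin n → Fin n → ℝ) → ℝ} {Q : ℝ} (h0 : IsEmpty (Fin n) → Q = 0)
    (h : ∀ ζ : Fin n → Fin n → ℝ, L ζ ^ 2 ≤
      Q * ∑ a, ∑ b, T a b * ∑ k, ∑ l, H k l * ζ a k * ζ b l) : 0 ≤ Q := by
  rcases isEmpty_or_nonempty (Fin n) with he | ⟨⟨i⟩⟩
  · exact (h0 he).ge
  · have h1 := h (fun a k => (if a = i then 1 else 0) * (if k = i then 1 else 0))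
    have e1 : ∑ a, ∑ b, T a b * ∑ k, ∑ l, H k l * ((if a = i then 1 else 0) * (if k = i then 1 else 0))
        * ((if b = i then 1 else 0) * (if l = i then 1 else 0)) = T i i * H i i := by
      simp
    rw [e1] at h1
    have h2 := hT (fun a => if a = i then 1 else 0)
    have h3 := hH (fun a => if a = i then 1 else 0)
    simp at h2 h3
    have h4 : 0 < T i i := lt_of_lt_of_le hdT h2
    have h5 : 0 < H i i := lt_of_lt_of_le hdH h3
    by_contra hcon
    push Not at hcon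
    have h6 : 0 < T i i * H i i := mul_pos h4 h5
    have h7 := mul_neg_of_neg_of_pos hcon h6
    have h8 := sq_nonneg (L fun a k => (if a = i then 1 else 0) * (if k = i then 1 else 0))
    linarith

theorem dom_sum (hB : Base V t c C) {ι : Type*} (S : Finset ι) (p : ι → ℝ) {u Au : ι → E n → ℝ}
    {Du : ι → Fin n → E n → ℝ} (h : ∀ i, Dom V t (u i) (Du i) (Au i)) :
    ∃ Du', Dom V t (fun x => ∑ i ∈ S, p i * u i x) Du' (fun x => ∑ i ∈ S, p i * Au i x) := by
  classical
  have hlin := (H464.stmtLin n V t c C hB).1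
  induction S using Finset.induction_on with
  | empty =>
    have h1 := (H464.stmtLin n V t c C hB).2.2.2.2.2
    have h2 := hlin _ _ _ _ _ _ h1 h1 0 0
    have e1 : (fun _ : E n => (0 : ℝ) * 1 + 0 * 1) = fun _ => 0 := by funext x; ring
    have e2 : (fun _ : E n => (0 : ℝ) * 0 + 0 * 0) = fun _ => 0 := by funext x; ring
    rw [e1, e2] at h2
    simp only [Finset.sum_empty]
    exact ⟨_, h2⟩
  | insert i S hi ih =>
    obtain ⟨Du', ih⟩ := ih
    have h2 := hlin _ _ _ _ _ _ (h i) ih (p i) 1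
    have e1 : (fun x => ∑ j ∈ insert i S, p j * u j x) =
        fun x => p i * u i x + 1 * ∑ j ∈ S, p j * u j x := by
      funext x; rw [Finset.sum_insert hi]; ring
    have e2 : (fun x => ∑ j ∈ insert i S, p j * Au j x) =
        fun x => p i * Au i x + 1 * ∑ j ∈ S, p j * Au j x := by
      funext x; rw [Finset.sum_insert hi]; ring
    rw [e1, e2]
    exact ⟨_, h2⟩

theorem dom_quad (hB : Base V t c C) {G AG : E n → Matrix (Fin n) (Fin n) ℝ}
    {DG : Fin n → E n → Matrix (Fin n) (Fin n) ℝ}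
    (hd : ∀ i j, Dom V t (fun x => G x i j) (fun a x => DG a x i j) (fun x => AG x i j))
    (v : Fin n → ℝ) : ∃ Dq, Dom V t (fun x => ∑ i, ∑ j, G x i j * v i * v j) Dq
      (fun x => ∑ i, ∑ j, AG x i j * v i * v j) := by
  obtain ⟨D, hD⟩ := dom_sum hB (Finset.univ : Finset (Fin n × Fin n)) (fun i => v i.1 * v i.2)
    (u := fun i x => G x i.1 i.2) (Au := fun i x => AG x i.1 i.2)
    (Du := fun i a x => DG a x i.1 i.2) (fun i => hd i.1 i.2)
  refine ⟨D, ?_⟩
  have e1 : (fun x => ∑ i : Fin n × Fin n, v i.1 * v i.2 * G x i.1 i.2) =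
      fun x => ∑ i, ∑ j, G x i j * v i * v j := by
    funext x
    rw [Fintype.sum_prod_type]
    exact Finset.sum_congr rfl fun i _ => Finset.sum_congr rfl fun j _ => by ring
  have e2 : (fun x => ∑ i : Fin n × Fin n, v i.1 * v i.2 * AG x i.1 i.2) =
      fun x => ∑ i, ∑ j, AG x i j * v i * v j := by
    funext x
    rw [Fintype.sum_prod_type]
    exact Finset.sum_congr rfl fun i _ => Finset.sum_congr rfl fun j _ => by ring
  rw [← e1, ← e2]
  exact hD

theorem quad_lin (p q : ℝ) (A B : Matrix (Fin n) (Fin n) ℝ) (v : Fin n → ℝ) :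
    ∑ i, ∑ j, (p * A i j + q * B i j) * v i * v j =
      p * (∑ i, ∑ j, A i j * v i * v j) + q * ∑ i, ∑ j, B i j * v i * v j := by
  rw [Finset.mul_sum, Finset.mul_sum, ← Finset.sum_add_distrib]
  refine Finset.sum_congr rfl fun i _ => ?_
  rw [Finset.mul_sum, Finset.mul_sum, ← Finset.sum_add_distrib]
  exact Finset.sum_congr rfl fun j _ => by ring

section core
variable {δ B : ℝ} {H AH : E n → Matrix (Fin n) (Fin n) ℝ}
  {DH : Fin n → E n → Matrix (Fin n) (Fin n) ℝ} {G AG : E n → Matrix (Fin n) (Fin n) ℝ}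
  {DG : Fin n → E n → Matrix (Fin n) (Fin n) ℝ}

theorem res_quad (hGH : ∀ᵐ x, ∀ i j, G x i j + s * AG x i j = H x i j) : ∀ᵐ x, ∀ v : Fin n → ℝ,
    (∑ i, ∑ j, G x i j * v i * v j) + s * (∑ i, ∑ j, AG x i j * v i * v j) =
      ∑ i, ∑ j, H x i j * v i * v j := by
  filter_upwards [hGH] with x hx v
  have h1 := quad_lin 1 s (G x) (AG x) v
  rw [one_mul] at h1
  rw [← h1]
  refine Finset.sum_congr rfl fun i _ => Finset.sum_congr rfl fun j _ => ?_
  rw [← hx i j]; ring

theorem low_G (hB : Base V t c C) (hs : 0 < s) (hH : MF V H DH δ B)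
    (hGd : ∀ i j, Dom V t (fun x => G x i j) (fun a x => DG a x i j) (fun x => AG x i j))
    (hGH : ∀ᵐ x, ∀ i j, G x i j + s * AG x i j = H x i j) :
    ∀ᵐ x, ∀ v : Fin n → ℝ, δ * ∑ i, v i ^ 2 ≤ ∑ i, ∑ j, G x i j * v i * v j := by
  refine ae_closed (fun x => isClosed_le (by fun_prop) (by fun_prop)) fun v => ?_
  obtain ⟨Dq, F, hF⟩ := dom_quad hB hGd v
  refine hF.ge hB.toTE hs ?_
  filter_upwards [hH.low, res_quad hGH] with x h1 h2
  rw [h2 v]
  exact h1 v

theorem upp_G (hB : Base V t c C) (hs : 0 < s) (hH : MF V H DH δ B)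
    (hGd : ∀ i j, Dom V t (fun x => G x i j) (fun a x => DG a x i j) (fun x => AG x i j))
    (hGH : ∀ᵐ x, ∀ i j, G x i j + s * AG x i j = H x i j) :
    ∀ᵐ x, ∀ i j, |G x i j| ≤ B := by
  rw [ae_all_iff]; intro i
  rw [ae_all_iff]; intro j
  obtain ⟨F, hF⟩ := hGd i j
  have h1 := hF.ge hB.toTE hs (M := -B) (by
    filter_upwards [hH.upp, hGH] with x h1 h2
    rw [h2 i j]
    exact neg_le_of_neg_le ((neg_le_abs _).trans (h1 i j)))
  have h2 := hF.le hB.toTE hs (M := B) (by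
    filter_upwards [hH.upp, hGH] with x h1 h2
    rw [h2 i j]
    exact (le_abs_self _).trans (h1 i j))
  filter_upwards [h1, h2] with x a b
  exact abs_le.2 ⟨a, b⟩

theorem mle_G (hB : Base V t c C) (hs : 0 < s)
    (hHd : ∀ i j, Dom V t (fun x => H x i j) (fun a x => DH a x i j) (fun x => AH x i j))
    (hAH : Mle AH H)
    (hGd : ∀ i j, Dom V t (fun x => G x i j) (fun a x => DG a x i j) (fun x => AG x i j))
    (hGH : ∀ᵐ x, ∀ i j, G x i j + s * AG x i j = H x i j) :
    (∀ᵐ x, ∀ v : Fin n → ℝ, ∑ i, ∑ j, H x i j * v i * v j ≤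
      (1 + s) * ∑ i, ∑ j, G x i j * v i * v j) ∧ Mle AG G := by
  have h1 : ∀ᵐ x, ∀ v : Fin n → ℝ, ∑ i, ∑ j, H x i j * v i * v j ≤
      (1 + s) * ∑ i, ∑ j, G x i j * v i * v j := by
    refine ae_closed (fun x => isClosed_le (by fun_prop) (by fun_prop)) fun v => ?_
    obtain ⟨D1, hD1⟩ := dom_quad hB hGd v
    obtain ⟨D2, hD2⟩ := dom_quad hB hHd v
    have h3 := (H464.stmtLin n V t c C hB).1 _ _ _ _ _ _ hD1 hD2 (1 + s) (-1)
    have h4 := H464.stmtPos n V t c C hB s hs _ _ _ h3 (by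
      filter_upwards [res_quad hGH, hAH] with x e1 e2
      have e3 := e1 v
      have e4 := e2 v
      have e5 : (1 + s) * (∑ i, ∑ j, G x i j * v i * v j) + -1 * (∑ i, ∑ j, H x i j * v i * v j) +
          s * ((1 + s) * (∑ i, ∑ j, AG x i j * v i * v j) + -1 * (∑ i, ∑ j, AH x i j * v i * v j)) =
          (1 + s) * ((∑ i, ∑ j, G x i j * v i * v j) + s * (∑ i, ∑ j, AG x i j * v i * v j)) -
            (∑ i, ∑ j, H x i j * v i * v j) - s * (∑ i, ∑ j, AH x i j * v i * v j) := by ring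
      rw [e5, e3]
      nlinarith)
    filter_upwards [h4] with x hx
    linarith
  refine ⟨h1, ?_⟩
  filter_upwards [h1, res_quad hGH] with x a b v
  have a' := a v
  have b' := b v
  have h2 : s * (∑ i, ∑ j, AG x i j * v i * v j) ≤ s * ∑ i, ∑ j, G x i j * v i * v j := by
    linarith
  exact le_of_mul_le_mul_left h2 hs

theorem sol_quad (hB : Base V t c C) {M W : E n → Matrix (Fin n) (Fin n) ℝ}
    (hW : ∀ i j, Sol V t s (fun x => M x i j) (fun x => W x i j)) (v : Fin n → ℝ) :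
    Sol V t s (fun x => ∑ i, ∑ j, M x i j * v i * v j) (fun x => ∑ i, ∑ j, W x i j * v i * v j) := by
  choose D A hd he using hW
  obtain ⟨Dq, hq⟩ := dom_quad hB (G := W) (AG := fun x i j => A i j x) (DG := fun a x i j => D i j a x)
    hd v
  refine ⟨Dq, _, hq, ?_⟩
  have h1 : ∀ᵐ x, ∀ i j, (1 + s / 2) * W x i j + s * A i j x = M x i j :=
    ae_all_iff.2 fun i => ae_all_iff.2 fun j => he i j
  filter_upwards [h1] with x hx
  have h2 := quad_lin (1 + s / 2) s (W x) (fun i j => A i j x) v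
  rw [← h2]
  refine Finset.sum_congr rfl fun i _ => Finset.sum_congr rfl fun j _ => ?_
  rw [hx i j]

/-- `P H ≤ κ G` -/
theorem ph_le (hB : Base V t c C) (hs : 0 < s)
    (hGd : ∀ i j, Dom V t (fun x => G x i j) (fun a x => DG a x i j) (fun x => AG x i j))
    (hGH : ∀ᵐ x, ∀ i j, G x i j + s * AG x i j = H x i j)
    (h1 : ∀ᵐ x, ∀ v : Fin n → ℝ, ∑ i, ∑ j, H x i j * v i * v j ≤
      (1 + s) * ∑ i, ∑ j, G x i j * v i * v j)
    {W : E n → Matrix (Fin n) (Fin n) ℝ}
    (hW : ∀ i j, Sol V t s (fun x => H x i j) (fun x => W x i j)) :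
    ∀ᵐ x, ∀ v : Fin n → ℝ, ∑ i, ∑ j, W x i j * v i * v j ≤
      (1 + s) / (1 + 3 * s / 2) * ∑ i, ∑ j, G x i j * v i * v j := by
  have hk : 0 < 1 + 3 * s / 2 := by positivity
  refine ae_closed (fun x => isClosed_le (by fun_prop) (by fun_prop)) fun v => ?_
  obtain ⟨D1, hD1⟩ := dom_quad hB hGd v
  have h3 : Sol V t s (fun x => ∑ i, ∑ j, H x i j * v i * v j + s / 2 *
      ∑ i, ∑ j, G x i j * v i * v j) (fun x => ∑ i, ∑ j, G x i j * v i * v j) := by
    refine ⟨D1, _, hD1, ?_⟩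
    filter_upwards [res_quad hGH] with x hx
    have := hx v
    linarith
  have h4 := ((sol_quad hB hW v).lin hB h3 (-(1 + 3 * s / 2)) (1 + s)).nonneg hB hs (by
    filter_upwards [h1] with x hx
    have := hx v
    nlinarith)
  filter_upwards [h4] with x hx
  rw [div_mul_eq_mul_div, le_div_iff₀ hk]
  linarith

theorem quad_flip (A : Matrix (Fin n) (Fin n) ℝ) (v : Fin n → ℝ) :
    ∑ k, ∑ l, v k * v l * A k l = ∑ i, ∑ j, A i j * v i * v j :=
  Finset.sum_congr rfl fun i _ => Finset.sum_congr rfl fun j _ => by ring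

/-- the common core of the two literal rows -/
theorem core0 (hK : StmtKato) (hE : StmtR1E) (hC : StmtComm) (hB : Base V t c C) (hs : 0 < s)
    (hH : MF V H DH δ B)
    (hHd : ∀ i j, Dom V t (fun x => H x i j) (fun a x => DH a x i j) (fun x => AH x i j))
    (hAH : Mle AH H) {Sg : E n → Matrix (Fin n) (Fin n) ℝ} (hSg : ∀ i j, BM (mu V) (fun x => Sg x i j))
    (hCS : CSM t H DH Sg)
    (hGd : ∀ i j, Dom V t (fun x => G x i j) (fun a x => DG a x i j) (fun x => AG x i j))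
    (hGs : ∀ x i j, G x i j = G x j i) (hDGs : ∀ a x i j, DG a x i j = DG a x j i)
    (hGH : ∀ᵐ x, ∀ i j, G x i j + s * AG x i j = H x i j) :
    (∃ B', MF V G DG δ B') ∧ Mle AG G ∧
    (∀ W : E n → Matrix (Fin n) (Fin n) ℝ,
      (∀ i j, Sol V t s (fun x => Sg x i j) (fun x => W x i j)) →
      CSM t G DG (fun x => ((1 + s) / (1 + 3 * s / 2)) • W x)) ∧
    (∀ W : E n → Matrix (Fin n) (Fin n) ℝ,
      (∀ i j, Sol V t s (fun x => H x i j) (fun x => W x i j)) →
      ∀ᵐ x, ∀ v : Fin n → ℝ, ∑ i, ∑ j, W x i j * v i * v j ≤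
        (1 + s) / (1 + 3 * s / 2) * ∑ i, ∑ j, G x i j * v i * v j) := by
  have hfin := fin_mu hB
  have hV := hB.V2.continuous
  have hk : 0 < 1 + 3 * s / 2 := by positivity
  have hκ : 0 < (1 + s) / (1 + 3 * s / 2) := by positivity
  have hlow := low_G hB hs hH hGd hGH
  have hupp := upp_G hB hs hH hGd hGH
  obtain ⟨hHG, hMle⟩ := mle_G hB hs hHd hAH hGd hGH
  have hph := fun W hW => ph_le hB hs hGd hGH hHG (W := W) hW
  have hGH1 : ∀ i j, H1 V (fun x => G x i j) (fun a x => DG a x i j) := fun i j =>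
    (H464.stmtLin n V t c C hB).2.1 _ _ _ (hGd i j)
  -- bounded measurable entries
  have hHm : ∀ i j, BM (mu V) (fun x => H x i j) := fun i j =>
    bm_of (hH.h1 i j).u2.1 (M := B) (by filter_upwards [hH.upp] with x hx; exact hx i j)
  have hGm : ∀ i j, BM (mu V) (fun x => G x i j) := fun i j =>
    bm_of (hGH1 i j).u2.1 (M := B) (by filter_upwards [hupp] with x hx; exact hx i j)
  have hDHm : ∀ k l, BF (mu V) (fun x a => DH a x k l) := fun k l a =>
    bm_of ((hH.h1 k l).D2 a).1 (M := B) (by filter_upwards [hH.dupp] with x hx; exact hx a k l)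
  -- operators
  obtain ⟨P, hP, hPS⟩ := exists_P hB hs
  obtain ⟨R, hR, hRS⟩ := exists_R hK hE hB hs hP hPS
  have hRD : ∀ k l, R (fun x a => DH a x k l) =ᵐ[mu V] fun x a => DG a x k l := by
    intro k l
    have h1 : R1 V t s (fun x a => DH a x k l) (fun x a => DG a x k l) :=
      hC n V t c C hB s hs _ _ (hH.h1 k l) _ _ _ (hGd k l)
        (by filter_upwards [hGH] with x hx; exact hx k l)
    have h2 : RS V t s (fun x a => DH a x k l) (fun x a => DG a x k l) :=
      ⟨_, Eventually.of_forall fun x => rfl, h1⟩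
    exact to_mu ((hRS _ (hDHm k l)).unique hE hB hs h2 (Eventually.of_forall fun x => rfl))
  have hDGm : ∀ k l, BF (mu V) (fun x a => DG a x k l) := fun k l a =>
    (hR.mem _ (hDHm k l) a).congr (by
      filter_upwards [hRD k l] with x hx
      rw [hx])
  have hMF : ∃ B', MF V G DG δ B' := by
    choose Cb hCb using fun (q : Fin n × Fin n × Fin n) => (hDGm q.2.1 q.2.2 q.1).2
    refine ⟨|B| + ∑ q, |Cb q|, hH.d_pos, hGs, hlow, ?_, hGH1, hDGs, ?_⟩
    · filter_upwards [hupp] with x hx i j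
      have h1 : 0 ≤ ∑ q, |Cb q| := Finset.sum_nonneg fun q _ => abs_nonneg _
      have := hx i j
      have h2 := le_abs_self B
      linarith
    · have h1 : ∀ᵐ x, ∀ q : Fin n × Fin n × Fin n, |DG q.1 x q.2.1 q.2.2| ≤ Cb q :=
        ae_all_iff.2 fun q => of_mu hB (hCb q)
      filter_upwards [h1] with x hx a i j
      have h2 := hx (a, i, j)
      have h3 : |Cb (a, i, j)| ≤ ∑ q, |Cb q| :=
        Finset.single_le_sum (f := fun q => |Cb q|) (fun q _ => abs_nonneg _) (Finset.mem_univ _)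
      have h4 := le_abs_self (Cb (a, i, j))
      have h5 := abs_nonneg B
      dsimp only at h2
      linarith
  refine ⟨hMF, hMle, fun W hW => ?_, hph⟩
  have hHp : ∀ᵐ x ∂(mu V), (H x).PosDef := to_mu (by
    filter_upwards [hH.low] with x hx
    exact posDef_of (hH.symm x) hH.d_pos hx)
  have hGp : ∀ᵐ x ∂(mu V), (G x).PosDef := to_mu (by
    filter_upwards [hlow] with x hx
    exact posDef_of (hGs x) hH.d_pos hx)
  have hHi : ∀ i j, BM (mu V) (fun x => (H x)⁻¹ i j) := bm_inv hHm hH.symm hH.d_pos (to_mu hH.low)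
  have hGi : ∀ i j, BM (mu V) (fun x => (G x)⁻¹ i j) := bm_inv hGm hGs hH.d_pos (to_mu hlow)
  have htp : ∀ᵐ x ∂(mu V), (t x).PosSemidef := Eventually.of_forall fun x => posT hB x
  -- the hypothesis on `P H`
  have hPH : ∀ᵐ x ∂(mu V), ∀ v : Fin n → ℝ,
      ∑ k, ∑ l, v k * v l * P (fun x => H x k l) x ≤
        (1 + s) / (1 + 3 * s / 2) * ∑ k, ∑ l, v k * v l * G x k l := by
    have h1 := hph (fun x k l => P (fun x => H x k l) x) (fun i j => hPS _ (hHm i j))
    refine to_mu ?_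
    filter_upwards [h1] with x hx v
    have h2 := hx v
    rw [quad_flip (G x) v]
    have h3 := quad_flip (fun k l => P (fun x => H x k l) x) v
    have h3' : ∑ k, ∑ l, v k * v l * P (fun x => H x k l) x =
        ∑ i, ∑ j, P (fun x => H x i j) x * v i * v j := h3
    rw [h3']
    exact h2
  -- `P Sg = W`
  have hPW : ∀ᵐ x, ∀ k l, P (fun x => Sg x k l) x = W x k l :=
    ae_all_iff.2 fun k => ae_all_iff.2 fun l =>
      (hPS _ (hSg k l)).unique hB hs (hW k l) (Eventually.of_forall fun x => rfl)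
  -- the hypothesis `S_H ≤ Sg`
  have hS0 : ∀ᵐ x, ∀ z : Fin n → ℝ,
      Step.Sq (t x) (H x) (fun k a => ∑ l, z l * DH a x k l) ≤ ∑ k, ∑ l, z k * z l * Sg x k l := by
    filter_upwards [hCS, hH.low] with x h1 h2 z
    have hQ : 0 ≤ ∑ k, ∑ l, Sg x k l * z k * z l :=
      weight_nonneg hB.lam_pos hH.d_pos (fun v => low_ip hB (fun _ => v) x) h2
        (L := fun ζ => ∑ a, ∑ b, t x a b * ∑ k, ∑ l, DH a x k l * z l * ζ b k)
        (fun he => by simp [Finset.univ_eq_empty]) (fun ζ => h1 z ζ)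
    rw [quad_flip (Sg x) z]
    refine sq_of_cs (posT hB x) (posDef_of (hH.symm x) hH.d_pos h2) _ hQ fun ζ => ?_
    have h3 := h1 z (fun b k => ζ k b)
    rw [lhs_eq (t x) (fun a => DH a x) z, rhs_eq] at h3
    exact h3
  -- the step for every `z`
  have hstep : ∀ z : Fin n → ℝ, ∀ᵐ x,
      Step.Sq (t x) (G x) (fun k a => ∑ l, z l * DG a x k l) ≤
        (1 + s) / (1 + 3 * s / 2) * ∑ k, ∑ l, z k * z l * W x k l := by
    intro z
    have ha : ∀ k, BF (mu V) (fun x a => ∑ l, z l * DH a x k l) := fun k a =>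
      BM.sum _ fun l _ => (BM.const _).mul (hDHm k l a)
    have hb : ∀ k, BF (mu V) (fun x a => ∑ l, z l * DG a x k l) := fun k a =>
      BM.sum _ fun l _ => (BM.const _).mul (hDGm k l a)
    have hRab : ∀ k, R (fun x a => ∑ l, z l * DH a x k l) =ᵐ[mu V]
        fun x a => ∑ l, z l * DG a x k l := by
      intro k
      have h1 := hR.sum Finset.univ (w := fun l x a => DH a x k l) (fun l => hDHm k l) z
      have h2 : ∀ᵐ x ∂(mu V), ∀ l, R (fun x a => DH a x k l) x = fun a => DG a x k l :=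
        ae_all_iff.2 fun l => hRD k l
      filter_upwards [h1, h2] with x e1 e2
      rw [e1]
      funext a
      refine Finset.sum_congr rfl fun l _ => ?_
      rw [e2 l]
    have h1 := Step.step_z hP (bm_t hB) htp hR hHm hGm hHp hGp hHi hGi ha hb hRab hκ hSg hPH z
      (to_mu (by filter_upwards [hS0] with x hx; exact hx z))
    filter_upwards [of_mu hB h1, hPW] with x e1 e2
    refine e1.trans (le_of_eq ?_)
    congr 1
    refine Finset.sum_congr rfl fun k _ => Finset.sum_congr rfl fun l _ => ?_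
    rw [e2 k l]
  have hall : ∀ᵐ x, ∀ z : Fin n → ℝ,
      Step.Sq (t x) (G x) (fun k a => ∑ l, z l * DG a x k l) ≤
        (1 + s) / (1 + 3 * s / 2) * ∑ k, ∑ l, z k * z l * W x k l := by
    refine ae_closed (fun x => isClosed_le ?_ (by fun_prop)) hstep
    unfold Step.Sq ipt
    fun_prop
  filter_upwards [hall, hlow] with x h1 h2 z ζ
  have hG1 := posDef_of (hGs x) hH.d_pos h2
  have h3 := cs_of_sq (posT hB x) hG1 (fun k a => ∑ l, z l * DG a x k l) (fun k b => ζ b k)
  rw [lhs_eq (t x) (fun a => DG a x) z, rhs_eq]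
  refine h3.trans (mul_le_mul_of_nonneg_right ((h1 z).trans (le_of_eq ?_))
    (Step.qf_self_nonneg (posT hB x) hG1.posSemidef _))
  rw [Finset.mul_sum]
  refine Finset.sum_congr rfl fun k _ => ?_
  rw [Finset.mul_sum]
  refine Finset.sum_congr rfl fun l _ => ?_
  rw [Matrix.smul_apply, smul_eq_mul]
  ring

end core

/-- STEP0, literal -/
theorem step0 (hK : StmtKato) (hE : StmtR1E) (hC : StmtComm) : StmtStep0 := by
  intro n V t c C hB s hs δ B H AH Sg DH hH hHd hAH hSm hSs hSb hCS G AG DG hGd hGs hDGs hGH W AW DW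
    hWd hWe
  have hSg : ∀ i j, BM (mu V) (fun x => Sg x i j) := fun i j =>
    bm_of (hSm i j) (M := B) (by filter_upwards [hSb] with x hx; exact hx i j)
  obtain ⟨h1, h2, h3, _⟩ := core0 hK hE hC hB hs hH hHd hAH hSg hCS hGd hGs hDGs hGH
  exact ⟨h1, h2, h3 W fun i j => ⟨_, _, hWd i j, by filter_upwards [hWe] with x hx; exact hx i j⟩⟩

/-- STEP, literal -/
theorem step (hK : StmtKato) (hE : StmtR1E) (hC : StmtComm) : StmtStep := by
  intro n V t c C hB s hs δ B σ H AH DH hσ hH hHd hAH hCS G AG DG hGd hGs hDGs hGH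
  have hHm : ∀ i j, BM (mu V) (fun x => H x i j) := fun i j =>
    bm_of (hH.h1 i j).u2.1 (M := B) (by filter_upwards [hH.upp] with x hx; exact hx i j)
  have hSg : ∀ i j, BM (mu V) (fun x => (σ • H x) i j) := fun i j => (BM.const σ).mul (hHm i j)
  have hCSM : CSM t H DH (fun x => σ • H x) := by
    filter_upwards [hCS] with x hx z ζ
    refine (hx z ζ).trans (le_of_eq ?_)
    congr 1
    rw [Finset.mul_sum]
    refine Finset.sum_congr rfl fun k _ => ?_
    rw [Finset.mul_sum]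
    refine Finset.sum_congr rfl fun l _ => ?_
    rw [Matrix.smul_apply, smul_eq_mul]; ring
  obtain ⟨h1, h2, h3, h4⟩ := core0 hK hE hC hB hs hH hHd hAH hSg hCSM hGd hGs hDGs hGH
  refine ⟨h1, h2, ?_⟩
  obtain ⟨P, hP, hPS⟩ := exists_P hB hs
  have h5 := h4 (fun x i j => P (fun x => H x i j) x) (fun i j => hPS _ (hHm i j))
  have h6 := h3 (fun x i j => σ * P (fun x => H x i j) x) (fun i j => by
    have := (hPS _ (hHm i j)).lin hB (hPS _ (hHm i j)) σ 0
    simp only [zero_mul, add_zero] at this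
    exact this)
  obtain ⟨B', hMF⟩ := h1
  have hk : 0 < 1 + 3 * s / 2 := by positivity
  have hk2 : 0 < 1 + 2 * s := by positivity
  have hκ : 0 < (1 + s) / (1 + 3 * s / 2) := by positivity
  filter_upwards [h5, h6, hMF.low] with x e1 e2 e3 z ζ
  refine (e2 z ζ).trans ?_
  have hG1 := posDef_of (hMF.symm x) hMF.d_pos e3
  have hq : 0 ≤ ∑ a, ∑ b, t x a b * ∑ k, ∑ l, G x k l * ζ a k * ζ b l := by
    rw [rhs_eq]
    exact Step.qf_self_nonneg (posT hB x) hG1.posSemidef _
  refine mul_le_mul_of_nonneg_right ?_ hq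
  have f1 : ∑ k, ∑ l, (((1 + s) / (1 + 3 * s / 2)) • (fun i j => σ * P (fun x => H x i j) x :
      Matrix (Fin n) (Fin n) ℝ)) k l * z k * z l =
      (1 + s) / (1 + 3 * s / 2) * σ * ∑ k, ∑ l, P (fun x => H x k l) x * z k * z l := by
    rw [Finset.mul_sum]
    refine Finset.sum_congr rfl fun k _ => ?_
    rw [Finset.mul_sum]
    refine Finset.sum_congr rfl fun l _ => ?_
    have e0 : (((1 + s) / (1 + 3 * s / 2)) • (fun i j => σ * P (fun x => H x i j) x :
      Matrix (Fin n) (Fin n) ℝ)) k l = (1 + s) / (1 + 3 * s / 2) * (σ * P (fun x => H x k l) x) := rfl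
    rw [e0]; ring
  refine (le_of_eq f1).trans ?_
  have f2 := e1 z
  have hz : 0 ≤ ∑ k, ∑ l, G x k l * z k * z l := by
    refine le_trans ?_ (e3 z)
    have := hMF.d_pos
    positivity
  have f3 : (1 + s) / (1 + 3 * s / 2) * σ * (∑ k, ∑ l, P (fun x => H x k l) x * z k * z l) ≤
      (1 + s) / (1 + 3 * s / 2) * σ * ((1 + s) / (1 + 3 * s / 2) * ∑ k, ∑ l, G x k l * z k * z l) :=
    mul_le_mul_of_nonneg_left f2 (by positivity)
  refine f3.trans ?_
  have f4 : ((1 + s) / (1 + 3 * s / 2)) ^ 2 ≤ (1 + s) / (1 + 2 * s) := by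
    rw [div_pow, div_le_div_iff₀ (by positivity) hk2]
    nlinarith [hs, sq_nonneg s, mul_pos hs hs, mul_pos (mul_pos hs hs) hs]
  have f5 : (1 + s) / (1 + 3 * s / 2) * σ * ((1 + s) / (1 + 3 * s / 2) *
      ∑ k, ∑ l, G x k l * z k * z l) = ((1 + s) / (1 + 3 * s / 2)) ^ 2 * (σ *
      ∑ k, ∑ l, G x k l * z k * z l) := by ring
  have f6 : σ * (1 + s) / (1 + 2 * s) * ∑ k, ∑ l, G x k l * z k * z l =
      (1 + s) / (1 + 2 * s) * (σ * ∑ k, ∑ l, G x k l * z k * z l) := by ring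
  rw [f5, f6]
  exact mul_le_mul_of_nonneg_right f4 (mul_nonneg hσ hz)

end Vale.Agent.P245.K2.StepInst
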