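import Vale.Agent.P245.H895.QuadA

/-!
P245 (KLS project), row KATO, part A (helper828): pointwise algebra of the metric connection.
-/

set_option linter.all false

open MeasureTheory Filter Topology Set Metric
open scoped NNReal ENNReal ContDiff Matrix
open Vale.Agent.P227.M Vale.Agent.P227.M.K814 Vale.Agent.P254.SN

namespace Vale.Agent.P245.K828

variable {n : ℕ}

theorem hs_cs (Z : Matrix (Fin n) (Fin n) ℝ) (q : Fin n → ℝ) :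
    (Z *ᵥ q) ⬝ᵥ (Z *ᵥ q) ≤ (q ⬝ᵥ q) * (Z * Zᵀ).trace := by
  have h1 : (Z * Zᵀ).trace = ∑ i, ∑ j, Z i j ^ 2 := by
    simp only [Matrix.trace, Matrix.diag_apply, Matrix.mul_apply, Matrix.transpose_apply]
    exact Finset.sum_congr rfl fun i _ => Finset.sum_congr rfl fun j _ => by ring
  rw [h1, Finset.mul_sum]
  unfold dotProduct
  refine Finset.sum_le_sum fun i _ => ?_
  have h2 := Finset.sum_mul_sq_le_sq_mul_sq Finset.univ (fun j => Z i j) q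
  have h3 : (Z *ᵥ q) i = ∑ j, Z i j * q j := rfl
  rw [h3]
  calc (∑ j, Z i j * q j) * (∑ j, Z i j * q j) = (∑ j, Z i j * q j) ^ 2 := by ring
    _ ≤ (∑ j, Z i j ^ 2) * ∑ j, q j ^ 2 := h2
    _ = _ := by
      rw [mul_comm]
      congr 1
      exact Finset.sum_congr rfl fun j _ => by ring

/-- Cauchy-Schwarz for the metric `T` -/
theorem cs_alg {T : Matrix (Fin n) (Fin n) ℝ} (hT : T.PosDef) (X : Matrix (Fin n) (Fin n) ℝ)
    (u : Fin n → ℝ) :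
    (X *ᵥ u) ⬝ᵥ (T *ᵥ (X *ᵥ u)) ≤ (u ⬝ᵥ (T *ᵥ u)) * (X * T⁻¹ * Xᵀ * T).trace := by
  obtain ⟨S, hS⟩ := Vale.Agent.P254.S2.pw_fact hT.posSemidef
  have hdet : IsUnit T.det := (Matrix.isUnit_iff_isUnit_det T).1 hT.isUnit
  have hSdet : IsUnit S.det := by
    rw [hS, Matrix.det_mul, Matrix.det_transpose] at hdet
    exact isUnit_of_mul_isUnit_left hdet
  have hSS : S⁻¹ * S = 1 := Matrix.nonsing_inv_mul S hSdet
  have hTi : T⁻¹ = S⁻¹ * (S⁻¹)ᵀ := by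
    rw [hS, Matrix.mul_inv_rev, Matrix.transpose_nonsing_inv]
  have key := hs_cs (S * X * S⁻¹) (S *ᵥ u)
  have e1 : (S * X * S⁻¹) *ᵥ (S *ᵥ u) = S *ᵥ (X *ᵥ u) := by
    rw [Matrix.mulVec_mulVec, Matrix.mulVec_mulVec, Matrix.mul_assoc, Matrix.mul_assoc, hSS,
      Matrix.mul_one]
  have e2 : ∀ v : Fin n → ℝ, (S *ᵥ v) ⬝ᵥ (S *ᵥ v) = v ⬝ᵥ (T *ᵥ v) := by
    intro v
    rw [hS, ← Matrix.mulVec_mulVec, Matrix.dotProduct_mulVec v Sᵀ, Matrix.vecMul_transpose]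
  have e3 : ((S * X * S⁻¹) * (S * X * S⁻¹)ᵀ).trace = (X * T⁻¹ * Xᵀ * T).trace := by
    rw [hTi, Matrix.transpose_mul, Matrix.transpose_mul]
    have : S * X * S⁻¹ * ((S⁻¹)ᵀ * (Xᵀ * Sᵀ)) = S * (X * (S⁻¹ * (S⁻¹)ᵀ) * Xᵀ * Sᵀ) := by
      simp only [Matrix.mul_assoc]
    rw [this, Matrix.trace_mul_comm]
    conv_rhs => rw [hS]
    simp only [Matrix.mul_assoc]
  rw [e1, e2, e2, e3] at key
  exact key

theorem tr_nonneg {T : Matrix (Fin n) (Fin n) ℝ} (hT : T.PosDef) (X : Matrix (Fin n) (Fin n) ℝ) :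
    0 ≤ (X * T⁻¹ * Xᵀ * T).trace := by
  have h1 : (X * T⁻¹ * Xᵀ).PosSemidef := by
    have := hT.inv.posSemidef.mul_mul_conjTranspose_same X
    rwa [Matrix.conjTranspose_eq_transpose_of_trivial] at this
  exact Vale.Agent.P254.S2.pw_tr_nonneg h1 hT.posSemidef

theorem tr_expand {T : Matrix (Fin n) (Fin n) ℝ} (hT : T.PosDef) (M K : Matrix (Fin n) (Fin n) ℝ)
    (hK : (T * K)ᵀ = T * K) :
    ((M * T + (1/2 : ℝ) • K) * T⁻¹ * (M * T + (1/2 : ℝ) • K)ᵀ * T).trace =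
      (M * T * Mᵀ * T).trace + (T * K * Mᵀ).trace + (1/4) * (K * K).trace := by
  have hdet : IsUnit T.det := (Matrix.isUnit_iff_isUnit_det T).1 hT.isUnit
  have hTT : T * T⁻¹ = 1 := Matrix.mul_nonsing_inv T hdet
  have hTT' : T⁻¹ * T = 1 := Matrix.nonsing_inv_mul T hdet
  have hTs : Tᵀ = T := by
    have := hT.isHermitian.eq
    rwa [Matrix.conjTranspose_eq_transpose_of_trivial] at this
  have hKT : Kᵀ * T = T * K := by
    rw [Matrix.transpose_mul, hTs] at hK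
    exact hK
  have e1 : (M * T + (1/2 : ℝ) • K) * T⁻¹ = M + (1/2 : ℝ) • (K * T⁻¹) := by
    rw [Matrix.add_mul, Matrix.mul_assoc, hTT, Matrix.mul_one, Matrix.smul_mul]
  have e2 : (M * T + (1/2 : ℝ) • K)ᵀ * T = T * Mᵀ * T + (1/2 : ℝ) • (T * K) := by
    rw [Matrix.transpose_add, Matrix.transpose_mul, hTs, Matrix.transpose_smul, Matrix.add_mul,
      Matrix.smul_mul, hKT]
  rw [Matrix.mul_assoc, e1, e2]
  have e3 : (M + (1/2 : ℝ) • (K * T⁻¹)) * (T * Mᵀ * T + (1/2 : ℝ) • (T * K)) =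
      M * T * Mᵀ * T + (1/2 : ℝ) • (M * T * K) + (1/2 : ℝ) • (K * Mᵀ * T)
        + (1/4 : ℝ) • (K * K) := by
    have h1 : K * T⁻¹ * (T * Mᵀ * T) = K * Mᵀ * T := by
      calc K * T⁻¹ * (T * Mᵀ * T) = K * (T⁻¹ * T) * Mᵀ * T := by simp only [Matrix.mul_assoc]
        _ = _ := by rw [hTT', Matrix.mul_one]
    have h2 : K * T⁻¹ * (T * K) = K * K := by
      calc K * T⁻¹ * (T * K) = K * (T⁻¹ * T) * K := by simp only [Matrix.mul_assoc]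
        _ = _ := by rw [hTT', Matrix.mul_one]
    rw [Matrix.add_mul, Matrix.mul_add, Matrix.mul_add, Matrix.smul_mul, Matrix.smul_mul,
      Matrix.mul_smul, Matrix.mul_smul, h1, h2, smul_smul]
    have h3 : M * (T * Mᵀ * T) = M * T * Mᵀ * T := by simp only [Matrix.mul_assoc]
    have h4 : M * (T * K) = M * T * K := by simp only [Matrix.mul_assoc]
    rw [h3, h4]
    norm_num
    abel
  rw [e3, Matrix.trace_add, Matrix.trace_add, Matrix.trace_add, Matrix.trace_smul,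
    Matrix.trace_smul, Matrix.trace_smul]
  have h5 : (M * T * K).trace = (T * K * Mᵀ).trace := by
    rw [← Matrix.trace_transpose, Matrix.mul_assoc, Matrix.transpose_mul, hK]
  have h6 : (K * Mᵀ * T).trace = (T * K * Mᵀ).trace := by
    rw [Matrix.trace_mul_comm, ← Matrix.mul_assoc]
  rw [h5, h6]
  simp only [smul_eq_mul]
  ring

theorem trKK_nonneg {T : Matrix (Fin n) (Fin n) ℝ} (hT : T.PosDef) (K : Matrix (Fin n) (Fin n) ℝ)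
    (hK : (T * K)ᵀ = T * K) : 0 ≤ (K * K).trace := by
  have h1 := tr_expand hT 0 K hK
  have h2 := tr_nonneg hT (0 * T + (1/2 : ℝ) • K)
  rw [h1] at h2
  simp only [Matrix.zero_mul, Matrix.trace_zero, Matrix.transpose_zero, Matrix.mul_zero] at h2
  linarith

/-- the pointwise Kato inequality -/
theorem kato_pt {T H : Matrix (Fin n) (Fin n) ℝ} (hT : T.PosDef)
    (hH : ∀ v : Fin n → ℝ, 0 ≤ v ⬝ᵥ (H *ᵥ v)) (M K : Matrix (Fin n) (Fin n) ℝ)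
    (hK : (T * K)ᵀ = T * K) (u p : Fin n → ℝ) {r w : ℝ} (hr : 0 < r) (hw : 0 ≤ w)
    (hru : u ⬝ᵥ (T *ᵥ u) ≤ r ^ 2) :
    (p ⬝ᵥ (T *ᵥ ((M * T + (1/2 : ℝ) • K) *ᵥ u))) / r + 1/2 * (w / r * (u ⬝ᵥ (T *ᵥ u))) ≤
      (w / r) * ((M * T * Mᵀ * T).trace + (T * K * Mᵀ).trace + (1/2) * (K * K).trace
        + 1/2 * (u ⬝ᵥ (T *ᵥ u)) + 1/2 * ((T *ᵥ u) ⬝ᵥ (H *ᵥ (T *ᵥ u))))
      + ((1 / r) • p - (w / r ^ 3) • ((M * T + (1/2 : ℝ) • K) *ᵥ u)) ⬝ᵥ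
          (T *ᵥ ((M * T + (1/2 : ℝ) • K) *ᵥ u)) := by
  set X := M * T + (1/2 : ℝ) • K with hX
  have h1 := tr_expand hT M K hK
  rw [← hX] at h1
  have h2 := tr_nonneg hT X
  have h3 := cs_alg hT X u
  have h4 := trKK_nonneg hT K hK
  have h5 := hH (T *ᵥ u)
  have hφ : 0 ≤ w / r := div_nonneg hw hr.le
  have h6 : (X *ᵥ u) ⬝ᵥ (T *ᵥ (X *ᵥ u)) ≤ r ^ 2 * (X * T⁻¹ * Xᵀ * T).trace :=
    h3.trans (mul_le_mul_of_nonneg_right hru h2)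
  rw [sub_dotProduct, smul_dotProduct, smul_dotProduct, smul_eq_mul, smul_eq_mul]
  have h7 : w / r ^ 3 * ((X *ᵥ u) ⬝ᵥ (T *ᵥ (X *ᵥ u))) ≤ (w / r) * (X * T⁻¹ * Xᵀ * T).trace := by
    have h8 : 0 ≤ w / r ^ 3 := by positivity
    calc w / r ^ 3 * ((X *ᵥ u) ⬝ᵥ (T *ᵥ (X *ᵥ u)))
        ≤ w / r ^ 3 * (r ^ 2 * (X * T⁻¹ * Xᵀ * T).trace) := mul_le_mul_of_nonneg_left h6 h8
      _ = _ := by field_simp
  have h9 : (w / r) * ((M * T * Mᵀ * T).trace + (T * K * Mᵀ).trace + (1/2) * (K * K).trace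
        + 1/2 * (u ⬝ᵥ (T *ᵥ u)) + 1/2 * ((T *ᵥ u) ⬝ᵥ (H *ᵥ (T *ᵥ u)))) =
      (w / r) * (X * T⁻¹ * Xᵀ * T).trace + (w / r) * (1/4 * (K * K).trace)
        + (w / r) * (1/2 * (u ⬝ᵥ (T *ᵥ u))) + (w / r) * (1/2 * ((T *ᵥ u) ⬝ᵥ (H *ᵥ (T *ᵥ u)))) := by
    rw [h1]; ring
  rw [h9]
  have h10 : 0 ≤ (w / r) * (1/4 * (K * K).trace) := by positivity
  have h11 : 0 ≤ (w / r) * (1/2 * ((T *ᵥ u) ⬝ᵥ (H *ᵥ (T *ᵥ u)))) := by positivity
  have h12 : (p ⬝ᵥ (T *ᵥ (X *ᵥ u))) / r = 1 / r * (p ⬝ᵥ (T *ᵥ (X *ᵥ u))) := by ring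
  rw [h12]
  nlinarith

end Vale.Agent.P245.K828
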