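import Vale.Agent.P245.H895.QuadA
import Vale.Agent.P245.K.FldDef
import Vale.Agent.P245.K2.KatoA

/-!
P245 (KLS project), row KATO, part B (helper828): pointwise facts for covector fields.
-/

set_option linter.all false

open MeasureTheory Filter Topology Set Metric
open scoped NNReal ENNReal ContDiff Matrix
open Vale.Agent.P227.M Vale.Agent.P227.M.K814 Vale.Agent.P254.SN Vale.Agent.P245.K

namespace Vale.Agent.P245.K828

variable {n : ℕ}

/-! ## algebra at a point -/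

/-- bilinear form -/
def ipT (T : Matrix (Fin n) (Fin n) ℝ) (p q : Fin n → ℝ) : ℝ := ∑ a, ∑ b, T a b * p a * q b

/-- form on covariant derivatives -/
def BT (T : Matrix (Fin n) (Fin n) ℝ) (D D' : Fin n → Fin n → ℝ) : ℝ :=
  ∑ k, ∑ l, T k l * ipT T (D k) (D' l)

theorem ipT_comb (T : Matrix (Fin n) (Fin n) ℝ) (p u v : Fin n → ℝ) (c d : ℝ) :
    ipT T p (fun b => c * u b + d * v b) = c * ipT T p u + d * ipT T p v := by
  unfold ipT
  rw [Finset.mul_sum, Finset.mul_sum, ← Finset.sum_add_distrib]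
  refine Finset.sum_congr rfl fun a _ => ?_
  rw [Finset.mul_sum, Finset.mul_sum, ← Finset.sum_add_distrib]
  exact Finset.sum_congr rfl fun b _ => by ring

theorem ipT_comm {T : Matrix (Fin n) (Fin n) ℝ} (hT : ∀ i j, T i j = T j i) (p q : Fin n → ℝ) :
    ipT T p q = ipT T q p := by
  unfold ipT
  rw [Finset.sum_comm]
  exact Finset.sum_congr rfl fun a _ => Finset.sum_congr rfl fun b _ => by rw [hT b a]; ring

theorem ipT_comb' {T : Matrix (Fin n) (Fin n) ℝ} (hT : ∀ i j, T i j = T j i) (p u v : Fin n → ℝ)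
    (c d : ℝ) :
    ipT T (fun b => c * u b + d * v b) p = c * ipT T u p + d * ipT T v p := by
  rw [ipT_comm hT, ipT_comb, ipT_comm hT p u, ipT_comm hT p v]

theorem ipT_eq (T : Matrix (Fin n) (Fin n) ℝ) (p q : Fin n → ℝ) : ipT T p q = p ⬝ᵥ (T *ᵥ q) := by
  unfold ipT dotProduct Matrix.mulVec dotProduct
  refine Finset.sum_congr rfl fun a _ => ?_
  rw [Finset.mul_sum]
  exact Finset.sum_congr rfl fun b _ => by ring

theorem ipT_nonneg {T : Matrix (Fin n) (Fin n) ℝ} (hT : T.PosDef) (p : Fin n → ℝ) :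
    0 ≤ ipT T p p := by
  rw [ipT_eq]
  have := hT.posSemidef.dotProduct_mulVec_nonneg p
  simpa using this

theorem ipT_cs {T : Matrix (Fin n) (Fin n) ℝ} (hT : T.PosDef) (p q : Fin n → ℝ) :
    ipT T p q ^ 2 ≤ ipT T p p * ipT T q q := by
  obtain ⟨S, hS⟩ := Vale.Agent.P254.S2.pw_fact hT.posSemidef
  have e2 : ∀ v w : Fin n → ℝ, ipT T v w = ∑ i, (S *ᵥ v) i * (S *ᵥ w) i := by
    intro v w
    rw [ipT_eq, hS, ← Matrix.mulVec_mulVec, Matrix.dotProduct_mulVec v Sᵀ, Matrix.vecMul_transpose]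
    rfl
  rw [e2, e2, e2]
  have := Finset.sum_mul_sq_le_sq_mul_sq Finset.univ (S *ᵥ p) (S *ᵥ q)
  simpa [sq] using this

theorem BT_eq {T : Matrix (Fin n) (Fin n) ℝ} (hs : ∀ i j, T i j = T j i)
    (D D' : Fin n → Fin n → ℝ) :
    BT T D D' = (Matrix.of D * T * (Matrix.of D')ᵀ * T).trace := by
  unfold BT Matrix.trace
  refine Finset.sum_congr rfl fun k _ => ?_
  rw [Matrix.diag_apply, Matrix.mul_apply]
  refine Finset.sum_congr rfl fun l _ => ?_
  rw [Matrix.mul_apply, hs k l, mul_comm]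
  congr 1
  unfold ipT
  rw [Finset.sum_comm]
  refine Finset.sum_congr rfl fun b _ => ?_
  rw [Matrix.mul_apply, Finset.sum_mul]
  refine Finset.sum_congr rfl fun a _ => ?_
  simp only [Matrix.of_apply, Matrix.transpose_apply]
  ring

theorem BT_key {T : Matrix (Fin n) (Fin n) ℝ} (hT : T.PosDef) (hs : ∀ i j, T i j = T j i)
    (D : Fin n → Fin n → ℝ) :
    BT T D D = ((Matrix.of D * T) * T⁻¹ * (Matrix.of D * T)ᵀ * T).trace := by
  have hdet : IsUnit T.det := (Matrix.isUnit_iff_isUnit_det T).1 hT.isUnit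
  have hTT : T * T⁻¹ = 1 := Matrix.mul_nonsing_inv T hdet
  have hTs : Tᵀ = T := by ext i j; exact hs j i
  rw [BT_eq hs, Matrix.transpose_mul, hTs, Matrix.mul_assoc (Matrix.of D) T T⁻¹, hTT, Matrix.mul_one]
  simp only [Matrix.mul_assoc]

theorem BT_nonneg {T : Matrix (Fin n) (Fin n) ℝ} (hT : T.PosDef) (hs : ∀ i j, T i j = T j i)
    (D : Fin n → Fin n → ℝ) : 0 ≤ BT T D D := by
  rw [BT_key hT hs]
  exact tr_nonneg hT _

/-- Cauchy-Schwarz for the contraction -/
theorem BT_cs {T : Matrix (Fin n) (Fin n) ℝ} (hT : T.PosDef) (hs : ∀ i j, T i j = T j i)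
    (D : Fin n → Fin n → ℝ) (u : Fin n → ℝ) :
    ipT T (fun k => ipT T (D k) u) (fun k => ipT T (D k) u) ≤ ipT T u u * BT T D D := by
  have h := cs_alg hT (Matrix.of D * T) u
  rw [BT_key hT hs]
  have e : (Matrix.of D * T) *ᵥ u = fun k => ipT T (D k) u := by
    ext k
    rw [← Matrix.mulVec_mulVec, ipT_eq]
    rfl
  rw [e] at h
  rw [ipT_eq, ipT_eq]
  exact h

theorem BT_right {T : Matrix (Fin n) (Fin n) ℝ} (D : Fin n → Fin n → ℝ) (q u : Fin n → ℝ)
    (c : ℝ) :
    BT T D (fun l b => q l * u b + c * D l b) =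
      ipT T (fun k => ipT T (D k) u) q + c * BT T D D := by
  unfold BT
  rw [Finset.mul_sum]
  simp only [ipT_comb]
  unfold ipT
  rw [← Finset.sum_add_distrib]
  refine Finset.sum_congr rfl fun k _ => ?_
  rw [Finset.mul_sum, ← Finset.sum_add_distrib]
  exact Finset.sum_congr rfl fun l _ => by ring

theorem BT_both {T : Matrix (Fin n) (Fin n) ℝ} (hs : ∀ i j, T i j = T j i)
    (D : Fin n → Fin n → ℝ) (q u : Fin n → ℝ) (c : ℝ) :
    BT T (fun l b => q l * u b + c * D l b) (fun l b => q l * u b + c * D l b) =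
      ipT T q q * ipT T u u + 2 * c * ipT T (fun k => ipT T (D k) u) q + c ^ 2 * BT T D D := by
  have e1 : ∀ k l, ipT T (fun b => q k * u b + c * D k b) (fun b => q l * u b + c * D l b) =
      q k * q l * ipT T u u + c * (q k * ipT T (D l) u + q l * ipT T (D k) u)
        + c ^ 2 * ipT T (D k) (D l) := by
    intro k l
    rw [ipT_comb, ipT_comb' hs, ipT_comb' hs, ipT_comm hs u (D l)]
    ring
  unfold BT
  simp only [e1]
  have e2 : ∑ k, ∑ l, T k l * (q k * q l * ipT T u u +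
      c * (q k * ipT T (D l) u + q l * ipT T (D k) u) + c ^ 2 * ipT T (D k) (D l)) =
      (∑ k, ∑ l, T k l * q k * q l) * ipT T u u
      + c * (∑ k, ∑ l, T k l * q k * ipT T (D l) u)
      + c * (∑ k, ∑ l, T k l * ipT T (D k) u * q l)
      + c ^ 2 * ∑ k, ∑ l, T k l * ipT T (D k) (D l) := by
    rw [Finset.sum_mul, Finset.mul_sum, Finset.mul_sum, Finset.mul_sum,
      ← Finset.sum_add_distrib, ← Finset.sum_add_distrib, ← Finset.sum_add_distrib]
    refine Finset.sum_congr rfl fun k _ => ?_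
    rw [Finset.sum_mul, Finset.mul_sum, Finset.mul_sum, Finset.mul_sum,
      ← Finset.sum_add_distrib, ← Finset.sum_add_distrib, ← Finset.sum_add_distrib]
    exact Finset.sum_congr rfl fun l _ => by ring
  rw [e2]
  have e3 : ∑ k, ∑ l, T k l * q k * ipT T (D l) u = ipT T (fun k => ipT T (D k) u) q := by
    rw [ipT_comm hs]; rfl
  have e4 : ∑ k, ∑ l, T k l * ipT T (D k) u * q l = ipT T (fun k => ipT T (D k) u) q := rfl
  rw [e3, e4]
  have e5 : ∑ k, ∑ l, T k l * q k * q l = ipT T q q := rfl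
  rw [e5]
  ring

/-- Kato, lower bound: `z = D u`, `q = p / r - (w / r^3) z`, `c = w / r` -/
theorem kato_low {T : Matrix (Fin n) (Fin n) ℝ} (hT : T.PosDef) (hs : ∀ i j, T i j = T j i)
    (D : Fin n → Fin n → ℝ) (u p : Fin n → ℝ) {r w : ℝ} (hr : 0 < r) (hw : 0 ≤ w)
    (hru : ipT T u u ≤ r ^ 2) :
    ipT T p (fun k => ipT T (D k) u / r) ≤
      BT T D (fun l b => ((1 / r) * p l + (-(w / r ^ 3)) * ipT T (D l) u) * u b + (w / r) * D l b) := by
  rw [BT_right, ipT_comb]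
  have h1 := BT_cs hT hs D u
  have h2 := BT_nonneg hT hs D
  set z : Fin n → ℝ := fun k => ipT T (D k) u with hz
  have h3 : ipT T z z ≤ r ^ 2 * BT T D D := h1.trans (mul_le_mul_of_nonneg_right hru h2)
  have h4 : w / r ^ 3 * ipT T z z ≤ (w / r) * BT T D D := by
    have h8 : 0 ≤ w / r ^ 3 := by positivity
    calc w / r ^ 3 * ipT T z z ≤ w / r ^ 3 * (r ^ 2 * BT T D D) :=
          mul_le_mul_of_nonneg_left h3 h8
      _ = _ := by field_simp
  have h5 : ipT T p (fun k => ipT T (D k) u / r) = 1 / r * ipT T z p := by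
    rw [ipT_comm hs z p]
    unfold ipT
    rw [Finset.mul_sum]
    refine Finset.sum_congr rfl fun a _ => ?_
    rw [Finset.mul_sum]
    refine Finset.sum_congr rfl fun b _ => ?_
    simp only [hz]
    unfold ipT
    ring
  rw [h5]
  linarith

/-- Kato, upper bound for the test field -/
theorem kato_up {T : Matrix (Fin n) (Fin n) ℝ} (hT : T.PosDef) (hs : ∀ i j, T i j = T j i)
    (D : Fin n → Fin n → ℝ) (u p : Fin n → ℝ) {r w : ℝ} (hr : 0 < r) (hw : 0 ≤ w)
    (hru : ipT T u u ≤ r ^ 2) :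
    BT T (fun l b => ((1 / r) * p l + (-(w / r ^ 3)) * ipT T (D l) u) * u b + (w / r) * D l b)
      (fun l b => ((1 / r) * p l + (-(w / r ^ 3)) * ipT T (D l) u) * u b + (w / r) * D l b) ≤
      4 * ipT T p p + 6 * (w / r) ^ 2 * BT T D D := by
  have h1 := BT_cs hT hs D u
  have h2 := BT_nonneg hT hs D
  set z : Fin n → ℝ := fun k => ipT T (D k) u with hz
  set q : Fin n → ℝ := fun l => (1 / r) * p l + (-(w / r ^ 3)) * z l with hq
  set c := w / r with hc
  have hgoal : BT T (fun l b => (1 / r * p l + -(w / r ^ 3) * ipT T (D l) u) * u b + c * D l b)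
      (fun l b => (1 / r * p l + -(w / r ^ 3) * ipT T (D l) u) * u b + c * D l b) =
      BT T (fun l b => q l * u b + c * D l b) (fun l b => q l * u b + c * D l b) := rfl
  rw [hgoal, BT_both hs]
  have h3 : ipT T z z ≤ r ^ 2 * BT T D D := h1.trans (mul_le_mul_of_nonneg_right hru h2)
  have h0 : 0 ≤ BT T (fun l b => q l * u b + (-c) * D l b) (fun l b => q l * u b + (-c) * D l b) :=
    BT_nonneg hT hs _
  rw [BT_both hs] at h0
  have hz0 : 0 ≤ ipT T z z := ipT_nonneg hT z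
  have hp0 : 0 ≤ ipT T p p := ipT_nonneg hT p
  have hq1 : ipT T q q = (1 / r) ^ 2 * ipT T p p + 2 * (1 / r) * (-(w / r ^ 3)) * ipT T p z
      + (w / r ^ 3) ^ 2 * ipT T z z := by
    rw [hq, ipT_comb, ipT_comb' hs, ipT_comb' hs, ipT_comm hs z p]
    ring
  have hq2 : 0 ≤ (1 / r) ^ 2 * ipT T p p + 2 * (1 / r) * (w / r ^ 3) * ipT T p z
      + (w / r ^ 3) ^ 2 * ipT T z z := by
    have := ipT_nonneg hT (fun l => (1 / r) * p l + (w / r ^ 3) * z l)
    rw [ipT_comb, ipT_comb' hs, ipT_comb' hs, ipT_comm hs z p] at this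
    linarith
  have hq3 : ipT T q q ≤ 2 * ((1 / r) ^ 2 * ipT T p p) + 2 * ((w / r ^ 3) ^ 2 * ipT T z z) := by
    rw [hq1]; linarith
  have hq0 : 0 ≤ ipT T q q := ipT_nonneg hT q
  have hq4 : ipT T q q * ipT T u u ≤ 2 * ipT T p p + 2 * c ^ 2 * BT T D D := by
    have s1 : ipT T q q * ipT T u u ≤ ipT T q q * r ^ 2 := mul_le_mul_of_nonneg_left hru hq0
    have s2 : ipT T q q * r ^ 2 ≤
        (2 * ((1 / r) ^ 2 * ipT T p p) + 2 * ((w / r ^ 3) ^ 2 * ipT T z z)) * r ^ 2 :=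
      mul_le_mul_of_nonneg_right hq3 (by positivity)
    have s3 : (2 * ((1 / r) ^ 2 * ipT T p p) + 2 * ((w / r ^ 3) ^ 2 * ipT T z z)) * r ^ 2 =
        2 * ipT T p p + 2 * (w ^ 2 / r ^ 4) * ipT T z z := by
      field_simp
    have s4 : 2 * (w ^ 2 / r ^ 4) * ipT T z z ≤ 2 * (w ^ 2 / r ^ 4) * (r ^ 2 * BT T D D) :=
      mul_le_mul_of_nonneg_left h3 (by positivity)
    have s5 : 2 * (w ^ 2 / r ^ 4) * (r ^ 2 * BT T D D) = 2 * c ^ 2 * BT T D D := by
      rw [hc]; field_simp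
    linarith
  have h6 : 2 * c * ipT T z q ≤ ipT T q q * ipT T u u + c ^ 2 * BT T D D := by
    have e : 2 * (-c) * ipT T z q = -(2 * c * ipT T z q) := by ring
    have e' : (-c) ^ 2 = c ^ 2 := by ring
    rw [e, e'] at h0
    linarith
  linarith

end Vale.Agent.P245.K828
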