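import Vale.Agent.P245.K.Iface
import Vale.Agent.P245.K.StepCore

/-!
P245, row STEP (helper837, second copy of the operator piece): the positive symmetric operator
`P = (1 + s/2 + s A)⁻¹` on bounded functions.
-/

set_option linter.all false

open MeasureTheory Filter Topology Set
open scoped NNReal ENNReal ContDiff
open Vale.Agent.P227.M Vale.Agent.P227.M.K814 Vale.Agent.P254.SN

namespace Vale.Agent.P245.K2.StepOp837

open Vale.Agent.P245.K Vale.Agent.P245.K.Step
open Vale.Agent.P245.H464 (mu integral_mu integrable_mu mu_ac ac_mu)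

variable {n : ℕ} {V : E n → ℝ} {t : E n → Matrix (Fin n) (Fin n) ℝ} {c C : ℝ}

theorem ae_mu (hV : Continuous V) {p : E n → Prop} : (∀ᵐ x ∂(mu V), p x) ↔ ∀ᵐ x, p x :=
  ⟨fun h => (ac_mu hV).ae_le h, fun h => (mu_ac V).ae_le h⟩

theorem int_mu (hV : Continuous V) (f : E n → ℝ) : ∫ x, f x ∂(mu V) = I V f := integral_mu hV f

theorem contV (hB : Base V t c C) : Continuous V := hB.toTE.V2.continuous

/-- `u = (1 + s/2 + s A)⁻¹ f` -/
def Sol (V : E n → ℝ) (t : E n → Matrix (Fin n) (Fin n) ℝ) (s : ℝ) (f u : E n → ℝ) : Prop :=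
  ∃ (Du : Fin n → E n → ℝ) (Au : E n → ℝ), Dom V t u Du Au ∧
    ∀ᵐ x, (1 + s / 2) * u x + s * Au x = f x

theorem int_one (hLin : K.StmtLin) (hB : Base V t c C) :
    Integrable (fun x => Real.exp (-V x)) := by
  obtain ⟨-, -, -, -, -, f, hf⟩ := hLin n V t c C hB
  have := hf.iu
  simpa using this

theorem finite_mu (hLin : K.StmtLin) (hB : Base V t c C) : IsFiniteMeasure (mu V) := by
  have h1 : Integrable (fun _ : E n => (1 : ℝ)) (mu V) := by
    rw [integrable_mu (contV hB)]
    simpa using int_one hLin hB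
  have h2 := (integrable_const_iff (μ := mu V) (c := (1 : ℝ))).1 h1
  rcases h2 with h2 | h2
  · exact absurd h2 one_ne_zero
  · exact h2

theorem sol_exists (hLin : K.StmtLin) (hB : Base V t c C) {s : ℝ} (hs : 0 < s) {f : E n → ℝ}
    (hf : Bd (mu V) f) : ∃ u, Sol V t s f u := by
  have hV := contV hB
  haveI := finite_mu hLin hB
  obtain ⟨hm, C', hC'⟩ := hf
  have hp : 0 < 1 + s / 2 := by positivity
  set g : E n → ℝ := fun x => (1 + s / 2)⁻¹ * hm.mk f x with hg
  have hgm : Measurable g := (hm.stronglyMeasurable_mk.measurable).const_mul _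
  have hgb : ∀ᵐ x ∂(mu V), ‖g x ^ 2‖ ≤ ((1 + s / 2)⁻¹ * C') ^ 2 := by
    filter_upwards [hC', hm.ae_eq_mk] with x h1 h2
    rw [Real.norm_eq_abs, abs_of_nonneg (sq_nonneg _), hg]
    simp only
    rw [← h2, mul_pow, mul_pow]
    refine mul_le_mul_of_nonneg_left ?_ (by positivity)
    rw [← sq_abs (f x)]
    exact pow_le_pow_left₀ (abs_nonneg _) h1 2
  have hgi : Integrable (fun x => g x ^ 2 * Real.exp (-V x)) := by
    rw [← integrable_mu hV (fun x => g x ^ 2)]
    exact Integrable.of_bound (hgm.pow_const 2).aestronglyMeasurable _ hgb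
  obtain ⟨F, u, Du, Au, hD, he⟩ := Vale.Agent.P245.H464.total hB.toTE hgm hgi
    (s := (1 + s / 2)⁻¹ * s) (by positivity)
  refine ⟨u, Du, Au, ⟨F, hD⟩, ?_⟩
  have h3 : ∀ᵐ x, f x = hm.mk f x := (ae_mu hV).1 hm.ae_eq_mk
  filter_upwards [h3] with x hx
  have h4 := he x
  rw [hx]
  have h5 : (1 + s / 2) * (u x + (1 + s / 2)⁻¹ * s * Au x) = (1 + s / 2) * g x := by rw [h4]
  rw [hg] at h5
  simp only at h5
  rw [← mul_assoc, mul_inv_cancel₀ hp.ne', one_mul] at h5
  rw [← h5]
  field_simp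

theorem sol_nonneg (hPos : StmtPos) (hB : Base V t c C) {s : ℝ} (hs : 0 < s) {f u : E n → ℝ}
    (h : Sol V t s f u) (hf : ∀ᵐ x, 0 ≤ f x) : ∀ᵐ x, 0 ≤ u x := by
  obtain ⟨Du, Au, hD, he⟩ := h
  have hp : 0 < 1 + s / 2 := by positivity
  refine hPos n V t c C hB ((1 + s / 2)⁻¹ * s) (by positivity) u Au Du hD ?_
  filter_upwards [he, hf] with x h1 h2
  have h3 : u x + (1 + s / 2)⁻¹ * s * Au x = (1 + s / 2)⁻¹ * f x := by
    rw [← h1]
    field_simp
  rw [h3]
  positivity

theorem sol_lin (hLin : K.StmtLin) (hB : Base V t c C) {s : ℝ} {f g u v : E n → ℝ}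
    (h : Sol V t s f u) (h' : Sol V t s g v) (p q : ℝ) :
    Sol V t s (fun x => p * f x + q * g x) (fun x => p * u x + q * v x) := by
  obtain ⟨Du, Au, hD, he⟩ := h
  obtain ⟨Dv, Av, hD', he'⟩ := h'
  refine ⟨_, _, (hLin n V t c C hB).1 u Au v Av Du Dv hD hD' p q, ?_⟩
  filter_upwards [he, he'] with x h1 h2
  rw [← h1, ← h2]
  ring

theorem sol_mono (hLin : K.StmtLin) (hPos : StmtPos) (hB : Base V t c C) {s : ℝ} (hs : 0 < s)
    {f g u v : E n → ℝ} (h : Sol V t s f u) (h' : Sol V t s g v) (hfg : ∀ᵐ x, f x ≤ g x) :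
    ∀ᵐ x, u x ≤ v x := by
  have h1 := sol_nonneg hPos hB hs (sol_lin hLin hB h' h 1 (-1)) (by
    filter_upwards [hfg] with x hx
    linarith)
  filter_upwards [h1] with x hx
  linarith

theorem sol_unique (hLin : K.StmtLin) (hPos : StmtPos) (hB : Base V t c C) {s : ℝ} (hs : 0 < s)
    {f g u v : E n → ℝ} (h : Sol V t s f u) (h' : Sol V t s g v) (hfg : ∀ᵐ x, f x = g x) :
    ∀ᵐ x, u x = v x := by
  filter_upwards [sol_mono hLin hPos hB hs h h' (hfg.mono fun x hx => hx.le),
    sol_mono hLin hPos hB hs h' h (hfg.mono fun x hx => hx.ge)] with x h1 h2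
  exact le_antisymm h1 h2

theorem sol_const (hLin : K.StmtLin) (hB : Base V t c C) {s : ℝ} (hs : 0 < s) (k : ℝ) :
    Sol V t s (fun _ => k) (fun _ => k / (1 + s / 2)) := by
  have hp : 0 < 1 + s / 2 := by positivity
  obtain ⟨h1, -, -, -, -, h2⟩ := hLin n V t c C hB
  have h3 := h1 _ _ _ _ _ _ h2 h2 (k / (1 + s / 2)) 0
  have e : (fun x : E n => k / (1 + s / 2) * 1 + 0 * 1) = fun _ => k / (1 + s / 2) := by
    funext x; ring
  rw [e] at h3
  refine ⟨_, _, h3, Eventually.of_forall fun x => ?_⟩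
  field_simp
  ring

theorem meas_of_sol {s : ℝ} {f u : E n → ℝ} (h : Sol V t s f u) : Measurable u := by
  obtain ⟨Du, Au, ⟨F, hF⟩, -⟩ := h
  exact hF.mu

theorem sol_bd (hLin : K.StmtLin) (hPos : StmtPos) (hB : Base V t c C) {s : ℝ} (hs : 0 < s)
    {f u : E n → ℝ} (hf : Bd (mu V) f) (h : Sol V t s f u) : Bd (mu V) u := by
  have hV := contV hB
  obtain ⟨hm, K, hK⟩ := hf
  have hK' := (ae_mu hV).1 hK
  refine ⟨(meas_of_sol h).aestronglyMeasurable, K / (1 + s / 2), (ae_mu hV).2 ?_⟩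
  have h1 := sol_mono hLin hPos hB hs h (sol_const hLin hB hs K) (by
    filter_upwards [hK'] with x hx
    exact (le_abs_self _).trans hx)
  have h2 := sol_mono hLin hPos hB hs (sol_const hLin hB hs (-K)) h (by
    filter_upwards [hK'] with x hx
    have := neg_abs_le (f x)
    linarith)
  filter_upwards [h1, h2] with x h1 h2
  rw [neg_div] at h2
  exact abs_le.2 ⟨h2, h1⟩

theorem ip_comm' (hB : Base V t c C) (al be : E n → Fin n → ℝ) (x : E n) :
    ip t al be x = ip t be al x := by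
  unfold ip
  rw [Finset.sum_comm]
  refine Finset.sum_congr rfl fun a _ => Finset.sum_congr rfl fun b _ => ?_
  rw [hB.toTE.symm x a b]
  ring

theorem int_prod (hV : Continuous V) {u v : E n → ℝ} (hu : Measurable u) (hv : Measurable v)
    (hu2 : Integrable (fun x => u x ^ 2 * Real.exp (-V x)))
    (hv2 : Integrable (fun x => v x ^ 2 * Real.exp (-V x))) :
    Integrable (fun x => u x * v x * Real.exp (-V x)) := by
  have h1 : MemLp u 2 (mu V) := (Vale.Agent.P245.H464.memLp_iff hV hu.aestronglyMeasurable).2 hu2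
  have h2 : MemLp v 2 (mu V) := (Vale.Agent.P245.H464.memLp_iff hV hv.aestronglyMeasurable).2 hv2
  have h3 := h1.integrable_mul h2
  exact (integrable_mu hV _).1 h3

theorem sol_symm (hForm : StmtForm) (hLin : K.StmtLin) (hB : Base V t c C) {s : ℝ}
    {f g u v : E n → ℝ} (h : Sol V t s f u) (h' : Sol V t s g v) :
    I V (fun x => u x * g x) = I V (fun x => f x * v x) := by
  have hV := contV hB
  obtain ⟨Du, Au, hD, he⟩ := h
  obtain ⟨Dv, Av, hD', he'⟩ := h'
  have hu1 := (hLin n V t c C hB).2.1 _ _ _ hD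
  have hv1 := (hLin n V t c C hB).2.1 _ _ _ hD'
  have e1 := hForm n V t c C hB u Au Du hD v Dv hv1
  have e2 := hForm n V t c C hB v Av Dv hD' u Du hu1
  have e3 : I V (ip t (fun x a => Du a x) (fun x a => Dv a x)) =
      I V (ip t (fun x a => Dv a x) (fun x a => Du a x)) := by
    congr 1
    funext x
    exact ip_comm' hB _ _ x
  obtain ⟨F, hF⟩ := hD
  obtain ⟨F', hF'⟩ := hD'
  have i1 : Integrable (fun x => u x * v x * Real.exp (-V x)) := int_prod hV hF.mu hF'.mu hF.iu hF'.iu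
  have i2 : Integrable (fun x => Av x * u x * Real.exp (-V x)) := int_prod hV hF'.mA hF.mu hF'.iA hF.iu
  have i3 : Integrable (fun x => Au x * v x * Real.exp (-V x)) := int_prod hV hF.mA hF'.mu hF.iA hF'.iu
  have a1 : I V (fun x => u x * g x) = (1 + s / 2) * I V (fun x => u x * v x) +
      s * I V (fun x => Av x * u x) := by
    unfold I
    rw [← integral_const_mul, ← integral_const_mul, ← integral_add (i1.const_mul _) (i2.const_mul _)]
    refine integral_congr_ae ?_
    filter_upwards [he'] with x hx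
    rw [← hx]
    ring
  have a2 : I V (fun x => f x * v x) = (1 + s / 2) * I V (fun x => u x * v x) +
      s * I V (fun x => Au x * v x) := by
    unfold I
    rw [← integral_const_mul, ← integral_const_mul, ← integral_add (i1.const_mul _) (i3.const_mul _)]
    refine integral_congr_ae ?_
    filter_upwards [he] with x hx
    rw [← hx]
    ring
  rw [a1, a2, e1, e2, e3]

open Classical in
/-- the operator `P = (1 + s/2 + s A)⁻¹` -/
noncomputable def Pop (V : E n → ℝ) (t : E n → Matrix (Fin n) (Fin n) ℝ) (s : ℝ) (f : E n → ℝ) :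
    E n → ℝ :=
  if h : ∃ u, Sol V t s f u then h.choose else fun _ => 0

theorem pop_sol (hLin : K.StmtLin) (hB : Base V t c C) {s : ℝ} (hs : 0 < s) {f : E n → ℝ}
    (hf : Bd (mu V) f) : Sol V t s f (Pop V t s f) := by
  have h := sol_exists hLin hB hs hf
  unfold Pop
  rw [dif_pos h]
  exact h.choose_spec

theorem posOp (hForm : StmtForm) (hLin : K.StmtLin) (hPos : StmtPos) (hB : Base V t c C) {s : ℝ}
    (hs : 0 < s) : PosOp (mu V) (Pop V t s) where
  bd := fun {f} hf => sol_bd hLin hPos hB hs hf (pop_sol hLin hB hs hf)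
  add := fun {f g} hf hg => by
    have h1 := pop_sol hLin hB hs (hf.add hg)
    have h2 := sol_lin hLin hB (pop_sol hLin hB hs hf) (pop_sol hLin hB hs hg) 1 1
    have h3 := sol_unique hLin hPos hB hs h1 h2 (Eventually.of_forall fun x => by ring)
    refine (ae_mu (contV hB)).2 ?_
    filter_upwards [h3] with x hx
    rw [hx]
    ring
  smul := fun k {f} hf => by
    have h1 := pop_sol hLin hB hs (hf.const_mul k)
    have h2 := sol_lin hLin hB (pop_sol hLin hB hs hf) (pop_sol hLin hB hs hf) k 0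
    have h3 := sol_unique hLin hPos hB hs h1 h2 (Eventually.of_forall fun x => by ring)
    refine (ae_mu (contV hB)).2 ?_
    filter_upwards [h3] with x hx
    rw [hx]
    ring
  pos := fun {f} hf h => (ae_mu (contV hB)).2
    (sol_nonneg hPos hB hs (pop_sol hLin hB hs hf) ((ae_mu (contV hB)).1 h))
  symm := fun {f g} hf hg => by
    rw [int_mu (contV hB) (fun x => Pop V t s f x * g x),
      int_mu (contV hB) (fun x => f x * Pop V t s g x)]
    exact sol_symm hForm hLin hB (pop_sol hLin hB hs hf) (pop_sol hLin hB hs hg)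
  one := by
    refine ⟨1 / (1 + s / 2), by positivity, ?_⟩
    have h3 := sol_unique hLin hPos hB hs (pop_sol hLin hB hs (Bd.const (μ := mu V) 1))
      (sol_const hLin hB hs 1) (Eventually.of_forall fun x => rfl)
    refine (ae_mu (contV hB)).2 ?_
    filter_upwards [h3] with x hx
    rw [hx]

/-- **the operator of row STEP** -/
theorem exists_P (hForm : StmtForm) (hLin : K.StmtLin) (hPos : StmtPos) (n : ℕ) (V : E n → ℝ)
    (t : E n → Matrix (Fin n) (Fin n) ℝ) (c C : ℝ) (hB : Base V t c C) (s : ℝ) (hs : 0 < s) :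
    ∃ P : (E n → ℝ) → E n → ℝ, PosOp (mu V) P ∧ ∀ f, Bd (mu V) f →
      ∃ (Du : Fin n → E n → ℝ) (Au : E n → ℝ), Dom V t (P f) Du Au ∧
        ∀ᵐ x, (1 + s / 2) * P f x + s * Au x = f x :=
  ⟨Pop V t s, posOp hForm hLin hPos hB hs, fun f hf => pop_sol hLin hB hs hf⟩

end Vale.Agent.P245.K2.StepOp837
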