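import Vale.Agent.P245.K.Iface
import Vale.Agent.P245.K.OP3
import Vale.Agent.P245.K.Fld
import Vale.Agent.P245.K.E2

/-!
P245, row HP, second copy (helper425): from (K) to the Poincare inequality on the isotropic regular class.
-/

set_option linter.all false

open MeasureTheory Filter Topology Set
open scoped NNReal ENNReal ContDiff
open Vale.Agent.P227.M Vale.Agent.P227.M.K814 Vale.Agent.P254.SN

namespace Vale.Agent.P245.K2.HP

open Vale.Agent.P245 Vale.Agent.P245.K
open Vale.Agent.P245.H464 (TE Lt mu)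
open Vale.Agent.P245.K.OP3 (L2to DomE memLp_LC memLp_GB memLp_test finite_mu integral_muI int_mul int_sq lc_test gb_pd_lc)

variable {n : ℕ} {V : E n → ℝ} {t : E n → Matrix (Fin n) (Fin n) ℝ} {c C : ℝ}

/-- `0 ≤ ∫ (r f - g)²` -/
theorem amgm {α : Type*} [MeasurableSpace α] {μ : Measure α} {f g : α → ℝ} (hf : MemLp f 2 μ)
    (hg : MemLp g 2 μ) (r : ℝ) :
    2 * r * ∫ x, f x * g x ∂μ ≤ r ^ 2 * ∫ x, f x ^ 2 ∂μ + ∫ x, g x ^ 2 ∂μ := by
  have i1 := int_sq hf
  have i2 := int_sq hg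
  have i3 := int_mul hf hg
  have h0 : 0 ≤ ∫ x, (r * f x - g x) ^ 2 ∂μ := integral_nonneg fun x => sq_nonneg _
  have e : ∫ x, (r * f x - g x) ^ 2 ∂μ =
      r ^ 2 * ∫ x, f x ^ 2 ∂μ - 2 * r * ∫ x, f x * g x ∂μ + ∫ x, g x ^ 2 ∂μ := by
    have i12 : Integrable (fun x => r ^ 2 * f x ^ 2 - 2 * r * (f x * g x)) μ :=
      (i1.const_mul _).sub (i3.const_mul _)
    rw [← integral_const_mul, ← integral_const_mul, ← integral_sub (i1.const_mul _) (i3.const_mul _),
      ← integral_add i12 i2]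
    exact integral_congr_ae (Eventually.of_forall fun x => by ring)
  linarith

theorem int_Lt (hT : TB V t) {f : E n → ℝ} (hf : Test f) : ∫ x, Lt t f x ∂(mu V) = 0 := by
  rw [integral_muI hT.V2.continuous]
  have h1 := Vale.Agent.P245.H464.ibpL hT.toTF hf (g := fun _ => (1 : ℝ)) (ll_const 1)
    (Eventually.of_forall fun x => differentiableAt_const _)
  rw [← h1]
  refine I_congr (Eventually.of_forall fun x => ?_)
  have e : ∀ b, pd b (fun _ : E n => (1 : ℝ)) x = 0 := by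
    intro b
    unfold pd
    simp
  unfold Vale.Agent.P245.H464.Gam
  simp [e]

theorem DomE.int_A (hR : ∃ c1 C1, Reg V c1 C1) (hT : TB V t) {u Au : E n → ℝ} {Du : Fin n → E n → ℝ}
    (hu : DomE V t u Du Au) : ∫ x, Au x ∂(mu V) = 0 := by
  obtain ⟨c1, C1, hR⟩ := hR
  haveI := finite_mu hR
  obtain ⟨f, hf, h1, h2, h3⟩ := hu
  have hone : MemLp (fun _ : E n => (1 : ℝ)) 2 (mu V) := memLp_const 1
  have l1 := (L2to.const hone).mul h3
  have e1 : ∀ m, ∫ x, (1 : ℝ) * (-Lt t (f m) x) ∂(mu V) = 0 := by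
    intro m
    simp only [one_mul]
    rw [integral_neg, int_Lt hT (hf m), neg_zero]
  have e2 : ∫ x, (1 : ℝ) * Au x ∂(mu V) = 0 := by
    refine tendsto_nhds_unique l1 ?_
    simp only [e1]
    exact tendsto_const_nhds
  simpa using e2

/-- the equation `A u = g - u / 4` for mean zero `g` -/
theorem resolv (hGap : StmtGap) (hB : Base V t c C) {g : E n → ℝ} (hg : Measurable g)
    (hg2 : MemLp g 2 (mu V)) (hg0 : ∫ x, g x ∂(mu V) = 0) :
    ∃ (u : E n → ℝ) (Du : Fin n → E n → ℝ) (Au : E n → ℝ), DomE V t u Du Au ∧ K.Dom V t u Du Au ∧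
      (∀ x, g x = Au x + u x / 4) ∧ ∫ x, u x ∂(mu V) = 0 ∧ ∫ x, Au x ∂(mu V) = 0 ∧
      ∫ x, u x ^ 2 ∂(mu V) ≤ ∫ x, g x ^ 2 ∂(mu V) ∧ ∫ x, Au x ^ 2 ∂(mu V) ≤ ∫ x, g x ^ 2 ∂(mu V) := by
  obtain ⟨c1, C1, hR⟩ := hB.reg
  have hV : Continuous V := hB.V2.continuous
  haveI := finite_mu hR
  have hgi : Integrable (fun x => (4 * g x) ^ 2 * Real.exp (-V x)) :=
    (Vale.Agent.P245.H464.memLp_iff hV (hg.const_mul 4).aestronglyMeasurable).1 (hg2.const_mul 4)
  obtain ⟨f, u, Du, Au, hD, heq⟩ := Vale.Agent.P245.H464.total hB.toTE (hg.const_mul 4) hgi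
    (s := 4) (by norm_num)
  have hE : DomE V t u Du Au := DomE.of hB.toTB hD
  have hK : K.Dom V t u Du Au := ⟨f, hD⟩
  have heq' : ∀ x, g x = Au x + u x / 4 := fun x => by
    have := heq x
    linarith
  have hA0 : ∫ x, Au x ∂(mu V) = 0 := DomE.int_A ⟨c1, C1, hR⟩ hB.toTB hE
  have mu2 := hE.mem
  have mA2 := hE.memA
  have hu0 : ∫ x, u x ∂(mu V) = 0 := by
    have e : ∫ x, g x ∂(mu V) = ∫ x, Au x ∂(mu V) + (∫ x, u x ∂(mu V)) / 4 := by
      rw [← integral_div, ← integral_add (mA2.integrable (by norm_num))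
        ((mu2.integrable (by norm_num)).div_const 4)]
      exact integral_congr_ae (Eventually.of_forall fun x => heq' x)
    rw [hg0, hA0] at e
    linarith
  have hgap : ∫ x, u x ^ 2 ∂(mu V) ≤ ∫ x, u x * Au x ∂(mu V) := by
    rw [integral_muI hV, integral_muI hV]
    refine hGap n V t c C hB u Au Du hK ?_
    rw [← integral_muI hV]
    exact hu0
  have hsq : 0 ≤ ∫ x, u x ^ 2 ∂(mu V) := integral_nonneg fun x => sq_nonneg _
  -- ∫ u g = ∫ u Au + ∫ u² / 4
  have e1 : ∫ x, u x * g x ∂(mu V) = ∫ x, u x * Au x ∂(mu V) + (∫ x, u x ^ 2 ∂(mu V)) / 4 := by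
    rw [← integral_div, ← integral_add (int_mul mu2 mA2) ((int_sq mu2).div_const 4)]
    exact integral_congr_ae (Eventually.of_forall fun x => by simp only [heq' x]; ring)
  have e2 : ∫ x, g x ^ 2 ∂(mu V) = ∫ x, Au x ^ 2 ∂(mu V) + (∫ x, u x * Au x ∂(mu V)) / 2
      + (∫ x, u x ^ 2 ∂(mu V)) / 16 := by
    have i12 : Integrable (fun x => Au x ^ 2 + u x * Au x / 2) (mu V) :=
      (int_sq mA2).add ((int_mul mu2 mA2).div_const 2)
    rw [← integral_div, ← integral_div, ← integral_add (int_sq mA2) ((int_mul mu2 mA2).div_const 2),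
      ← integral_add i12 ((int_sq mu2).div_const 16)]
    exact integral_congr_ae (Eventually.of_forall fun x => by simp only [heq' x]; ring)
  have h3 := amgm mu2 hg2 1
  refine ⟨u, Du, Au, hE, hK, heq', hu0, hA0, ?_, ?_⟩
  · nlinarith
  · nlinarith

/-! ## the vector field `p = t ∇U` -/

theorem lc_p (hT : TF V t) {U : E n → ℝ} (hU : Test U) (j : Fin n) : LC (Dt t j U) :=
  Vale.Agent.P245.H866.lc_Dt hT hU j

/-- pointwise Cauchy-Schwarz -/
theorem cs_pt (h : TE V t c C) {U : E n → ℝ} (hU : Test U) (D : Fin n → Fin n → E n → ℝ) (r : ℝ) :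
    ∀ᵐ x, 2 * r * ∑ j, (∑ a, ∑ b, t x a b * pd a (Dt t j U) x * D j b x) ≤
      r ^ 2 * (∑ i, ∑ j, t x i j * ip t (fun y a => D i a y) (fun y a => D j a y) x) +
        ∑ a, ∑ b, pd a (fun y => Dt t b U y) x * pd b (fun y => Dt t a U y) x := by
  filter_upwards [Vale.Agent.P245.H866.dp_symm h.toTB.toTF hU] with x hx
  have hs : ∀ i j, t x i j = t x j i := fun i j => h.symm x i j
  set A : Matrix (Fin n) (Fin n) ℝ := fun j b => pd b (Dt t j U) x with hA
  set Z : Matrix (Fin n) (Fin n) ℝ := fun j a => D j a x with hZ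
  have hAs : (A * t x).transpose = A * t x := by
    ext j l
    rw [Matrix.transpose_apply, Matrix.mul_apply, Matrix.mul_apply]
    exact hx l j
  have h1 := Vale.Agent.P245.H866.cs_mat (TE.posDef h x) hAs Z r
  have e1 : (Z * t x * A.transpose).trace = ∑ j, (∑ a, ∑ b, t x a b * pd a (Dt t j U) x * D j b x) := by
    rw [Matrix.trace]
    refine Finset.sum_congr rfl fun j _ => ?_
    rw [Matrix.diag_apply, Matrix.mul_apply]
    refine Finset.sum_congr rfl fun a _ => ?_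
    rw [Matrix.mul_apply, Matrix.transpose_apply, Finset.sum_mul]
    refine Finset.sum_congr rfl fun b _ => ?_
    rw [hs b a, hA, hZ]
    ring
  have e2 : (t x * Z * t x * Z.transpose).trace =
      ∑ i, ∑ j, t x i j * ip t (fun y a => D i a y) (fun y a => D j a y) x := by
    rw [Matrix.trace]
    refine Finset.sum_congr rfl fun i _ => ?_
    rw [Matrix.diag_apply, Matrix.mul_assoc, Matrix.mul_assoc, Matrix.mul_apply]
    refine Finset.sum_congr rfl fun j _ => ?_
    congr 1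
    unfold ip
    rw [Matrix.mul_apply]
    rw [Finset.sum_comm]
    refine Finset.sum_congr rfl fun a _ => ?_
    rw [Matrix.mul_apply, Finset.mul_sum]
    refine Finset.sum_congr rfl fun b _ => ?_
    rw [Matrix.transpose_apply, hs b a, hZ]
    ring
  have e3 : (A * A).trace = ∑ a, ∑ b, pd a (fun y => Dt t b U y) x * pd b (fun y => Dt t a U y) x := by
    rw [Matrix.trace]
    refine Finset.sum_congr rfl fun a _ => ?_
    rw [Matrix.diag_apply, Matrix.mul_apply]
    refine Finset.sum_congr rfl fun b _ => ?_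
    rw [hA]
    ring
  rw [e1, e2, e3] at h1
  exact h1

theorem memLp_tmul (hT : TB V t) {f : E n → ℝ} (hf : MemLp f 2 (mu V)) (i j : Fin n) :
    MemLp (fun x => t x i j * f x) 2 (mu V) := by
  obtain ⟨B, hB⟩ := hT.bt
  refine MemLp.of_le_mul (c := B) hf
    ((gb_t hT i j).1.aestronglyMeasurable.mul hf.1) (Eventually.of_forall fun x => ?_)
  rw [norm_mul]
  exact mul_le_mul_of_nonneg_right (hB x i j) (norm_nonneg _)

theorem memLp_coord (hR : ∃ c1 C1, Reg V c1 C1) (i : Fin n) : MemLp (fun x : E n => x i) 2 (mu V) := by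
  obtain ⟨c1, C1, hR⟩ := hR
  have h1 := (Vale.Agent.P245.Q895.PB.coord (n := n) i)
  have h2 := (h1.mul h1).int hR
  refine (Vale.Agent.P245.H464.memLp_iff hR.cont h1.1.aestronglyMeasurable).2 ?_
  refine h2.congr (Eventually.of_forall fun x => ?_)
  simp only [sq]

/-- the bound for the means (Bessel) and the centred part -/
theorem hprime (hGap : StmtGap) (hB : Base V t c C) (hIso : Iso V) {K0 : ℝ} (hK0 : 0 < K0)
    (hK : ∀ (z Az : Fin n → E n → ℝ) (Dz : Fin n → Fin n → E n → ℝ),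
      (∀ i, K.Dom V t (z i) (Dz i) (Az i)) → (∀ i, I V (z i) = 0) →
      KG V t t Dz Dz ≤ K0 * ∑ i, I V (fun x => Az i x ^ 2))
    {U : E n → ℝ} (hU : Test U) :
    ∑ j, ∫ x, Dt t j U x ^ 2 ∂(mu V) ≤
      2 * K0 * ∫ x, Lt t U x ^ 2 ∂(mu V) + ∫ x, U x ^ 2 ∂(mu V) := by
  have hReg := hB.reg
  obtain ⟨c1, C1, hR⟩ := hB.reg
  have hT : TB V t := hB.toTB
  have hV : Continuous V := hB.V2.continuous
  haveI := finite_mu hR
  have hpL : ∀ j, LC (Dt t j U) := lc_p hT.toTF hU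
  have hp2 : ∀ j, MemLp (Dt t j U) 2 (mu V) := fun j => memLp_LC hR (hpL j)
  obtain ⟨Z, hZ⟩ : ∃ Z : ℝ, Z = ∫ x : E n, (1 : ℝ) ∂(mu V) := ⟨_, rfl⟩
  have hZI : Z = ∫ x : E n, Real.exp (-V x) := by
    rw [hZ, integral_muI hV]
    unfold I
    simp
  have hZ0 : 0 < Z := by
    rw [hZI]
    exact integral_exp_pos (hR.integrable_exp)
  obtain ⟨e, he⟩ : ∃ e : Fin n → ℝ, ∀ j, e j = (∫ x, Dt t j U x ∂(mu V)) / Z := ⟨fun j => _, fun j => rfl⟩
  have he' : ∀ j, ∫ x, Dt t j U x ∂(mu V) = e j * Z := fun j => by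
    rw [he j]; field_simp
  have hcst : ∀ r : ℝ, ∫ x : E n, r ∂(mu V) = r * Z := by
    intro r
    have : ∫ x : E n, r * (1 : ℝ) ∂(mu V) = r * Z := by rw [integral_const_mul, hZ]
    simpa using this
  have hg2 : ∀ j, MemLp (fun x => Dt t j U x - e j) 2 (mu V) := fun j => (hp2 j).sub (memLp_const _)
  have hg0 : ∀ j, ∫ x, (Dt t j U x - e j) ∂(mu V) = 0 := by
    intro j
    rw [integral_sub ((hp2 j).integrable (by norm_num)) (integrable_const _), he' j, hcst]
    ring
  have hgm : ∀ j, Measurable (fun x => Dt t j U x - e j) := fun j =>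
    (hpL j).1.continuous.measurable.sub_const _
  choose z Dz Az hE hD heq hz0 hA0 hzle hAle using fun j => resolv hGap hB (hgm j) (hg2 j) (hg0 j)
  -- the sum of squares of the centred parts
  have s1 : ∀ j, ∫ x, (Dt t j U x - e j) ^ 2 ∂(mu V) =
      ∫ x, Dt t j U x * Az j x ∂(mu V) + (∫ x, (Dt t j U x - e j) * z j x ∂(mu V)) / 4 := by
    intro j
    have a1 : ∫ x, (Dt t j U x - e j) ^ 2 ∂(mu V) =
        ∫ x, (Dt t j U x - e j) * Az j x ∂(mu V) + (∫ x, (Dt t j U x - e j) * z j x ∂(mu V)) / 4 := by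
      rw [← integral_div, ← integral_add (int_mul (hg2 j) (hE j).memA)
        ((int_mul (hg2 j) (hE j).mem).div_const 4)]
      refine integral_congr_ae (Eventually.of_forall fun x => ?_)
      have := heq j x
      simp only
      linear_combination (Dt t j U x - e j) * this
    have a2 : ∫ x, (Dt t j U x - e j) * Az j x ∂(mu V) = ∫ x, Dt t j U x * Az j x ∂(mu V) := by
      have i1 : Integrable (fun x => e j * Az j x) (mu V) := ((hE j).memA.integrable (by norm_num)).const_mul _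
      have : ∫ x, (Dt t j U x - e j) * Az j x ∂(mu V) =
          ∫ x, Dt t j U x * Az j x ∂(mu V) - ∫ x, e j * Az j x ∂(mu V) := by
        rw [← integral_sub (int_mul (hp2 j) (hE j).memA) i1]
        exact integral_congr_ae (Eventually.of_forall fun x => by ring)
      rw [this, integral_const_mul, hA0 j]
      ring
    rw [a1, a2]
  have s2 : ∀ j, ∫ x, (Dt t j U x - e j) * z j x ∂(mu V) ≤ ∫ x, (Dt t j U x - e j) ^ 2 ∂(mu V) := by
    intro j
    have h1 := amgm (hg2 j) (hE j).mem 1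
    have h2 := hzle j
    linarith
  have s3 : ∀ j, ∫ x, Dt t j U x * Az j x ∂(mu V) =
      ∫ x, (∑ a, ∑ b, t x a b * pd a (Dt t j U) x * Dz j b x) ∂(mu V) := fun j =>
    (hE j).form hR hT (hpL j)
  have hF : ∀ j, Integrable (fun x => ∑ a, ∑ b, t x a b * pd a (Dt t j U) x * Dz j b x) (mu V) := by
    intro j
    refine integrable_finsetSum _ fun a _ => integrable_finsetSum _ fun b _ => ?_
    exact int_mul (memLp_tmul hT (memLp_GB hR (gb_pd_lc (hpL j) a)) a b) ((hE j).memD b)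
  have hKi : Integrable (fun x => ∑ i, ∑ j, t x i j *
      ip t (fun y a => Dz i a y) (fun y a => Dz j a y) x) (mu V) := by
    refine integrable_finsetSum _ fun i _ => integrable_finsetSum _ fun j _ => ?_
    have h1 : Integrable (fun x => ∑ a, ∑ b, (t x i j * (t x a b * Dz i a x)) * Dz j b x) (mu V) :=
      integrable_finsetSum _ fun a _ => integrable_finsetSum _ fun b _ =>
        int_mul (memLp_tmul hT (memLp_tmul hT ((hE i).memD a) a b) i j) ((hE j).memD b)
    refine h1.congr (Eventually.of_forall fun x => ?_)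
    unfold ip
    simp only [Finset.mul_sum]
    exact Finset.sum_congr rfl fun a _ => Finset.sum_congr rfl fun b _ => by ring
  have hEi : Integrable (fun x => ∑ a, ∑ b, pd a (fun y => Dt t b U y) x * pd b (fun y => Dt t a U y) x)
      (mu V) :=
    integrable_finsetSum _ fun a _ => integrable_finsetSum _ fun b _ =>
      int_mul (memLp_GB hR (gb_pd_lc (hpL b) a)) (memLp_GB hR (gb_pd_lc (hpL a) b))
  -- Cauchy-Schwarz
  have s4 : 2 * K0⁻¹ * ∑ j, ∫ x, Dt t j U x * Az j x ∂(mu V) ≤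
      K0⁻¹ ^ 2 * KG V t t Dz Dz + ∫ x, Lt t U x ^ 2 ∂(mu V) := by
    have a1 : 2 * K0⁻¹ * ∑ j, ∫ x, Dt t j U x * Az j x ∂(mu V) =
        ∫ x, 2 * K0⁻¹ * ∑ j, (∑ a, ∑ b, t x a b * pd a (Dt t j U) x * Dz j b x) ∂(mu V) := by
      rw [integral_const_mul, integral_finsetSum _ fun j _ => hF j]
      congr 1
      exact Finset.sum_congr rfl fun j _ => s3 j
    have a2 : ∫ x, (∑ a, ∑ b, pd a (fun y => Dt t b U y) x * pd b (fun y => Dt t a U y) x) ∂(mu V) ≤
        ∫ x, Lt t U x ^ 2 ∂(mu V) := by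
      rw [integral_muI hV, integral_muI hV]
      exact K.E2.e2 n V t c C hB U hU
    have a3 : KG V t t Dz Dz = ∫ x, (∑ i, ∑ j, t x i j *
        ip t (fun y a => Dz i a y) (fun y a => Dz j a y) x) ∂(mu V) := by
      rw [integral_muI hV]; rfl
    rw [a1, a3, ← integral_const_mul]
    refine le_trans ?_ (add_le_add le_rfl a2)
    rw [← integral_add (hKi.const_mul _) hEi]
    refine integral_mono_ae ((integrable_finsetSum _ fun j _ => hF j).const_mul _)
      ((hKi.const_mul _).add hEi) ?_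
    exact (Vale.Agent.P245.H464.mu_ac V).ae_le (cs_pt hB.toTE hU Dz K0⁻¹)
  have s5 : KG V t t Dz Dz ≤ K0 * ∑ j, ∫ x, (Dt t j U x - e j) ^ 2 ∂(mu V) := by
    refine (hK z Az Dz hD fun i => ?_).trans ?_
    · rw [← integral_muI hV]; exact hz0 i
    · refine mul_le_mul_of_nonneg_left ?_ hK0.le
      refine Finset.sum_le_sum fun i _ => ?_
      rw [← integral_muI hV]
      exact hAle i
  have s6 : ∑ j, ∫ x, (Dt t j U x - e j) ^ 2 ∂(mu V) ≤ 2 * K0 * ∫ x, Lt t U x ^ 2 ∂(mu V) := by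
    have b1 : ∑ j, ∫ x, (Dt t j U x - e j) ^ 2 ∂(mu V) =
        ∑ j, ∫ x, Dt t j U x * Az j x ∂(mu V) +
          (∑ j, ∫ x, (Dt t j U x - e j) * z j x ∂(mu V)) / 4 := by
      rw [Finset.sum_div, ← Finset.sum_add_distrib]
      exact Finset.sum_congr rfl fun j _ => s1 j
    have b2 := Finset.sum_le_sum fun j (_ : j ∈ (Finset.univ : Finset (Fin n))) => s2 j
    obtain ⟨P, hP⟩ : ∃ P, P = ∑ j, ∫ x, (Dt t j U x - e j) ^ 2 ∂(mu V) := ⟨_, rfl⟩
    obtain ⟨S, hS⟩ : ∃ S, S = ∑ j, ∫ x, Dt t j U x * Az j x ∂(mu V) := ⟨_, rfl⟩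
    obtain ⟨X, hX⟩ : ∃ X, X = ∑ j, ∫ x, (Dt t j U x - e j) * z j x ∂(mu V) := ⟨_, rfl⟩
    obtain ⟨Q, hQ⟩ : ∃ Q, Q = ∫ x, Lt t U x ^ 2 ∂(mu V) := ⟨_, rfl⟩
    obtain ⟨k, hk⟩ : ∃ k, k = KG V t t Dz Dz := ⟨_, rfl⟩
    rw [← hP, ← hS, ← hX] at b1
    rw [← hX, ← hP] at b2
    rw [← hS, ← hk, ← hQ] at s4
    rw [← hk, ← hP] at s5
    rw [← hP, ← hQ]
    have hi : K0⁻¹ * K0 = 1 := inv_mul_cancel₀ hK0.ne'
    have hip : 0 < K0⁻¹ := inv_pos.2 hK0
    have c1 : K0⁻¹ ^ 2 * k ≤ K0⁻¹ * P := by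
      have : K0⁻¹ ^ 2 * k ≤ K0⁻¹ ^ 2 * (K0 * P) := mul_le_mul_of_nonneg_left s5 (by positivity)
      have h2 : K0⁻¹ ^ 2 * (K0 * P) = K0⁻¹ * P * (K0⁻¹ * K0) := by ring
      rw [h2, hi, mul_one] at this
      exact this
    have c2 : 2 * K0⁻¹ * S ≤ K0⁻¹ * P + Q := by linarith
    have c3 : 2 * S ≤ P + K0 * Q := by
      have := mul_le_mul_of_nonneg_left c2 hK0.le
      have h2 : K0 * (2 * K0⁻¹ * S) = 2 * S * (K0⁻¹ * K0) := by ring
      have h3 : K0 * (K0⁻¹ * P + Q) = P * (K0⁻¹ * K0) + K0 * Q := by ring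
      rw [h2, h3, hi, mul_one, mul_one] at this
      exact this
    linarith
  -- the means
  have m1 : ∀ j, ∫ x, x j * U x ∂(mu V) = e j * Z := by
    intro j
    rw [← he' j]
    have h1 : I V (fun x => Dt t j U x - x j * U x) = 0 :=
      tcore hT.toTF (lc_test hU) j (Eventually.of_forall fun x => rfl)
    rw [← integral_muI hV, integral_sub ((hp2 j).integrable (by norm_num))
      (int_mul (memLp_coord hReg j) (memLp_test hR hU))] at h1
    linarith
  have m2 : ∀ i j, ∫ x : E n, x i * x j ∂(mu V) = if i = j then Z else 0 := by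
    intro i j
    have h1 := hIso.2 i j
    unfold Ex at h1
    rw [← hZI, div_eq_iff hZ0.ne'] at h1
    rw [integral_muI hV]
    unfold I
    rw [h1]
    split_ifs <;> simp
  have m3 : Z * ∑ j, e j ^ 2 ≤ ∫ x, U x ^ 2 ∂(mu V) := by
    have hL : MemLp (fun x : E n => ∑ j, e j * x j) 2 (mu V) :=
      memLp_finsetSum _ fun j _ => (memLp_coord hReg j).const_mul _
    have h1 := amgm hL (memLp_test hR hU) 1
    have h2 : ∫ x, (∑ j, e j * x j) * U x ∂(mu V) = Z * ∑ j, e j ^ 2 := by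
      have : ∫ x, (∑ j, e j * x j) * U x ∂(mu V) = ∑ j, ∫ x, e j * (x j * U x) ∂(mu V) := by
        rw [← integral_finsetSum _ fun j _ =>
          (int_mul (memLp_coord hReg j) (memLp_test hR hU)).const_mul _]
        refine integral_congr_ae (Eventually.of_forall fun x => ?_)
        simp only [Finset.sum_mul]
        exact Finset.sum_congr rfl fun j _ => by ring
      rw [this, Finset.mul_sum]
      refine Finset.sum_congr rfl fun j _ => ?_
      rw [integral_const_mul, m1 j]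
      ring
    have h3 : ∫ x, (∑ j, e j * x j) ^ 2 ∂(mu V) = Z * ∑ j, e j ^ 2 := by
      have : ∫ x, (∑ j, e j * x j) ^ 2 ∂(mu V) =
          ∑ i, ∑ j, ∫ x : E n, (e i * e j) * (x i * x j) ∂(mu V) := by
        have hi : ∀ i j, Integrable (fun x : E n => (e i * e j) * (x i * x j)) (mu V) := fun i j =>
          (int_mul (memLp_coord hReg i) (memLp_coord hReg j)).const_mul _
        simp only [← integral_finsetSum _ fun j (_ : j ∈ (Finset.univ : Finset (Fin n))) => hi _ j]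
        rw [← integral_finsetSum _ fun i _ => integrable_finsetSum _ fun j _ => hi i j]
        refine integral_congr_ae (Eventually.of_forall fun x => ?_)
        simp only [sq, Finset.sum_mul_sum]
        exact Finset.sum_congr rfl fun i _ => Finset.sum_congr rfl fun j _ => by ring
      rw [this, Finset.mul_sum]
      refine Finset.sum_congr rfl fun i _ => ?_
      have : ∀ j, ∫ x : E n, (e i * e j) * (x i * x j) ∂(mu V) = if i = j then e i * e j * Z else 0 := by
        intro j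
        rw [integral_const_mul, m2]
        split_ifs <;> simp
      simp only [this]
      rw [Finset.sum_ite_eq]
      simp
      ring
    rw [h2, h3] at h1
    linarith
  have m4 : ∀ j, ∫ x, Dt t j U x ^ 2 ∂(mu V) = ∫ x, (Dt t j U x - e j) ^ 2 ∂(mu V) + Z * e j ^ 2 := by
    intro j
    have i1 := int_sq (hg2 j)
    have i2 : Integrable (fun x => 2 * e j * (Dt t j U x - e j)) (mu V) :=
      ((hg2 j).integrable (by norm_num)).const_mul _
    have i3 : Integrable (fun x => (Dt t j U x - e j) ^ 2 + 2 * e j * (Dt t j U x - e j)) (mu V) := i1.add i2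
    have h1 : ∫ x, Dt t j U x ^ 2 ∂(mu V) = ∫ x, (Dt t j U x - e j) ^ 2 ∂(mu V) +
        ∫ x, 2 * e j * (Dt t j U x - e j) ∂(mu V) + ∫ x : E n, e j ^ 2 ∂(mu V) := by
      rw [← integral_add i1 i2, ← integral_add i3 (integrable_const _)]
      exact integral_congr_ae (Eventually.of_forall fun x => by ring)
    rw [h1, integral_const_mul, hg0 j, hcst]
    ring
  calc ∑ j, ∫ x, Dt t j U x ^ 2 ∂(mu V)
      = ∑ j, ∫ x, (Dt t j U x - e j) ^ 2 ∂(mu V) + Z * ∑ j, e j ^ 2 := by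
        rw [Finset.mul_sum, ← Finset.sum_add_distrib]
        exact Finset.sum_congr rfl fun j _ => m4 j
    _ ≤ _ := add_le_add s6 m3

/-- **row HP**: (K) implies the Poincare inequality on the isotropic regular class -/
theorem preg_of (hK : StmtK) (hGap : StmtGap) : StmtPreg := by
  obtain ⟨K0, hK0, hK⟩ := hK
  refine ⟨2 * (2 * K0 + 1), by positivity, ?_⟩
  intro n V t c C hB hIso f hf
  have hReg := hB.reg
  obtain ⟨c1, C1, hR⟩ := hB.reg
  have hT : TB V t := hB.toTB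
  have hV : Continuous V := hB.V2.continuous
  haveI := finite_mu hR
  obtain ⟨Z, hZ⟩ : ∃ Z : ℝ, Z = ∫ x : E n, (1 : ℝ) ∂(mu V) := ⟨_, rfl⟩
  have hZI : Z = ∫ x : E n, Real.exp (-V x) := by
    rw [hZ, integral_muI hV]
    unfold I
    simp
  have hZ0 : 0 < Z := by
    rw [hZI]
    exact integral_exp_pos (hR.integrable_exp)
  have hcst : ∀ r : ℝ, ∫ x : E n, r ∂(mu V) = r * Z := by
    intro r
    have : ∫ x : E n, r * (1 : ℝ) ∂(mu V) = r * Z := by rw [integral_const_mul, hZ]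
    simpa using this
  obtain ⟨m, hm⟩ : ∃ m : ℝ, m = (∫ x, f x ∂(mu V)) / Z := ⟨_, rfl⟩
  have hm' : ∫ x, f x ∂(mu V) = m * Z := by rw [hm]; field_simp
  have hf2 := memLp_test hR hf
  have hg2 : MemLp (fun x => f x - m) 2 (mu V) := hf2.sub (memLp_const _)
  have hg0 : ∫ x, (f x - m) ∂(mu V) = 0 := by
    rw [integral_sub (hf2.integrable (by norm_num)) (integrable_const _), hm', hcst]
    ring
  obtain ⟨u, Du, Au, hE, hD, heq, hu0, hA0, hule, hAle⟩ :=
    resolv hGap hB ((lc_test hf).1.continuous.measurable.sub_const m) hg2 hg0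
  obtain ⟨F, hF⟩ : ∃ F, F = ∫ x, (f x - m) ^ 2 ∂(mu V) := ⟨_, rfl⟩
  obtain ⟨G, hG⟩ : ∃ G, G = ∫ x, (∑ a, (pd a f x) ^ 2) ∂(mu V) := ⟨_, rfl⟩
  have hG0 : 0 ≤ G := by
    rw [hG]; exact integral_nonneg fun x => Finset.sum_nonneg fun a _ => sq_nonneg _
  -- F = ∫ f Au + ∫ (f - m) u / 4
  have s1 : F = ∫ x, f x * Au x ∂(mu V) + (∫ x, (f x - m) * u x ∂(mu V)) / 4 := by
    have a1 : F = ∫ x, (f x - m) * Au x ∂(mu V) + (∫ x, (f x - m) * u x ∂(mu V)) / 4 := by
      rw [hF, ← integral_div, ← integral_add (int_mul hg2 hE.memA) ((int_mul hg2 hE.mem).div_const 4)]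
      refine integral_congr_ae (Eventually.of_forall fun x => ?_)
      have := heq x
      simp only
      linear_combination (f x - m) * this
    have a2 : ∫ x, (f x - m) * Au x ∂(mu V) = ∫ x, f x * Au x ∂(mu V) := by
      have i1 : Integrable (fun x => m * Au x) (mu V) := (hE.memA.integrable (by norm_num)).const_mul _
      have : ∫ x, (f x - m) * Au x ∂(mu V) = ∫ x, f x * Au x ∂(mu V) - ∫ x, m * Au x ∂(mu V) := by
        rw [← integral_sub (int_mul hf2 hE.memA) i1]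
        exact integral_congr_ae (Eventually.of_forall fun x => by ring)
      rw [this, integral_const_mul, hA0]
      ring
    rw [a1, a2]
  have s2 : ∫ x, (f x - m) * u x ∂(mu V) ≤ F := by
    have h1 := amgm hg2 hE.mem 1
    rw [hF]
    linarith
  -- the estimate along test functions
  have s3 : ∀ r : ℝ, 0 < r → 2 * r * ∫ x, f x * Au x ∂(mu V) ≤
      r ^ 2 * G + (2 * K0 * ∫ x, Au x ^ 2 ∂(mu V) + ∫ x, u x ^ 2 ∂(mu V)) := by
    intro r hr
    obtain ⟨U, hU, l1, l2, l3⟩ := hE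
    have t1 : Tendsto (fun k => 2 * r * ∫ x, f x * (-Lt t (U k) x) ∂(mu V)) atTop
        (𝓝 (2 * r * ∫ x, f x * Au x ∂(mu V))) := ((L2to.const hf2).mul l3).const_mul _
    have t2 : Tendsto (fun k => ∫ x, (-Lt t (U k) x) * (-Lt t (U k) x) ∂(mu V)) atTop
        (𝓝 (∫ x, Au x * Au x ∂(mu V))) := l3.mul l3
    have t3 : Tendsto (fun k => ∫ x, U k x * U k x ∂(mu V)) atTop (𝓝 (∫ x, u x * u x ∂(mu V))) :=
      l1.mul l1
    have t4 := (tendsto_const_nhds (x := r ^ 2 * G)).add ((t2.const_mul (2 * K0)).add t3)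
    have e1 : ∫ x, Au x ^ 2 ∂(mu V) = ∫ x, Au x * Au x ∂(mu V) :=
      integral_congr_ae (Eventually.of_forall fun x => sq (Au x))
    have e2 : ∫ x, u x ^ 2 ∂(mu V) = ∫ x, u x * u x ∂(mu V) :=
      integral_congr_ae (Eventually.of_forall fun x => sq (u x))
    rw [e1, e2]
    refine le_of_tendsto_of_tendsto' t1 t4 fun k => ?_
    have hpL := lc_p hT.toTF (hU k)
    have q1 : ∫ x, f x * (-Lt t (U k) x) ∂(mu V) = ∫ x, (∑ a, pd a f x * Dt t a (U k) x) ∂(mu V) := by
      rw [Vale.Agent.P245.K.OP3.test_form hT (hU k) (lc_test hf)]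
      refine integral_congr_ae (Eventually.of_forall fun x => ?_)
      simp only
      refine Finset.sum_congr rfl fun a _ => ?_
      unfold Dt
      rw [Finset.mul_sum]
      exact Finset.sum_congr rfl fun b _ => by ring
    have i1 : ∀ a, Integrable (fun x => pd a f x ^ 2) (mu V) := fun a =>
      int_sq (memLp_GB hR (gb_pd_lc (lc_test hf) a))
    have i2 : ∀ a, Integrable (fun x => Dt t a (U k) x ^ 2) (mu V) := fun a => int_sq (memLp_LC hR (hpL a))
    have i3 : ∀ a, Integrable (fun x => pd a f x * Dt t a (U k) x) (mu V) := fun a =>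
      int_mul (memLp_GB hR (gb_pd_lc (lc_test hf) a)) (memLp_LC hR (hpL a))
    have q2 : 2 * r * ∫ x, (∑ a, pd a f x * Dt t a (U k) x) ∂(mu V) ≤
        r ^ 2 * G + ∑ a, ∫ x, Dt t a (U k) x ^ 2 ∂(mu V) := by
      rw [hG, integral_finsetSum _ fun a _ => i3 a, integral_finsetSum _ fun a _ => i1 a,
        Finset.mul_sum, Finset.mul_sum, ← Finset.sum_add_distrib]
      exact Finset.sum_le_sum fun a _ =>
        amgm (memLp_GB hR (gb_pd_lc (lc_test hf) a)) (memLp_LC hR (hpL a)) r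
    have q3 := hprime hGap hB hIso hK0 (hK n V t c C hB hIso) (hU k)
    have e3 : ∫ x, (-Lt t (U k) x) * (-Lt t (U k) x) ∂(mu V) = ∫ x, Lt t (U k) x ^ 2 ∂(mu V) :=
      integral_congr_ae (Eventually.of_forall fun x => by ring)
    have e4 : ∫ x, U k x * U k x ∂(mu V) = ∫ x, U k x ^ 2 ∂(mu V) :=
      integral_congr_ae (Eventually.of_forall fun x => by ring)
    rw [q1, e3, e4]
    linarith
  have s4 : F ≤ 2 * (2 * K0 + 1) * G := by
    have hK1 : 0 < 2 * K0 + 1 := by positivity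
    have h1 := s3 (2 * K0 + 1) hK1
    have hA : ∫ x, Au x ^ 2 ∂(mu V) ≤ F := by rw [hF]; exact hAle
    have hu : ∫ x, u x ^ 2 ∂(mu V) ≤ F := by rw [hF]; exact hule
    obtain ⟨S, hS⟩ : ∃ S, S = ∫ x, f x * Au x ∂(mu V) := ⟨_, rfl⟩
    rw [← hS] at h1 s1
    have h2 : 2 * K0 * ∫ x, Au x ^ 2 ∂(mu V) ≤ 2 * K0 * F := mul_le_mul_of_nonneg_left hA (by positivity)
    have h3 : 2 * (2 * K0 + 1) * S ≤ (2 * K0 + 1) * ((2 * K0 + 1) * G + F) := by
      nlinarith
    have h4 : 2 * S ≤ (2 * K0 + 1) * G + F := by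
      have : (2 * K0 + 1) * (2 * S) ≤ (2 * K0 + 1) * ((2 * K0 + 1) * G + F) := by linarith
      exact le_of_mul_le_mul_left this hK1
    linarith
  -- back to `Ex`
  have r1 : Ex V (fun x => f x ^ 2) - (Ex V f) ^ 2 = F / Z := by
    have w1 : Ex V f = m := by
      unfold Ex
      rw [← hZI, hm]
      congr 1
      rw [integral_muI hV]; rfl
    have w2 : Ex V (fun x => f x ^ 2) = (∫ x, f x ^ 2 ∂(mu V)) / Z := by
      unfold Ex
      rw [← hZI]
      congr 1
      rw [integral_muI hV]; rfl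
    have w3 : F = ∫ x, f x ^ 2 ∂(mu V) - m ^ 2 * Z := by
      have i1 := int_sq hf2
      have i2 : Integrable (fun x => 2 * m * f x) (mu V) := (hf2.integrable (by norm_num)).const_mul _
      have i3 : Integrable (fun x => f x ^ 2 - 2 * m * f x) (mu V) := i1.sub i2
      have : F = ∫ x, f x ^ 2 ∂(mu V) - ∫ x, 2 * m * f x ∂(mu V) + ∫ x : E n, m ^ 2 ∂(mu V) := by
        rw [hF, ← integral_sub i1 i2, ← integral_add i3 (integrable_const _)]
        exact integral_congr_ae (Eventually.of_forall fun x => by ring)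
      rw [this, integral_const_mul, hm', hcst]
      ring
    rw [w1, w2, w3]
    field_simp
  have r2 : Ex V (fun x => ∑ a, (pd a f x) ^ 2) = G / Z := by
    unfold Ex
    rw [← hZI, hG]
    congr 1
    rw [integral_muI hV]; rfl
  rw [r1, r2, ← mul_div_assoc]
  exact div_le_div_of_nonneg_right s4 hZ0.le

end Vale.Agent.P245.K2.HP
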