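import Vale.Agent.P245.K.Final
import Vale.Agent.P245.K2.Kato
import Vale.Agent.P245.K2.R1E
import Vale.Agent.P245.K.Comm
import Vale.Agent.P245.K.W
import Vale.Agent.P245.K3.Inst
import Vale.Agent.P245.K3.Chain
import Vale.Agent.P245.K3.Gap717
import Vale.Agent.P245.K.Ident
import Vale.Agent.P245.K.Abs
import Vale.Agent.P245.H464.Base0
import Vale.Agent.P245.K2.HP
import Vale.Agent.P245.K2.StepInst

/-!
P245: assembly check of all rows of the KLS block (helper132).
-/

namespace Vale.Agent.P245.K2.All132

open Vale.Agent.P245.K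

theorem stComm : StmtComm := Vale.Agent.P245.K.Comm.comm stmtW
theorem stStep0 : StmtStep0 := StepInst.step0 Kato.kato R1E.r1e stComm
theorem stStep : StmtStep := StepInst.step Kato.kato R1E.r1e stComm
theorem stBase0 : StmtBase0 := Vale.Agent.P245.H464.base0 stStep0
theorem stGap : StmtGap := Vale.Agent.P245.K3.Gap717.gap
theorem stChain : StmtChain := Vale.Agent.P245.K3.Chain.chain stStep stBase0 stGap
theorem stIdent : StmtIdent := Vale.Agent.P245.K.Ident.ident Vale.Agent.P245.H464.stmtForm
theorem stK : StmtK := Vale.Agent.P245.K3.inst stmtAbs stChain stIdent Vale.Agent.P245.H464.stmtLin stGap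
theorem stPreg : StmtPreg := HP.preg_of stK stGap

end Vale.Agent.P245.K2.All132
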