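import Vale.Agent.P245.K2.StepInst
import Vale.Agent.P245.K3.Inst
import Vale.Agent.P245.K3.Chain
import Vale.Agent.P245.K3.Gap717
import Vale.Agent.P245.H464.Base0
import Vale.Agent.P245.H464.Ops
import Vale.Agent.P245.K.Abs
import Vale.Agent.P245.K2.Ident
import Vale.Agent.P245.H866.HP
import Vale.Agent.P245.K.W
import Vale.Agent.P245.K2.R1E
import Vale.Agent.P245.K.Comm
import Vale.Agent.P245.K2.Kato
import Vale.Agent.P245.K.Final
import Vale.Agent.P245.H847.HandIn

/-! P245, KLS: independent plug test (helper912). -/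

open MeasureTheory
open scoped ContDiff

namespace Vale.Agent.P245.K2.AllTest912

open Vale.Agent.P245.K

theorem comm : StmtComm := Vale.Agent.P245.K.Comm.comm stmtW
theorem step : StmtStep := Vale.Agent.P245.K2.StepInst.step Vale.Agent.P245.K2.Kato.kato Vale.Agent.P245.K2.R1E.r1e comm
theorem step0 : StmtStep0 := Vale.Agent.P245.K2.StepInst.step0 Vale.Agent.P245.K2.Kato.kato Vale.Agent.P245.K2.R1E.r1e comm
theorem base0 : StmtBase0 := Vale.Agent.P245.H464.base0 step0
theorem chain : StmtChain := Vale.Agent.P245.K3.Chain.chain step base0 Vale.Agent.P245.K3.Gap717.gap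
theorem stmtK : StmtK := Vale.Agent.P245.K3.inst stmtAbs chain Vale.Agent.P245.K.Ident522.ident Vale.Agent.P245.H464.stmtLin Vale.Agent.P245.K3.Gap717.gap
theorem preg : StmtPreg := Vale.Agent.P245.HPR.preg stmtK Vale.Agent.P245.H464.stmtLin Vale.Agent.P245.K3.Gap717.gap
theorem kls : ∃ C : ℝ, 0 < C ∧ ∀ (n : ℕ) (μ : Measure (EuclideanSpace ℝ (Fin n))) [IsProbabilityMeasure μ],
      HasLogConcaveDensity μ → ∀ (b : Fin n → ℝ) (K : Matrix (Fin n) (Fin n) ℝ),
      (∀ i, ∫ x, x i ∂μ = b i) → (∀ i j, ∫ x, (x i - b i) * (x j - b j) ∂μ = K i j) →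
      ∀ f : EuclideanSpace ℝ (Fin n) → ℝ, ContDiff ℝ ∞ f → HasCompactSupport f →
        (∫ x, f x ^ 2 ∂μ) - (∫ x, f x ∂μ) ^ 2 ≤
          C * ∫ x, ∑ i, ∑ j, K i j * (gradient f x i * gradient f x j) ∂μ :=
  Vale.Agent.P245.K.Final.kls_final preg

end Vale.Agent.P245.K2.AllTest912
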