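import Vale.Agent.P245.K.Iface2
import Vale.Agent.P245.H464.DomT
import Vale.Agent.P245.H464.Pos2
import Vale.Agent.P245.K3.Chain
import Vale.Agent.P245.K.StepCore

/-!
P245, KLS by moment maps, row BASE0 (helper405): `StmtStep0 → StmtBase0`; the first half is helper464's
`base0_half`, `dom_t`, `mle_Att`.
-/

set_option linter.all false

open MeasureTheory Filter Topology Set Matrix
open scoped NNReal ENNReal ContDiff
open Vale.Agent.P227.M Vale.Agent.P227.M.K814 Vale.Agent.P254.SN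

namespace Vale.Agent.P245.K2.Base0b

open Vale.Agent.P245.K
open Vale.Agent.P245.H464 (TE Lt Sq Att)

variable {n : ℕ}

/-! ## matrices -/

theorem sum3 (f : Fin n → Fin n → Fin n → ℝ) :
    ∑ a, ∑ b, ∑ c, f a b c = ∑ c, ∑ a, ∑ b, f a b c := by
  rw [Finset.sum_congr rfl fun a _ => Finset.sum_comm, Finset.sum_comm]

theorem sum4 (f : Fin n → Fin n → Fin n → Fin n → ℝ) :
    ∑ b, ∑ e, ∑ a, ∑ i, f b e a i = ∑ a, ∑ i, ∑ b, ∑ e, f b e a i := by
  rw [Finset.sum_congr rfl fun b _ => Finset.sum_comm, Finset.sum_comm]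
  exact Finset.sum_congr rfl fun a _ => sum3 (fun b e i => f b e a i)

theorem psd_of' {T : Matrix (Fin n) (Fin n) ℝ} (hs : ∀ i j, T i j = T j i)
    (h : ∀ v : Fin n → ℝ, 0 ≤ ∑ i, ∑ j, T i j * v i * v j) : T.PosSemidef := by
  refine Vale.Agent.P245.K.Step.psd_of hs fun v => ?_
  rw [Vale.Agent.P245.K.Step.quad_eq_sum]
  refine (h v).trans (le_of_eq ?_)
  exact Finset.sum_congr rfl fun i _ => Finset.sum_congr rfl fun j _ => by ring

/-- the quadratic form `tr (t Z G Zᵀ)` -/
theorem q_nonneg {T G : Matrix (Fin n) (Fin n) ℝ} (hT : T.PosSemidef) (hG : G.PosSemidef)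
    (Z : Matrix (Fin n) (Fin n) ℝ) : 0 ≤ (T * (Z * G * Zᵀ)).trace :=
  Vale.Agent.P245.K.Step.trace_mul_nonneg hT (Vale.Agent.P245.K.Step.gram_psd hG Z)

theorem q_eq (T G Z : Matrix (Fin n) (Fin n) ℝ) (hG : ∀ i j, G i j = G j i) :
    (T * (Z * G * Zᵀ)).trace = ∑ a, ∑ b, T a b * ∑ k, ∑ l, G k l * Z a k * Z b l := by
  simp only [Matrix.trace, Matrix.diag_apply, Matrix.mul_apply, Matrix.transpose_apply]
  refine Finset.sum_congr rfl fun a _ => Finset.sum_congr rfl fun b _ => ?_
  congr 1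
  refine Finset.sum_congr rfl fun k _ => ?_
  rw [Finset.sum_mul]
  refine Finset.sum_congr rfl fun l _ => ?_
  rw [hG l k]
  ring

/-- Cauchy-Schwarz -/
theorem cs_mat {T Z M : Matrix (Fin n) (Fin n) ℝ} (hT : T.PosDef) (hM : (T * M)ᵀ = T * M) :
    (T * Z * Mᵀ).trace ^ 2 ≤ (T * (Z * T * Zᵀ)).trace * (M * M).trace := by
  have hTt : Tᵀ = T := by simpa using hT.isHermitian.eq
  have hu : IsUnit T.det := (Matrix.isUnit_iff_isUnit_det _).mp hT.isUnit
  have hTi : T * T⁻¹ = 1 := Matrix.mul_nonsing_inv _ hu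
  have hTi' : T⁻¹ * T = 1 := Matrix.nonsing_inv_mul _ hu
  have hTit : (T⁻¹)ᵀ = T⁻¹ := by rw [Matrix.transpose_nonsing_inv, hTt]
  have hM' : Mᵀ * T = T * M := by rw [← hM, Matrix.transpose_mul, hTt]
  have key : ∀ r : ℝ, 0 ≤ (T * (Z * T * Zᵀ)).trace * (r * r) + 2 * (T * Z * Mᵀ).trace * r +
      (M * M).trace := by
    intro r
    have h0 := q_nonneg hT.posSemidef hT.posSemidef (r • Z + M * T⁻¹)
    have e1 : (r • Z + M * T⁻¹) * T * (r • Z + M * T⁻¹)ᵀ =
        (r * r) • (Z * T * Zᵀ) + r • (Z * Mᵀ) + r • (M * Zᵀ) + M * (T⁻¹ * Mᵀ) := by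
      rw [Matrix.add_mul, Matrix.mul_assoc M, hTi', Matrix.mul_one, Matrix.transpose_add,
        Matrix.transpose_smul, Matrix.transpose_mul, hTit]
      simp only [Matrix.add_mul, Matrix.mul_add, Matrix.smul_mul, Matrix.mul_smul, smul_smul]
      have e2 : Z * T * (T⁻¹ * Mᵀ) = Z * Mᵀ := by
        rw [Matrix.mul_assoc, ← Matrix.mul_assoc T, hTi, Matrix.one_mul]
      rw [e2]
      simp only [smul_add, smul_smul]
      abel
    rw [e1] at h0
    simp only [Matrix.mul_add, Matrix.mul_smul, Matrix.trace_add, Matrix.trace_smul, smul_eq_mul] at h0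
    have e3 : (T * (Z * Mᵀ)).trace = (T * Z * Mᵀ).trace := by rw [Matrix.mul_assoc]
    have e4 : (T * (M * Zᵀ)).trace = (T * Z * Mᵀ).trace := by
      rw [← Matrix.trace_transpose, Matrix.transpose_mul, Matrix.transpose_mul,
        Matrix.transpose_transpose, hTt, Matrix.trace_mul_comm, Matrix.mul_assoc]
    have e5 : (T * (M * (T⁻¹ * Mᵀ))).trace = (M * M).trace := by
      rw [← Matrix.mul_assoc, ← hM', Matrix.mul_assoc, ← Matrix.mul_assoc T, hTi, Matrix.one_mul,
        ← Matrix.transpose_mul, Matrix.trace_transpose]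
    rw [e3, e4, e5] at h0
    linarith
  have h1 := discrim_le_zero key
  unfold discrim at h1
  nlinarith [h1]

section base

variable {V : E n → ℝ} {t : E n → Matrix (Fin n) (Fin n) ℝ} {c C : ℝ}

/-- the source `(1 - A) t = t V'' t + S` -/
noncomputable def Sg (V : E n → ℝ) (t : E n → Matrix (Fin n) (Fin n) ℝ) (x : E n) :
    Matrix (Fin n) (Fin n) ℝ := fun i j => t x i j - Att V t x i j

theorem Sm_symm (x : E n) (i a : Fin n) : Sm t x i a = Sm t x a i := by
  unfold Sm
  rw [Finset.sum_comm]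
  exact Finset.sum_congr rfl fun b _ => Finset.sum_congr rfl fun e _ => by ring

theorem Att_symm (hB : Base V t c C) (x : E n) (i a : Fin n) : Att V t x i a = Att V t x a i := by
  unfold Att
  have h1 := Sm_symm (t := t) x a i
  unfold Sm at h1
  rw [hB.symm x i a, h1]
  congr 1
  congr 1
  rw [Finset.sum_comm]
  refine Finset.sum_congr rfl fun b _ => Finset.sum_congr rfl fun e _ => ?_
  have h2 : pd b (pd e V) x = pd e (pd b V) x := by
    rw [Vale.Agent.P227.M.LL.pd_pd hB.V2, Vale.Agent.P227.M.LL.pd_pd hB.V2]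
    have h : IsSymmSndFDerivAt ℝ V x := (hB.V2.contDiffAt (x := x)).isSymmSndFDerivAt (by simp)
    exact h (ei b) (ei e)
  rw [h2]
  ring

theorem Sg_quad (hB : Base V t c C) (x : E n) (v : Fin n → ℝ) :
    ∑ i, ∑ j, Sg V t x i j * v i * v j =
      qf (hess V x) (WithLp.toLp 2 ((t x).mulVec v)) + ∑ a, ∑ i, Sm t x a i * v a * v i := by
  rw [← Vt_eq (V := V) (x := x) hB.symm v,
    Finset.sum_comm (f := fun a i => (∑ b, ∑ e, t x i e * pd e (pd b V) x * t x a b) * v a * v i),
    Finset.sum_comm (f := fun a i => Sm t x a i * v a * v i), ← Finset.sum_add_distrib]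
  refine Finset.sum_congr rfl fun i _ => ?_
  rw [← Finset.sum_add_distrib]
  refine Finset.sum_congr rfl fun a _ => ?_
  unfold Sg Att Sm
  ring

/-- **first Cauchy-Schwarz bound** -/
theorem csm_base (hB : Base V t c C) :
    CSM t t (fun b x i j => pd b (fun y => t y i j) x) (Sg V t) := by
  filter_upwards [hB.tot] with x hx z ζ
  have hT : (t x).PosDef := TE.posDef hB.toTE x
  set M : Matrix (Fin n) (Fin n) ℝ := Matrix.of fun a k => ∑ l, pd a (fun y => t y k l) x * z l with hMd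
  set Z : Matrix (Fin n) (Fin n) ℝ := Matrix.of fun b k => ζ b k with hZd
  have hTM : ∀ b k, (t x * M) b k = ∑ l, (∑ a, t x b a * pd a (fun y => t y k l) x) * z l := by
    intro b k
    simp only [Matrix.mul_apply, hMd, Matrix.of_apply, Finset.mul_sum, Finset.sum_mul]
    rw [Finset.sum_comm]
    exact Finset.sum_congr rfl fun l _ => Finset.sum_congr rfl fun a _ => by ring
  have hM : (t x * M)ᵀ = t x * M := by
    ext b k
    rw [Matrix.transpose_apply, hTM, hTM]
    exact Finset.sum_congr rfl fun l _ => by rw [hx k b l]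
  have h1 := cs_mat (Z := Z) hT hM
  have e1 : (t x * Z * Mᵀ).trace =
      ∑ a, ∑ b, t x a b * ∑ k, ∑ l, pd a (fun y => t y k l) x * z l * ζ b k := by
    simp only [Matrix.trace, Matrix.diag_apply, Matrix.mul_apply, Matrix.transpose_apply, hMd, hZd,
      Matrix.of_apply]
    refine Finset.sum_congr rfl fun a _ => ?_
    simp only [Finset.mul_sum]
    rw [← sum3 (fun k l b => t x a b * (pd a (fun y => t y k l) x * z l * ζ b k))]
    refine Finset.sum_congr rfl fun k _ => Finset.sum_congr rfl fun l _ => ?_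
    rw [Finset.sum_mul]
    exact Finset.sum_congr rfl fun b _ => by ring
  have e2 := q_eq (t x) (t x) Z (hB.symm x)
  have e3 : (M * M).trace = ∑ a, ∑ i, Sm t x a i * z a * z i := by
    have f1 : ∀ b e, M b e * M e b =
        ∑ a, ∑ i, pd b (fun y => t y i e) x * pd e (fun y => t y a b) x * z a * z i := by
      intro b e
      simp only [hMd, Matrix.of_apply]
      rw [Finset.sum_mul_sum, Finset.sum_comm]
      refine Finset.sum_congr rfl fun a _ => Finset.sum_congr rfl fun i _ => ?_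
      have g1 : (fun y => t y e i) = fun y => t y i e := funext fun y => hB.symm y e i
      have g2 : (fun y => t y b a) = fun y => t y a b := funext fun y => hB.symm y b a
      rw [g1, g2]
      ring
    simp only [Matrix.trace, Matrix.diag_apply, Matrix.mul_apply, f1]
    rw [sum4]
    refine Finset.sum_congr rfl fun a _ => Finset.sum_congr rfl fun i _ => ?_
    unfold Sm
    simp only [Finset.sum_mul]
  rw [e1, e2, e3] at h1
  have h2 : ∑ a, ∑ i, Sm t x a i * z a * z i ≤ ∑ k, ∑ l, Sg V t x k l * z k * z l := by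
    rw [Sg_quad hB]
    linarith [H464.hess_nonneg hB x (WithLp.toLp 2 ((t x).mulVec z))]
  have h3 : 0 ≤ ∑ a, ∑ b, t x a b * ∑ k, ∑ l, t x k l * ζ a k * ζ b l := by
    have := q_nonneg hT.posSemidef hT.posSemidef Z
    rw [e2] at this
    exact this
  refine h1.trans ?_
  rw [mul_comm]
  exact mul_le_mul_of_nonneg_right h2 h3

theorem gb_Sg (hB : Base V t c C) (i j : Fin n) : GB (fun x => Sg V t x i j) :=
  (gb_t hB.toTB i j).sub (H464.gb_Att hB.toTB i j)

/-- finite linear combinations -/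
theorem dom_fsum (hB : Base V t c C) {ι : Type*} (s : Finset ι) (w : ι → ℝ) {u Au : ι → E n → ℝ}
    {Du : ι → Fin n → E n → ℝ} (hd : ∀ i, Dom V t (u i) (Du i) (Au i)) :
    Dom V t (fun x => ∑ i ∈ s, w i * u i x) (fun a x => ∑ i ∈ s, w i * Du i a x)
      (fun x => ∑ i ∈ s, w i * Au i x) := by
  classical
  obtain ⟨l1, -, -, -, -, l6⟩ := H464.stmtLin n V t c C hB
  induction s using Finset.induction_on with
  | empty =>
    have := l1 _ _ _ _ _ _ l6 l6 0 0
    simpa using this
  | insert i s hi ih =>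
    have := l1 _ _ _ _ _ _ (hd i) ih (w i) 1
    simpa [Finset.sum_insert hi] using this

/-- **matrix positivity** -/
theorem mpos (hB : Base V t c C) {s : ℝ} (hs : 0 < s) {P AP : E n → Matrix (Fin n) (Fin n) ℝ}
    {DP : Fin n → E n → Matrix (Fin n) (Fin n) ℝ}
    (hd : ∀ i j, Dom V t (fun x => P x i j) (fun a x => DP a x i j) (fun x => AP x i j))
    (hp : ∀ᵐ x, ∀ v : Fin n → ℝ, 0 ≤ ∑ i, ∑ j, (P x i j + s * AP x i j) * v i * v j) :
    ∀ᵐ x, ∀ v : Fin n → ℝ, 0 ≤ ∑ i, ∑ j, P x i j * v i * v j := by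
  refine Vale.Agent.P245.K.Step.ae_forall_of_forall_ae (fun x => by fun_prop) fun v => ?_
  have h1 := dom_fsum hB (Finset.univ : Finset (Fin n × Fin n)) (fun p => v p.1 * v p.2)
    (u := fun p x => P x p.1 p.2) (Au := fun p x => AP x p.1 p.2)
    (Du := fun p a x => DP a x p.1 p.2) (fun p => hd p.1 p.2)
  have h2 := H464.stmtPos n V t c C hB s hs _ _ _ h1 (by
    filter_upwards [hp] with x hx
    refine (hx v).trans (le_of_eq ?_)
    rw [Finset.mul_sum, ← Finset.sum_add_distrib, Fintype.sum_prod_type]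
    exact Finset.sum_congr rfl fun i _ => Finset.sum_congr rfl fun j _ => by ring)
  filter_upwards [h2] with x hx
  refine hx.trans (le_of_eq ?_)
  rw [Fintype.sum_prod_type]
  exact Finset.sum_congr rfl fun i _ => Finset.sum_congr rfl fun j _ => by ring

/-- quadratic form of a linear combination -/
theorem quad_lin (a b : ℝ) (P Q : Matrix (Fin n) (Fin n) ℝ) (v : Fin n → ℝ) :
    ∑ i, ∑ j, (a * P i j + b * Q i j) * v i * v j =
      a * (∑ i, ∑ j, P i j * v i * v j) + b * ∑ i, ∑ j, Q i j * v i * v j := by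
  simp only [Finset.mul_sum, ← Finset.sum_add_distrib]
  exact Finset.sum_congr rfl fun i _ => Finset.sum_congr rfl fun j _ => by ring

/-- entrywise linear combinations -/
theorem dom_lin (hB : Base V t c C) (a b : ℝ) {P AP Q AQ : E n → Matrix (Fin n) (Fin n) ℝ}
    {DP DQ : Fin n → E n → Matrix (Fin n) (Fin n) ℝ}
    (hP : ∀ i j, Dom V t (fun x => P x i j) (fun a x => DP a x i j) (fun x => AP x i j))
    (hQ : ∀ i j, Dom V t (fun x => Q x i j) (fun a x => DQ a x i j) (fun x => AQ x i j)) (i j : Fin n) :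
    Dom V t (fun x => (fun x => Matrix.of fun i j => a * P x i j + b * Q x i j : E n → Matrix (Fin n) (Fin n) ℝ) x i j)
      (fun k x => (fun k x => Matrix.of fun i j => a * DP k x i j + b * DQ k x i j :
        Fin n → E n → Matrix (Fin n) (Fin n) ℝ) k x i j)
      (fun x => (fun x => Matrix.of fun i j => a * AP x i j + b * AQ x i j : E n → Matrix (Fin n) (Fin n) ℝ) x i j) :=
  (H464.stmtLin n V t c C hB).1 _ _ _ _ _ _ (hP i j) (hQ i j) a b

theorem ltp (hB : Base V t c C) (x : E n) (v : Fin n → ℝ) : 0 ≤ ∑ i, ∑ j, t x i j * v i * v j := by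
  have h := hB.low x (WithLp.toLp 2 v)
  exact (mul_nonneg hB.lam_pos.le (sq_nonneg _)).trans h

/-- **BASE0** -/
theorem base0 (h0 : StmtStep0) : StmtBase0 := by
  intro n V t c C hB
  obtain ⟨B, hB0, hmf, hA⟩ := H464.base0_half hB
  obtain ⟨B1, hB1, h1⟩ := H464.exists_bd (f := fun (p : Fin n × Fin n) x => Sg V t x p.1 p.2)
    (fun p => gb_Sg hB p.1 p.2)
  have hmf' := K3.Chain.MF.mono hmf (B' := B + B1) (by linarith)
  refine ⟨B, Att V t, _, hmf, H464.dom_t hB, Eventually.of_forall hA, H464.mle_Att hB, ?_⟩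
  intro G AG DG hG hs hDs he
  have hdt := H464.dom_t hB
  have hSg : ∀ i j, L2 V (fun x => (2 / 3 : ℝ) * Sg V t x i j) := fun i j => by
    have := H464.sq_gb hB.toTB ((GB.const (2 / 3 : ℝ)).mul (gb_Sg hB i j))
    exact ⟨this.m, this.i⟩
  have hSs : ∀ x i j, Sg V t x i j = Sg V t x j i := fun x i j => by
    unfold Sg
    rw [hB.symm x i j, Att_symm hB x i j]
  obtain ⟨W, AW, DW, hW, hWs, -, hWe⟩ := K3.Chain.solve hB (s := (2 / 3 : ℝ)) (by norm_num)
    (G := fun x => Matrix.of fun i j => (2 / 3 : ℝ) * Sg V t x i j)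
    (fun x i j => by simp only [Matrix.of_apply, hSs x i j]) (fun i j => hSg i j)
  have ht2 : ∀ i j, L2 V (fun x => (2 / 3 : ℝ) * t x i j) := fun i j => by
    have := H464.sq_gb hB.toTB ((GB.const (2 / 3 : ℝ)).mul (gb_t hB.toTB i j))
    exact ⟨this.m, this.i⟩
  obtain ⟨Q, AQ, DQ, hQ, hQs, -, hQe⟩ := K3.Chain.solve hB (s := (2 / 3 : ℝ)) (by norm_num)
    (G := fun x => Matrix.of fun i j => (2 / 3 : ℝ) * t x i j)
    (fun x i j => by simp only [Matrix.of_apply, hB.symm x i j]) (fun i j => ht2 i j)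
  simp only [Matrix.of_apply] at hWe hQe
  -- (i) `t ≤ 2 G`
  have p1 := mpos hB one_pos (dom_lin hB 2 (-1) hG hdt) (by
    filter_upwards [he, H464.mle_Att hB] with x hx h2 v
    have h3 := h2 v
    have e : ∑ i, ∑ j, ((2 * G x i j + -1 * t x i j) + 1 * (2 * AG x i j + -1 * Att V t x i j)) * v i * v j =
        ∑ i, ∑ j, (1 * t x i j + (-1) * Att V t x i j) * v i * v j :=
      Finset.sum_congr rfl fun i _ => Finset.sum_congr rfl fun j _ => by
        have := hx i j
        linear_combination (2 * v i * v j) * this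
    refine le_trans ?_ (le_of_eq e.symm)
    rw [quad_lin]
    linarith)
  -- (ii) `Q ≤ (4/5) G`
  have p2 := mpos hB (by norm_num : (0 : ℝ) < 2 / 3) (dom_lin hB (4 / 5) (-1) hG hQ) (by
    filter_upwards [he, p1] with x hx h2 v
    have h3 := h2 v
    have e : ∑ i, ∑ j, ((4 / 5 * G x i j + -1 * Q x i j) + 2 / 3 * (4 / 5 * AG x i j + -1 * AQ x i j)) * v i * v j =
        2 / 15 * ∑ i, ∑ j, (2 * G x i j + (-1) * t x i j) * v i * v j := by
      rw [Finset.mul_sum]
      refine Finset.sum_congr rfl fun i _ => ?_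
      rw [Finset.mul_sum]
      refine Finset.sum_congr rfl fun j _ => ?_
      have h4 := hx i j
      have h5 := hQe x i j
      linear_combination (8 / 15 * v i * v j) * h4 - (v i * v j) * h5
    refine le_trans ?_ (le_of_eq e.symm)
    have h6 : 0 ≤ ∑ i, ∑ j, (2 * G x i j + (-1) * t x i j) * v i * v j := h3
    positivity)
  -- (iii) `W ≤ (5/2) Q - t`
  have p3 := mpos hB (by norm_num : (0 : ℝ) < 2 / 3)
    (dom_lin hB 1 (-1) (dom_lin hB (5 / 2) (-1) hQ hdt) hW) (by
    refine Eventually.of_forall fun x v => le_of_eq ?_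
    symm
    refine Finset.sum_eq_zero fun i _ => Finset.sum_eq_zero fun j _ => ?_
    have h4 := hWe x i j
    have h5 := hQe x i j
    simp only [Matrix.of_apply]
    unfold Sg at h4
    linear_combination (5 / 2 * v i * v j) * h5 - (v i * v j) * h4)
  have h2 := h0 n V t c C hB 1 one_pos c (B + B1) t (Att V t) (Sg V t) _ hmf' hdt (H464.mle_Att hB)
    (fun i j => (gb_Sg hB i j).1) hSs
    (Eventually.of_forall fun x i j => (h1 x (i, j)).trans (by linarith)) (csm_base hB) G AG DG hG hs hDs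
    (by filter_upwards [he] with x hx i j; rw [one_mul]; exact hx i j) W AW DW hW
    (Eventually.of_forall fun x i j => by
      have := hWe x i j
      linarith)
  obtain ⟨⟨B', hmfG⟩, hle, hcs⟩ := h2
  refine ⟨⟨B', hmfG⟩, hle, ?_⟩
  filter_upwards [hcs, p1, p2, p3, hmfG.low] with x hx q1 q2 q3 q4 z ζ
  refine (hx z ζ).trans ?_
  have hTp : (t x).PosSemidef := psd_of' (hB.symm x) (ltp hB x)
  have hGn : ∀ v : Fin n → ℝ, 0 ≤ ∑ i, ∑ j, G x i j * v i * v j := fun v =>
    (mul_nonneg hmfG.d_pos.le (Finset.sum_nonneg fun i _ => sq_nonneg _)).trans (q4 v)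
  have hGp : (G x).PosSemidef := psd_of' (hs x) hGn
  have h3 : 0 ≤ ∑ a, ∑ b, t x a b * ∑ k, ∑ l, G x k l * ζ a k * ζ b l := by
    have := q_nonneg hTp hGp (Matrix.of fun b k => ζ b k)
    rw [q_eq _ _ _ (hs x)] at this
    exact this
  refine mul_le_mul_of_nonneg_right ?_ h3
  have r1 := q1 z
  have r2 := q2 z
  have r3 := q3 z
  simp only [Matrix.of_apply] at r1 r2 r3
  have r5 : 0 ≤ 1 * (∑ i, ∑ j, (5 / 2 * Q x i j + -1 * t x i j) * z i * z j) +
      (-1) * ∑ i, ∑ j, W x i j * z i * z j := by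
    have h8 := quad_lin 1 (-1) (Matrix.of fun i j => (5 / 2 * Q x i j + -1 * t x i j)) (W x) z
    simp only [Matrix.of_apply] at h8
    rw [← h8]
    exact r3
  rw [quad_lin] at r1 r2 r5
  have r6 := ltp hB x z
  have r7 := hGn z
  have e : ∑ k, ∑ l, (((1 + 1 : ℝ) / (1 + 3 * 1 / 2)) • W x) k l * z k * z l =
      4 / 5 * ∑ k, ∑ l, W x k l * z k * z l := by
    simp only [Finset.mul_sum]
    refine Finset.sum_congr rfl fun k _ => Finset.sum_congr rfl fun l _ => ?_
    rw [Matrix.smul_apply, smul_eq_mul]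
    ring
  have e' : ∑ k, ∑ l, (fun x => ((1 + 1 : ℝ) / (1 + 3 * 1 / 2)) • W x) x k l * z k * z l =
      4 / 5 * ∑ k, ∑ l, W x k l * z k * z l := e
  rw [e']
  linarith

end base

end Vale.Agent.P245.K2.Base0b
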