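import Vale.Agent.P245.K.Iface
import Vale.Agent.P245.K.Fld

/-!
# P245, covector fields: the flat form and the covariant form (helper979)

`Dip + Ric = ee + (1/2) (densities of the identity stat_pair)` almost everywhere.
-/

set_option linter.all false

open MeasureTheory Filter Topology Set Metric
open scoped NNReal ENNReal ContDiff
open Vale.Agent.P227.M Vale.Agent.P227.M.K814 Vale.Agent.P254 Vale.Agent.P254.SN
open Vale.Agent.P245.H464 (TE Lt)
open Vale.Agent.P245.K

namespace Vale.Agent.P245.K2.Br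

variable {n : ℕ} {V : E n → ℝ} {t : E n → Matrix (Fin n) (Fin n) ℝ} {c C : ℝ}

/-- density of the identity `stat_pair` -/
noncomputable def sden (V : E n → ℝ) (t : E n → Matrix (Fin n) (Fin n) ℝ) (Q : E n → ℝ) (a i : Fin n)
    (x : E n) : ℝ :=
  (∑ b, ∑ e, t x i e * pd e (pd b V) x * t x a b) * Q x
    + (∑ b, Dt t b (fun y => t y i a) x * pd b Q x)
    + (∑ b, ∑ e, pd b (fun y => t y i e) x * pd e (fun y => t y a b) x) * Q x
    - t x i a * Q x

theorem I_sden (h : TF V t) {Q : E n → ℝ} (hQ : LC Q) (a i : Fin n) : I V (sden V t Q a i) = 0 :=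
  stat_pair h hQ a i

theorem ci_sden (h : TF V t) {Q : E n → ℝ} (hQ : LC Q) (a i : Fin n) : CI (sden V t Q a i) := by
  have bt : ∀ i j, Bd (fun x => t x i j) := fun i j => Bd.of_ll (tll h i j)
  have bp : ∀ k i j, Bd (pd k (fun x => t x i j)) := fun k i j => Bd.pd (tll h i j) k
  have bV : ∀ i j, Bd (pd i (pd j V)) := fun i j =>
    Bd.of_cont (FlatB.continuous_pd (FlatB.contDiff_pd h.V2 j) i)
  have cQ : CI Q := CI.of_lc hQ
  refine CI.sub (CI.add (CI.add ?_ ?_) ?_) ?_
  · exact CI.mul_left (Bd.sum _ fun b _ => Bd.sum _ fun e _ => ((bt i e).mul (bV e b)).mul (bt a b)) cQ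
  · exact CI.sum _ fun b _ => CI.mul_left (bd_Dt h (tll h i a) b) (CI.pd hQ b)
  · exact CI.mul_left (Bd.sum _ fun b _ => Bd.sum _ fun e _ => (bp b i e).mul (bp e a b)) cQ
  · exact CI.mul_left (bt i a) cQ

section alg
variable (T : Matrix (Fin n) (Fin n) ℝ) (P : Fin n → Matrix (Fin n) (Fin n) ℝ)
  (hTs : ∀ i j, T i j = T j i) (hPs : ∀ k i j, P k i j = P k j i)

include hTs hPs in
theorem cross1 (u : Fin n → ℝ) (B : Fin n → Fin n → ℝ) :
    ∑ k, ∑ l, T k l * q2 (P k) u (B l) =
      ∑ a, ∑ i, ∑ b, (∑ l, T b l * P l i a) * (u a * B b i) := by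
  unfold q2
  simp only [Finset.mul_sum, Finset.sum_mul]
  calc ∑ k, ∑ l, ∑ a, ∑ b, T k l * (P k a b * u a * B l b)
      = ∑ k, ∑ a, ∑ l, ∑ b, T k l * (P k a b * u a * B l b) :=
        Finset.sum_congr rfl fun k _ => Finset.sum_comm
    _ = ∑ a, ∑ k, ∑ l, ∑ b, T k l * (P k a b * u a * B l b) := Finset.sum_comm
    _ = ∑ a, ∑ k, ∑ b, ∑ l, T k l * (P k a b * u a * B l b) :=
        Finset.sum_congr rfl fun a _ => Finset.sum_congr rfl fun k _ => Finset.sum_comm
    _ = ∑ a, ∑ b, ∑ k, ∑ l, T k l * (P k a b * u a * B l b) :=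
        Finset.sum_congr rfl fun a _ => Finset.sum_comm
    _ = ∑ a, ∑ b, ∑ l, ∑ k, T k l * (P k a b * u a * B l b) :=
        Finset.sum_congr rfl fun a _ => Finset.sum_congr rfl fun b _ => Finset.sum_comm
    _ = _ := by
      refine Finset.sum_congr rfl fun a _ => Finset.sum_congr rfl fun b _ =>
        Finset.sum_congr rfl fun l _ => Finset.sum_congr rfl fun k _ => ?_
      rw [hTs l k, hPs k b a]
      ring

include hTs hPs in
theorem cross2 (v : Fin n → ℝ) (A : Fin n → Fin n → ℝ) :
    ∑ k, ∑ l, T k l * q2 (P l) v (A k) =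
      ∑ a, ∑ i, ∑ b, (∑ l, T b l * P l i a) * (A b a * v i) := by
  have h1 : ∑ k, ∑ l, T k l * q2 (P l) v (A k) = ∑ l, ∑ k, T l k * q2 (P l) v (A k) := by
    rw [Finset.sum_comm]
    exact Finset.sum_congr rfl fun l _ => Finset.sum_congr rfl fun k _ => by rw [hTs k l]
  rw [h1, cross1 T P hTs hPs, Finset.sum_comm]
  refine Finset.sum_congr rfl fun a _ => Finset.sum_congr rfl fun i _ =>
    Finset.sum_congr rfl fun b _ => ?_
  have h2 : ∑ l, T b l * P l a i = ∑ l, T b l * P l i a :=
    Finset.sum_congr rfl fun l _ => by rw [hPs l a i]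
  rw [h2]
  ring

include hTs hPs in
theorem quad3 (hT : T.PosDef)
    (htot : ∀ d b k, ∑ e, T d e * P e b k = ∑ e, T b e * P e d k) (u v : Fin n → ℝ) :
    ∑ k, ∑ l, T k l * q2 (P k) u ((T⁻¹ * P l).mulVec v) =
      ∑ a, ∑ i, (∑ b, ∑ e, P b i e * P e a b) * u a * v i := by
  have hu : IsUnit T.det := (Matrix.isUnit_iff_isUnit_det T).1 hT.isUnit
  obtain ⟨w, hw⟩ : ∃ w : Fin n → Fin n → ℝ, w = fun l => (T⁻¹ * P l).mulVec v := ⟨_, rfl⟩
  have hTw : ∀ l e, ∑ b, T e b * w l b = ∑ i, P l e i * v i := by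
    intro l e
    have h1 : T.mulVec (w l) = (P l).mulVec v := by
      rw [hw, Matrix.mulVec_mulVec, ← Matrix.mul_assoc, Matrix.mul_nonsing_inv T hu, Matrix.one_mul]
    exact congrFun h1 e
  have e1 : ∀ l a b, ∑ k, T k l * P k a b = ∑ e, T b e * P e l a := by
    intro l a b
    rw [← htot l b a]
    exact Finset.sum_congr rfl fun k _ => by rw [hTs k l, hPs k a b]
  calc ∑ k, ∑ l, T k l * q2 (P k) u ((T⁻¹ * P l).mulVec v)
      = ∑ k, ∑ l, T k l * q2 (P k) u (w l) := by rw [hw]
    _ = ∑ l, ∑ a, ∑ b, (∑ k, T k l * P k a b) * (u a * w l b) := by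
        unfold q2
        simp only [Finset.mul_sum, Finset.sum_mul]
        rw [Finset.sum_comm]
        refine Finset.sum_congr rfl fun l _ => ?_
        rw [Finset.sum_comm]
        refine Finset.sum_congr rfl fun a _ => ?_
        rw [Finset.sum_comm]
        exact Finset.sum_congr rfl fun b _ => Finset.sum_congr rfl fun k _ => by ring
    _ = ∑ l, ∑ a, ∑ e, P e l a * u a * ∑ b, T e b * w l b := by
        simp only [e1, Finset.mul_sum, Finset.sum_mul]
        refine Finset.sum_congr rfl fun l _ => Finset.sum_congr rfl fun a _ => ?_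
        rw [Finset.sum_comm]
        exact Finset.sum_congr rfl fun e _ => Finset.sum_congr rfl fun b _ => by
          rw [hTs b e]; ring
    _ = ∑ l, ∑ a, ∑ e, P e l a * u a * ∑ i, P l e i * v i := by simp only [hTw]
    _ = ∑ a, ∑ l, ∑ e, ∑ i, P e l a * u a * (P l e i * v i) := by
        rw [Finset.sum_comm]
        simp only [Finset.mul_sum]
    _ = ∑ a, ∑ l, ∑ i, ∑ e, P e l a * u a * (P l e i * v i) :=
        Finset.sum_congr rfl fun a _ => Finset.sum_congr rfl fun l _ => Finset.sum_comm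
    _ = ∑ a, ∑ i, ∑ l, ∑ e, P e l a * u a * (P l e i * v i) :=
        Finset.sum_congr rfl fun a _ => Finset.sum_comm
    _ = _ := by
        refine Finset.sum_congr rfl fun a _ => Finset.sum_congr rfl fun i _ => ?_
        rw [Finset.sum_mul, Finset.sum_mul]
        refine Finset.sum_congr rfl fun l _ => ?_
        rw [Finset.sum_mul, Finset.sum_mul]
        exact Finset.sum_congr rfl fun e _ => by rw [hPs l e i, hPs e l a]; ring

end alg

/-- **pointwise identity** -/
theorem bridge_pt {x : E n} (hT : (t x).PosDef) (hs : ∀ y i j, t y i j = t y j i) (ht : Dt1 t x)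
    (htot : ∀ d b k, ∑ e, t x d e * pd e (fun z => t z b k) x =
      ∑ e, t x b e * pd e (fun z => t z d k) x)
    {al be : E n → Fin n → ℝ} (ha : Du1 al x) (hb : Du1 be x) :
    Dip t al be x + Ric V t al be x =
      ee t al be x + 1 / 2 * ∑ a, ∑ i, sden V t (fun y => al y a * be y i) a i x := by
  obtain ⟨P, hP⟩ : ∃ P : Fin n → Matrix (Fin n) (Fin n) ℝ,
    P = fun k => Matrix.of fun b c => pd k (fun y => t y b c) x := ⟨_, rfl⟩
  have hPk : ∀ k b c, pd k (fun y => t y b c) x = P k b c := fun k b c => by rw [hP]; rfl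
  have hTs : ∀ i j, t x i j = t x j i := hs x
  have hPs : ∀ k i j, P k i j = P k j i := by
    intro k i j
    rw [← hPk, ← hPk]
    congr 1
    funext y
    exact hs y i j
  have hPt : ∀ k, (P k).transpose = P k := fun k => by
    ext i j
    exact hPs k j i
  have htot' : ∀ d b k, ∑ e, t x d e * P e b k = ∑ e, t x b e * P e d k := by
    intro d b k
    simpa only [hPk] using htot d b k
  have e1 : ∀ k l, q2 (t x) (fun a => DD t al k a x) (fun a => DD t be l a x) =
      q2 (t x) (fun a => pd k (fun y => al y a) x) (fun a => pd l (fun y => be y a) x) +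
      1 / 2 * q2 (P k) (al x) (fun a => pd l (fun y => be y a) x) +
      1 / 2 * q2 (P l) (be x) (fun a => pd k (fun y => al y a) x) +
      1 / 4 * q2 (P k) (al x) (((t x)⁻¹ * P l).mulVec (be x)) := by
    intro k l
    have f1 : (fun a => DD t al k a x) = fun a => pd k (fun y => al y a) x +
        1 / 2 * (((t x)⁻¹ * P k).mulVec (al x)) a := by
      funext a; rw [DD_eq, hP]
    have f2 : (fun a => DD t be l a x) = fun a => pd l (fun y => be y a) x +
        1 / 2 * (((t x)⁻¹ * P l).mulVec (be x)) a := by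
      funext a; rw [DD_eq, hP]
    rw [f1, f2]
    simp only [q2_add_left, q2_add_right, q2_smul_left, q2_smul_right]
    rw [q2_inv hT, q2_inv hT, hPt, q2_symm (t x) hT.posSemidef (fun a => pd k (fun y => al y a) x)
      ((((t x)⁻¹ * P l).mulVec (be x))), q2_inv hT, hPt]
    ring
  have e2 : Dip t al be x = ∑ k, ∑ l, t x k l *
      q2 (t x) (fun a => DD t al k a x) (fun a => DD t be l a x) := rfl
  have e3 : Dip t al be x = (∑ k, ∑ l, t x k l *
      q2 (t x) (fun a => pd k (fun y => al y a) x) (fun a => pd l (fun y => be y a) x)) +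
      1 / 2 * (∑ a, ∑ i, ∑ b, (∑ l, t x b l * P l i a) * (al x a * pd b (fun y => be y i) x)) +
      1 / 2 * (∑ a, ∑ i, ∑ b, (∑ l, t x b l * P l i a) * (pd b (fun y => al y a) x * be x i)) +
      1 / 4 * (∑ a, ∑ i, (∑ b, ∑ e, P b i e * P e a b) * al x a * be x i) := by
    rw [e2]
    simp only [e1, mul_add, Finset.sum_add_distrib]
    rw [← cross1 (t x) P hTs hPs (al x) (fun l a => pd l (fun y => be y a) x),
      ← cross2 (t x) P hTs hPs (be x) (fun k a => pd k (fun y => al y a) x),
      ← quad3 (t x) P hTs hPs hT htot' (al x) (be x)]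
    simp only [Finset.mul_sum]
    congr 1
    · congr 1
      · congr 1
        exact Finset.sum_congr rfl fun a _ => Finset.sum_congr rfl fun i _ => by ring
      · exact Finset.sum_congr rfl fun a _ => Finset.sum_congr rfl fun i _ => by ring
    · exact Finset.sum_congr rfl fun a _ => Finset.sum_congr rfl fun i _ => by ring
  have e4 : ∑ a, ∑ i, sden V t (fun y => al y a * be y i) a i x =
      (∑ a, ∑ i, (∑ b, ∑ e, t x i e * pd e (pd b V) x * t x a b) * al x a * be x i) +
      (∑ a, ∑ i, ∑ b, (∑ l, t x b l * P l i a) * (al x a * pd b (fun y => be y i) x)) +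
      (∑ a, ∑ i, ∑ b, (∑ l, t x b l * P l i a) * (pd b (fun y => al y a) x * be x i)) +
      (∑ a, ∑ i, (∑ b, ∑ e, P b i e * P e a b) * al x a * be x i) -
      (∑ a, ∑ i, t x i a * al x a * be x i) := by
    simp only [← Finset.sum_add_distrib, ← Finset.sum_sub_distrib]
    refine Finset.sum_congr rfl fun a _ => Finset.sum_congr rfl fun i _ => ?_
    unfold sden Dt
    simp only [rpd_mul (ha a) (hb i), hPk]
    have f1 : ∑ b, (∑ l, t x b l * P l i a) *
        (pd b (fun y => al y a) x * be x i + al x a * pd b (fun y => be y i) x) =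
        (∑ b, (∑ l, t x b l * P l i a) * (al x a * pd b (fun y => be y i) x)) +
        ∑ b, (∑ l, t x b l * P l i a) * (pd b (fun y => al y a) x * be x i) := by
      rw [← Finset.sum_add_distrib]
      exact Finset.sum_congr rfl fun b _ => by ring
    rw [f1]
    ring
  have e5 : ee t al be x = (∑ k, ∑ l, t x k l *
      q2 (t x) (fun a => pd k (fun y => al y a) x) (fun a => pd l (fun y => be y a) x)) +
      ∑ a, ∑ i, t x i a * al x a * be x i := by
    unfold ee ip q2
    congr 1
    · refine Finset.sum_congr rfl fun k _ => Finset.sum_congr rfl fun l _ => ?_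
      rw [Finset.mul_sum]
      refine Finset.sum_congr rfl fun a _ => ?_
      rw [Finset.mul_sum]
      exact Finset.sum_congr rfl fun b _ => by ring
    · exact Finset.sum_congr rfl fun a _ => Finset.sum_congr rfl fun i _ => by rw [hTs i a]
  have e6 : ∑ a, ∑ i, Sm t x a i * al x a * be x i =
      ∑ a, ∑ i, (∑ b, ∑ e, P b i e * P e a b) * al x a * be x i := by
    unfold Sm
    simp only [hPk]
  rw [Ric_split, e6, e3, e4, e5]
  ring

/-- **bridge**: the flat form is the covariant form -/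
theorem bridge_ae (h : Base V t c C) {al be : E n → Fin n → ℝ} (ha : LCF al) (hb : LCF be) :
    ∀ᵐ x, Dip t al be x + Ric V t al be x =
      ee t al be x + 1 / 2 * ∑ a, ∑ i, sden V t (fun y => al y a * be y i) a i x := by
  have h1 : ∀ᵐ x, Du1 al x := by
    unfold Du1
    rw [ae_all_iff]
    exact fun a => (ha a).ae_diff
  have h2 : ∀ᵐ x, Du1 be x := by
    unfold Du1
    rw [ae_all_iff]
    exact fun a => (hb a).ae_diff
  filter_upwards [h1, h2, tae h.toTE.toTB.toTF, h.tot] with x x1 x2 x3 x4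
  exact bridge_pt (K.TE.posDef h.toTE x) h.symm x3 x4 x1 x2

end Vale.Agent.P245.K2.Br
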