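import Vale.Agent.P245.K.Iface

/-!
P245, row CHAIN (helper837, insurance copy): the chain `G_0 = t`, `G_k = (1 + A/k)⁻¹ G_{k-1}`.
-/

set_option linter.all false

open MeasureTheory Filter Topology Set
open scoped NNReal ENNReal ContDiff
open Vale.Agent.P227.M Vale.Agent.P227.M.K814 Vale.Agent.P254.SN

namespace Vale.Agent.P245.K2.Chain837

open Vale.Agent.P245.K
open Vale.Agent.P245.H464 (mu integral_mu integrable_mu mu_ac ac_mu)

variable {n : ℕ} {V : E n → ℝ} {t : E n → Matrix (Fin n) (Fin n) ℝ} {c C : ℝ}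

theorem dep_choice {α : Type*} (P : ℕ → α → Prop) (R : ℕ → α → α → Prop) (a0 : α) (h0 : P 0 a0)
    (hs : ∀ k a, P k a → ∃ b, P (k + 1) b ∧ R k a b) :
    ∃ f : ℕ → α, f 0 = a0 ∧ (∀ k, P k (f k)) ∧ ∀ k, R k (f k) (f (k + 1)) := by
  classical
  let g : ∀ k, {a // P k a} := fun k => Nat.rec ⟨a0, h0⟩
    (fun k a => ⟨(hs k a.1 a.2).choose, (hs k a.1 a.2).choose_spec.1⟩) k
  exact ⟨fun k => (g k).1, rfl, fun k => (g k).2, fun k => (hs k (g k).1 (g k).2).choose_spec.2⟩

/-- one admissible matrix function -/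
structure St (V : E n → ℝ) (t : E n → Matrix (Fin n) (Fin n) ℝ) (c : ℝ)
    (G AG : E n → Matrix (Fin n) (Fin n) ℝ) (DG : Fin n → E n → Matrix (Fin n) (Fin n) ℝ) (B : ℝ) :
    Prop where
  mf : MF V G DG c B
  dom : ∀ i j, Dom V t (fun x => G x i j) (fun a x => DG a x i j) (fun x => AG x i j)
  ab : ∀ᵐ x, ∀ i j, |AG x i j| ≤ B
  mle : Mle AG G

theorem MF.mono {G : E n → Matrix (Fin n) (Fin n) ℝ}
    {DG : Fin n → E n → Matrix (Fin n) (Fin n) ℝ} {δ B B' : ℝ} (h : MF V G DG δ B) (hB : B ≤ B') :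
    MF V G DG δ B' where
  d_pos := h.d_pos
  symm := h.symm
  low := h.low
  upp := h.upp.mono fun x hx i j => (hx i j).trans hB
  h1 := h.h1
  dsymm := h.dsymm
  dupp := h.dupp.mono fun x hx a i j => (hx a i j).trans hB

/-- the next matrix function exists -/
theorem exists_next (hLin : K.StmtLin) (hB : Base V t c C) {s : ℝ} (hs : 0 < s)
    {H : E n → Matrix (Fin n) (Fin n) ℝ} (hsym : ∀ x i j, H x i j = H x j i)
    (hm : ∀ i j, Measurable (fun x => H x i j))
    (hi : ∀ i j, Integrable (fun x => H x i j ^ 2 * Real.exp (-V x))) :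
    ∃ (G AG : E n → Matrix (Fin n) (Fin n) ℝ) (DG : Fin n → E n → Matrix (Fin n) (Fin n) ℝ),
      (∀ i j, Dom V t (fun x => G x i j) (fun a x => DG a x i j) (fun x => AG x i j)) ∧
      (∀ x i j, G x i j = G x j i) ∧ (∀ a x i j, DG a x i j = DG a x j i) ∧
      (∀ x i j, G x i j + s * AG x i j = H x i j) := by
  have h1 : ∀ i j : Fin n, ∃ (u : E n → ℝ) (Du : Fin n → E n → ℝ) (Au : E n → ℝ),
      Dom V t u Du Au ∧ ∀ x, u x + s * Au x = H x i j := by
    intro i j
    obtain ⟨F, u, Du, Au, hD, he⟩ := Vale.Agent.P245.H464.total hB.toTE (hm i j) (hi i j) hs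
    exact ⟨u, Du, Au, ⟨F, hD⟩, he⟩
  choose u Du Au hD he using h1
  refine ⟨fun x i j => 1 / 2 * u i j x + 1 / 2 * u j i x,
    fun x i j => 1 / 2 * Au i j x + 1 / 2 * Au j i x,
    fun a x i j => 1 / 2 * Du i j a x + 1 / 2 * Du j i a x, fun i j => ?_, fun x i j => ?_,
    fun a x i j => ?_, fun x i j => ?_⟩
  · exact (hLin n V t c C hB).1 _ _ _ _ _ _ (hD i j) (hD j i) (1 / 2) (1 / 2)
  · show 1 / 2 * u i j x + 1 / 2 * u j i x = 1 / 2 * u j i x + 1 / 2 * u i j x
    ring
  · show 1 / 2 * Du i j a x + 1 / 2 * Du j i a x = 1 / 2 * Du j i a x + 1 / 2 * Du i j a x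
    ring
  · show 1 / 2 * u i j x + 1 / 2 * u j i x + s * (1 / 2 * Au i j x + 1 / 2 * Au j i x) = H x i j
    have e1 := he i j x
    have e2 := he j i x
    rw [← hsym x i j] at e2
    linarith

theorem ab_next {s : ℝ} (hs : 0 < s) {G AG H : E n → Matrix (Fin n) (Fin n) ℝ} {B B' : ℝ}
    (hG : ∀ᵐ x, ∀ i j, |G x i j| ≤ B') (hH : ∀ᵐ x, ∀ i j, |H x i j| ≤ B)
    (he : ∀ᵐ x, ∀ i j, G x i j + s * AG x i j = H x i j) :
    ∀ᵐ x, ∀ i j, |AG x i j| ≤ (B + B') / s := by
  filter_upwards [hG, hH, he] with x h1 h2 h3 i j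
  have e : AG x i j = (H x i j - G x i j) / s := by
    rw [← h3 i j]
    field_simp
    ring
  rw [e, abs_div, abs_of_pos hs]
  refine div_le_div_of_nonneg_right ?_ hs.le
  exact (abs_sub _ _).trans (add_le_add (h2 i j) (h1 i j))

/-- a resolvent step out of an admissible matrix function -/
theorem next (hStep : StmtStep) (hLin : K.StmtLin) (hB : Base V t c C) {s : ℝ} (hs : 0 < s)
    {G AG : E n → Matrix (Fin n) (Fin n) ℝ} {DG : Fin n → E n → Matrix (Fin n) (Fin n) ℝ} {B σ : ℝ}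
    (hσ : 0 ≤ σ) (h : St V t c G AG DG B) (hcs : CS t G DG σ) :
    ∃ (G' AG' : E n → Matrix (Fin n) (Fin n) ℝ) (DG' : Fin n → E n → Matrix (Fin n) (Fin n) ℝ)
      (B' : ℝ), St V t c G' AG' DG' B' ∧ CS t G' DG' (σ * (1 + s) / (1 + 2 * s)) ∧
      (∀ᵐ x, ∀ i j, G' x i j + s * AG' x i j = G x i j) := by
  obtain ⟨G', AG', DG', hD, hs1, hs2, he⟩ := exists_next hLin hB hs h.mf.symm
    (fun i j => by obtain ⟨F, hF⟩ := h.dom i j; exact hF.mu)
    (fun i j => by obtain ⟨F, hF⟩ := h.dom i j; exact hF.iu)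
  have he' : ∀ᵐ x, ∀ i j, G' x i j + s * AG' x i j = G x i j := Eventually.of_forall he
  obtain ⟨⟨B', h1⟩, h2, h3⟩ := hStep n V t c C hB s hs c B σ G AG DG hσ h.mf h.dom h.mle hcs
    G' AG' DG' hD hs1 hs2 he'
  refine ⟨G', AG', DG', max B' ((B + B') / s), ⟨MF.mono h1 (le_max_left _ _), hD, ?_, h2⟩, h3, he'⟩
  filter_upwards [ab_next hs h1.upp h.mf.upp he'] with x hx i j
  exact (hx i j).trans (le_max_right _ _)

theorem next0 (hBase : ∀ (G AG : E n → Matrix (Fin n) (Fin n) ℝ)
      (DG : Fin n → E n → Matrix (Fin n) (Fin n) ℝ),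
      (∀ i j, Dom V t (fun x => G x i j) (fun a x => DG a x i j) (fun x => AG x i j)) →
      (∀ x i j, G x i j = G x j i) → (∀ a x i j, DG a x i j = DG a x j i) →
      (∀ᵐ x, ∀ i j, G x i j + AG x i j = t x i j) →
      (∃ B', MF V G DG c B') ∧ Mle AG G ∧ CS t G DG 2) (hLin : K.StmtLin) (hB : Base V t c C)
    {AG : E n → Matrix (Fin n) (Fin n) ℝ} {DG : Fin n → E n → Matrix (Fin n) (Fin n) ℝ} {B : ℝ}
    (h : St V t c t AG DG B) :
    ∃ (G' AG' : E n → Matrix (Fin n) (Fin n) ℝ) (DG' : Fin n → E n → Matrix (Fin n) (Fin n) ℝ)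
      (B' : ℝ), St V t c G' AG' DG' B' ∧ CS t G' DG' 2 ∧
      (∀ᵐ x, ∀ i j, G' x i j + 1 * AG' x i j = t x i j) := by
  obtain ⟨G', AG', DG', hD, hs1, hs2, he⟩ := exists_next hLin hB (s := 1) one_pos h.mf.symm
    (fun i j => by obtain ⟨F, hF⟩ := h.dom i j; exact hF.mu)
    (fun i j => by obtain ⟨F, hF⟩ := h.dom i j; exact hF.iu)
  have he' : ∀ᵐ x, ∀ i j, G' x i j + 1 * AG' x i j = t x i j := Eventually.of_forall he
  obtain ⟨⟨B', h1⟩, h2, h3⟩ := hBase G' AG' DG' hD hs1 hs2 (by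
    filter_upwards [he'] with x hx i j
    have := hx i j
    rwa [one_mul] at this)
  refine ⟨G', AG', DG', max B' ((B + B') / 1), ⟨MF.mono h1 (le_max_left _ _), hD, ?_, h2⟩, h3, he'⟩
  filter_upwards [ab_next one_pos h1.upp h.mf.upp he'] with x hx i j
  exact (hx i j).trans (le_max_right _ _)

theorem mle_step {s : ℝ} (hs : 0 < s) {G AG H : E n → Matrix (Fin n) (Fin n) ℝ}
    (hm : Mle AG G) (he : ∀ᵐ x, ∀ i j, G x i j + s * AG x i j = H x i j) :
    Mle H (fun x => (1 + s) • G x) := by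
  filter_upwards [hm, he] with x h1 h2 v
  have h3 := h1 v
  have e1 : ∑ i, ∑ j, H x i j * v i * v j =
      ∑ i, ∑ j, G x i j * v i * v j + s * ∑ i, ∑ j, AG x i j * v i * v j := by
    rw [Finset.mul_sum, ← Finset.sum_add_distrib]
    refine Finset.sum_congr rfl fun i _ => ?_
    rw [Finset.mul_sum, ← Finset.sum_add_distrib]
    refine Finset.sum_congr rfl fun j _ => ?_
    rw [← h2 i j]
    ring
  have e2 : ∑ i, ∑ j, ((1 + s) • G x) i j * v i * v j =
      (1 + s) * ∑ i, ∑ j, G x i j * v i * v j := by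
    rw [Finset.mul_sum]
    refine Finset.sum_congr rfl fun i _ => ?_
    rw [Finset.mul_sum]
    refine Finset.sum_congr rfl fun j _ => ?_
    rw [Matrix.smul_apply, smul_eq_mul]
    ring
  rw [e1, e2]
  nlinarith [mul_le_mul_of_nonneg_left h3 hs.le]

/-- scalar sup bound for a resolvent step -/
theorem sup_step (hLin : K.StmtLin) (hPos : StmtPos) (hB : Base V t c C) {s : ℝ} (hs : 0 < s)
    {u Au f : E n → ℝ} {Du : Fin n → E n → ℝ} (hD : Dom V t u Du Au)
    (he : ∀ᵐ x, u x + s * Au x = f x) {K : ℝ} (hK : ∀ᵐ x, |f x| ≤ K) : ∀ᵐ x, |u x| ≤ K := by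
  obtain ⟨h1, -, -, -, -, h2⟩ := hLin n V t c C hB
  have a1 := hPos n V t c C hB s hs _ _ _ (h1 _ _ _ _ _ _ h2 hD K (-1)) (by
    filter_upwards [he, hK] with x e1 e2
    have := (abs_le.1 e2).2
    nlinarith)
  have a2 := hPos n V t c C hB s hs _ _ _ (h1 _ _ _ _ _ _ h2 hD K 1) (by
    filter_upwards [he, hK] with x e1 e2
    have := (abs_le.1 e2).1
    nlinarith)
  filter_upwards [a1, a2] with x b1 b2
  exact abs_le.2 ⟨by linarith, by linarith⟩

theorem I_cm (k : ℝ) (f : E n → ℝ) : I V (fun x => k * f x) = k * I V f := by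
  unfold I
  rw [← integral_const_mul]
  refine integral_congr_ae (Eventually.of_forall fun x => ?_)
  ring

theorem contV (hB : Base V t c C) : Continuous V := hB.toTE.V2.continuous

theorem int_prod (hV : Continuous V) {u v : E n → ℝ} (hu : Measurable u) (hv : Measurable v)
    (hu2 : Integrable (fun x => u x ^ 2 * Real.exp (-V x)))
    (hv2 : Integrable (fun x => v x ^ 2 * Real.exp (-V x))) :
    Integrable (fun x => u x * v x * Real.exp (-V x)) := by
  have h1 : MemLp u 2 (mu V) := (Vale.Agent.P245.H464.memLp_iff hV hu.aestronglyMeasurable).2 hu2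
  have h2 : MemLp v 2 (mu V) := (Vale.Agent.P245.H464.memLp_iff hV hv.aestronglyMeasurable).2 hv2
  have h3 := h1.integrable_mul h2
  exact (integrable_mu hV _).1 h3

/-- `E (A u) = 0` -/
theorem I_A (hForm : StmtForm) (hLin : K.StmtLin) (hB : Base V t c C) {u Au : E n → ℝ}
    {Du : Fin n → E n → ℝ} (hD : Dom V t u Du Au) : I V Au = 0 := by
  obtain ⟨-, h1, -, -, -, h2⟩ := hLin n V t c C hB
  have h3 := hForm n V t c C hB u Au Du hD _ _ (h1 _ _ _ h2)
  have e1 : I V (fun x => Au x * 1) = I V Au := by simp only [mul_one]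
  rw [e1] at h3
  rw [h3]
  unfold I ip
  simp

theorem int_of_dom (hLin : K.StmtLin) (hB : Base V t c C) {u Au : E n → ℝ}
    {Du : Fin n → E n → ℝ} (hD : Dom V t u Du Au) :
    Integrable (fun x => u x * Real.exp (-V x)) ∧ Integrable (fun x => Au x * Real.exp (-V x)) := by
  obtain ⟨-, -, -, -, -, F1, h2⟩ := hLin n V t c C hB
  obtain ⟨F, hF⟩ := hD
  have i1 := int_prod (contV hB) hF.mu h2.mu hF.iu h2.iu
  have i2 := int_prod (contV hB) hF.mA h2.mu hF.iA h2.iu
  simp only [mul_one] at i1 i2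
  exact ⟨i1, i2⟩

/-- the variance contracts -/
theorem var_step (hForm : StmtForm) (hLin : K.StmtLin) (hGap : StmtGap) (hB : Base V t c C) {s : ℝ}
    (hs : 0 < s) {u Au v Av : E n → ℝ} {Du Dv : Fin n → E n → ℝ} (hD : Dom V t u Du Au)
    (hD' : Dom V t v Dv Av) (he : ∀ᵐ x, v x + s * Av x = u x) (h0 : I V v = 0) :
    (1 + s) ^ 2 * I V (fun x => v x ^ 2) ≤ I V (fun x => u x ^ 2) := by
  have hV := contV hB
  have g1 := hGap n V t c C hB v Av Dv hD' h0
  obtain ⟨F, hF⟩ := hD
  obtain ⟨F', hF'⟩ := hD'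
  have i1 := int_prod hV hF'.mu hF'.mA hF'.iu hF'.iA
  have i2 := int_prod hV hF.mu hF'.mu hF.iu hF'.iu
  have e1 : I V (fun x => u x * v x) = I V (fun x => v x ^ 2) + s * I V (fun x => v x * Av x) := by
    unfold I
    rw [← integral_const_mul, ← integral_add hF'.iu (i1.const_mul _)]
    refine integral_congr_ae ?_
    filter_upwards [he] with x hx
    rw [← hx]
    ring
  have e2 : 0 ≤ I V (fun x => (u x - (1 + s) * v x) ^ 2) := by
    unfold I
    exact integral_nonneg fun x => mul_nonneg (sq_nonneg _) (Real.exp_pos _).le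
  have e3 : I V (fun x => (u x - (1 + s) * v x) ^ 2) = I V (fun x => u x ^ 2) -
      2 * (1 + s) * I V (fun x => u x * v x) + (1 + s) ^ 2 * I V (fun x => v x ^ 2) := by
    have i12 : Integrable (fun x => u x ^ 2 * Real.exp (-V x) -
        2 * (1 + s) * (u x * v x * Real.exp (-V x))) := hF.iu.sub (i2.const_mul _)
    unfold I
    rw [← integral_const_mul, ← integral_const_mul, ← integral_sub hF.iu (i2.const_mul _),
      ← integral_add i12 (hF'.iu.const_mul _)]
    refine integral_congr_ae (Eventually.of_forall fun x => ?_)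
    simp only
    ring
  rw [e3, e1] at e2
  nlinarith [mul_le_mul_of_nonneg_left g1 hs.le]

theorem chain (hStep : StmtStep) (hBase : StmtBase0) (hForm : StmtForm) (hLin : K.StmtLin)
    (hPos : StmtPos) (hGap : StmtGap) : StmtChain := by
  intro n V t c C hB
  obtain ⟨B0, At, Dt', hMF, hDom, hAb, hMle, hNext⟩ := hBase n V t c C hB
  -- the sequence
  obtain ⟨f, hf0, hfP, hfR⟩ := dep_choice
    (α := (E n → Matrix (Fin n) (Fin n) ℝ) × (E n → Matrix (Fin n) (Fin n) ℝ) ×
      (Fin n → E n → Matrix (Fin n) (Fin n) ℝ) × ℝ)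
    (fun k p => St V t c p.1 p.2.1 p.2.2.1 p.2.2.2 ∧
      (1 ≤ k → CS t p.1 p.2.2.1 (6 / ((k : ℝ) + 2))) ∧ (k = 0 → p.1 = t))
    (fun k p q => ∀ᵐ x, ∀ i j, q.1 x i j + (1 / ((k : ℝ) + 1)) * q.2.1 x i j = p.1 x i j)
    (t, At, Dt', B0) ⟨⟨hMF, hDom, hAb, hMle⟩, fun h => absurd h (by norm_num), fun _ => rfl⟩ (by
      rintro k ⟨G, AG, DG, B⟩ ⟨h1, h2, h3⟩
      rcases Nat.eq_zero_or_pos k with hk | hk
      · subst hk
        have h4 : G = t := h3 rfl
        subst h4
        obtain ⟨G', AG', DG', B', a1, a2, a3⟩ := next0 hNext hLin hB h1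
        refine ⟨(G', AG', DG', B'), ⟨a1, fun _ => ?_, fun h => absurd h (by norm_num)⟩, ?_⟩
        · have e : (6 : ℝ) / (((0 + 1 : ℕ) : ℝ) + 2) = 2 := by norm_num
          rw [e]
          exact a2
        · filter_upwards [a3] with x hx i j
          have := hx i j
          simpa using this
      · have hs : 0 < 1 / ((k : ℝ) + 1) := by positivity
        obtain ⟨G', AG', DG', B', a1, a2, a3⟩ := next hStep hLin hB hs (σ := 6 / ((k : ℝ) + 2))
          (by positivity) h1 (h2 hk)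
        refine ⟨(G', AG', DG', B'), ⟨a1, fun _ => ?_, fun h => absurd h (by omega)⟩, a3⟩
        have e : (6 : ℝ) / (((k + 1 : ℕ) : ℝ) + 2) =
            6 / ((k : ℝ) + 2) * (1 + 1 / ((k : ℝ) + 1)) / (1 + 2 * (1 / ((k : ℝ) + 1))) := by
          have b1 : (k : ℝ) + 1 ≠ 0 := by positivity
          have b2 : (k : ℝ) + 2 ≠ 0 := by positivity
          have b3 : (k : ℝ) + 3 ≠ 0 := by positivity
          have b4 : 1 + 2 * (1 / ((k : ℝ) + 1)) = ((k : ℝ) + 3) / ((k : ℝ) + 1) := by
            field_simp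
            ring
          have b5 : 1 + 1 / ((k : ℝ) + 1) = ((k : ℝ) + 2) / ((k : ℝ) + 1) := by
            field_simp
            ring
          rw [b4, b5]
          push_cast
          have b6 : (k : ℝ) + 1 + 2 = (k : ℝ) + 3 := by ring
          rw [b6]
          field_simp
        rw [e]
        exact a2)
  -- scalar sup bound
  have hsup : ∀ k, ∀ᵐ x, ∀ i j, |(f k).1 x i j| ≤ B0 := by
    intro k
    induction k with
    | zero =>
      rw [hf0]
      exact hMF.upp
    | succ k ih =>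
      have h1 : ∀ i j, ∀ᵐ x, |(f (k + 1)).1 x i j| ≤ B0 := fun i j =>
        sup_step hLin hPos hB (s := 1 / ((k : ℝ) + 1)) (by positivity) ((hfP (k + 1)).1.dom i j)
          ((hfR k).mono fun x hx => hx i j) (ih.mono fun x hx => hx i j)
      have h2 := fun i => ae_all_iff.2 (h1 i)
      exact ae_all_iff.2 h2
  refine ⟨fun k => (f k).2.2.2, fun k => (f k).1, fun k => (f k).2.1, fun k => (f k).2.2.1,
    by simp only [hf0], fun k => (hfP k).1.mf, fun k => (hfP k).1.dom, fun k => (hfP k).1.ab,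
    hfR, fun k => (hfP k).1.mle, fun k hk => (hfP k).2.1 hk, fun k hk => ?_, ⟨B0, hsup⟩,
    fun i j => ?_⟩
  · obtain ⟨m, rfl⟩ : ∃ m, k = m + 1 := ⟨k - 1, by omega⟩
    have h1 := mle_step (s := 1 / ((m : ℝ) + 1)) (by positivity) (hfP (m + 1)).1.mle (hfR m)
    simp only [Nat.add_sub_cancel]
    have e : (1 : ℝ) + 1 / ((m + 1 : ℕ) : ℝ) = 1 + 1 / ((m : ℝ) + 1) := by push_cast; ring
    rw [e]
    exact h1
  · -- convergence
    set M : ℝ := Ex V (fun x => t x i j) with hM
    have hone := (hLin n V t c C hB).2.2.2.2.2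
    -- the integral of `1`
    have hZ : 0 < ∫ x, Real.exp (-V x) := by
      have h1 : Integrable (fun x => Real.exp (-V x)) := by
        obtain ⟨F, hF⟩ := hone
        simpa using hF.iu
      refine (integral_pos_iff_support_of_nonneg (fun x => (Real.exp_pos _).le) h1).2 ?_
      have : Function.support (fun x : E n => Real.exp (-V x)) = Set.univ := by
        ext x; simp [(Real.exp_pos _).ne']
      rw [this]
      exact isOpen_univ.measure_pos _ ⟨0, trivial⟩
    set w : ℕ → E n → ℝ := fun k x => 1 * (f k).1 x i j + (-M) * 1 with hw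
    have hwD : ∀ k, Dom V t (w k) _ _ := fun k =>
      (hLin n V t c C hB).1 _ _ _ _ _ _ ((hfP k).1.dom i j) hone 1 (-M)
    have hstep : ∀ k : ℕ, ∀ᵐ x, w (k + 1) x + (1 / ((k : ℝ) + 1)) *
        (1 * (f (k + 1)).2.1 x i j + (-M) * 0) = w k x := by
      intro k
      filter_upwards [hfR k] with x hx
      have h1 := hx i j
      simp only [hw]
      linarith
    -- means
    have hint : ∀ k, Integrable (fun x => (f k).1 x i j * Real.exp (-V x)) := fun k =>
      (int_of_dom hLin hB ((hfP k).1.dom i j)).1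
    have hint1 : Integrable (fun x => Real.exp (-V x)) := by
      obtain ⟨F, hF⟩ := hone
      simpa using hF.iu
    have hmean : ∀ k, I V (fun x => (f k).1 x i j) = I V (fun x => t x i j) := by
      intro k
      induction k with
      | zero => rw [hf0]
      | succ k ih =>
        rw [← ih]
        have h1 := I_A hForm hLin hB ((hfP (k + 1)).1.dom i j)
        have i1 := int_of_dom hLin hB ((hfP (k + 1)).1.dom i j)
        have e1 : I V (fun x => (f k).1 x i j) = I V (fun x => (f (k + 1)).1 x i j) +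
            (1 / ((k : ℝ) + 1)) * I V (fun x => (f (k + 1)).2.1 x i j) := by
          unfold I
          rw [← integral_const_mul, ← integral_add i1.1 (i1.2.const_mul _)]
          refine integral_congr_ae ?_
          filter_upwards [hfR k] with x hx
          rw [← hx i j]
          ring
        rw [e1, h1]
        ring
    have hw0 : ∀ k, I V (w k) = 0 := by
      intro k
      have e1 : I V (w k) = I V (fun x => (f k).1 x i j) - M * ∫ x, Real.exp (-V x) := by
        unfold I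
        rw [← integral_const_mul, ← integral_sub (hint k) (hint1.const_mul _)]
        refine integral_congr_ae (Eventually.of_forall fun x => ?_)
        simp only [hw]
        ring
      rw [e1, hmean k, hM]
      unfold Ex I
      rw [div_mul_cancel₀ _ hZ.ne', sub_self]
    -- contraction
    set a : ℕ → ℝ := fun k => I V (fun x => w k x ^ 2) with ha
    have hca : ∀ k : ℕ, (1 + 1 / ((k : ℝ) + 1)) ^ 2 * a (k + 1) ≤ a k := fun k =>
      var_step hForm hLin hGap hB (s := 1 / ((k : ℝ) + 1)) (by positivity) (hwD k) (hwD (k + 1))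
        (hstep k) (hw0 (k + 1))
    have hbd : ∀ k : ℕ, ((k : ℝ) + 1) ^ 2 * a k ≤ a 0 := by
      intro k
      induction k with
      | zero => simp
      | succ k ih =>
        refine le_trans ?_ ih
        have h1 := mul_le_mul_of_nonneg_left (hca k) (by positivity : (0 : ℝ) ≤ ((k : ℝ) + 1) ^ 2)
        refine le_trans (le_of_eq ?_) h1
        have b1 : (k : ℝ) + 1 ≠ 0 := by positivity
        push_cast
        field_simp
    have ha0 : ∀ k, 0 ≤ a k := fun k =>
      integral_nonneg fun x => mul_nonneg (sq_nonneg _) (Real.exp_pos _).le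
    have hlim : Tendsto (fun k : ℕ => a 0 / ((k : ℝ) + 1)) atTop (𝓝 0) :=
      tendsto_const_div_atTop_nhds_zero_nat (a 0) |>.comp (tendsto_add_atTop_nat 1) |>.congr
        fun k => by simp
    refine squeeze_zero (g := fun k : ℕ => a 0 / ((k : ℝ) + 1)) (fun k => ?_) (fun k => ?_) hlim
    · exact integral_nonneg fun x => mul_nonneg (sq_nonneg _) (Real.exp_pos _).le
    · have e1 : I V (fun x => ((f k).1 x i j - M) ^ 2) = a k := by
        simp only [ha, hw]
        congr 1
        funext x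
        ring
      rw [e1, le_div_iff₀ (by positivity)]
      have h1 := hbd k
      have h2 : (1 : ℝ) ≤ (k : ℝ) + 1 := by
        have : (0 : ℝ) ≤ k := Nat.cast_nonneg k
        linarith
      nlinarith [ha0 k, mul_nonneg (ha0 k) (by linarith : (0 : ℝ) ≤ (k : ℝ) + 1 - 1)]

end Vale.Agent.P245.K2.Chain837
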