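import Vale.Agent.P245.K.Iface
import Vale.Agent.P245.K.OP3

/-!
P245, KLS by moment maps, row COMM (helper405, second copy): `∇ (1 + s A)⁻¹ = R1 ∇`.
-/

set_option linter.all false

open MeasureTheory Filter Topology Set Metric
open scoped NNReal ENNReal ContDiff
open Vale.Agent.P227.M Vale.Agent.P227.M.K814 Vale.Agent.P254 Vale.Agent.P254.SN

namespace Vale.Agent.P245.K2.Comm

open Vale.Agent.P245.K Vale.Agent.P245.K.OP3
open Vale.Agent.P245.H464 (TE Lt mu memLp_iff memLp_ci)

variable {n : ℕ}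

/-! ## matrices -/

/-- the tensor square of a matrix `≥ c` is `≥ c²` -/
theorem flat_low {T : Matrix (Fin n) (Fin n) ℝ} {c : ℝ} (hc : 0 ≤ c) (hs : ∀ i j, T i j = T j i)
    (hl : ∀ v : Fin n → ℝ, c * ∑ i, v i ^ 2 ≤ ∑ i, ∑ j, T i j * v i * v j) (X : Fin n → Fin n → ℝ) :
    c ^ 2 * ∑ i, ∑ a, X i a ^ 2 ≤ ∑ i, ∑ j, ∑ a, ∑ b, T i j * T a b * X i a * X j b := by
  have hpsd : T.PosSemidef := by
    refine Matrix.PosSemidef.of_dotProduct_mulVec_nonneg ?_ fun v => ?_
    · ext i j
      simp [Matrix.conjTranspose_apply, hs j i]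
    · have h1 := hl v
      have h2 : (0 : ℝ) ≤ c * ∑ i, v i ^ 2 := mul_nonneg hc (Finset.sum_nonneg fun i _ => sq_nonneg _)
      refine (h2.trans h1).trans (le_of_eq ?_)
      simp only [dotProduct, Matrix.mulVec, star_trivial, Finset.mul_sum]
      exact Finset.sum_congr rfl fun i _ => Finset.sum_congr rfl fun j _ => by ring
  obtain ⟨S, hS⟩ := Vale.Agent.P254.S2.pw_fact hpsd
  have hT : ∀ a b, T a b = ∑ k, S k a * S k b := by
    intro a b
    rw [hS, Matrix.mul_apply]
    exact Finset.sum_congr rfl fun k _ => by rw [Matrix.transpose_apply]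
  set Y : Fin n → Fin n → ℝ := fun i k => ∑ a, S k a * X i a with hY
  have hYY : ∀ i j, ∑ a, ∑ b, T a b * X i a * X j b = ∑ k, Y i k * Y j k := by
    intro i j
    simp only [hY, hT, Finset.sum_mul, Finset.mul_sum]
    calc ∑ a, ∑ b, ∑ k, S k a * S k b * X i a * X j b
        = ∑ a, ∑ k, ∑ b, S k a * S k b * X i a * X j b :=
          Finset.sum_congr rfl fun a _ => Finset.sum_comm
      _ = ∑ k, ∑ a, ∑ b, S k a * S k b * X i a * X j b := Finset.sum_comm
      _ = ∑ k, ∑ b, ∑ a, S k a * S k b * X i a * X j b :=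
          Finset.sum_congr rfl fun a _ => Finset.sum_comm
      _ = _ := Finset.sum_congr rfl fun k _ => Finset.sum_congr rfl fun b _ =>
          Finset.sum_congr rfl fun a _ => by ring
  have h1 : ∑ i, ∑ j, ∑ a, ∑ b, T i j * T a b * X i a * X j b =
      ∑ k, ∑ i, ∑ j, T i j * Y i k * Y j k := by
    have e : ∀ i j, ∑ a, ∑ b, T i j * T a b * X i a * X j b = ∑ k, T i j * Y i k * Y j k := by
      intro i j
      have := congrArg (fun r => T i j * r) (hYY i j)
      simp only [Finset.mul_sum] at this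
      refine Eq.trans ?_ (this.trans ?_)
      · exact Finset.sum_congr rfl fun a _ => Finset.sum_congr rfl fun b _ => by ring
      · exact Finset.sum_congr rfl fun a _ => by ring
    simp only [e]
    rw [Finset.sum_congr rfl fun i _ => Finset.sum_comm, Finset.sum_comm]
  rw [h1]
  have h2 : ∀ k, c * ∑ i, Y i k ^ 2 ≤ ∑ i, ∑ j, T i j * Y i k * Y j k := fun k => hl fun i => Y i k
  have h3 : ∀ i, c * ∑ a, X i a ^ 2 ≤ ∑ k, Y i k ^ 2 := by
    intro i
    have := hl (X i)
    rw [hYY i i] at this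
    refine this.trans (le_of_eq ?_)
    exact Finset.sum_congr rfl fun k _ => by ring
  calc c ^ 2 * ∑ i, ∑ a, X i a ^ 2 = c * ∑ i, c * ∑ a, X i a ^ 2 := by
        rw [← Finset.mul_sum]; ring
    _ ≤ c * ∑ i, ∑ k, Y i k ^ 2 := mul_le_mul_of_nonneg_left (Finset.sum_le_sum fun i _ => h3 i) hc
    _ = ∑ k, c * ∑ i, Y i k ^ 2 := by
        rw [Finset.sum_comm, Finset.mul_sum]
    _ ≤ _ := Finset.sum_le_sum fun k _ => h2 k

/-- pointwise bound of the square of the divergence -/
theorem div_pt {B : ℝ} (T : Matrix (Fin n) (Fin n) ℝ) (hB : ∀ i j, |T i j| ≤ B) (X : Fin n → Fin n → ℝ)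
    (x b : Fin n → ℝ) :
    ((∑ a, ∑ c, T a c * X a c) - ∑ c, x c * b c) ^ 2 ≤
      2 * ((n : ℝ) ^ 2 * B ^ 2) * (∑ a, ∑ c, X a c ^ 2) + 2 * (n : ℝ) * ∑ c, x c ^ 2 * b c ^ 2 := by
  have h1 : (∑ a, ∑ c, T a c * X a c) ^ 2 ≤ ((n : ℝ) ^ 2 * B ^ 2) * (∑ a, ∑ c, X a c ^ 2) := by
    have e1 : ∑ a, ∑ c, T a c * X a c = ∑ p : Fin n × Fin n, T p.1 p.2 * X p.1 p.2 := by
      rw [← Finset.univ_product_univ, Finset.sum_product]
    have e2 : ∑ a, ∑ c, X a c ^ 2 = ∑ p : Fin n × Fin n, X p.1 p.2 ^ 2 := by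
      rw [← Finset.univ_product_univ, Finset.sum_product]
    rw [e1, e2]
    refine (Finset.sum_mul_sq_le_sq_mul_sq _ _ _).trans ?_
    refine mul_le_mul_of_nonneg_right ?_ (Finset.sum_nonneg fun _ _ => sq_nonneg _)
    calc ∑ p : Fin n × Fin n, T p.1 p.2 ^ 2 ≤ ∑ p : Fin n × Fin n, B ^ 2 :=
          Finset.sum_le_sum fun p _ => by
            rw [← sq_abs]
            exact pow_le_pow_left₀ (abs_nonneg _) (hB _ _) 2
      _ = _ := by
          rw [Finset.sum_const, nsmul_eq_mul, Finset.card_univ, Fintype.card_prod, Fintype.card_fin]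
          push_cast; ring
  have h2 : (∑ c, x c * b c) ^ 2 ≤ (n : ℝ) * ∑ c, x c ^ 2 * b c ^ 2 := by
    have := sq_sum_le_card_mul_sum_sq (s := (Finset.univ : Finset (Fin n))) (f := fun c => x c * b c)
    simp only [Finset.card_univ, Fintype.card_fin, mul_pow] at this
    exact this
  nlinarith [sq_nonneg ((∑ a, ∑ c, T a c * X a c) + ∑ c, x c * b c)]

/-- pointwise bound of `(T grad)_b` -/
theorem row_pt {B : ℝ} (T : Matrix (Fin n) (Fin n) ℝ) (hB : ∀ i j, |T i j| ≤ B) (b : Fin n)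
    (g : Fin n → ℝ) : (∑ c, T b c * g c) ^ 2 ≤ ((n : ℝ) * B ^ 2) * ∑ c, g c ^ 2 := by
  refine (Finset.sum_mul_sq_le_sq_mul_sq _ _ _).trans ?_
  refine mul_le_mul_of_nonneg_right ?_ (Finset.sum_nonneg fun _ _ => sq_nonneg _)
  calc ∑ c, T b c ^ 2 ≤ ∑ c : Fin n, B ^ 2 :=
        Finset.sum_le_sum fun p _ => by
          rw [← sq_abs]
          exact pow_le_pow_left₀ (abs_nonneg _) (hB _ _) 2
    _ = _ := by
        rw [Finset.sum_const, nsmul_eq_mul, Finset.card_univ, Fintype.card_fin]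

/-! ## compactly supported fields -/

variable {V : E n → ℝ} {t : E n → Matrix (Fin n) (Fin n) ℝ} {c C : ℝ}

theorem ci_sq {f : E n → ℝ} (hf : CI f) : CI (fun x => f x ^ 2) := by
  have h := CI.mul_right hf hf.1
  have e : (fun x => f x ^ 2) = fun x => f x * f x := by
    funext x; ring
  rw [e]; exact h

theorem ci_ip (h : TF V t) {α β : E n → Fin n → ℝ} (hα : ∀ a, CI (fun x => α x a))
    (hβ : ∀ a, Bd (fun x => β x a)) : CI (ip t α β) := by
  unfold ip
  exact CI.sum _ fun a _ => CI.sum _ fun b _ =>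
    CI.mul_right (CI.mul_left (Bd.of_ll (tll h a b)) (hα a)) (hβ b)

theorem ci_dvg (h : TF V t) {β : E n → Fin n → ℝ} (hβ : LCF β) : CI (dvg t β) := by
  unfold dvg
  refine CI.sub (CI.sum _ fun a _ => CI.sum _ fun b _ =>
    CI.mul_left (Bd.of_ll (tll h a b)) (CI.pd (hβ b) a)) (CI.sum _ fun b _ =>
    CI.mul_left (Bd.of_ll (ll_coord b)) (CI.of_lc (hβ b)))

/-- the flat second order part -/
noncomputable def fl (t : E n → Matrix (Fin n) (Fin n) ℝ) (α β : E n → Fin n → ℝ) (x : E n) : ℝ :=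
  ∑ i, ∑ j, ∑ a, ∑ c, t x i j * t x a c * pd i (fun y => α y a) x * pd j (fun y => β y c) x

theorem ee_eq (α β : E n → Fin n → ℝ) : ee t α β = fun x => fl t α β x + ip t α β x := rfl

theorem ci_fl (h : TF V t) {α β : E n → Fin n → ℝ} (hα : LCF α) (hβ : LCF β) : CI (fl t α β) := by
  unfold fl
  exact CI.sum _ fun i _ => CI.sum _ fun j _ => CI.sum _ fun a _ => CI.sum _ fun b _ =>
    CI.mul_right (CI.mul_left ((Bd.of_ll (tll h i j)).mul (Bd.of_ll (tll h a b))) (CI.pd (hα a) i))
      (Bd.pd (hβ b).1 j)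

theorem I_ee (h : TF V t) {α β : E n → Fin n → ℝ} (hα : LCF α) (hβ : LCF β) :
    I V (ee t α β) = I V (fl t α β) + I V (ip t α β) := by
  rw [ee_eq, I_add h.V2.continuous (ci_fl h hα hβ)
    (ci_ip h (fun a => CI.of_lc (hα a)) fun a => Bd.of_ll (hβ a).1)]

/-- integration by parts: `E ⟨∇f, β⟩ = - E f div β` -/
theorem ibp_ip (h : TF V t) {f : E n → ℝ} (hf : LC f) {β : E n → Fin n → ℝ} (hβ : LCF β) :
    I V (ip t (fun x a => pd a f x) β) = - I V (fun x => f x * dvg t β x) := by
  have hV : Continuous V := h.V2.continuous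
  have hφ : ∀ b, LC (fun x => f x * β x b) := fun b => hf.mul_right (hβ b).1
  have h2 : I V (fun x => ∑ b, (Dt t b (fun y => f y * β y b) x - x b * (f x * β x b))) = 0 := by
    rw [I_sum _ hV fun a _ => (ci_Dt h (hφ a) a).sub (CI.of_lc (LC.mul_left (ll_coord a) (hφ a)))]
    exact Finset.sum_eq_zero fun a _ => tcore h (hφ a) a (Eventually.of_forall fun x => rfl)
  have c1 : CI (ip t (fun x a => pd a f x) β) :=
    ci_ip h (fun a => CI.pd hf a) fun a => Bd.of_ll (hβ a).1
  have c2 : CI (fun x => f x * dvg t β x) := CI.mul_left (Bd.of_ll hf.1) (ci_dvg h hβ)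
  have key : I V (fun x => ip t (fun x a => pd a f x) β x + f x * dvg t β x) = 0 := by
    rw [← h2]
    refine I_congr ?_
    have hβd : ∀ᵐ x, ∀ b, DifferentiableAt ℝ (fun y => β y b) x := by
      rw [ae_all_iff]
      exact fun b => (hβ b).ae_diff
    filter_upwards [hf.ae_diff, hβd] with x hx hbx
    have e1 : ∀ a b, pd b (fun y => f y * β y a) x = pd b f x * β x a + f x * pd b (fun y => β y a) x :=
      fun a b => rpd_mul hx (hbx a)
    unfold ip dvg Dt
    simp only [e1, mul_add, Finset.sum_add_distrib, Finset.sum_sub_distrib]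
    have s1 : ∑ a, ∑ b, t x a b * pd a f x * β x b = ∑ a, ∑ b, t x a b * (pd b f x * β x a) := by
      rw [Finset.sum_comm]
      refine Finset.sum_congr rfl fun a _ => Finset.sum_congr rfl fun b _ => ?_
      rw [h.symm x b a]; ring
    have s2 : ∑ a, ∑ b, t x a b * (f x * pd b (fun y => β y a) x) =
        f x * ∑ a, ∑ b, t x a b * pd a (fun y => β y b) x := by
      rw [Finset.sum_comm, Finset.mul_sum]
      refine Finset.sum_congr rfl fun a _ => ?_
      rw [Finset.mul_sum]
      refine Finset.sum_congr rfl fun b _ => ?_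
      rw [h.symm x b a]; ring
    have s3 : ∑ a, x a * (f x * β x a) = f x * ∑ b, x b * β x b := by
      rw [Finset.mul_sum]
      exact Finset.sum_congr rfl fun a _ => by ring
    rw [s1, s2, s3]
    ring
  rw [I_add hV c1 c2] at key
  linarith

/-- `E x_b² φ² ≤ 2 B E φ² + 4 E (D_b φ)²` -/
theorem coord_sq (h : TF V t) {B : ℝ} (hB : ∀ x i j, |t x i j| ≤ B) {φ : E n → ℝ} (hφ : LC φ)
    (b : Fin n) : I V (fun x => x b ^ 2 * φ x ^ 2) ≤
      2 * B * I V (fun x => φ x ^ 2) + 4 * I V (fun x => Dt t b φ x ^ 2) := by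
  have hV : Continuous V := h.V2.continuous
  have hxφ : LC (fun x : E n => x b * φ x) := LC.mul_left (ll_coord b) hφ
  have hG : LC (fun x : E n => x b * φ x * φ x) := hxφ.mul_right hφ.1
  have hcD : CI (Dt t b φ) := ci_Dt h hφ b
  have cB : CI (fun x : E n => x b ^ 2 * φ x ^ 2) := by
    have e : (fun x : E n => x b ^ 2 * φ x ^ 2) = fun x => (x b * φ x) ^ 2 := by
      funext x; ring
    rw [e]; exact ci_sq (CI.of_lc hxφ)
  have cφ : CI (fun x : E n => φ x ^ 2) := ci_sq (CI.of_lc hφ)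
  have cD2 : CI (fun x : E n => Dt t b φ x ^ 2) := ci_sq hcD
  have c0 : CI (fun x : E n => Dt t b (fun y => y b * φ y * φ y) x) := ci_Dt h hG b
  have h1 : I V (fun x => Dt t b (fun y => y b * φ y * φ y) x - x b * (x b * φ x * φ x)) = 0 :=
    tcore h hG b (Eventually.of_forall fun x => rfl)
  have h2 : I V (fun x => Dt t b (fun y => y b * φ y * φ y) x) = I V (fun x => x b ^ 2 * φ x ^ 2) := by
    rw [I_sub hV c0 (CI.of_lc (LC.mul_left (ll_coord b) hG))] at h1
    have e : I V (fun x => x b * (x b * φ x * φ x)) = I V (fun x => x b ^ 2 * φ x ^ 2) :=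
      I_congr (Eventually.of_forall fun x => by ring)
    linarith
  have h3 : I V (fun x => Dt t b (fun y => y b * φ y * φ y) x) ≤
      I V (fun x => B * φ x ^ 2 + (1 / 2 * (x b ^ 2 * φ x ^ 2) + 2 * Dt t b φ x ^ 2)) := by
    have k1 : CI (fun x : E n => B * φ x ^ 2) := CI.mul_left (Bd.of_cont continuous_const) cφ
    have k2 : CI (fun x : E n => 1 / 2 * (x b ^ 2 * φ x ^ 2)) :=
      CI.mul_left (Bd.of_cont continuous_const) cB
    have k3 : CI (fun x : E n => 2 * Dt t b φ x ^ 2) := CI.mul_left (Bd.of_cont continuous_const) cD2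
    refine I_mono hV c0 (k1.add (k2.add k3)) ?_
    filter_upwards [hφ.ae_diff] with x hx
    have hd1 : DifferentiableAt ℝ (fun y : E n => y b * φ y) x := (rad_diff_coord b x).mul hx
    have e1 : Dt t b (fun y => y b * φ y * φ y) x = t x b b * φ x ^ 2 + 2 * (x b * φ x) * Dt t b φ x := by
      unfold Dt
      have e2 : ∀ k, pd k (fun y : E n => y b * φ y * φ y) x =
          (if b = k then 1 else 0) * φ x ^ 2 + 2 * (x b * φ x) * pd k φ x := by
        intro k
        rw [rpd_mul hd1 hx, rpd_mul (rad_diff_coord b x) hx, rpd_coord]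
        ring
      simp only [e2, mul_add, Finset.sum_add_distrib]
      rw [Vale.Agent.P245.Q895.sum_ite_left (fun k => t x b k) b (φ x ^ 2), Finset.mul_sum]
      congr 1
      exact Finset.sum_congr rfl fun k _ => by ring
    rw [e1]
    have h4 : t x b b ≤ B := (le_abs_self _).trans (hB x b b)
    nlinarith [sq_nonneg (x b * φ x - 2 * Dt t b φ x), mul_le_mul_of_nonneg_right h4 (sq_nonneg (φ x))]
  have h5 : I V (fun x => B * φ x ^ 2 + (1 / 2 * (x b ^ 2 * φ x ^ 2) + 2 * Dt t b φ x ^ 2)) =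
      B * I V (fun x => φ x ^ 2) + (1 / 2 * I V (fun x => x b ^ 2 * φ x ^ 2) +
        2 * I V (fun x => Dt t b φ x ^ 2)) := by
    rw [I_add hV (CI.mul_left (Bd.of_cont continuous_const) cφ)
      ((CI.mul_left (Bd.of_cont continuous_const) cB).add
        (CI.mul_left (Bd.of_cont continuous_const) cD2)),
      I_add hV (CI.mul_left (Bd.of_cont continuous_const) cB)
        (CI.mul_left (Bd.of_cont continuous_const) cD2),
      Vale.Agent.P245.Q895.I_const_mul', Vale.Agent.P245.Q895.I_const_mul',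
      Vale.Agent.P245.Q895.I_const_mul']
  rw [h2, h5] at h3
  linarith

/-- `E (div β)² ≤ K N(β)` -/
theorem dvg_le (hB : Base V t c C) {s : ℝ} (hs : 0 < s) : ∃ K : ℝ, 0 ≤ K ∧
    ∀ β : E n → Fin n → ℝ, LCF β → 0 ≤ NN V t s β β ∧
      I V (fun x => dvg t β x ^ 2) ≤ K * NN V t s β β := by
  have h : TF V t := hB.toTF
  have hV : Continuous V := h.V2.continuous
  have hc : 0 < c := hB.lam_pos
  obtain ⟨B, hBt⟩ := hB.bt
  refine ⟨4 * n * |B| / c + 10 * (n : ℝ) ^ 2 * B ^ 2 / (s * c ^ 2), by positivity, fun β hβ => ?_⟩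
  have hlow : ∀ x (v : Fin n → ℝ), c * ∑ i, v i ^ 2 ≤ ∑ i, ∑ j, t x i j * v i * v j := by
    intro x v
    have h1 := hB.low x (WithLp.toLp 2 v)
    rw [← Vale.Agent.P245.H464.sum_sq_eq] at h1
    exact h1
  have cβ : ∀ b, CI (fun x => β x b) := fun b => CI.of_lc (hβ b)
  have cβ2 : ∀ b, CI (fun x => β x b ^ 2) := fun b => ci_sq (cβ b)
  have cp2 : ∀ a b, CI (fun x => pd a (fun y => β y b) x ^ 2) := fun a b => ci_sq (CI.pd (hβ b) a)
  have cS : CI (fun x => ∑ b, β x b ^ 2) := CI.sum _ fun b _ => cβ2 b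
  have cG : CI (fun x => ∑ a, ∑ b, pd a (fun y => β y b) x ^ 2) :=
    CI.sum _ fun a _ => CI.sum _ fun b _ => cp2 a b
  have cX : CI (fun x => ∑ b, x b ^ 2 * β x b ^ 2) := by
    refine CI.sum _ fun b _ => ?_
    have e : (fun x : E n => x b ^ 2 * β x b ^ 2) = fun x => (x b * β x b) ^ 2 := by
      funext x; ring
    rw [e]; exact ci_sq (CI.mul_left (Bd.of_ll (ll_coord b)) (cβ b))
  set S := I V (fun x => ∑ b, β x b ^ 2) with hS
  set G := I V (fun x => ∑ a, ∑ b, pd a (fun y => β y b) x ^ 2) with hG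
  have hS0 : 0 ≤ S := Vale.Agent.P245.Q895.I_nonneg' (Eventually.of_forall fun x =>
    Finset.sum_nonneg fun _ _ => sq_nonneg _)
  have hG0 : 0 ≤ G := Vale.Agent.P245.Q895.I_nonneg' (Eventually.of_forall fun x =>
    Finset.sum_nonneg fun _ _ => Finset.sum_nonneg fun _ _ => sq_nonneg _)
  have hip : c * S ≤ I V (ip t β β) := by
    rw [hS, ← Vale.Agent.P245.Q895.I_const_mul']
    refine I_mono hV (CI.mul_left (Bd.of_cont continuous_const) cS)
      (ci_ip h cβ fun a => Bd.of_ll (hβ a).1) (Eventually.of_forall fun x => ?_)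
    exact hlow x (β x)
  have hfl : c ^ 2 * G ≤ I V (fl t β β) := by
    rw [hG, ← Vale.Agent.P245.Q895.I_const_mul']
    refine I_mono hV (CI.mul_left (Bd.of_cont continuous_const) cG) (ci_fl h hβ hβ)
      (Eventually.of_forall fun x => ?_)
    exact flat_low hc.le (h.symm x) (hlow x) (fun a b => pd a (fun y => β y b) x)
  have hN : c * S + s * c ^ 2 * G ≤ NN V t s β β := by
    unfold NN
    rw [I_ee h hβ hβ]
    have h1 : 0 ≤ I V (ip t β β) := (mul_nonneg hc.le hS0).trans hip
    nlinarith [mul_le_mul_of_nonneg_left hfl hs.le, mul_nonneg hs.le h1]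
  have hN0 : 0 ≤ NN V t s β β := le_trans (by positivity) hN
  refine ⟨hN0, ?_⟩
  have hDb : ∀ b, I V (fun x => Dt t b (fun y => β y b) x ^ 2) ≤
      (n : ℝ) * B ^ 2 * I V (fun x => ∑ a, pd a (fun y => β y b) x ^ 2) := by
    intro b
    rw [← Vale.Agent.P245.Q895.I_const_mul']
    refine I_mono hV (ci_sq (ci_Dt h (hβ b) b)) (CI.mul_left (Bd.of_cont continuous_const)
      (CI.sum _ fun a _ => cp2 a b)) (Eventually.of_forall fun x => ?_)
    exact row_pt (t x) (hBt x) b fun k => pd k (fun y => β y b) x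
  have hGs : ∑ b, I V (fun x => ∑ a, pd a (fun y => β y b) x ^ 2) = G := by
    rw [hG, ← I_sum _ hV fun b _ => CI.sum _ fun a _ => cp2 a b]
    exact I_congr (Eventually.of_forall fun x => Finset.sum_comm)
  have hSs : ∑ b, I V (fun x => β x b ^ 2) = S := by
    rw [hS, I_sum _ hV fun b _ => cβ2 b]
  have hX : I V (fun x => ∑ b, x b ^ 2 * β x b ^ 2) ≤ 2 * |B| * S + 4 * ((n : ℝ) * B ^ 2) * G := by
    rw [I_sum _ hV fun b _ => by
      have e : (fun x : E n => x b ^ 2 * β x b ^ 2) = fun x => (x b * β x b) ^ 2 := by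
        funext x; ring
      rw [e]; exact ci_sq (CI.mul_left (Bd.of_ll (ll_coord b)) (cβ b)),
      ← hSs, ← hGs, Finset.mul_sum, Finset.mul_sum, ← Finset.sum_add_distrib]
    refine Finset.sum_le_sum fun b _ => ?_
    have h1 := coord_sq h (B := |B|) (fun x i j => (hBt x i j).trans (le_abs_self _)) (hβ b) b
    have h2 := hDb b
    linarith
  have hmain : I V (fun x => dvg t β x ^ 2) ≤
      2 * ((n : ℝ) ^ 2 * B ^ 2) * G + 2 * (n : ℝ) * I V (fun x => ∑ b, x b ^ 2 * β x b ^ 2) := by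
    rw [hG, ← Vale.Agent.P245.Q895.I_const_mul', ← Vale.Agent.P245.Q895.I_const_mul',
      ← I_add hV (CI.mul_left (Bd.of_cont continuous_const) cG)
        (CI.mul_left (Bd.of_cont continuous_const) cX)]
    refine I_mono hV (ci_sq (ci_dvg h hβ)) ((CI.mul_left (Bd.of_cont continuous_const) cG).add
      (CI.mul_left (Bd.of_cont continuous_const) cX)) (Eventually.of_forall fun x => ?_)
    exact div_pt (t x) (hBt x) (fun a b => pd a (fun y => β y b) x) (fun b => x b) (β x)
  have hn : (0 : ℝ) ≤ n := Nat.cast_nonneg n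
  have hsc : 0 < s * c ^ 2 := by positivity
  calc I V (fun x => dvg t β x ^ 2)
      ≤ 2 * ((n : ℝ) ^ 2 * B ^ 2) * G + 2 * (n : ℝ) * (2 * |B| * S + 4 * ((n : ℝ) * B ^ 2) * G) :=
        hmain.trans (by gcongr)
    _ = 4 * n * |B| / c * (c * S) + 10 * (n : ℝ) ^ 2 * B ^ 2 / (s * c ^ 2) * (s * c ^ 2 * G) := by
        field_simp
        ring
    _ ≤ 4 * n * |B| / c * NN V t s β β + 10 * (n : ℝ) ^ 2 * B ^ 2 / (s * c ^ 2) * NN V t s β β := by
        refine add_le_add (mul_le_mul_of_nonneg_left ?_ (by positivity))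
          (mul_le_mul_of_nonneg_left ?_ (by positivity))
        · have : 0 ≤ s * c ^ 2 * G := by positivity
          linarith
        · have : 0 ≤ c * S := by positivity
          linarith
    _ = _ := by ring

/-! ## the limit -/

theorem mem_of_L2 (hV : Continuous V) {f : E n → ℝ} (h : L2 V f) : MemLp f 2 (mu V) :=
  (memLp_iff hV h.1.aestronglyMeasurable).2 h.2

/-- Cauchy-Schwarz -/
theorem cs_I (hV : Continuous V) {f g : E n → ℝ} (hf : MemLp f 2 (mu V)) (hg : MemLp g 2 (mu V)) :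
    |I V (fun x => f x * g x)| ≤ Real.sqrt (I V (fun x => f x ^ 2)) * Real.sqrt (I V (fun x => g x ^ 2)) := by
  have h1 := abs_real_inner_le_norm (hf.toLp f) (hg.toLp g)
  rw [inner_toLp1 hf hg, norm_toLp1 hf, norm_toLp1 hg, integral_muI hV, integral_muI hV,
    integral_muI hV] at h1
  exact h1

/-- integration by parts for `f ∈ H¹` -/
theorem h1_ibp (hB : Base V t c C) {f : E n → ℝ} {Df : Fin n → E n → ℝ} (hf : H1 V f Df)
    {β : E n → Fin n → ℝ} (hβ : LCF β) :
    I V (ip t (fun x a => Df a x) β) = - I V (fun x => f x * dvg t β x) := by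
  have h : TF V t := hB.toTF
  have hV : Continuous V := h.V2.continuous
  obtain ⟨c1, C1, hR⟩ := hB.reg
  obtain ⟨F, hF, hF0, hF1⟩ := hf.core
  have l0 : L2to (mu V) F f := l2to_of hV (fun m => memLp_ci hV (CI.of_lc (hF m))) hf.u2.1 hf.u2.2 hF0
  have l1 : ∀ a, L2to (mu V) (fun m => pd a (F m)) (Df a) := fun a =>
    l2to_of hV (fun m => memLp_ci hV (CI.pd (hF m) a)) (hf.D2 a).1 (hf.D2 a).2 (hF1 a)
  have lβ : ∀ a, L2to (mu V) (fun _ => fun x => β x a) (fun x => β x a) := fun a =>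
    L2to.const (memLp_ci hV (CI.of_lc (hβ a)))
  have t1 := form_lim (Du := Df) (Dw := fun a x => β x a) hB.toTB (f := fun m a => pd a (F m)) l1
    (g := fun _ a x => β x a) lβ
  have t2 := (l0.mul (L2to.const (memLp_ci hV (ci_dvg h hβ)))).neg
  have t3 : Tendsto (fun m => - ∫ x, F m x * dvg t β x ∂(mu V)) atTop
      (𝓝 (∫ x, (∑ a, ∑ b, t x a b * Df a x * β x b) ∂(mu V))) := by
    refine t1.congr fun m => ?_
    rw [integral_muI hV, integral_muI hV]
    exact ibp_ip h (hF m) hβ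
  have t4 := tendsto_nhds_unique t3 t2
  rw [integral_muI hV, integral_muI hV] at t4
  exact t4

theorem lcf_grad {f : E n → ℝ} (hf : Test f) : LCF (fun x a => pd a f x) := fun a =>
  lc_test (test_pd1 hf a)

/-- **row COMM** from row W -/
theorem comm (hW : StmtW) : StmtComm := by
  intro n V t c C hB s hs f Df hf u Au Du hu huf
  have h : TF V t := hB.toTF
  have hV : Continuous V := h.V2.continuous
  obtain ⟨c1, C1, hR⟩ := hB.reg
  obtain ⟨H, hD⟩ := hu
  obtain ⟨K, hK0, hK⟩ := dvg_le hB hs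
  -- the approximating sequences
  have l0 : L2to (mu V) H u := l2to_of hV (fun m => memLp_ci hV (CI.of_lc (lc_test (hD.test m))))
    hD.mu hD.iu hD.lu
  have l1 : ∀ a, L2to (mu V) (fun m => pd a (H m)) (Du a) := fun a =>
    l2to_of hV (fun m => memLp_ci hV (CI.of_lc (lc_test (test_pd1 (hD.test m) a)))) (hD.mD a)
      (hD.iD a) (hD.lD a)
  have l2 : L2to (mu V) (fun m x => -(Lt t (H m) x)) Au :=
    l2to_of hV (fun m => (memLp_ci hV (CI.of_lc (lt_lc hB.toTB (hD.test m)))).neg) hD.mA hD.iA hD.lA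
  have mf : MemLp f 2 (mu V) := mem_of_L2 hV hf.u2
  have l3 : L2to (mu V) (fun m x => (H m x + s * (-(Lt t (H m) x))) - f x)
      (fun x => (u x + s * Au x) - f x) := (l0.add (l2.smul s)).sub (L2to.const mf)
  have l4 : L2to (mu V) (fun m x => (H m x + s * (-(Lt t (H m) x))) - f x) (fun _ => 0) := by
    refine l3.congr_lim ?_
    refine (Vale.Agent.P245.H464.mu_ac V).ae_le ?_
    filter_upwards [huf] with x hx
    simp only [hx, sub_self]
  have hr0 : Tendsto (fun m => I V (fun x => ((H m x + s * (-(Lt t (H m) x))) - f x) ^ 2)) atTop (𝓝 0) := by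
    refine l4.conv.congr fun m => ?_
    rw [integral_muI hV]
    simp only [sub_zero]
  refine ⟨hf.D2, fun a => ⟨hD.mD a, hD.iD a⟩, fun m x a => pd a (H m) x,
    fun m => Real.sqrt K * Real.sqrt (I V (fun x => ((H m x + s * (-(Lt t (H m) x))) - f x) ^ 2)),
    fun m => lcf_grad (hD.test m), fun a => hD.lD a, ?_, fun m => by positivity, ?_, ?_⟩
  · -- boundedness
    have b1 := form_lim (Du := Du) (Dw := Du) hB.toTB (f := fun m a => pd a (H m)) l1
      (g := fun m a => pd a (H m)) l1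
    have b2 := l2.mul l2
    have b3 := b1.add (b2.const_mul s)
    obtain ⟨Bd', hBd⟩ := b3.bddAbove_range
    refine ⟨Bd', fun m => ?_⟩
    refine le_trans (le_of_eq ?_) (hBd (Set.mem_range_self m))
    unfold NN
    rw [← hW n V t c C hB (H m) (hD.test m) _ (lcf_grad (hD.test m)), integral_muI hV, integral_muI hV]
    have e1 : I V (fun x => Lt t (H m) x * dvg t (fun x a => pd a (H m) x) x) =
        I V (fun x => -(Lt t (H m) x) * -(Lt t (H m) x)) := by
      refine I_congr (Eventually.of_forall fun x => ?_)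
      have e2 : dvg t (fun x a => pd a (H m) x) x = Lt t (H m) x := rfl
      rw [e2]; ring
    rw [e1]
    rfl
  · have h1 := (Real.continuous_sqrt.tendsto 0).comp hr0
    rw [Real.sqrt_zero] at h1
    have h2 := h1.const_mul (Real.sqrt K)
    rw [mul_zero] at h2
    exact h2
  · intro m β hβ
    obtain ⟨hN0, hN1⟩ := hK β hβ
    have md : MemLp (dvg t β) 2 (mu V) := memLp_ci hV (ci_dvg h hβ)
    have mr : MemLp (fun x => (H m x + s * (-(Lt t (H m) x))) - f x) 2 (mu V) := l3.mem m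
    have cd : CI (dvg t β) := ci_dvg h hβ
    have i1 : Integrable (fun x => H m x * dvg t β x * Real.exp (-V x)) :=
      (CI.mul_right (CI.of_lc (lc_test (hD.test m))) cd.1).integrable hV
    have i2 : Integrable (fun x => Lt t (H m) x * dvg t β x * Real.exp (-V x)) :=
      (CI.mul_right (CI.of_lc (lt_lc hB.toTB (hD.test m))) cd.1).integrable hV
    have i3 : Integrable (fun x => f x * dvg t β x * Real.exp (-V x)) :=
      (Vale.Agent.P245.H464.integrable_mu hV _).1 (mf.integrable_mul md)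
    have key : NN V t s (fun x a => pd a (H m) x) β - I V (ip t (fun x a => Df a x) β) =
        - I V (fun x => ((H m x + s * (-(Lt t (H m) x))) - f x) * dvg t β x) := by
      unfold NN
      rw [← hW n V t c C hB (H m) (hD.test m) β hβ, ibp_ip h (lc_test (hD.test m)) hβ, h1_ibp hB hf hβ]
      have e : I V (fun x => ((H m x + s * (-(Lt t (H m) x))) - f x) * dvg t β x) =
          (I V (fun x => H m x * dvg t β x) - s * I V (fun x => Lt t (H m) x * dvg t β x)) -
            I V (fun x => f x * dvg t β x) := by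
        have i12 : Integrable (fun x => H m x * dvg t β x * Real.exp (-V x) -
            s * (Lt t (H m) x * dvg t β x * Real.exp (-V x))) := i1.sub (i2.const_mul s)
        have e1 : I V (fun x => H m x * dvg t β x) - s * I V (fun x => Lt t (H m) x * dvg t β x) =
            ∫ x, (H m x * dvg t β x * Real.exp (-V x) -
              s * (Lt t (H m) x * dvg t β x * Real.exp (-V x))) := by
          unfold I
          rw [← integral_const_mul, ← integral_sub i1 (i2.const_mul s)]
        rw [e1]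
        unfold I
        rw [← integral_sub i12 i3]
        refine integral_congr_ae (Eventually.of_forall fun x => ?_)
        simp only
        ring
      rw [e]
      ring
    rw [key, abs_neg]
    refine (cs_I hV mr md).trans ?_
    calc Real.sqrt (I V (fun x => ((H m x + s * (-(Lt t (H m) x))) - f x) ^ 2)) *
          Real.sqrt (I V (fun x => dvg t β x ^ 2))
        ≤ Real.sqrt (I V (fun x => ((H m x + s * (-(Lt t (H m) x))) - f x) ^ 2)) *
          Real.sqrt (K * NN V t s β β) :=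
          mul_le_mul_of_nonneg_left (Real.sqrt_le_sqrt hN1) (Real.sqrt_nonneg _)
      _ = _ := by
          rw [Real.sqrt_mul hK0]; ring

end Vale.Agent.P245.K2.Comm
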