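import Vale.Agent.P245.K2.KatoN

/-!
# P245, row KATO (helper979), part 2: `|R1 γ| ≤ (1 + s/2 - s L)⁻¹ |γ|`
-/

set_option linter.all false

open MeasureTheory Filter Topology Set Metric
open scoped NNReal ENNReal ContDiff
open Vale.Agent.P227.M Vale.Agent.P227.M.K814 Vale.Agent.P254 Vale.Agent.P254.SN
open Vale.Agent.P245.H464 (TE Lt)
open Vale.Agent.P245.K Vale.Agent.P245.K2.Br Vale.Agent.P245.K2.KID Vale.Agent.P245.K2.KatoN

namespace Vale.Agent.P245.K2.Kato979

open Vale.Agent.P245.K2.Op4 (np np_nonneg np_zero np_lip np_abs continuous_np)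

variable {n : ℕ} {V : E n → ℝ} {t : E n → Matrix (Fin n) (Fin n) ℝ} {c C : ℝ}

theorem I_sq_nonneg (f : E n → ℝ) : 0 ≤ I V (fun x => f x ^ 2) :=
  integral_nonneg fun x => mul_nonneg (sq_nonneg _) (Real.exp_pos _).le

section
variable (h : Base V t c C)
include h

theorem meas_ip {γ β : E n → Fin n → ℝ} (hγ : ∀ a, K.L2 V (fun x => γ x a)) (hβ : ∀ a, K.L2 V (fun x => β x a)) :
    Measurable (ip t γ β) :=
  Finset.measurable_fun_sum _ fun a _ => Finset.measurable_fun_sum _ fun b _ =>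
    (((tll h.toTE.toTB.toTF a b).continuous.measurable).mul (hγ a).1).mul (hβ b).1

/-- `I ip (U - u_m) → 0` -/
theorem lim_ip {U : E n → Fin n → ℝ} (hU : ∀ a, K.L2 V (fun x => U x a)) {u : ℕ → E n → Fin n → ℝ}
    (hu : ∀ m, LCF (u m)) (ht : ∀ a, Tends V (fun m x => u m x a) (fun x => U x a)) :
    Tendsto (fun m => I V (ip t (fun y a => U y a + (-1) * u m y a) (fun y a => U y a + (-1) * u m y a)))
      atTop (𝓝 0) := by
  obtain ⟨c1, C1, hR⟩ := h.reg
  have hV := contV h
  have k : ∀ a, OP3.L2to (H464.mu V) (fun m x => U x a + (-1) * u m x a) (fun x => U x a + (-1) * U x a) :=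
    fun a => (OP3.L2to.const (R1S.memLp_L2 hV (hU a))).add
      ((R1S.l2to hV (fun m => R1S.l2_of_lcf hR (hu m) hV a) (hU a) (ht a)).smul (-1))
  have l := OP3.form_lim (V := V) (t := t) h.toTB (f := fun m a x => U x a + (-1) * u m x a)
    (Du := fun a x => U x a + (-1) * U x a) (g := fun m a x => U x a + (-1) * u m x a)
    (Dw := fun a x => U x a + (-1) * U x a) k k
  have e0 : ∫ x, (∑ a, ∑ b, t x a b * (U x a + (-1) * U x a) * (U x b + (-1) * U x b)) ∂(H464.mu V) = 0 := by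
    have : ∀ x, (∑ a, ∑ b, t x a b * (U x a + (-1) * U x a) * (U x b + (-1) * U x b)) = 0 := by
      intro x
      refine Finset.sum_eq_zero fun a _ => Finset.sum_eq_zero fun b _ => ?_
      ring
    simp only [this, integral_zero]
  rw [e0] at l
  refine l.congr fun m => ?_
  exact H464.integral_mu hV _

/-- the source is close to `g_k` -/
theorem lim_g {s : ℝ} {γ : E n → Fin n → ℝ} {hh Ah : E n → ℝ} {Dh : Fin n → E n → ℝ} {f : ℕ → E n → ℝ}
    (hf : H464.Dom V t f hh Dh Ah)
    (hres : ∀ᵐ x, (1 + s / 2) * hh x + s * Ah x = nt t γ x) :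
    Tendsto (fun k => I V (fun x => (nt t γ x - ((1 + s / 2) * f k x - s * Lt t (f k) x)) ^ 2)) atTop (𝓝 0) := by
  have hV := contV h
  have mf : ∀ m, MemLp (f m) 2 (H464.mu V) := fun m =>
    H464.memLp_ci hV (CI.of_lc (Test.lc (hf.test m)))
  have mL : ∀ m, MemLp (fun x => -(H464.Lt t (f m) x)) 2 (H464.mu V) := fun m =>
    (H464.memLp_ci hV (CI.of_lc (H464.lc_Lt h.toTF (hf.test m)))).neg
  have mu' : MemLp hh 2 (H464.mu V) := (H464.memLp_iff hV hf.mu.aestronglyMeasurable).2 hf.iu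
  have mA : MemLp Ah 2 (H464.mu V) := (H464.memLp_iff hV hf.mA.aestronglyMeasurable).2 hf.iA
  have l0 : Tendsto (fun k => 2 * (1 + s / 2) ^ 2 * I V (fun x => (f k x - hh x) ^ 2) +
      2 * s ^ 2 * I V (fun x => (-(Lt t (f k) x) - Ah x) ^ 2)) atTop (𝓝 0) := by
    simpa using (hf.lu.const_mul (2 * (1 + s / 2) ^ 2)).add (hf.lA.const_mul (2 * s ^ 2))
  refine squeeze_zero (fun k => I_sq_nonneg _) (fun k => ?_) l0
  have i1 : Integrable (fun x => (f k x - hh x) ^ 2 * Real.exp (-V x)) :=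
    (H464.integrable_mu hV _).1 (((mf k).sub mu').integrable_sq)
  have i2 : Integrable (fun x => (-(Lt t (f k) x) - Ah x) ^ 2 * Real.exp (-V x)) :=
    (H464.integrable_mu hV _).1 (((mL k).sub mA).integrable_sq)
  have i3 : Integrable (fun x => (2 * (1 + s / 2) ^ 2 * (f k x - hh x) ^ 2 +
      2 * s ^ 2 * (-(Lt t (f k) x) - Ah x) ^ 2) * Real.exp (-V x)) := by
    refine ((i1.const_mul (2 * (1 + s / 2) ^ 2)).add (i2.const_mul (2 * s ^ 2))).congr
      (Eventually.of_forall fun x => ?_)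
    simp only [Pi.add_apply]; ring
  have e1 : 2 * (1 + s / 2) ^ 2 * I V (fun x => (f k x - hh x) ^ 2) +
      2 * s ^ 2 * I V (fun x => (-(Lt t (f k) x) - Ah x) ^ 2) =
      I V (fun x => 2 * (1 + s / 2) ^ 2 * (f k x - hh x) ^ 2 + 2 * s ^ 2 * (-(Lt t (f k) x) - Ah x) ^ 2) :=
    (R1S.I_lin _ _ i1 i2 (Eventually.of_forall fun x => rfl)).symm
  rw [e1]
  unfold I
  refine integral_mono_of_nonneg (Eventually.of_forall fun x => mul_nonneg (sq_nonneg _) (Real.exp_pos _).le)
    i3 ?_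
  filter_upwards [hres] with x hx
  refine mul_le_mul_of_nonneg_right ?_ (Real.exp_pos _).le
  rw [← hx]
  nlinarith [sq_nonneg ((1 + s / 2) * (f k x - hh x) - s * (-(Lt t (f k) x) - Ah x))]

/-- the bound for fixed `d` -/
theorem kato_d {s : ℝ} (hs : 0 < s) {γ U : E n → Fin n → ℝ} (hU : R1 V t s γ U) {hh Ah : E n → ℝ}
    {Dh : Fin n → E n → ℝ} (hd : Dom V t hh Dh Ah)
    (hres : ∀ᵐ x, (1 + s / 2) * hh x + s * Ah x = nt t γ x) {d : ℝ} (d0 : 0 < d) :
    ∀ᵐ x, nrm t d U x ≤ d + hh x := by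
  have hV := contV h
  obtain ⟨c1, C1, hR⟩ := h.reg
  obtain ⟨f, hf⟩ := hd
  obtain ⟨u, ε, hu, htu, ⟨B, hB⟩, hε, hε0, hε1⟩ := hU.core
  have mu' : MemLp hh 2 (H464.mu V) := (H464.memLp_iff hV hf.mu.aestronglyMeasurable).2 hf.iu
  have mf : ∀ m, MemLp (f m) 2 (H464.mu V) := fun m =>
    H464.memLp_ci hV (CI.of_lc (Test.lc (hf.test m)))
  have mU := meas_ip h hU.U2 hU.U2
  have iU := R1S.int_ip h.toTE hU.U2 hU.U2
  obtain ⟨a, ha⟩ : ∃ a : E n → ℝ, a = fun x => np (hh x + (d - nrm t d U x)) := ⟨_, rfl⟩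
  have am : Measurable a := by
    rw [ha]
    refine continuous_np.measurable.comp (hf.mu.add (measurable_const.sub ?_))
    exact (mU.add measurable_const).sqrt
  have hU2 : ∀ m : ℕ, ∀ b, K.L2 V (fun x => U x b + (-1) * u m x b) := fun m b => by
    have := R1S.L2_lin hV (hU.U2 b) (R1S.l2_of_lcf hR (hu m) hV b) 1 (-1)
    simpa only [one_mul] using this
  -- integrability of a²
  have ia : Integrable (fun x => a x ^ 2 * Real.exp (-V x)) := by
    have i1 : Integrable (fun x => (2 * ip t U U x + 2 * hh x ^ 2) * Real.exp (-V x)) := by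
      refine ((iU.const_mul 2).add (hf.iu.const_mul 2)).congr (Eventually.of_forall fun x => ?_)
      simp only [Pi.add_apply]; ring
    refine i1.mono' ((am.pow_const 2).mul (Real.measurable_exp.comp hV.measurable.neg)).aestronglyMeasurable
      (Eventually.of_forall fun x => ?_)
    rw [Real.norm_eq_abs, abs_of_nonneg (mul_nonneg (sq_nonneg _) (Real.exp_pos _).le)]
    refine mul_le_mul_of_nonneg_right ?_ (Real.exp_pos _).le
    have hT := posd h x
    have h1 : nrm t d U x - d ≤ Real.sqrt (ip t U U x) := by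
      have := K.ip_nonneg hT U
      have h2 : nrm t d U x ≤ Real.sqrt (ip t U U x) + d := by
        unfold nrm
        refine Real.sqrt_le_iff.2 ⟨by positivity, ?_⟩
        have h3 := Real.sq_sqrt this
        have h4 := Real.sqrt_nonneg (ip t U U x)
        nlinarith [mul_nonneg h4 d0.le]
      linarith
    have h0 : 0 ≤ a x := by rw [ha]; exact np_nonneg _
    have h2 : a x ≤ Real.sqrt (ip t U U x) + |hh x| := by
      rw [ha]
      simp only [np]
      refine max_le ?_ (by positivity)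
      have := neg_abs_le (hh x)
      linarith
    have h3 := Real.sq_sqrt (K.ip_nonneg hT U)
    have h4 := Real.sqrt_nonneg (ip t U U x)
    have h5 := sq_abs (hh x)
    have h6 : a x ^ 2 ≤ (Real.sqrt (ip t U U x) + |hh x|) ^ 2 := pow_le_pow_left₀ h0 h2 2
    nlinarith [sq_nonneg (Real.sqrt (ip t U U x) - |hh x|)]
  -- the main bound for all k, m
  have key : ∀ k m, I V (fun x => a x ^ 2) ≤
      2 * I V (fun x => ww t d (u m) (f k) x ^ 2) + 4 * I V (fun x => (f k x - hh x) ^ 2) +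
      4 * I V (ip t (fun y a => U y a + (-1) * u m y a) (fun y a => U y a + (-1) * u m y a)) := by
    intro k m
    have hw := lc_ww h (hu m) d0 (Test.lc (hf.test k))
    have iw : Integrable (fun x => ww t d (u m) (f k) x ^ 2 * Real.exp (-V x)) := by
      have : CI (fun x => ww t d (u m) (f k) x ^ 2) := by
        have := CI.mul_right (CI.of_lc hw) (Bd.of_ll hw.1)
        simpa only [sq] using this
      exact this.integrable hV
    have if' : Integrable (fun x => (f k x - hh x) ^ 2 * Real.exp (-V x)) :=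
      (H464.integrable_mu hV _).1 (((mf k).sub mu').integrable_sq)
    have ii := R1S.int_ip h.toTE (hU2 m) (hU2 m)
    have iw2 : Integrable (fun x => (2 * ww t d (u m) (f k) x ^ 2) * Real.exp (-V x)) := by
      refine (iw.const_mul 2).congr (Eventually.of_forall fun x => by ring)
    have := I_le3 h (f := fun x => a x ^ 2) (a := fun x => 2 * ww t d (u m) (f k) x ^ 2) 4 4 ia iw2 if' ii
      (fun x => ?_)
    · rw [cmulI h] at this
      exact this
    have hT := posd h x
    have h1 := nrm_diff d0 hT U (u m)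
    have h2 : |a x - ww t d (u m) (f k) x| ≤ |(hh x + (d - nrm t d U x)) - (f k x + (d - nrm t d (u m) x))| := by
      rw [ha]
      exact np_lip _ _
    have h3 : (a x - ww t d (u m) (f k) x) ^ 2 ≤
        ((hh x + (d - nrm t d U x)) - (f k x + (d - nrm t d (u m) x))) ^ 2 := sq_le_sq.2 h2
    nlinarith [sq_nonneg (a x - 2 * ww t d (u m) (f k) x),
      sq_nonneg ((f k x - hh x) - (nrm t d U x - nrm t d (u m) x))]
  -- NN bound
  have key2 : ∀ k, ∃ Kk : ℝ, 0 ≤ Kk ∧ ∀ m, I V (fun x => ww t d (u m) (f k) x ^ 2) ≤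
      I V (fun x => (nt t γ x - ((1 + s / 2) * f k x - s * Lt t (f k) x)) ^ 2) + 2 * (ε m * Kk) := by
    intro k
    obtain ⟨M, hM⟩ : ∃ M, ∀ x, |f k x| ≤ M := by
      obtain ⟨M, hM⟩ := (hf.test k).2.exists_bound_of_continuous (hf.test k).1.continuous
      exact ⟨M, fun x => hM x⟩
    refine ⟨Real.sqrt ((2 * (1 + M / d) ^ 2 + 4) * B + 4 * s * I V (K.Gam t (f k) (f k))), Real.sqrt_nonneg _,
      fun m => ?_⟩
    have hb := lcf_test h (hu m) d0 (lc_ww h (hu m) d0 (Test.lc (hf.test k)))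
    refine (main_ineq h hU.g2 (hu m) d0 (hf.test k) hs (hε1 m _ hb)).trans ?_
    have h1 := NN_test h (hu m) d0 (Test.lc (hf.test k)) hM hs.le
    have h2 : (2 * (1 + M / d) ^ 2 + 4) * NN V t s (u m) (u m) ≤ (2 * (1 + M / d) ^ 2 + 4) * B :=
      mul_le_mul_of_nonneg_left (hB m) (by positivity)
    have h3 := Real.sqrt_le_sqrt (h1.trans (add_le_add_left h2 _))
    have h4 := mul_le_mul_of_nonneg_left h3 (hε m)
    linarith
  -- limit in m
  have lip := lim_ip h hU.U2 hu htu
  have key3 : ∀ k, I V (fun x => a x ^ 2) ≤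
      2 * I V (fun x => (nt t γ x - ((1 + s / 2) * f k x - s * Lt t (f k) x)) ^ 2) +
      4 * I V (fun x => (f k x - hh x) ^ 2) := by
    intro k
    obtain ⟨Kk, hK0, hK⟩ := key2 k
    have l : Tendsto (fun m => 2 * (I V (fun x => (nt t γ x - ((1 + s / 2) * f k x - s * Lt t (f k) x)) ^ 2) +
        2 * (ε m * Kk)) + 4 * I V (fun x => (f k x - hh x) ^ 2) +
        4 * I V (ip t (fun y a => U y a + (-1) * u m y a) (fun y a => U y a + (-1) * u m y a))) atTop
        (𝓝 (2 * (I V (fun x => (nt t γ x - ((1 + s / 2) * f k x - s * Lt t (f k) x)) ^ 2) +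
        2 * (0 * Kk)) + 4 * I V (fun x => (f k x - hh x) ^ 2) + 4 * 0)) :=
      (((((hε0.mul_const Kk).const_mul 2).const_add _).const_mul 2).add_const _).add (lip.const_mul 4)
    have := ge_of_tendsto' l fun m => (key k m).trans (by linarith [hK m])
    linarith
  have l4 := (lim_g h hf hres).const_mul 2 |>.add (hf.lu.const_mul 4)
  have key4 : I V (fun x => a x ^ 2) ≤ 2 * 0 + 4 * 0 := ge_of_tendsto' l4 key3
  have key5 : I V (fun x => a x ^ 2) = 0 := le_antisymm (by linarith) (I_sq_nonneg _)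
  have h0 : (fun x => a x ^ 2 * Real.exp (-V x)) =ᵐ[volume] 0 :=
    (integral_eq_zero_iff_of_nonneg (fun x => mul_nonneg (sq_nonneg _) (Real.exp_pos _).le) ia).1 key5
  filter_upwards [h0] with x hx
  have h1 : a x ^ 2 = 0 := by
    have hx' : a x ^ 2 * Real.exp (-V x) = 0 := hx
    rcases mul_eq_zero.1 hx' with h | h
    · exact h
    · exact absurd h (Real.exp_pos _).ne'
  have h2 : a x = 0 := by simpa using h1
  rw [ha] at h2
  have h3 : -(hh x + (d - nrm t d U x)) ≤ 0 := by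
    rw [← h2]
    exact le_max_left _ _
  linarith

end

/-- **KATO** -/
theorem kato : StmtKato := by
  intro n V t c C h s hs γ U hU hh Ah Dh hd hres
  have h1 : ∀ᵐ x, ∀ j : ℕ, nrm t (1 / ((j : ℝ) + 1)) U x ≤ 1 / ((j : ℝ) + 1) + hh x := by
    rw [ae_all_iff]
    exact fun j => kato_d h hs hU hd hres (by positivity)
  filter_upwards [h1] with x hx
  have hT := posd h x
  have l : Tendsto (fun j : ℕ => 1 / ((j : ℝ) + 1) + hh x) atTop (𝓝 (0 + hh x)) :=
    (tendsto_one_div_add_atTop_nhds_zero_nat (𝕜 := ℝ)).add_const _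
  rw [zero_add] at l
  refine ge_of_tendsto' l fun j => ?_
  refine le_trans ?_ (hx j)
  unfold nt nrm
  exact Real.sqrt_le_sqrt (by linarith [sq_nonneg (1 / ((j : ℝ) + 1))])

end Vale.Agent.P245.K2.Kato979
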