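import Vale.Agent.P245.K.Iface

/-! # P245, row OP-4: positivity of the resolvents (second seat, helper265) -/

set_option linter.all false

open MeasureTheory Filter Topology Set
open scoped NNReal ENNReal ContDiff
open Vale.Agent.P227.M Vale.Agent.P227.M.K814 Vale.Agent.P254.SN

namespace Vale.Agent.P245.K2.Op4

open Vale.Agent.P245.K

variable {n : ℕ} {V : E n → ℝ} {t : E n → Matrix (Fin n) (Fin n) ℝ} {c C : ℝ}

/-- negative part -/
noncomputable def np (r : ℝ) : ℝ := max (-r) 0

theorem np_nonneg (r : ℝ) : 0 ≤ np r := le_max_right _ _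

theorem np_zero : np 0 = 0 := by simp [np]

theorem mul_np (r : ℝ) : r * np r = -(np r ^ 2) := by
  unfold np
  rcases le_total r 0 with h | h
  · rw [max_eq_left (by linarith)]; ring
  · rw [max_eq_right (by linarith)]; ring

theorem np_lip (a b : ℝ) : |np a - np b| ≤ |a - b| := by
  unfold np
  refine (abs_max_sub_max_le_abs _ _ _).trans (le_of_eq ?_)
  rw [abs_sub_comm]
  congr 1
  ring

theorem np_abs (a : ℝ) : |np a| ≤ |a| := by
  have := np_lip a 0
  rwa [np_zero, sub_zero, sub_zero] at this

theorem continuous_np : Continuous np := by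
  unfold np
  fun_prop

theorem lc_np {f : E n → ℝ} (hf : LC f) : LC (fun x => np (f x)) := by
  refine ⟨?_, hf.2.comp_left np_zero⟩
  have h1 : LocallyLipschitz (fun x => -f x) := hf.1.neg
  exact h1.max (LocallyLipschitz.const 0)

theorem pd_np_pos {f : E n → ℝ} {x : E n} (hx : 0 ≤ f x) (a : Fin n) :
    pd a (fun y => np (f y)) x = 0 := by
  have h0 : np (f x) = 0 := by unfold np; exact max_eq_right (by linarith)
  have h1 : fderiv ℝ (fun y => np (f y)) x = 0 := by
    refine IsLocalMin.fderiv_eq_zero (Eventually.of_forall fun y => ?_)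
    show np (f x) ≤ np (f y)
    rw [h0]
    exact np_nonneg _
  unfold pd
  rw [h1]
  simp

theorem pd_np_neg {f : E n → ℝ} (hf : Continuous f) {x : E n} (hx : f x < 0) (a : Fin n) :
    pd a (fun y => np (f y)) x = - pd a f x := by
  have h1 : (fun y => np (f y)) =ᶠ[𝓝 x] fun y => - f y := by
    filter_upwards [hf.continuousAt.eventually_lt continuousAt_const hx] with y hy
    unfold np
    exact max_eq_left (by linarith)
  unfold pd
  rw [h1.fderiv_eq, fderiv_fun_neg]
  simp

theorem gam_np (h : Base V t c C) {f : E n → ℝ} (hf : Continuous f) (x : E n) :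
    Vale.Agent.P245.H464.Gam t f (fun y => np (f y)) x ≤ 0 := by
  rcases le_or_gt 0 (f x) with hx | hx
  · unfold Vale.Agent.P245.H464.Gam
    simp only [pd_np_pos hx, mul_zero, Finset.sum_const_zero, le_refl]
  · have h1 := Vale.Agent.P245.H464.Gam_nonneg h.toTE f x
    have h2 : Vale.Agent.P245.H464.Gam t f (fun y => np (f y)) x =
        - Vale.Agent.P245.H464.Gam t f f x := by
      unfold Vale.Agent.P245.H464.Gam
      simp only [pd_np_neg hf hx, mul_neg, Finset.sum_neg_distrib]
    rw [h2]
    linarith

theorem test_ineq (h : Base V t c C) {f : E n → ℝ} (hf : Test f) :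
    0 ≤ I V (fun x => H464.Lt t f x * np (f x)) := by
  have hfc : Continuous f := hf.1.continuous
  rw [Vale.Agent.P245.H464.ibpL' h.toTF hf (lc_np (Test.lc hf))]
  have : I V (Vale.Agent.P245.H464.Gam t f (fun y => np (f y))) ≤ 0 := by
    unfold I
    refine integral_nonpos fun x => ?_
    have h1 := gam_np h hfc x
    have h2 := (Real.exp_pos (-V x)).le
    exact mul_nonpos_of_nonpos_of_nonneg h1 h2
  linarith

theorem tend_toLp (hV : Continuous V) {g : ℕ → E n → ℝ} {w : E n → ℝ}
    (hg : ∀ m, MemLp (g m) 2 (H464.mu V)) (hw : MemLp w 2 (H464.mu V))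
    (h : Tendsto (fun m => I V (fun x => (g m x - w x) ^ 2)) atTop (𝓝 0)) :
    Tendsto (fun m => (hg m).toLp (g m)) atTop (𝓝 (hw.toLp w)) := by
  rw [tendsto_iff_norm_sub_tendsto_zero]
  have h1 : ∀ m, ‖(hg m).toLp (g m) - hw.toLp w‖ = Real.sqrt (I V (fun x => (g m x - w x) ^ 2)) := by
    intro m
    have h2 := H464.normsq_toLp hV ((hg m).sub hw)
    rw [MemLp.toLp_sub] at h2
    have h3 : I V (fun x => (g m - w) x ^ 2) = I V (fun x => (g m x - w x) ^ 2) := rfl
    rw [← h3, ← h2, Real.sqrt_sq (norm_nonneg _)]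
  simp only [h1]
  have := h.sqrt
  rwa [Real.sqrt_zero] at this

/-- **OP-4** -/
theorem op4 : StmtPos := by
  intro n V t c C h s hs u Au Du hd hpos
  obtain ⟨f, hf⟩ := hd
  have hV : Continuous V := h.V2.continuous
  have mf : ∀ m, MemLp (f m) 2 (H464.mu V) := fun m =>
    H464.memLp_ci hV (CI.of_lc (Test.lc (hf.test m)))
  have mL : ∀ m, MemLp (fun x => -(H464.Lt t (f m) x)) 2 (H464.mu V) := fun m =>
    (H464.memLp_ci hV (CI.of_lc (H464.lc_Lt h.toTF (hf.test m)))).neg
  have mN : ∀ m, MemLp (fun x => np (f m x)) 2 (H464.mu V) := fun m =>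
    H464.memLp_ci hV (CI.of_lc (lc_np (Test.lc (hf.test m))))
  have mu' : MemLp u 2 (H464.mu V) := (H464.memLp_iff hV hf.mu.aestronglyMeasurable).2 hf.iu
  have mA : MemLp Au 2 (H464.mu V) := (H464.memLp_iff hV hf.mA.aestronglyMeasurable).2 hf.iA
  have mNu : MemLp (fun x => np (u x)) 2 (H464.mu V) :=
    mu'.of_le (continuous_np.measurable.comp hf.mu).aestronglyMeasurable
      (Eventually.of_forall fun x => by
        rw [Real.norm_eq_abs, Real.norm_eq_abs]; exact np_abs _)
  have tf := tend_toLp hV mf mu' hf.lu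
  have tL := tend_toLp hV mL mA hf.lA
  have tN : Tendsto (fun m => (mN m).toLp (fun x => np (f m x))) atTop
      (𝓝 (mNu.toLp (fun x => np (u x)))) := by
    refine tend_toLp hV mN mNu (squeeze_zero (fun m => ?_) (fun m => ?_) hf.lu)
    · unfold I
      exact integral_nonneg fun x => by positivity
    · unfold I
      have i1 : Integrable (fun x => (f m x - u x) ^ 2 * Real.exp (-V x)) := by
        have := ((mf m).sub mu').integrable_sq
        exact (H464.integrable_mu hV _).1 this
      have i2 : Integrable (fun x => (np (f m x) - np (u x)) ^ 2 * Real.exp (-V x)) := by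
        have := ((mN m).sub mNu).integrable_sq
        exact (H464.integrable_mu hV _).1 this
      refine integral_mono i2 i1 fun x => ?_
      refine mul_le_mul_of_nonneg_right ?_ (Real.exp_pos _).le
      exact sq_le_sq.2 (np_lip _ _)
  -- the inequality for test functions
  have key : ∀ m, inner ℝ ((mf m).toLp (f m) + s • (mL m).toLp (fun x => -(H464.Lt t (f m) x)))
      ((mN m).toLp (fun x => np (f m x))) ≤
        - ‖(mN m).toLp (fun x => np (f m x))‖ ^ 2 := by
    intro m
    rw [inner_add_left, real_inner_smul_left, H464.inner_toLp hV, H464.inner_toLp hV,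
      H464.normsq_toLp hV]
    have h1 := test_ineq h (hf.test m)
    have e1 : ∫ x, f m x * np (f m x) * Real.exp (-V x) = - I V (fun x => np (f m x) ^ 2) := by
      unfold I
      rw [← integral_neg]
      refine integral_congr_ae (Eventually.of_forall fun x => ?_)
      simp only
      rw [mul_np]
      ring
    have e2 : ∫ x, -(H464.Lt t (f m) x) * np (f m x) * Real.exp (-V x) =
        - I V (fun x => H464.Lt t (f m) x * np (f m x)) := by
      unfold I
      rw [← integral_neg]
      refine integral_congr_ae (Eventually.of_forall fun x => ?_)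
      simp only
      ring
    rw [e1, e2]
    have h2 : 0 ≤ s * I V (fun x => H464.Lt t (f m) x * np (f m x)) := mul_nonneg hs.le h1
    linarith
  have l1 : Tendsto (fun m => inner ℝ ((mf m).toLp (f m)
      + s • (mL m).toLp (fun x => -(H464.Lt t (f m) x))) ((mN m).toLp (fun x => np (f m x))))
      atTop (𝓝 (inner ℝ (mu'.toLp u + s • mA.toLp Au) (mNu.toLp (fun x => np (u x))))) :=
    (tf.add (tL.const_smul s)).inner tN
  have l2 : Tendsto (fun m => - ‖(mN m).toLp (fun x => np (f m x))‖ ^ 2) atTop
      (𝓝 (- ‖mNu.toLp (fun x => np (u x))‖ ^ 2)) := (tN.norm.pow 2).neg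
  have h3 := le_of_tendsto_of_tendsto' l1 l2 key
  rw [inner_add_left, real_inner_smul_left, H464.inner_toLp hV, H464.inner_toLp hV,
    H464.normsq_toLp hV] at h3
  have i1 : Integrable (fun x => u x * np (u x) * Real.exp (-V x)) :=
    (H464.integrable_mu hV _).1 (mu'.integrable_mul mNu)
  have i2 : Integrable (fun x => Au x * np (u x) * Real.exp (-V x)) :=
    (H464.integrable_mu hV _).1 (mA.integrable_mul mNu)
  have h4 : 0 ≤ (∫ x, u x * np (u x) * Real.exp (-V x))
      + s * ∫ x, Au x * np (u x) * Real.exp (-V x) := by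
    rw [← integral_const_mul, ← integral_add i1 (i2.const_mul s)]
    refine integral_nonneg_of_ae ?_
    filter_upwards [hpos] with x hx
    have := mul_nonneg (mul_nonneg hx (np_nonneg (u x))) (Real.exp_pos (-V x)).le
    simp only [Pi.zero_apply]
    linarith
  have h5 : I V (fun x => np (u x) ^ 2) = 0 := by
    refine le_antisymm (by linarith) ?_
    unfold I
    exact integral_nonneg fun x => by positivity
  have i3 : Integrable (fun x => np (u x) ^ 2 * Real.exp (-V x)) :=
    (H464.integrable_mu hV _).1 mNu.integrable_sq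
  have h6 : (fun x => np (u x) ^ 2 * Real.exp (-V x)) =ᵐ[volume] 0 :=
    (integral_eq_zero_iff_of_nonneg (fun x => by positivity) i3).1 h5
  filter_upwards [h6] with x hx
  simp only [Pi.zero_apply] at hx
  have h7 : np (u x) ^ 2 = 0 := by
    rcases mul_eq_zero.1 hx with h | h
    · exact h
    · exact absurd h (Real.exp_pos _).ne'
  have h8 : np (u x) = 0 := by
    exact pow_eq_zero_iff (two_ne_zero) |>.1 h7
  unfold np at h8
  have := le_max_left (-u x) 0
  rw [h8] at this
  linarith

end Vale.Agent.P245.K2.Op4
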