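import Vale.Agent.P245.K2.Kid
import Vale.Agent.P245.K2.Op4
import Vale.Agent.P245.K.R1S

/-!
# P245, row KATO (helper979), part 1: pointwise facts, bound of the test field, main inequality
-/

set_option linter.all false

open MeasureTheory Filter Topology Set Metric
open scoped NNReal ENNReal ContDiff
open Vale.Agent.P227.M Vale.Agent.P227.M.K814 Vale.Agent.P254 Vale.Agent.P254.SN
open Vale.Agent.P245.H464 (TE Lt)
open Vale.Agent.P245.K Vale.Agent.P245.K2.Br Vale.Agent.P245.K2.KID

namespace Vale.Agent.P245.K2.KatoN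

open Vale.Agent.P245.K2.Op4 (np np_nonneg np_zero np_lip np_abs continuous_np lc_np pd_np_pos pd_np_neg)

variable {n : ℕ} {V : E n → ℝ} {t : E n → Matrix (Fin n) (Fin n) ℝ} {c C : ℝ}

/-! ### pointwise -/

section pt
variable {d : ℝ} {x : E n} (hd : 0 < d) (hT : (t x).PosDef)
include hd hT

/-- the regularised norm is a contraction -/
theorem nrm_diff (U u : E n → Fin n → ℝ) :
    (nrm t d U x - nrm t d u x) ^ 2 ≤
      ip t (fun y a => U y a + (-1) * u y a) (fun y a => U y a + (-1) * u y a) x := by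
  have h1 := nrm_sq hd hT (u := U)
  have h2 := nrm_sq hd hT (u := u)
  have p1 := nrm_pos hd hT (u := U)
  have p2 := nrm_pos hd hT (u := u)
  have cs := K.ip_cs hT U u
  have nU := K.ip_nonneg hT U
  have nu := K.ip_nonneg hT u
  have e1 : ip t (fun y a => U y a + (-1) * u y a) (fun y a => U y a + (-1) * u y a) x =
      ip t U U x - 2 * ip t U u x + ip t u u x := by
    rw [ip_eq, ip_eq, ip_eq, ip_eq]
    rw [q2_add_right, q2_add_left, q2_add_left, q2_smul_right, q2_smul_right, q2_smul_left,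
      q2_smul_left, q2_symm (t x) hT.posSemidef (u x) (U x)]
    ring
  rw [e1]
  obtain ⟨A, hA⟩ : ∃ A, A = nrm t d U x := ⟨_, rfl⟩
  obtain ⟨B, hB⟩ : ∃ B, B = nrm t d u x := ⟨_, rfl⟩
  rw [← hA] at h1 p1 ⊢
  rw [← hB] at h2 p2 ⊢
  have key : ip t U u x + d ^ 2 ≤ A * B := by
    refine le_of_sq_le_sq ?_ (mul_pos p1 p2).le
    rw [mul_pow, h1, h2]
    have hd2 : 0 ≤ d ^ 2 := sq_nonneg d
    have h3 : 2 * ip t U u x ≤ ip t U U x + ip t u u x := by
      have := K.ip_nonneg hT (fun y a => U y a + (-1) * u y a)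
      rw [e1] at this
      linarith
    nlinarith [mul_le_mul_of_nonneg_left h3 hd2]
  nlinarith

theorem ip_test_le (γ u : E n → Fin n → ℝ) {w : E n → ℝ} (hw0 : 0 ≤ w x) :
    ip t γ (fun y a => w y / nrm t d u y * u y a) x ≤ nt t γ x * w x := by
  have e1 : ip t γ (fun y a => w y / nrm t d u y * u y a) x = w x / nrm t d u x * ip t γ u x := by
    rw [ip_eq, q2_smul_right, ← ip_eq]
  rw [e1]
  have p2 := nrm_pos hd hT (u := u)
  have cs := K.ip_cs hT γ u
  have h1 : ip t γ u x ≤ nt t γ x * nrm t d u x := by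
    have n1 : 0 ≤ nt t γ x := Real.sqrt_nonneg _
    refine le_of_sq_le_sq ?_ (mul_nonneg n1 p2.le)
    rw [mul_pow]
    have h2 : nt t γ x ^ 2 = ip t γ γ x := Real.sq_sqrt (K.ip_nonneg hT γ)
    rw [h2]
    exact cs.trans (mul_le_mul_of_nonneg_left (ip_le_nrm_sq hd hT) (K.ip_nonneg hT γ))
  have h3 : 0 ≤ w x / nrm t d u x := div_nonneg hw0 p2.le
  refine (mul_le_mul_of_nonneg_left h1 h3).trans (le_of_eq ?_)
  field_simp

theorem ip_test_self (u : E n → Fin n → ℝ) (w : E n → ℝ) :
    ip t u (fun y a => w y / nrm t d u y * u y a) x = w x * ip t u u x / nrm t d u x := by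
  rw [ip_eq, q2_smul_right, ← ip_eq]
  ring

theorem ip_test_test {F : ℝ} (u : E n → Fin n → ℝ) {w : E n → ℝ} (hw0 : 0 ≤ w x)
    (hw1 : w x ≤ F * nrm t d u x) :
    ip t (fun y a => w y / nrm t d u y * u y a) (fun y a => w y / nrm t d u y * u y a) x ≤
      F ^ 2 * ip t u u x := by
  rw [ip_eq, q2_smul_right, q2_smul_left, ← ip_eq, ← mul_assoc]
  have p2 := nrm_pos hd hT (u := u)
  have h3 : 0 ≤ w x / nrm t d u x := div_nonneg hw0 p2.le
  have h4 : w x / nrm t d u x ≤ F := by rw [div_le_iff₀ p2]; exact hw1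
  refine mul_le_mul_of_nonneg_right ?_ (K.ip_nonneg hT u)
  nlinarith

variable {u : E n → Fin n → ℝ} (hs : ∀ y i j, t y i j = t y j i) (ht : Dt1 t x) (hu : Du1 u x)
include hs ht hu

theorem Dip_test_boundF {F : ℝ} (hF : 0 ≤ F) {w : E n → ℝ} (hw : DifferentiableAt ℝ w x) (hw0 : 0 ≤ w x)
    (hw1 : w x ≤ F * nrm t d u x) :
    Dip t (fun y a => w y / nrm t d u y * u y a) (fun y a => w y / nrm t d u y * u y a) x ≤
      2 * Gam t w w x + 2 * F ^ 2 * Dip t u u x := by
  obtain ⟨r, hr⟩ : ∃ r, r = nrm t d u x := ⟨_, rfl⟩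
  have h3 : 0 < r := by rw [hr]; exact nrm_pos hd hT (u := u)
  have h1 : (fun k a => DD t (fun y b => w y / nrm t d u y * u y b) k a x) =
      fun k a => (r⁻¹ * pd k w x) * u x a + (w x / r) * (DD t u k a x +
        (-r⁻¹ * pd k (nrm t d u) x) * u x a) := by
    funext k a
    rw [DD_smul (dif_div hd hT hs ht hu hw) hu k a, pd_div hd hT hs ht hu hw, ← hr]
    ring
  rw [Dip_eq, h1]
  refine (Q2_add_le (t x) hT.posSemidef _ _).trans ?_
  have h5 : ip t u u x ≤ r ^ 2 := by rw [hr]; exact ip_le_nrm_sq hd hT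
  have hip := K.ip_nonneg hT u
  have hg := Gam_nonneg hT w
  have hgr := Gam_nonneg hT (nrm t d u)
  have h6 : Q2 (t x) (fun k a => (r⁻¹ * pd k w x) * u x a) (fun k a => (r⁻¹ * pd k w x) * u x a) ≤
      Gam t w w x := by
    rw [Q2_tens_tens, q2_smul_left, q2_smul_right, ← Gam_eq, ← ip_eq]
    have e1 : r⁻¹ * (r⁻¹ * Gam t w w x) * ip t u u x = Gam t w w x * (ip t u u x / r ^ 2) := by
      field_simp
    rw [e1]
    refine mul_le_of_le_one_right hg ?_
    rw [div_le_one (by positivity)]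
    exact h5
  have h7 : Q2 (t x) (fun k a => DD t u k a x + (-r⁻¹ * pd k (nrm t d u) x) * u x a)
      (fun k a => DD t u k a x + (-r⁻¹ * pd k (nrm t d u) x) * u x a) ≤ Dip t u u x := by
    have h2 : (fun k => q2 (t x) (fun a => DD t u k a x) (u x)) =
        fun k => r * pd k (nrm t d u) x := by
      funext k
      rw [hr]
      exact (pd_nrm hd hT hs ht hu k).symm
    rw [Q2_add_right, Q2_add_left, Q2_add_left, Q2_tens_tens,
      Q2_symm (t x) hT.posSemidef (fun k a => (-r⁻¹ * pd k (nrm t d u) x) * u x a), Q2_tens, h2,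
      q2_smul_left, q2_smul_right, q2_smul_left, q2_smul_right, ← Gam_eq, ← ip_eq, ← Dip_eq]
    have e1 : r * (-r⁻¹ * Gam t (nrm t d u) (nrm t d u) x) = - Gam t (nrm t d u) (nrm t d u) x := by
      field_simp
    have e2 : -r⁻¹ * (-r⁻¹ * Gam t (nrm t d u) (nrm t d u) x) * ip t u u x =
        Gam t (nrm t d u) (nrm t d u) x * (ip t u u x / r ^ 2) := by
      field_simp
    rw [e1, e2]
    have e3 : Gam t (nrm t d u) (nrm t d u) x * (ip t u u x / r ^ 2) ≤
        Gam t (nrm t d u) (nrm t d u) x :=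
      mul_le_of_le_one_right hgr (by rw [div_le_one (by positivity)]; exact h5)
    linarith
  have h8 : Q2 (t x) (fun k a => (w x / r) * (DD t u k a x + (-r⁻¹ * pd k (nrm t d u) x) * u x a))
      (fun k a => (w x / r) * (DD t u k a x + (-r⁻¹ * pd k (nrm t d u) x) * u x a)) ≤
      F ^ 2 * Dip t u u x := by
    rw [Q2_smul_left, Q2_smul_right, ← mul_assoc]
    have e1 : 0 ≤ w x / r := div_nonneg hw0 h3.le
    have e2 : w x / r ≤ F := by rw [div_le_iff₀ h3, hr]; exact hw1
    have e3 : w x / r * (w x / r) ≤ F ^ 2 := by nlinarith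
    have e4 := Dip_nonneg hT u
    have e5 := Q2_nonneg (t x) hT.posSemidef (fun k a => DD t u k a x +
      (-r⁻¹ * pd k (nrm t d u) x) * u x a)
    calc _ ≤ F ^ 2 * Q2 (t x) (fun k a => DD t u k a x + (-r⁻¹ * pd k (nrm t d u) x) * u x a)
          (fun k a => DD t u k a x + (-r⁻¹ * pd k (nrm t d u) x) * u x a) :=
          mul_le_mul_of_nonneg_right e3 e5
      _ ≤ _ := mul_le_mul_of_nonneg_left h7 (sq_nonneg F)
  linarith

end pt

/-- the cut-off function `w = (|u|_d - d - f)^+` -/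
noncomputable def ww (t : E n → Matrix (Fin n) (Fin n) ℝ) (d : ℝ) (u : E n → Fin n → ℝ) (f : E n → ℝ)
    (x : E n) : ℝ := np (f x + (d - nrm t d u x))

theorem ww_nonneg (d : ℝ) (u : E n → Fin n → ℝ) (f : E n → ℝ) (x : E n) : 0 ≤ ww t d u f x :=
  np_nonneg _

theorem mul_ww {a r : ℝ} : r * np (a + r) = -(np (a + r) ^ 2) - a * np (a + r) := by
  have := Op4.mul_np (a + r)
  linarith [this]

theorem ww_le (d : ℝ) (hd : 0 < d) {x : E n} (hT : (t x).PosDef) (u : E n → Fin n → ℝ) (f : E n → ℝ) {M : ℝ}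
    (hM : |f x| ≤ M) : ww t d u f x ≤ (1 + M / d) * nrm t d u x := by
  have h1 := e_le_nrm hd hT (u := u)
  have h2 := abs_le.1 hM
  have h0 : 0 ≤ M := (abs_nonneg _).trans hM
  have h3 : M ≤ M / d * nrm t d u x := by
    rw [div_mul_eq_mul_div, le_div_iff₀ hd]
    exact mul_le_mul_of_nonneg_left h1 h0
  have h4 : 0 ≤ nrm t d u x := (hd.le).trans h1
  unfold ww np
  refine max_le ?_ ?_
  · rw [add_mul, one_mul]
    linarith
  · positivity

section
variable (h : Base V t c C) {u : E n → Fin n → ℝ} (hu : LCF u) {d : ℝ} (hd : 0 < d)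
include h hu hd

/-- `d - |u|_d` is Lipschitz with compact support -/
theorem lc_dn : LC (fun x => d - nrm t d u x) := by
  refine ⟨(ll_const d).sub (ll_nrm h hu hd), ?_⟩
  have h1 : HasCompactSupport (ip t u u) := by
    have : ∀ a b, HasCompactSupport (fun x => t x a b * u x a * u x b) := fun a b => (hu b).2.mul_left
    have h2 : ip t u u = fun x => ∑ a, ∑ b, t x a b * u x a * u x b := rfl
    rw [h2]
    exact (LC.sum _ fun a _ => LC.sum _ fun b _ => LC.mul_left
      (ll_mul (tll h.toTE.toTB.toTF a b) (hu a).1) (hu b)).2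
  refine h1.mono' fun x hx => subset_closure fun h0 => hx ?_
  show d - Real.sqrt (ip t u u x + d ^ 2) = 0
  rw [h0, zero_add, Real.sqrt_sq hd.le, sub_self]

theorem lc_ww {f : E n → ℝ} (hf : LC f) : LC (ww t d u f) := lc_np (LC.add hf (lc_dn h hu hd))

end

/-! ### integrals -/

/-- the pointwise density of the covariant form, in the flat form (compactly supported, integrable) -/
noncomputable def XX (V : E n → ℝ) (t : E n → Matrix (Fin n) (Fin n) ℝ) (al be : E n → Fin n → ℝ) (x : E n) : ℝ :=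
  ee t al be x + 1 / 2 * ∑ a, ∑ i, sden V t (fun y => al y a * be y i) a i x

section
variable (h : Base V t c C)
include h

theorem ci_XX {al be : E n → Fin n → ℝ} (ha : LCF al) (hb : LCF be) : CI (XX V t al be) :=
  CI.add (ci_ee h ha hb) (CI.mul_left (Bd.of_cont continuous_const)
    (CI.sum _ fun a _ => CI.sum _ fun i _ => ci_sden h.toTE.toTB.toTF (LC.mul_left (ha a).1 (hb i)) a i))

theorem I_XX {al be : E n → Fin n → ℝ} (ha : LCF al) (hb : LCF be) : I V (XX V t al be) = I V (ee t al be) :=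
  I_bridge h ha hb

theorem XX_ae {al be : E n → Fin n → ℝ} (ha : LCF al) (hb : LCF be) :
    ∀ᵐ x, XX V t al be x = Dip t al be x + Ric V t al be x :=
  (bridge_ae h ha hb).mono fun x hx => hx.symm

/-- all pointwise facts at almost every point -/
theorem good_ae {u : E n → Fin n → ℝ} (hu : LCF u) : ∀ᵐ x, Du1 u x ∧ Dt1 t x ∧
    (1 / 2 * ip t u u x ≤ Ric V t u u x) := by
  have hF := h.toTE.toTB.toTF
  have h1 : ∀ᵐ x, Du1 u x := by
    unfold Du1
    rw [ae_all_iff]
    exact fun a => (hu a).ae_diff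
  filter_upwards [h1, tae hF, hF.tot] with x x1 x3 x4
  exact ⟨x1, x3, Ric_ge (V := V) (posd h x) h.symm x4 (hessV_nonneg h x) u⟩

/-- `Γ(w, q) - Γ(f, w) = Γ(w, w)` and `Γ(w,w) ≤ 2 Γ(q,q) + 2 Γ(f,f)` -/
theorem gam_ww {u : E n → Fin n → ℝ} {d : ℝ} (hd : 0 < d) {f : E n → ℝ} {x : E n}
    (hf : DifferentiableAt ℝ f x) (hq : DifferentiableAt ℝ (nrm t d u) x)
    (hc : Continuous (fun x => f x + (d - nrm t d u x))) :
    K.Gam t f (ww t d u f) x ≤ K.Gam t (ww t d u f) (nrm t d u) x ∧
    K.Gam t (ww t d u f) (ww t d u f) x ≤ 2 * K.Gam t (nrm t d u) (nrm t d u) x + 2 * K.Gam t f f x := by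
  have hT := posd h x
  have g0 := Gam_nonneg hT f
  have g1 := Gam_nonneg hT (nrm t d u)
  rcases le_or_gt 0 (f x + (d - nrm t d u x)) with hx | hx
  · have e : ∀ a, pd a (ww t d u f) x = 0 := fun a =>
      pd_np_pos (f := fun x => f x + (d - nrm t d u x)) hx a
    have e1 : K.Gam t f (ww t d u f) x = 0 := by unfold K.Gam; simp [e]
    have e2 : K.Gam t (ww t d u f) (nrm t d u) x = 0 := by unfold K.Gam; simp [e]
    have e3 : K.Gam t (ww t d u f) (ww t d u f) x = 0 := by unfold K.Gam; simp [e]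
    rw [e1, e2, e3]
    exact ⟨le_rfl, by linarith⟩
  · have e : ∀ a, pd a (ww t d u f) x = pd a (nrm t d u) x + (-1) * pd a f x := by
      intro a
      have e0 := pd_np_neg (f := fun x => f x + (d - nrm t d u x)) hc hx a
      have e1 : pd a (fun x => f x + (d - nrm t d u x)) x = pd a f x - pd a (nrm t d u) x := by
        unfold pd
        have : HasFDerivAt (fun x => f x + (d - nrm t d u x)) (fderiv ℝ f x + (0 - fderiv ℝ (nrm t d u) x)) x :=
          hf.hasFDerivAt.add ((hasFDerivAt_const d x).sub hq.hasFDerivAt)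
        rw [this.fderiv]
        simp
        ring
      show pd a (fun y => np (f y + (d - nrm t d u y))) x = _
      rw [e0, e1]; ring
    have e' : (fun a => pd a (ww t d u f) x) = fun a => pd a (nrm t d u) x + (-1) * pd a f x := funext e
    have s1 := q2_symm (t x) hT.posSemidef (fun a => pd a f x) (fun a => pd a (nrm t d u) x)
    have k1 := q2_nonneg (t x) hT.posSemidef (fun a => pd a (nrm t d u) x + (-1) * pd a f x)
    have k2 := q2_nonneg (t x) hT.posSemidef (fun a => pd a (nrm t d u) x + (1) * pd a f x)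
    have r1 : K.Gam t f (ww t d u f) x = q2 (t x) (fun a => pd a f x) (fun a => pd a (nrm t d u) x + (-1) * pd a f x) := by
      rw [Gam_eq, e']
    have r2 : K.Gam t (ww t d u f) (nrm t d u) x =
        q2 (t x) (fun a => pd a (nrm t d u) x + (-1) * pd a f x) (fun a => pd a (nrm t d u) x) := by
      rw [Gam_eq, e']
    have r3 : K.Gam t (ww t d u f) (ww t d u f) x =
        q2 (t x) (fun a => pd a (nrm t d u) x + (-1) * pd a f x) (fun a => pd a (nrm t d u) x + (-1) * pd a f x) := by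
      rw [Gam_eq, e']
    rw [r1, r2, r3, Gam_eq, Gam_eq]
    simp only [q2_add_right, q2_add_left, q2_smul_right, q2_smul_left] at k1 k2 ⊢
    rw [s1] at k1 k2 ⊢
    constructor <;> linarith

theorem Gam_eq' (f g : E n → ℝ) : K.Gam t f g = H464.Gam t f g := rfl

theorem cmulI (r : ℝ) (f : E n → ℝ) : I V (fun x => r * f x) = r * I V f := Q895.I_const_mul' _ _

/-- **bound of the test field** -/
theorem NN_test {u : E n → Fin n → ℝ} (hu : LCF u) {d : ℝ} (hd : 0 < d) {f : E n → ℝ} (hf : LC f) {M s : ℝ}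
    (hM : ∀ x, |f x| ≤ M) (hs : 0 ≤ s) :
    NN V t s (fun y a => ww t d u f y / nrm t d u y * u y a) (fun y a => ww t d u f y / nrm t d u y * u y a) ≤
      (2 * (1 + M / d) ^ 2 + 4) * NN V t s u u + 4 * s * I V (K.Gam t f f) := by
  have hV := contV h
  have M0 : 0 ≤ M := (abs_nonneg _).trans (hM 0)
  obtain ⟨F, hF⟩ : ∃ F, F = 1 + M / d := ⟨_, rfl⟩
  have F0 : 0 ≤ F := by rw [hF]; positivity
  have hw := lc_ww h hu hd hf
  obtain ⟨w, hwd⟩ : ∃ w, w = ww t d u f := ⟨_, rfl⟩
  rw [← hwd] at hw ⊢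
  have w0 : ∀ x, 0 ≤ w x := fun x => by rw [hwd]; exact ww_nonneg _ _ _ _
  have w1 : ∀ x, w x ≤ F * nrm t d u x := fun x => by
    rw [hwd, hF]; exact ww_le d hd (posd h x) u f (hM x)
  have hb : LCF (fun y a => w y / nrm t d u y * u y a) := lcf_test h hu hd hw
  obtain ⟨β, hβ⟩ : ∃ β : E n → Fin n → ℝ, β = fun y a => w y / nrm t d u y * u y a := ⟨_, rfl⟩
  rw [← hβ] at hb ⊢
  have hqd := ll_nrm h hu hd
  have cGw : CI (K.Gam t w w) := ci_gam h hw hw.1
  have cGf : CI (K.Gam t f f) := ci_gam h hf hf.1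
  have cXu := ci_XX h hu hu
  have cXb := ci_XX h hb hb
  -- Gamma
  have i1 : I V (K.Gam t w w) ≤ 2 * I V (ee t u u) + 2 * I V (K.Gam t f f) := by
    rw [← I_XX h hu hu, ← cmulI h 2 (XX V t u u), ← cmulI h 2 (K.Gam t f f),
      ← I_add hV (CI.mul_left (Bd.of_cont continuous_const) cXu) (CI.mul_left (Bd.of_cont continuous_const) cGf)]
    refine I_mono hV cGw (CI.add (CI.mul_left (Bd.of_cont continuous_const) cXu)
      (CI.mul_left (Bd.of_cont continuous_const) cGf)) ?_
    filter_upwards [good_ae h hu, XX_ae h hu hu, hf.ae_diff] with x x1 x2 x3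
    have hT := posd h x
    have k := gam_ww h (u := u) hd x3 (dif_nrm hd hT x1.2.1 x1.1)
      (hf.1.continuous.add (continuous_const.sub hqd.continuous))
    have k2 := kato' hd hT h.symm x1.2.1 x1.1
    have k3 := x1.2.2
    have k4 := K.ip_nonneg hT u
    rw [hwd, x2]
    linarith [k.2]
  have i2 : I V (ee t β β) ≤ 2 * I V (K.Gam t w w) + 2 * F ^ 2 * I V (ee t u u) := by
    rw [← I_XX h hu hu, ← I_XX h hb hb, ← cmulI h (2 * F ^ 2) (XX V t u u), ← cmulI h 2 (K.Gam t w w),
      ← I_add hV (CI.mul_left (Bd.of_cont continuous_const) cGw) (CI.mul_left (Bd.of_cont continuous_const) cXu)]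
    refine I_mono hV cXb (CI.add (CI.mul_left (Bd.of_cont continuous_const) cGw)
      (CI.mul_left (Bd.of_cont continuous_const) cXu)) ?_
    filter_upwards [good_ae h hu, XX_ae h hu hu, XX_ae h hb hb, hw.ae_diff] with x x1 x2 x3 x4
    have hT := posd h x
    have k := Dip_test_boundF hd hT h.symm x1.2.1 x1.1 F0 x4 (w0 x) (w1 x)
    have k3 := x1.2.2
    have k4 := K.ip_nonneg hT u
    have r1 : Ric V t β β x = (w x / nrm t d u x) * ((w x / nrm t d u x) * Ric V t u u x) := by
      rw [hβ]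
      have e1 : Ric V t (fun y a => w y / nrm t d u y * u y a) (fun y a => w y / nrm t d u y * u y a) x =
          w x / nrm t d u x * Ric V t (fun y a => w y / nrm t d u y * u y a) u x :=
        Ric_smul x (fun x => w x / nrm t d u x) _ u
      have e2 : Ric V t (fun y a => w y / nrm t d u y * u y a) u x = w x / nrm t d u x * Ric V t u u x := by
        unfold Ric
        rw [Finset.mul_sum]
        refine Finset.sum_congr rfl fun a _ => ?_
        rw [Finset.mul_sum]
        exact Finset.sum_congr rfl fun b _ => by ring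
      rw [e1, e2]
    have p2 := nrm_pos hd hT (u := u)
    have h3 : 0 ≤ w x / nrm t d u x := div_nonneg (w0 x) p2.le
    have h4 : w x / nrm t d u x ≤ F := by rw [div_le_iff₀ p2]; exact w1 x
    have h5 : Ric V t β β x ≤ F ^ 2 * Ric V t u u x := by
      rw [r1, ← mul_assoc]
      refine mul_le_mul_of_nonneg_right ?_ (by linarith)
      nlinarith
    have h6 : 0 ≤ F ^ 2 * Ric V t u u x := mul_nonneg (sq_nonneg _) (by linarith)
    rw [← hβ] at k
    rw [x2, x3]
    linarith
  have i3 : I V (ip t β β) ≤ F ^ 2 * I V (ip t u u) := by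
    rw [← cmulI h]
    refine I_mono hV (ci_ip h hb hb) (CI.mul_left (Bd.of_cont continuous_const) (ci_ip h hu hu))
      (Eventually.of_forall fun x => ?_)
    rw [hβ]
    exact ip_test_test hd (posd h x) u (w0 x) (w1 x)
  have j1 : 0 ≤ I V (ip t u u) := integral_nonneg fun x =>
    mul_nonneg (K.ip_nonneg (posd h x) u) (Real.exp_pos _).le
  rw [← hF]
  unfold NN
  have i4 := mul_le_mul_of_nonneg_left (i2.trans (add_le_add (mul_le_mul_of_nonneg_left i1 (by norm_num : (0:ℝ) ≤ 2)) le_rfl)) hs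
  have F2 : 0 ≤ F ^ 2 := sq_nonneg F
  have j2 : 0 ≤ F ^ 2 * I V (ip t u u) := mul_nonneg F2 j1
  nlinarith

/-- linear bound of integrals -/
theorem I_le3 {f a b e : E n → ℝ} (p q : ℝ) (hf : Integrable (fun x => f x * Real.exp (-V x)))
    (ha : Integrable (fun x => a x * Real.exp (-V x))) (hb : Integrable (fun x => b x * Real.exp (-V x)))
    (he : Integrable (fun x => e x * Real.exp (-V x))) (hle : ∀ x, f x ≤ a x + p * b x + q * e x) :
    I V f ≤ I V a + p * I V b + q * I V e := by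
  have i1 : Integrable (fun x => (a x + p * b x) * Real.exp (-V x)) := by
    refine (ha.add (hb.const_mul p)).congr (Eventually.of_forall fun x => ?_)
    simp only [Pi.add_apply]; ring
  have i2 : Integrable (fun x => (a x + p * b x + q * e x) * Real.exp (-V x)) := by
    refine (i1.add (he.const_mul q)).congr (Eventually.of_forall fun x => ?_)
    simp only [Pi.add_apply]; ring
  have e1 : I V (fun x => a x + p * b x) = 1 * I V a + p * I V b :=
    R1S.I_lin 1 p ha hb (Eventually.of_forall fun x => by ring)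
  have e2 : I V (fun x => a x + p * b x + q * e x) = 1 * I V (fun x => a x + p * b x) + q * I V e :=
    R1S.I_lin 1 q i1 he (Eventually.of_forall fun x => by ring)
  have e3 : I V f ≤ I V (fun x => a x + p * b x + q * e x) :=
    integral_mono hf i2 fun x => mul_le_mul_of_nonneg_right (hle x) (Real.exp_pos _).le
  linarith

/-- **main inequality** for a near-minimiser `u` and a test function `f`, `g = (1 + s/2) f - s L f` -/
theorem main_ineq {γ u : E n → Fin n → ℝ} (hγ : ∀ a, K.L2 V (fun x => γ x a)) (hu : LCF u) {d : ℝ} (hd : 0 < d)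
    {f : E n → ℝ} (hf : Test f) {s ε : ℝ} (hs : 0 < s)
    (hN : |NN V t s u (fun y a => ww t d u f y / nrm t d u y * u y a) -
      I V (ip t γ (fun y a => ww t d u f y / nrm t d u y * u y a))| ≤
      ε * Real.sqrt (NN V t s (fun y a => ww t d u f y / nrm t d u y * u y a)
        (fun y a => ww t d u f y / nrm t d u y * u y a))) :
    I V (fun x => ww t d u f x ^ 2) ≤
      I V (fun x => (nt t γ x - ((1 + s / 2) * f x - s * Lt t f x)) ^ 2) +
      2 * (ε * Real.sqrt (NN V t s (fun y a => ww t d u f y / nrm t d u y * u y a)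
        (fun y a => ww t d u f y / nrm t d u y * u y a))) := by
  have hV := contV h
  have hfl : LC f := Test.lc hf
  have hw := lc_ww h hu hd hfl
  have hkid := kid n V t c C h u hu _ hw (ww_nonneg d u f) d hd
  obtain ⟨w, hwd⟩ : ∃ w, w = ww t d u f := ⟨_, rfl⟩
  rw [← hwd] at hw hN hkid ⊢
  have w0 : ∀ x, 0 ≤ w x := fun x => by rw [hwd]; exact ww_nonneg _ _ _ _
  have hb : LCF (fun y a => w y / nrm t d u y * u y a) := lcf_test h hu hd hw
  obtain ⟨β, hβ⟩ : ∃ β : E n → Fin n → ℝ, β = fun y a => w y / nrm t d u y * u y a := ⟨_, rfl⟩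
  rw [← hβ] at hb hN hkid ⊢
  obtain ⟨e, he⟩ : ∃ e, e = ε * Real.sqrt (NN V t s β β) := ⟨_, rfl⟩
  rw [← he] at hN ⊢
  have hqd := ll_nrm h hu hd
  have hni := ll_nrm_inv h hu hd
  have hLf : LC (Lt t f) := H464.lc_Lt h.toTF hf
  have cL : CI (fun x => Lt t f x * w x) := CI.mul_right (CI.of_lc hLf) (Bd.of_ll hw.1)
  have cfw : CI (fun x => f x * w x) := CI.mul_right (CI.of_lc hfl) (Bd.of_ll hw.1)
  have cw2 : CI (fun x => w x ^ 2) := by
    have := CI.mul_right (CI.of_lc hw) (Bd.of_ll hw.1)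
    simpa only [sq] using this
  have c2 : CI (fun x => w x * ip t u u x / nrm t d u x) := by
    simp only [div_eq_mul_inv]
    exact CI.mul_right (CI.mul_left (Bd.of_ll hw.1) (ci_ip h hu hu)) (Bd.of_ll hni)
  have cG1 : CI (K.Gam t w (nrm t d u)) := ci_gam h hw hqd
  have cG2 : CI (K.Gam t f w) := ci_gam h hfl hw.1
  -- (1) energy identity
  have a1 := H464.ibpL' h.toTF hf hw
  rw [← Gam_eq' h] at a1
  -- (2) Gam comparison
  have a2 : I V (K.Gam t f w) ≤ I V (K.Gam t w (nrm t d u)) := by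
    refine I_mono hV cG2 cG1 ?_
    filter_upwards [good_ae h hu, hfl.ae_diff] with x x1 x3
    have hT := posd h x
    have k := gam_ww h (u := u) hd x3 (dif_nrm hd hT x1.2.1 x1.1)
      (hfl.1.continuous.add (continuous_const.sub hqd.continuous))
    rw [hwd]
    exact k.1
  -- (3) pointwise
  have a3 : I V (fun x => w x ^ 2) + I V (fun x => f x * w x) ≤
      I V (fun x => w x * ip t u u x / nrm t d u x) := by
    rw [← I_add hV cw2 cfw]
    refine I_mono hV (CI.add cw2 cfw) c2 (Eventually.of_forall fun x => ?_)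
    have hT := posd h x
    have k1 := ip_div_nrm hd hT (u := u)
    have k2 := mul_le_mul_of_nonneg_left k1 (w0 x)
    have k3 : w x * (f x + (d - nrm t d u x)) = - w x ^ 2 := by
      rw [hwd]
      unfold ww
      rw [mul_comm, Op4.mul_np]
    have k4 : w x * (ip t u u x / nrm t d u x) = w x * ip t u u x / nrm t d u x := by ring
    rw [k4] at k2
    nlinarith
  have a4 : I V (ip t u β) = I V (fun x => w x * ip t u u x / nrm t d u x) := by
    refine I_congr (Eventually.of_forall fun x => ?_)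
    rw [hβ]
    exact ip_test_self hd (posd h x) u w
  -- (4) the source term
  obtain ⟨c1, C1, hR⟩ := h.reg
  have iγ := R1S.int_ip h.toTE hγ hγ
  have hgm : Measurable (nt t γ) := by
    unfold nt ip
    refine Measurable.sqrt ?_
    exact Finset.measurable_fun_sum _ fun a _ => Finset.measurable_fun_sum _ fun b _ =>
      (((tll h.toTE.toTB.toTF a b).continuous.measurable).mul (hγ a).1).mul (hγ b).1
  have hg2 : Integrable (fun x => nt t γ x ^ 2 * Real.exp (-V x)) := by
    refine iγ.congr (Eventually.of_forall fun x => ?_)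
    show ip t γ γ x * Real.exp (-V x) = Real.sqrt (ip t γ γ x) ^ 2 * Real.exp (-V x)
    rw [Real.sq_sqrt (K.ip_nonneg (posd h x) γ)]
  have mg : MemLp (nt t γ) 2 (H464.mu V) := (H464.memLp_iff hV hgm.aestronglyMeasurable).2 hg2
  obtain ⟨g, hg⟩ : ∃ g : E n → ℝ, g = fun x => (1 + s / 2) * f x - s * Lt t f x := ⟨_, rfl⟩
  have hgl : LC g := by
    rw [hg]
    exact LC.sub (LC.mul_left (ll_const _) hfl) (LC.mul_left (ll_const _) hLf)
  have mgl : MemLp g 2 (H464.mu V) := H464.memLp_ci hV (CI.of_lc hgl)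
  have mw : MemLp w 2 (H464.mu V) := H464.memLp_ci hV (CI.of_lc hw)
  have iw2 : Integrable (fun x => w x ^ 2 * Real.exp (-V x)) := cw2.integrable hV
  have inw : Integrable (fun x => (nt t γ x * w x) * Real.exp (-V x)) :=
    (H464.integrable_mu hV _).1 (OP3.int_mul mg mw)
  have igw : Integrable (fun x => (g x * w x) * Real.exp (-V x)) :=
    (H464.integrable_mu hV _).1 (OP3.int_mul mgl mw)
  have idd : Integrable (fun x => (nt t γ x - g x) ^ 2 * Real.exp (-V x)) :=
    (H464.integrable_mu hV _).1 ((mg.sub mgl).integrable_sq)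
  have ipb : Integrable (fun x => ip t γ β x * Real.exp (-V x)) :=
    R1S.int_ip h.toTE hγ fun a => R1S.l2_of_lcf hR hb hV a
  have a5 : I V (ip t γ β) ≤ I V (fun x => nt t γ x * w x) := by
    refine integral_mono ipb inw fun x => mul_le_mul_of_nonneg_right ?_ (Real.exp_pos _).le
    rw [hβ]
    exact ip_test_le hd (posd h x) γ u (w0 x)
  have a6 : I V (fun x => g x * w x) = (1 + s / 2) * I V (fun x => f x * w x) + s * I V (K.Gam t f w) := by
    have e1 : I V (fun x => g x * w x) = (1 + s / 2) * I V (fun x => f x * w x) + (-s) * I V (fun x => Lt t f x * w x) :=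
      R1S.I_lin (1 + s / 2) (-s) (cfw.integrable hV) (cL.integrable hV)
        (Eventually.of_forall fun x => by simp only [hg]; ring)
    rw [e1, a1]; ring
  have a7 : I V (fun x => nt t γ x * w x) ≤ I V (fun x => g x * w x) + 1 / 2 * I V (fun x => w x ^ 2) +
      1 / 2 * I V (fun x => (nt t γ x - g x) ^ 2) := by
    refine I_le3 h (1 / 2) (1 / 2) inw igw iw2 idd fun x => ?_
    nlinarith [sq_nonneg (w x - (nt t γ x - g x))]
  have b1 := (abs_le.1 hN).2
  unfold NN at b1
  rw [a4] at b1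
  have j0 : 0 ≤ I V (fun x => w x ^ 2) := integral_nonneg fun x =>
    mul_nonneg (sq_nonneg _) (Real.exp_pos _).le
  have hg' : (fun x => (nt t γ x - ((1 + s / 2) * f x - s * Lt t f x)) ^ 2) = fun x => (nt t γ x - g x) ^ 2 := by
    rw [hg]
  rw [hg']
  have b2 := mul_le_mul_of_nonneg_left hkid hs.le
  have b3 := mul_le_mul_of_nonneg_left a2 hs.le
  have b4 := mul_le_mul_of_nonneg_left a3 (by positivity : (0 : ℝ) ≤ 1 + s / 2)
  have b5 : 0 ≤ s / 2 * I V (fun x => w x ^ 2) := mul_nonneg (by positivity) j0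
  nlinarith

end

end Vale.Agent.P245.K2.KatoN
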