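import Vale.Agent.P245.K.Iface
import Vale.Agent.P245.H235.Target
import Vale.Agent.P245.H895.QuadC

/-!
P245, KLS: row PLUG, second copy (helper912): `StmtPreg → ∃ C, PoincIso C → kls_final`.
-/

set_option linter.all false

open MeasureTheory Filter Topology Set Metric Matrix
open scoped NNReal ENNReal ContDiff
open Vale.Agent.P227.M Vale.Agent.P254 Vale.Agent.P245 Vale.Agent.P245.Q895

namespace Vale.Agent.P245.K2.Plug

variable {n : ℕ}

/-- the upper bound of a regular potential may be enlarged -/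
theorem reg_mono {V : E n → ℝ} {c C D : ℝ} (h : Reg V c C) (hCD : C ≤ D) : Reg V c D where
  c_pos := h.c_pos
  smooth := h.smooth
  lower := h.lower
  upper := fun x v => (h.upper x v).trans (mul_le_mul_of_nonneg_right hCD (by positivity))
  bdd := h.bdd

/-- every regular potential with barycentre `0` has a moment map frame -/
theorem exists_base {V : E n → ℝ} {c1 C1 : ℝ} (hV : Reg V c1 C1)
    (h0 : ∀ i, Ex V (fun x => x i) = 0) :
    ∃ (t : E n → Matrix (Fin n) (Fin n) ℝ) (c C : ℝ), K.Base V t c C := by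
  have hZ := hV.Z_pos
  have hcen : MC.Centred V := by
    intro i
    have h2 := h0 i
    unfold Ex at h2
    rcases div_eq_zero_iff.1 h2 with h3 | h3
    · exact h3
    · exact absurd h3 hZ.ne'
  have hV' : Reg V c1 (max C1 1) := reg_mono hV (le_max_left _ _)
  obtain ⟨ψ, M, hm⟩ := MC.stmtMMc_of_sc (HL.stmtSC_of_heat SC.stmtHeat) n V c1 (max C1 1) hV' hcen
  have hTE := H464.te_tau hV' hm (lt_of_lt_of_le one_pos (le_max_right _ _))
  exact ⟨tau ψ, _, _, { toTE := hTE, reg := ⟨c1, C1, hV⟩ }⟩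

theorem poincIso_of (h : K.StmtPreg) : ∃ C : ℝ, Norm.PoincIso C := by
  obtain ⟨C₀, hC₀, hP⟩ := h
  refine ⟨C₀, fun n V c1 C1 hV h0 h1 f hf => ?_⟩
  obtain ⟨t, c, C, hB⟩ := exists_base hV h0
  exact hP n V t c C hB ⟨h0, h1⟩ f hf

/-- 847's literal target from `StmtPreg` -/
theorem kls_final_of_preg (h : K.StmtPreg) :
    ∃ C : ℝ, 0 < C ∧ ∀ (n : ℕ) (μ : Measure (EuclideanSpace ℝ (Fin n))) [IsProbabilityMeasure μ],
      HasLogConcaveDensity μ → ∀ (b : Fin n → ℝ) (K : Matrix (Fin n) (Fin n) ℝ),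
      (∀ i, ∫ x, x i ∂μ = b i) → (∀ i j, ∫ x, (x i - b i) * (x j - b j) ∂μ = K i j) →
      ∀ f : EuclideanSpace ℝ (Fin n) → ℝ, ContDiff ℝ ∞ f → HasCompactSupport f →
        (∫ x, f x ^ 2 ∂μ) - (∫ x, f x ∂μ) ^ 2 ≤
          C * ∫ x, ∑ i, ∑ j, K i j * (gradient f x i * gradient f x j) ∂μ :=
  Norm.kls_final_of (poincIso_of h)

end Vale.Agent.P245.K2.Plug
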