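import Vale.Agent.P245.K2.StepAlg

/-!
P245, row STEP (second): the matrix Cauchy-Schwarz step for one resolvent.

`P` is a positive symmetric linear operator on bounded functions, `R` a symmetric linear operator on
bounded covector fields with `|R α| ≤ P |α|`.  If `R (dH) = dG`, `P H ≤ κ G` and `S_H ≤ σ H`,
then `S_G ≤ κ² σ G`.
-/

open MeasureTheory Filter Finset

namespace Vale.Agent.P245.K2.Step

variable {X : Type*} [MeasurableSpace X] {μ : Measure X} {n : ℕ}

/-- bounded measurable functions (almost everywhere) -/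
def BM (μ : Measure X) (f : X → ℝ) : Prop :=
  AEStronglyMeasurable f μ ∧ ∃ C : ℝ, ∀ᵐ x ∂μ, |f x| ≤ C

namespace BM

theorem const (c : ℝ) : BM μ (fun _ => c) :=
  ⟨aestronglyMeasurable_const, |c|, Eventually.of_forall fun _ => le_rfl⟩

theorem congr {f g : X → ℝ} (hf : BM μ f) (h : f =ᵐ[μ] g) : BM μ g := by
  obtain ⟨h1, C, hC⟩ := hf
  refine ⟨h1.congr h, C, ?_⟩
  filter_upwards [hC, h] with x hx hx2
  rw [← hx2]; exact hx

theorem add {f g : X → ℝ} (hf : BM μ f) (hg : BM μ g) : BM μ (fun x => f x + g x) := by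
  obtain ⟨h1, C, hC⟩ := hf
  obtain ⟨h2, D, hD⟩ := hg
  refine ⟨h1.add h2, C + D, ?_⟩
  filter_upwards [hC, hD] with x hx hx2
  exact (abs_add_le _ _).trans (add_le_add hx hx2)

theorem mul {f g : X → ℝ} (hf : BM μ f) (hg : BM μ g) : BM μ (fun x => f x * g x) := by
  obtain ⟨h1, C, hC⟩ := hf
  obtain ⟨h2, D, hD⟩ := hg
  refine ⟨h1.mul h2, C * D, ?_⟩
  filter_upwards [hC, hD] with x hx hx2
  rw [abs_mul]
  exact mul_le_mul hx hx2 (abs_nonneg _) ((abs_nonneg _).trans hx)

theorem sum {ι : Type*} (s : Finset ι) {f : ι → X → ℝ} (hf : ∀ i ∈ s, BM μ (f i)) :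
    BM μ (fun x => ∑ i ∈ s, f i x) := by
  classical
  induction s using Finset.induction_on with
  | empty => simpa using BM.const (μ := μ) 0
  | insert a s ha ih =>
    have h := (hf a (Finset.mem_insert_self a s)).add
      (ih fun i hi => hf i (Finset.mem_insert_of_mem hi))
    simpa [Finset.sum_insert ha] using h

theorem integrable [IsFiniteMeasure μ] {f : X → ℝ} (hf : BM μ f) : Integrable f μ := by
  obtain ⟨h1, C, hC⟩ := hf
  exact Integrable.of_bound h1 C (by filter_upwards [hC] with x hx; rwa [Real.norm_eq_abs])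

theorem inv {f : X → ℝ} (hf : BM μ f) {δ : ℝ} (hδ : 0 < δ) (h : ∀ᵐ x ∂μ, δ ≤ f x) :
    BM μ (fun x => (f x)⁻¹) := by
  obtain ⟨h1, C, hC⟩ := hf
  refine ⟨h1.aemeasurable.inv.aestronglyMeasurable, δ⁻¹, ?_⟩
  filter_upwards [h] with x hx
  rw [abs_of_pos (inv_pos.2 (hδ.trans_le hx))]
  exact inv_anti₀ hδ hx

theorem sqrt {f : X → ℝ} (hf : BM μ f) : BM μ (fun x => Real.sqrt (f x)) := by
  obtain ⟨h1, C, hC⟩ := hf
  refine ⟨(Real.continuous_sqrt.measurable.comp_aemeasurable h1.aemeasurable).aestronglyMeasurable,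
    Real.sqrt C, ?_⟩
  filter_upwards [hC] with x hx
  rw [abs_of_nonneg (Real.sqrt_nonneg _)]
  exact Real.sqrt_le_sqrt ((le_abs_self _).trans hx)

end BM

/-- bounded measurable covector fields -/
def BF (μ : Measure X) (α : X → Fin n → ℝ) : Prop := ∀ a, BM μ (fun x => α x a)

theorem BF.lin {α β : X → Fin n → ℝ} (hα : BF μ α) (hβ : BF μ β) :
    BF μ (fun x a => α x a + β x a) := fun a => (hα a).add (hβ a)

theorem BF.smul {f : X → ℝ} {α : X → Fin n → ℝ} (hf : BM μ f) (hα : BF μ α) :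
    BF μ (fun x a => f x * α x a) := fun a => hf.mul (hα a)

theorem BF.ipt {t : X → Matrix (Fin n) (Fin n) ℝ} (ht : ∀ a b, BM μ (fun x => t x a b))
    {α β : X → Fin n → ℝ} (hα : BF μ α) (hβ : BF μ β) :
    BM μ (fun x => Vale.Agent.P245.K2.Step.ipt (t x) (α x) (β x)) :=
  BM.sum _ fun a _ => BM.sum _ fun b _ => ((ht a b).mul (hα a)).mul (hβ b)

/-- positive symmetric linear operator on bounded functions -/
structure PosOp (μ : Measure X) (P : (X → ℝ) → X → ℝ) (c0 : ℝ) : Prop where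
  mem : ∀ f, BM μ f → BM μ (P f)
  add : ∀ f g, BM μ f → BM μ g → P (fun x => f x + g x) =ᵐ[μ] fun x => P f x + P g x
  smul : ∀ (c : ℝ) f, BM μ f → P (fun x => c * f x) =ᵐ[μ] fun x => c * P f x
  nonneg : ∀ f, BM μ f → (∀ᵐ x ∂μ, 0 ≤ f x) → ∀ᵐ x ∂μ, 0 ≤ P f x
  symm : ∀ f g, BM μ f → BM μ g → ∫ x, P f x * g x ∂μ = ∫ x, f x * P g x ∂μ
  one : P (fun _ => 1) =ᵐ[μ] fun _ => c0
  pos : 0 < c0

/-- symmetric linear operator on bounded covector fields, dominated by `P` -/
structure FieldOp (μ : Measure X) (t : X → Matrix (Fin n) (Fin n) ℝ) (P : (X → ℝ) → X → ℝ)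
    (R : (X → Fin n → ℝ) → X → Fin n → ℝ) : Prop where
  mem : ∀ α, BF μ α → BF μ (R α)
  add : ∀ α β, BF μ α → BF μ β →
    R (fun x a => α x a + β x a) =ᵐ[μ] fun x a => R α x a + R β x a
  smul : ∀ (c : ℝ) α, BF μ α → R (fun x a => c * α x a) =ᵐ[μ] fun x a => c * R α x a
  symm : ∀ α β, BF μ α → BF μ β →
    ∫ x, ipt (t x) (R α x) (β x) ∂μ = ∫ x, ipt (t x) (α x) (R β x) ∂μ
  dom : ∀ α, BF μ α → ∀ᵐ x ∂μ, Real.sqrt (ipt (t x) (R α x) (R α x)) ≤
    P (fun x => Real.sqrt (ipt (t x) (α x) (α x))) x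

namespace PosOp

variable {P : (X → ℝ) → X → ℝ} {c0 : ℝ}

theorem mono (hP : PosOp μ P c0) {f g : X → ℝ} (hf : BM μ f) (hg : BM μ g)
    (h : ∀ᵐ x ∂μ, f x ≤ g x) : ∀ᵐ x ∂μ, P f x ≤ P g x := by
  have h1 : BM μ (fun x => (-1) * f x) := (BM.const (-1)).mul hf
  have h2 := hP.nonneg (fun x => g x + (-1) * f x) (hg.add h1)
    (by filter_upwards [h] with x hx; linarith)
  filter_upwards [h2, hP.add g (fun x => (-1) * f x) hg h1, hP.smul (-1) f hf] with x a b c
  rw [b] at a
  rw [c] at a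
  linarith

theorem congr (hP : PosOp μ P c0) {f g : X → ℝ} (hf : BM μ f) (h : f =ᵐ[μ] g) :
    P f =ᵐ[μ] P g := by
  have hg := hf.congr h
  filter_upwards [hP.mono hf hg (h.mono fun x hx => hx.le),
    hP.mono hg hf (h.mono fun x hx => hx.ge)] with x a b
  exact le_antisymm a b

theorem sum (hP : PosOp μ P c0) {ι : Type*} (s : Finset ι) {f : ι → X → ℝ}
    (hf : ∀ i, BM μ (f i)) :
    P (fun x => ∑ i ∈ s, f i x) =ᵐ[μ] fun x => ∑ i ∈ s, P (f i) x := by
  classical
  induction s using Finset.induction_on with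
  | empty =>
    simp only [Finset.sum_empty]
    have h := hP.smul 0 (fun _ => 0) (BM.const 0)
    filter_upwards [h] with x hx
    simpa using hx
  | insert a s ha ih =>
    simp only [Finset.sum_insert ha]
    filter_upwards [ih, hP.add (f a) (fun x => ∑ i ∈ s, f i x) (hf a)
      (BM.sum _ fun i _ => hf i)] with x h1 h2
    rw [h2, h1]

theorem lower (hP : PosOp μ P c0) {f : X → ℝ} (hf : BM μ f) {δ : ℝ}
    (h : ∀ᵐ x ∂μ, δ ≤ f x) : ∀ᵐ x ∂μ, δ * c0 ≤ P f x := by
  have h1 : BM μ (fun _ : X => (1 : ℝ)) := BM.const 1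
  have h2 := hP.mono (f := fun x => δ * (fun _ : X => (1 : ℝ)) x) ((BM.const δ).mul h1) hf
    (by filter_upwards [h] with x hx; simpa using hx)
  filter_upwards [h2, hP.smul δ (fun _ => 1) h1, hP.one] with x a b c
  rw [b] at a
  rwa [c] at a

/-- Cauchy-Schwarz for a positive operator with weight `ρ` -/
theorem cs (hP : PosOp μ P c0) {f ρ : X → ℝ} (hf : BM μ f) (hρ : BM μ ρ) {δ : ℝ} (hδ : 0 < δ)
    (h : ∀ᵐ x ∂μ, δ ≤ ρ x) :
    ∀ᵐ x ∂μ, (P f x) ^ 2 ≤ P ρ x * P (fun x => f x * f x * (ρ x)⁻¹) x := by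
  have hi : BM μ (fun x => (ρ x)⁻¹) := hρ.inv hδ h
  have hg : BM μ (fun x => f x * f x * (ρ x)⁻¹) := (hf.mul hf).mul hi
  have key : ∀ q : ℚ, ∀ᵐ x ∂μ, 0 ≤ P ρ x * (q : ℝ) ^ 2 - 2 * P f x * q
      + P (fun x => f x * f x * (ρ x)⁻¹) x := by
    intro q
    have e1 : BM μ (fun x => (q : ℝ) ^ 2 * ρ x) := (BM.const _).mul hρ
    have e2 : BM μ (fun x => (-(2 * (q : ℝ))) * f x) := (BM.const _).mul hf
    have e3 : BM μ (fun x => (q : ℝ) ^ 2 * ρ x + (-(2 * (q : ℝ))) * f x) := e1.add e2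
    have h1 := hP.nonneg (fun x => ((q : ℝ) ^ 2 * ρ x + (-(2 * (q : ℝ))) * f x)
      + f x * f x * (ρ x)⁻¹) (e3.add hg) (by
        filter_upwards [h] with x hx
        have hp : 0 < ρ x := hδ.trans_le hx
        have : (q : ℝ) ^ 2 * ρ x + (-(2 * (q : ℝ))) * f x + f x * f x * (ρ x)⁻¹ =
            (ρ x)⁻¹ * (q * ρ x - f x) ^ 2 := by
          field_simp
          ring
        rw [this]
        positivity)
    filter_upwards [h1, hP.add _ _ e3 hg, hP.add _ _ e1 e2, hP.smul ((q : ℝ) ^ 2) ρ hρ,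
      hP.smul (-(2 * (q : ℝ))) f hf] with x a1 a2 a3 a4 a5
    rw [a2] at a1
    rw [a3] at a1
    rw [a4, a5] at a1
    nlinarith [a1]
  have key2 : ∀ᵐ x ∂μ, ∀ q : ℚ, 0 ≤ P ρ x * (q : ℝ) ^ 2 - 2 * P f x * q
      + P (fun x => f x * f x * (ρ x)⁻¹) x := ae_all_iff.2 key
  filter_upwards [key2] with x hx
  exact sq_le_of_rat hx

end PosOp

theorem ipt_lin {t : Matrix (Fin n) (Fin n) ℝ} (w : Fin n → Fin n → ℝ) (v : Fin n → ℝ) :
    ipt t (fun a => ∑ k, v k * w k a) (fun a => ∑ k, v k * w k a) =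
      ∑ k, ∑ l, v k * v l * ipt t (w k) (w l) := by
  rw [ipt_sum_left]
  refine Finset.sum_congr rfl fun k _ => ?_
  rw [ipt_smul_left, ipt_sum_right, Finset.mul_sum]
  refine Finset.sum_congr rfl fun l _ => ?_
  rw [ipt_smul_right]; ring

section field
variable {t : X → Matrix (Fin n) (Fin n) ℝ} {P : (X → ℝ) → X → ℝ} {c0 : ℝ}
  {R : (X → Fin n → ℝ) → X → Fin n → ℝ}

theorem FieldOp.sum (hR : FieldOp μ t P R) {ι : Type*} (s : Finset ι) {w : ι → X → Fin n → ℝ}
    (hw : ∀ i, BF μ (w i)) (v : ι → ℝ) :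
    R (fun x a => ∑ i ∈ s, v i * w i x a) =ᵐ[μ] fun x a => ∑ i ∈ s, v i * R (w i) x a := by
  classical
  induction s using Finset.induction_on with
  | empty =>
    simp only [Finset.sum_empty]
    have h := hR.smul 0 (fun _ _ => 0) (fun a => BM.const 0)
    filter_upwards [h] with x hx
    simpa using hx
  | insert i s hi ih =>
    simp only [Finset.sum_insert hi]
    have e1 : BF μ (fun x a => v i * w i x a) := BF.smul (BM.const (v i)) (hw i)
    have e2 : BF μ (fun x a => ∑ i ∈ s, v i * w i x a) := fun a =>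
      BM.sum _ fun i _ => (BM.const (v i)).mul (hw i a)
    filter_upwards [ih, hR.add _ _ e1 e2, hR.smul (v i) (w i) (hw i)] with x h1 h2 h3
    rw [h2]
    ext a
    rw [h1, h3]

theorem field_cs (hP : PosOp μ P c0) (ht : ∀ a b, BM μ (fun x => t x a b))
    (htp : ∀ᵐ x ∂μ, (t x).PosSemidef) (hR : FieldOp μ t P R) {w : Fin n → X → Fin n → ℝ}
    (hw : ∀ i, BF μ (w i)) {ρ : X → ℝ} (hρ : BM μ ρ) {δ : ℝ} (hδ : 0 < δ)
    (h : ∀ᵐ x ∂μ, δ ≤ ρ x) :
    ∀ᵐ x ∂μ, ∀ v : Fin n → ℝ, ∑ k, ∑ l, v k * v l * ipt (t x) (R (w k) x) (R (w l) x) ≤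
      P ρ x * ∑ k, ∑ l, v k * v l * P (fun x => ipt (t x) (w k x) (w l x) * (ρ x)⁻¹) x := by
  have hi : BM μ (fun x => (ρ x)⁻¹) := hρ.inv hδ h
  have key : ∀ q : Fin n → ℚ, ∀ᵐ x ∂μ,
      ∑ k, ∑ l, (q k : ℝ) * (q l : ℝ) * ipt (t x) (R (w k) x) (R (w l) x) ≤
      P ρ x * ∑ k, ∑ l, (q k : ℝ) * (q l : ℝ) *
        P (fun x => ipt (t x) (w k x) (w l x) * (ρ x)⁻¹) x := by
    intro q
    set al : X → Fin n → ℝ := fun x a => ∑ k, (q k : ℝ) * w k x a with hal
    have hal' : BF μ al := fun a => BM.sum _ fun k _ => (BM.const _).mul (hw k a)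
    have hip : BM μ (fun x => ipt (t x) (al x) (al x)) := BF.ipt ht hal' hal'
    have hf : BM μ (fun x => Real.sqrt (ipt (t x) (al x) (al x))) := hip.sqrt
    have e1 : ∀ k l, BM μ (fun x => ipt (t x) (w k x) (w l x) * (ρ x)⁻¹) := fun k l =>
      (BF.ipt ht (hw k) (hw l)).mul hi
    have e2 : ∀ k l, BM μ (fun x => (q k : ℝ) * (q l : ℝ) *
        (ipt (t x) (w k x) (w l x) * (ρ x)⁻¹)) := fun k l => (BM.const _).mul (e1 k l)
    have hPs : P (fun x => ∑ k, ∑ l, (q k : ℝ) * (q l : ℝ) *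
        (ipt (t x) (w k x) (w l x) * (ρ x)⁻¹)) =ᵐ[μ] fun x => ∑ k, ∑ l, (q k : ℝ) * (q l : ℝ) *
        P (fun x => ipt (t x) (w k x) (w l x) * (ρ x)⁻¹) x := by
      have h1 := hP.sum Finset.univ (f := fun k x => ∑ l, (q k : ℝ) * (q l : ℝ) *
        (ipt (t x) (w k x) (w l x) * (ρ x)⁻¹)) (fun k => BM.sum _ fun l _ => e2 k l)
      have h2 : ∀ᵐ x ∂μ, ∀ k, P (fun x => ∑ l, (q k : ℝ) * (q l : ℝ) *
          (ipt (t x) (w k x) (w l x) * (ρ x)⁻¹)) x = ∑ l, P (fun x => (q k : ℝ) * (q l : ℝ) *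
          (ipt (t x) (w k x) (w l x) * (ρ x)⁻¹)) x :=
        ae_all_iff.2 fun k => hP.sum Finset.univ (fun l => e2 k l)
      have h3 : ∀ᵐ x ∂μ, ∀ k l, P (fun x => (q k : ℝ) * (q l : ℝ) *
          (ipt (t x) (w k x) (w l x) * (ρ x)⁻¹)) x = (q k : ℝ) * (q l : ℝ) *
          P (fun x => ipt (t x) (w k x) (w l x) * (ρ x)⁻¹) x :=
        ae_all_iff.2 fun k => ae_all_iff.2 fun l => hP.smul _ _ (e1 k l)
      filter_upwards [h1, h2, h3] with x a1 a2 a3
      rw [a1]
      refine Finset.sum_congr rfl fun k _ => ?_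
      rw [a2 k]
      exact Finset.sum_congr rfl fun l _ => a3 k l
    have hcg : (fun x => Real.sqrt (ipt (t x) (al x) (al x)) *
        Real.sqrt (ipt (t x) (al x) (al x)) * (ρ x)⁻¹) =ᵐ[μ] fun x => ∑ k, ∑ l,
        (q k : ℝ) * (q l : ℝ) * (ipt (t x) (w k x) (w l x) * (ρ x)⁻¹) := by
      filter_upwards [htp] with x hx
      rw [Real.mul_self_sqrt (ipt_self_nonneg hx _), hal]
      dsimp only
      rw [ipt_lin, Finset.sum_mul]
      refine Finset.sum_congr rfl fun k _ => ?_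
      rw [Finset.sum_mul]
      exact Finset.sum_congr rfl fun l _ => by ring
    filter_upwards [hR.dom al hal', hP.cs hf hρ hδ h, hPs,
      hP.congr ((hf.mul hf).mul hi) hcg, hR.sum Finset.univ hw (fun k => (q k : ℝ)), htp,
      hP.nonneg _ hf (Eventually.of_forall fun x => Real.sqrt_nonneg _)]
      with x b1 b2 b3 b4 b5 b6 b7
    rw [b4, b3] at b2
    have c1 : ipt (t x) (R al x) (R al x) ≤
        (P (fun x => Real.sqrt (ipt (t x) (al x) (al x))) x) ^ 2 := by
      have c2 := ipt_self_nonneg b6 (R al x)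
      calc ipt (t x) (R al x) (R al x) = (Real.sqrt (ipt (t x) (R al x) (R al x))) ^ 2 :=
            (Real.sq_sqrt c2).symm
        _ ≤ _ := pow_le_pow_left₀ (Real.sqrt_nonneg _) b1 2
    have c3 : ipt (t x) (R al x) (R al x) =
        ∑ k, ∑ l, (q k : ℝ) * (q l : ℝ) * ipt (t x) (R (w k) x) (R (w l) x) := by
      have : R al x = fun a => ∑ k, (q k : ℝ) * R (w k) x a := b5
      rw [this, ipt_lin]
    rw [← c3]
    exact c1.trans b2
  have key2 := ae_all_iff.2 key
  filter_upwards [key2] with x hx v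
  have hcl : IsClosed {v : Fin n → ℝ | ∑ k, ∑ l, v k * v l * ipt (t x) (R (w k) x) (R (w l) x) ≤
      P ρ x * ∑ k, ∑ l, v k * v l * P (fun x => ipt (t x) (w k x) (w l x) * (ρ x)⁻¹) x} :=
    isClosed_le (by fun_prop) (by fun_prop)
  have hd : DenseRange (Pi.map (fun (_ : Fin n) (q : ℚ) => (q : ℝ))) :=
    DenseRange.piMap fun _ => Rat.denseRange_cast
  have hsub : Set.range (Pi.map (fun (_ : Fin n) (q : ℚ) => (q : ℝ))) ⊆
      {v : Fin n → ℝ | ∑ k, ∑ l, v k * v l * ipt (t x) (R (w k) x) (R (w l) x) ≤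
      P ρ x * ∑ k, ∑ l, v k * v l * P (fun x => ipt (t x) (w k x) (w l x) * (ρ x)⁻¹) x} := by
    rintro _ ⟨q, rfl⟩
    exact hx q
  have h2 := closure_minimal hsub hcl
  rw [hd.closure_range] at h2
  exact h2 (Set.mem_univ v)

theorem gram_contract {t : Matrix (Fin n) (Fin n) ℝ} (ht : t.PosSemidef)
    {D : Fin n → Fin n → ℝ} (hD : ∀ v : Fin n → ℝ, 0 ≤ ∑ k, ∑ l, v k * v l * D k l)
    (w : Fin n → Fin n → ℝ) : 0 ≤ ∑ k, ∑ l, D k l * ipt t (w k) (w l) := by
  have h := contract_nonneg ht (M := fun a b => ∑ k, ∑ l, D k l * w k a * w l b) fun v => by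
    have h1 := hD (fun k => ∑ a, v a * w k a)
    have e : ∑ k, ∑ l, (∑ a, v a * w k a) * (∑ b, v b * w l b) * D k l =
        ∑ a, ∑ b, v a * v b * ∑ k, ∑ l, D k l * w k a * w l b := by
      calc ∑ k, ∑ l, (∑ a, v a * w k a) * (∑ b, v b * w l b) * D k l
          = ∑ k, ∑ l, ∑ a, ∑ b, v a * v b * (D k l * w k a * w l b) := by
            refine Finset.sum_congr rfl fun k _ => Finset.sum_congr rfl fun l _ => ?_
            rw [Finset.sum_mul_sum, Finset.sum_mul]
            refine Finset.sum_congr rfl fun a _ => ?_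
            rw [Finset.sum_mul]
            exact Finset.sum_congr rfl fun b _ => by ring
        _ = ∑ k, ∑ a, ∑ l, ∑ b, v a * v b * (D k l * w k a * w l b) :=
            Finset.sum_congr rfl fun k _ => Finset.sum_comm
        _ = ∑ a, ∑ k, ∑ l, ∑ b, v a * v b * (D k l * w k a * w l b) := Finset.sum_comm
        _ = ∑ a, ∑ k, ∑ b, ∑ l, v a * v b * (D k l * w k a * w l b) :=
            Finset.sum_congr rfl fun a _ => Finset.sum_congr rfl fun k _ => Finset.sum_comm
        _ = ∑ a, ∑ b, ∑ k, ∑ l, v a * v b * (D k l * w k a * w l b) :=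
            Finset.sum_congr rfl fun a _ => Finset.sum_comm
        _ = _ := by
            refine Finset.sum_congr rfl fun a _ => Finset.sum_congr rfl fun b _ => ?_
            rw [Finset.mul_sum]
            exact Finset.sum_congr rfl fun k _ => by rw [Finset.mul_sum]
    rw [e] at h1
    exact h1
  have e2 : ∑ a, ∑ b, t a b * ∑ k, ∑ l, D k l * w k a * w l b =
      ∑ k, ∑ l, D k l * ipt t (w k) (w l) := by
    symm
    unfold ipt
    calc ∑ k, ∑ l, D k l * ∑ a, ∑ b, t a b * w k a * w l b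
        = ∑ k, ∑ l, ∑ a, ∑ b, t a b * (D k l * w k a * w l b) := by
          refine Finset.sum_congr rfl fun k _ => Finset.sum_congr rfl fun l _ => ?_
          rw [Finset.mul_sum]
          refine Finset.sum_congr rfl fun a _ => ?_
          rw [Finset.mul_sum]
          exact Finset.sum_congr rfl fun b _ => by ring
      _ = ∑ k, ∑ a, ∑ l, ∑ b, t a b * (D k l * w k a * w l b) :=
          Finset.sum_congr rfl fun k _ => Finset.sum_comm
      _ = ∑ a, ∑ k, ∑ l, ∑ b, t a b * (D k l * w k a * w l b) := Finset.sum_comm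
      _ = ∑ a, ∑ k, ∑ b, ∑ l, t a b * (D k l * w k a * w l b) :=
          Finset.sum_congr rfl fun a _ => Finset.sum_congr rfl fun k _ => Finset.sum_comm
      _ = ∑ a, ∑ b, ∑ k, ∑ l, t a b * (D k l * w k a * w l b) :=
          Finset.sum_congr rfl fun a _ => Finset.sum_comm
      _ = _ := by
          refine Finset.sum_congr rfl fun a _ => Finset.sum_congr rfl fun b _ => ?_
          rw [Finset.mul_sum]
          exact Finset.sum_congr rfl fun k _ => by rw [Finset.mul_sum]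
  rwa [e2] at h

/-- the form `S` of a matrix function applied to a constant vector: `b k = d (G z)_k` -/
noncomputable def Sq (t G : Matrix (Fin n) (Fin n) ℝ) (b : Fin n → Fin n → ℝ) : ℝ :=
  ∑ k, ∑ l, G⁻¹ k l * ipt t (b k) (b l)

/-- nonnegativity from all weights -/
theorem ae_nonneg_of_weights [IsFiniteMeasure μ] {f : X → ℝ} (hf : BM μ f)
    (h : ∀ ρ : X → ℝ, BM μ ρ → (∃ δ > 0, ∀ᵐ x ∂μ, δ ≤ ρ x) → 0 ≤ ∫ x, ρ x * f x ∂μ) :
    ∀ᵐ x ∂μ, 0 ≤ f x := by
  -- the negative part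
  have hm : BM μ (fun x => min (f x) 0) := by
    obtain ⟨h1, C, hC⟩ := hf
    refine ⟨h1.inf aestronglyMeasurable_const, C, ?_⟩
    filter_upwards [hC] with x hx
    rcases le_total (f x) 0 with h0 | h0
    · rw [min_eq_left h0]; exact hx
    · rw [min_eq_right h0, abs_zero]; exact (abs_nonneg _).trans hx
  have h0 : ∀ δ : ℝ, 0 < δ → 0 ≤ δ * ∫ x, f x ∂μ - ∫ x, min (f x) 0 * min (f x) 0 ∂μ := by
    intro δ hδ
    have hρ : BM μ (fun x => δ + (-1) * min (f x) 0) := (BM.const δ).add ((BM.const _).mul hm)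
    have h1 := h _ hρ ⟨δ, hδ, Eventually.of_forall fun x => by
      have := min_le_right (f x) 0
      linarith⟩
    have e1 : (fun x => (δ + (-1) * min (f x) 0) * f x) =
        fun x => δ * f x - min (f x) 0 * min (f x) 0 := by
      ext x
      rcases le_total (f x) 0 with h0 | h0
      · rw [min_eq_left h0]; ring
      · rw [min_eq_right h0]; ring
    rw [e1, integral_sub (hf.integrable.const_mul δ) (hm.mul hm).integrable,
      integral_const_mul] at h1
    exact h1
  have h2 : ∫ x, min (f x) 0 * min (f x) 0 ∂μ ≤ 0 := by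
    by_contra hcon
    push Not at hcon
    set J := ∫ x, min (f x) 0 * min (f x) 0 ∂μ with hJ
    set K := ∫ x, f x ∂μ with hK
    have h3 := h0 (J / (2 * (|K| + 1))) (by positivity)
    have h4 : J / (2 * (|K| + 1)) * K ≤ J / 2 := by
      have h5 : J / (2 * (|K| + 1)) * K ≤ J / (2 * (|K| + 1)) * (|K| + 1) :=
        mul_le_mul_of_nonneg_left (by linarith [le_abs_self K]) (by positivity)
      have h6 : J / (2 * (|K| + 1)) * (|K| + 1) = J / 2 := by
        field_simp
      linarith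
    linarith
  have h3 : ∫ x, min (f x) 0 * min (f x) 0 ∂μ = 0 :=
    le_antisymm h2 (integral_nonneg fun x => mul_self_nonneg _)
  have h4 := (integral_eq_zero_iff_of_nonneg (fun x => mul_self_nonneg _)
    (hm.mul hm).integrable).1 h3
  filter_upwards [h4] with x hx
  have h5 : min (f x) 0 = 0 := by
    have : min (f x) 0 * min (f x) 0 = 0 := hx
    simpa using this
  rw [← h5]
  exact min_le_left _ _

/-- **The step** for one constant vector `z`. -/
theorem step_z [IsFiniteMeasure μ] (hP : PosOp μ P c0) (ht : ∀ a b, BM μ (fun x => t x a b))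
    (htp : ∀ᵐ x ∂μ, (t x).PosSemidef) (hR : FieldOp μ t P R)
    {H G : X → Matrix (Fin n) (Fin n) ℝ} (hHm : ∀ a b, BM μ (fun x => H x a b))
    (hGm : ∀ a b, BM μ (fun x => G x a b)) (hHp : ∀ᵐ x ∂μ, (H x).PosDef)
    (hGp : ∀ᵐ x ∂μ, (G x).PosDef) (hHi : ∀ a b, BM μ (fun x => (H x)⁻¹ a b))
    (hGi : ∀ a b, BM μ (fun x => (G x)⁻¹ a b))
    {a b : Fin n → X → Fin n → ℝ} (ha : ∀ k, BF μ (a k)) (hb : ∀ k, BF μ (b k))
    (hRab : ∀ k, R (a k) =ᵐ[μ] b k) {κ : ℝ} (hκ : 0 < κ)
    {Sg : X → Matrix (Fin n) (Fin n) ℝ} (hSgm : ∀ a b, BM μ (fun x => Sg x a b))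
    (hPH : ∀ᵐ x ∂μ, ∀ v : Fin n → ℝ,
      ∑ k, ∑ l, v k * v l * P (fun x => H x k l) x ≤ κ * ∑ k, ∑ l, v k * v l * G x k l)
    (z : Fin n → ℝ)
    (hS : ∀ᵐ x ∂μ, Sq (t x) (H x) (fun k => a k x) ≤ ∑ k, ∑ l, z k * z l * Sg x k l) :
    ∀ᵐ x ∂μ, Sq (t x) (G x) (fun k => b k x) ≤
      κ * ∑ k, ∑ l, z k * z l * P (fun x => Sg x k l) x := by
  have hSG : BM μ (fun x => Sq (t x) (G x) (fun k => b k x)) :=
    BM.sum _ fun k _ => BM.sum _ fun l _ => (hGi k l).mul (BF.ipt ht (hb k) (hb l))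
  have hSH : BM μ (fun x => Sq (t x) (H x) (fun k => a k x)) :=
    BM.sum _ fun k _ => BM.sum _ fun l _ => (hHi k l).mul (BF.ipt ht (ha k) (ha l))
  have hzG : BM μ (fun x => ∑ k, ∑ l, z k * z l * P (fun x => Sg x k l) x) :=
    BM.sum _ fun k _ => BM.sum _ fun l _ => (BM.const _).mul (hP.mem _ (hSgm k l))
  have hzH : BM μ (fun x => ∑ k, ∑ l, z k * z l * Sg x k l) :=
    BM.sum _ fun k _ => BM.sum _ fun l _ => (BM.const _).mul (hSgm k l)
  have hfin : BM μ (fun x => κ * (∑ k, ∑ l, z k * z l * P (fun x => Sg x k l) x)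
      + (-1) * Sq (t x) (G x) (fun k => b k x)) :=
    ((BM.const _).mul hzG).add ((BM.const _).mul hSG)
  have main : ∀ᵐ x ∂μ, 0 ≤ κ * (∑ k, ∑ l, z k * z l * P (fun x => Sg x k l) x)
      + (-1) * Sq (t x) (G x) (fun k => b k x) := by
    refine ae_nonneg_of_weights hfin fun ρ hρ hρ0 => ?_
    obtain ⟨δ, hδ, hρδ⟩ := hρ0
    have hρi : BM μ (fun x => (ρ x)⁻¹) := hρ.inv hδ hρδ
    have hPρ := hP.mem ρ hρ
    have hPρδ : ∀ᵐ x ∂μ, δ * c0 ≤ P ρ x := hP.lower hρ hρδ
    have hδc : 0 < δ * c0 := mul_pos hδ hP.pos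
    have hPρi : BM μ (fun x => (P ρ x)⁻¹) := hPρ.inv hδc hPρδ
    -- the fields `w`
    set w : Fin n → X → Fin n → ℝ := fun k x c => ρ x * ∑ l, (G x)⁻¹ k l * b l x c with hw
    have hwf : ∀ k, BF μ (w k) := fun k c =>
      hρ.mul (BM.sum _ fun l _ => (hGi k l).mul (hb l c))
    have hRw : ∀ k, BF μ (R (w k)) := fun k => hR.mem _ (hwf k)
    -- `A`
    set A : ℝ := ∫ x, ρ x * Sq (t x) (G x) (fun k => b k x) ∂μ with hA
    have hA1 : A = ∑ k, ∫ x, ipt (t x) (w k x) (b k x) ∂μ := by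
      rw [← integral_finsetSum _ fun k _ => (BF.ipt ht (hwf k) (hb k)).integrable, hA]
      refine integral_congr_ae ?_
      filter_upwards [htp] with x hx
      unfold Sq
      rw [Finset.mul_sum]
      refine Finset.sum_congr rfl fun k _ => ?_
      rw [hw]
      dsimp only
      rw [ipt_smul_left, ipt_sum_left]
      congr 1
      refine Finset.sum_congr rfl fun l _ => ?_
      rw [ipt_smul_left, ipt_comm (isSymm_of_psd hx)]
    have hA2 : A = ∑ k, ∫ x, ipt (t x) (R (w k) x) (a k x) ∂μ := by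
      rw [hA1]
      refine Finset.sum_congr rfl fun k _ => ?_
      rw [hR.symm _ _ (hwf k) (ha k)]
      refine integral_congr_ae ?_
      filter_upwards [hRab k] with x hx
      rw [hx]
    -- pointwise inequality
    set B2 : X → ℝ := fun x => ∑ k, ∑ l, H x k l * P (fun x => ipt (t x) (w k x) (w l x) * (ρ x)⁻¹) x
      with hB2
    have hPw : ∀ k l, BM μ (fun x => ipt (t x) (w k x) (w l x) * (ρ x)⁻¹) := fun k l =>
      (BF.ipt ht (hwf k) (hwf l)).mul hρi
    have hB2m : BM μ B2 :=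
      BM.sum _ fun k _ => BM.sum _ fun l _ => (hHm k l).mul (hP.mem _ (hPw k l))
    have hpt : ∀ᵐ x ∂μ, 2 * ∑ k, ipt (t x) (R (w k) x) (a k x) ≤
        κ * (P ρ x * Sq (t x) (H x) (fun k => a k x)) + κ⁻¹ * B2 x := by
      filter_upwards [htp, hHp, hPρδ, field_cs hP ht htp hR hwf hρ hδ hρδ] with x h1 h2 h3 h4
      have hp : 0 < P ρ x := hδc.trans_le h3
      have h5 := pw_amgm h1 h2 (fun k => R (w k) x) (fun k => a k x) (mul_pos hκ hp)
      have h6 : (κ * P ρ x)⁻¹ * qf (t x) (H x) (fun k => R (w k) x) (fun k => R (w k) x) ≤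
          κ⁻¹ * B2 x := by
        have h7 := contract_nonneg h2.posSemidef (M := fun k l =>
          P ρ x * P (fun x => ipt (t x) (w k x) (w l x) * (ρ x)⁻¹) x -
            ipt (t x) (R (w k) x) (R (w l) x)) fun v => by
          have h8 := h4 v
          have e : ∑ k, ∑ l, v k * v l * (P ρ x * P (fun x => ipt (t x) (w k x) (w l x) *
              (ρ x)⁻¹) x - ipt (t x) (R (w k) x) (R (w l) x)) =
              P ρ x * (∑ k, ∑ l, v k * v l * P (fun x => ipt (t x) (w k x) (w l x) *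
              (ρ x)⁻¹) x) - ∑ k, ∑ l, v k * v l * ipt (t x) (R (w k) x) (R (w l) x) := by
            rw [Finset.mul_sum, ← Finset.sum_sub_distrib]
            refine Finset.sum_congr rfl fun k _ => ?_
            rw [Finset.mul_sum, ← Finset.sum_sub_distrib]
            exact Finset.sum_congr rfl fun l _ => by ring
          rw [e]; linarith
        have e2 : ∑ k, ∑ l, H x k l * (P ρ x * P (fun x => ipt (t x) (w k x) (w l x) *
            (ρ x)⁻¹) x - ipt (t x) (R (w k) x) (R (w l) x)) =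
            P ρ x * B2 x - qf (t x) (H x) (fun k => R (w k) x) (fun k => R (w k) x) := by
          unfold qf
          rw [hB2, Finset.mul_sum, ← Finset.sum_sub_distrib]
          refine Finset.sum_congr rfl fun k _ => ?_
          rw [Finset.mul_sum, ← Finset.sum_sub_distrib]
          exact Finset.sum_congr rfl fun l _ => by ring
        rw [e2] at h7
        have h9 : (κ * P ρ x)⁻¹ * qf (t x) (H x) (fun k => R (w k) x) (fun k => R (w k) x) ≤
            (κ * P ρ x)⁻¹ * (P ρ x * B2 x) :=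
          mul_le_mul_of_nonneg_left (by linarith) (inv_nonneg.2 (mul_pos hκ hp).le)
        have h10 : (κ * P ρ x)⁻¹ * (P ρ x * B2 x) = κ⁻¹ * B2 x := by
          field_simp
        rw [h10] at h9
        exact h9
      have h11 : Sq (t x) (H x) (fun k => a k x) =
          ∑ k, ∑ l, (H x)⁻¹ k l * ipt (t x) (a k x) (a l x) := rfl
      rw [h11]
      nlinarith [h5, h6]
    -- the integral of `B2`
    have hB2i : ∫ x, B2 x ∂μ ≤ κ * A := by
      have e1 : ∫ x, B2 x ∂μ = ∫ x, ∑ k, ∑ l, P (fun x => H x k l) x *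
          (ipt (t x) (w k x) (w l x) * (ρ x)⁻¹) ∂μ := by
        rw [hB2, integral_finsetSum _ fun k _ => (BM.sum _ fun l _ =>
          (hHm k l).mul (hP.mem _ (hPw k l))).integrable,
          integral_finsetSum _ fun k _ => (BM.sum _ fun l _ =>
          (hP.mem _ (hHm k l)).mul (hPw k l)).integrable]
        refine Finset.sum_congr rfl fun k _ => ?_
        rw [integral_finsetSum _ fun l _ => ((hHm k l).mul (hP.mem _ (hPw k l))).integrable,
          integral_finsetSum _ fun l _ => ((hP.mem _ (hHm k l)).mul (hPw k l)).integrable]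
        refine Finset.sum_congr rfl fun l _ => ?_
        exact (hP.symm _ _ (hHm k l) (hPw k l)).symm
      have e2 : κ * A = ∫ x, κ * (ρ x * Sq (t x) (G x) (fun k => b k x)) ∂μ := by
        rw [hA, integral_const_mul]
      rw [e1, e2]
      refine integral_mono_ae (BM.sum _ fun k _ => BM.sum _ fun l _ =>
        (hP.mem _ (hHm k l)).mul (hPw k l)).integrable
        ((BM.const κ).mul (hρ.mul hSG)).integrable ?_
      filter_upwards [htp, hGp, hρδ, hPH] with x h1 h2 h3 h4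
      have hp : 0 < ρ x := hδ.trans_le h3
      have h5 := gram_contract h1 (D := fun k l => κ * G x k l - P (fun x => H x k l) x)
        (fun v => by
          have h6 := h4 v
          have e : ∑ k, ∑ l, v k * v l * (κ * G x k l - P (fun x => H x k l) x) =
              κ * (∑ k, ∑ l, v k * v l * G x k l) -
              ∑ k, ∑ l, v k * v l * P (fun x => H x k l) x := by
            rw [Finset.mul_sum, ← Finset.sum_sub_distrib]
            refine Finset.sum_congr rfl fun k _ => ?_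
            rw [Finset.mul_sum, ← Finset.sum_sub_distrib]
            exact Finset.sum_congr rfl fun l _ => by ring
          rw [e]; linarith) (fun k => w k x)
      -- `Σ G <w,w> = ρ² S`
      have h7 : ∑ k, ∑ l, G x k l * ipt (t x) (w k x) (w l x) =
          ρ x ^ 2 * Sq (t x) (G x) (fun k => b k x) := by
        have e3 : ∀ k l, ipt (t x) (w k x) (w l x) = ρ x ^ 2 *
            ipt (t x) (fun c => ∑ m, (G x)⁻¹ k m * b m x c)
              (fun c => ∑ m, (G x)⁻¹ l m * b m x c) := by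
          intro k l
          rw [hw]
          dsimp only
          rw [ipt_smul_left, ipt_smul_right]
          ring
        have e4 := qf_inv_right (t := t x) h2 (fun k c => ∑ m, (G x)⁻¹ k m * b m x c)
          (fun k => b k x)
        unfold qf at e4
        have e5 : ∑ k, ipt (t x) (fun c => ∑ m, (G x)⁻¹ k m * b m x c) (b k x) =
            Sq (t x) (G x) (fun k => b k x) := by
          unfold Sq
          refine Finset.sum_congr rfl fun k _ => ?_
          rw [ipt_sum_left]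
          refine Finset.sum_congr rfl fun l _ => ?_
          rw [ipt_smul_left, ipt_comm (isSymm_of_psd h1)]
        rw [e5] at e4
        rw [← e4, Finset.mul_sum]
        refine Finset.sum_congr rfl fun k _ => ?_
        rw [Finset.mul_sum]
        refine Finset.sum_congr rfl fun l _ => ?_
        rw [e3]; ring
      have h8 : ∑ k, ∑ l, (κ * G x k l - P (fun x => H x k l) x) * ipt (t x) (w k x) (w l x) =
          κ * (ρ x ^ 2 * Sq (t x) (G x) (fun k => b k x)) -
          ∑ k, ∑ l, P (fun x => H x k l) x * ipt (t x) (w k x) (w l x) := by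
        rw [← h7, Finset.mul_sum, ← Finset.sum_sub_distrib]
        refine Finset.sum_congr rfl fun k _ => ?_
        rw [Finset.mul_sum, ← Finset.sum_sub_distrib]
        exact Finset.sum_congr rfl fun l _ => by ring
      rw [h8] at h5
      have h9 : ∑ k, ∑ l, P (fun x => H x k l) x * (ipt (t x) (w k x) (w l x) * (ρ x)⁻¹) =
          (∑ k, ∑ l, P (fun x => H x k l) x * ipt (t x) (w k x) (w l x)) * (ρ x)⁻¹ := by
        rw [Finset.sum_mul]
        refine Finset.sum_congr rfl fun k _ => ?_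
        rw [Finset.sum_mul]
        exact Finset.sum_congr rfl fun l _ => by ring
      rw [h9]
      have h10 : (∑ k, ∑ l, P (fun x => H x k l) x * ipt (t x) (w k x) (w l x)) * (ρ x)⁻¹ ≤
          κ * (ρ x ^ 2 * Sq (t x) (G x) (fun k => b k x)) * (ρ x)⁻¹ :=
        mul_le_mul_of_nonneg_right (by linarith) (inv_nonneg.2 hp.le)
      refine h10.trans (le_of_eq ?_)
      field_simp
    -- conclusion for `A`
    have hA3 : 2 * A ≤ κ * (∫ x, P ρ x * Sq (t x) (H x) (fun k => a k x) ∂μ) + A := by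
      have e1 : 2 * A = ∫ x, 2 * ∑ k, ipt (t x) (R (w k) x) (a k x) ∂μ := by
        rw [integral_const_mul, integral_finsetSum _ fun k _ =>
          (BF.ipt ht (hRw k) (ha k)).integrable, ← hA2]
      have e2 : ∫ x, (κ * (P ρ x * Sq (t x) (H x) (fun k => a k x)) + κ⁻¹ * B2 x) ∂μ =
          κ * (∫ x, P ρ x * Sq (t x) (H x) (fun k => a k x) ∂μ) + κ⁻¹ * ∫ x, B2 x ∂μ := by
        rw [integral_add ((BM.const κ).mul (hPρ.mul hSH)).integrable
          ((BM.const _).mul hB2m).integrable, integral_const_mul, integral_const_mul]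
      have h1 := integral_mono_ae ((BM.const 2).mul (BM.sum _ fun k _ =>
        BF.ipt ht (hRw k) (ha k))).integrable
        (((BM.const κ).mul (hPρ.mul hSH)).add ((BM.const κ⁻¹).mul hB2m)).integrable hpt
      rw [← e1, e2] at h1
      have h2 : κ⁻¹ * ∫ x, B2 x ∂μ ≤ κ⁻¹ * (κ * A) :=
        mul_le_mul_of_nonneg_left hB2i (inv_nonneg.2 hκ.le)
      have h3 : κ⁻¹ * (κ * A) = A := by field_simp
      linarith
    have hA4 : A ≤ κ * ∫ x, P ρ x * Sq (t x) (H x) (fun k => a k x) ∂μ := by linarith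
    have hA5 : ∫ x, P ρ x * Sq (t x) (H x) (fun k => a k x) ∂μ ≤
        ∫ x, ρ x * (∑ k, ∑ l, z k * z l * P (fun x => Sg x k l) x) ∂μ := by
      have h1 : ∫ x, P ρ x * Sq (t x) (H x) (fun k => a k x) ∂μ ≤
          ∫ x, P ρ x * (∑ k, ∑ l, z k * z l * Sg x k l) ∂μ := by
        refine integral_mono_ae (hPρ.mul hSH).integrable (hPρ.mul hzH).integrable ?_
        filter_upwards [hS, hPρδ] with x h1 h2
        have hp : 0 < P ρ x := hδc.trans_le h2
        exact mul_le_mul_of_nonneg_left h1 hp.le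
      refine h1.trans (le_of_eq ?_)
      have e2 : ∀ Q : Fin n → Fin n → X → ℝ, (∀ k l, BM μ (Q k l)) → ∀ r : X → ℝ, BM μ r →
          ∫ x, r x * (∑ k, ∑ l, z k * z l * Q k l x) ∂μ =
          ∑ k, ∑ l, z k * z l * ∫ x, r x * Q k l x ∂μ := by
        intro Q hQ r hr
        have e3 : (fun x => r x * (∑ k, ∑ l, z k * z l * Q k l x)) =
            fun x => ∑ k, ∑ l, z k * z l * (r x * Q k l x) := by
          ext x
          rw [Finset.mul_sum]
          refine Finset.sum_congr rfl fun k _ => ?_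
          rw [Finset.mul_sum]
          exact Finset.sum_congr rfl fun l _ => by ring
        rw [e3, integral_finsetSum _ fun k _ => (BM.sum _ fun l _ =>
          (BM.const _).mul (hr.mul (hQ k l))).integrable]
        refine Finset.sum_congr rfl fun k _ => ?_
        rw [integral_finsetSum _ fun l _ => ((BM.const _).mul (hr.mul (hQ k l))).integrable]
        exact Finset.sum_congr rfl fun l _ => integral_const_mul _ _
      rw [e2 (fun k l x => Sg x k l) hSgm (P ρ) hPρ,
        e2 (fun k l => P (fun x => Sg x k l)) (fun k l => hP.mem _ (hSgm k l)) ρ hρ]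
      refine Finset.sum_congr rfl fun k _ => Finset.sum_congr rfl fun l _ => ?_
      rw [hP.symm _ _ hρ (hSgm k l)]
    have e9 : ∫ x, ρ x * (κ * (∑ k, ∑ l, z k * z l * P (fun x => Sg x k l) x)
        + (-1) * Sq (t x) (G x) (fun k => b k x)) ∂μ =
        κ * (∫ x, ρ x * (∑ k, ∑ l, z k * z l * P (fun x => Sg x k l) x) ∂μ) - A := by
      have e10 : (fun x => ρ x * (κ * (∑ k, ∑ l, z k * z l * P (fun x => Sg x k l) x)
          + (-1) * Sq (t x) (G x) (fun k => b k x))) =
          fun x => κ * (ρ x * (∑ k, ∑ l, z k * z l * P (fun x => Sg x k l) x)) -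
            ρ x * Sq (t x) (G x) (fun k => b k x) := by
        ext x; ring
      rw [e10, integral_sub ((BM.const _).mul (hρ.mul hzG)).integrable (hρ.mul hSG).integrable,
        integral_const_mul]
    rw [e9]
    have h12 : κ * ∫ x, P ρ x * Sq (t x) (H x) (fun k => a k x) ∂μ ≤
        κ * ∫ x, ρ x * (∑ k, ∑ l, z k * z l * P (fun x => Sg x k l) x) ∂μ :=
      mul_le_mul_of_nonneg_left hA5 hκ.le
    linarith
  filter_upwards [main] with x hx
  linarith

end field

end Vale.Agent.P245.K2.Step
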