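import Vale.Agent.P245.H895.QuadA

/-!
P245, row STEP (second), part A: pointwise algebra for the matrix Cauchy-Schwarz step.
-/

open Finset

namespace Vale.Agent.P245.K2.Step

variable {n : ℕ}

/-- the pointwise form on covectors -/
def ipt (t : Matrix (Fin n) (Fin n) ℝ) (α β : Fin n → ℝ) : ℝ :=
  ∑ a, ∑ b, t a b * α a * β b

theorem isSymm_of_psd {t : Matrix (Fin n) (Fin n) ℝ} (ht : t.PosSemidef) : t.IsSymm := by
  have h := ht.1
  unfold Matrix.IsHermitian at h
  rwa [Matrix.conjTranspose_eq_transpose_of_trivial] at h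

theorem ipt_comm {t : Matrix (Fin n) (Fin n) ℝ} (ht : t.IsSymm) (α β : Fin n → ℝ) :
    ipt t α β = ipt t β α := by
  unfold ipt
  rw [Finset.sum_comm]
  refine Finset.sum_congr rfl fun a _ => Finset.sum_congr rfl fun b _ => ?_
  have : t b a = t a b := ht.apply a b
  rw [this]; ring

theorem ipt_add_left (t : Matrix (Fin n) (Fin n) ℝ) (α α' β : Fin n → ℝ) :
    ipt t (fun a => α a + α' a) β = ipt t α β + ipt t α' β := by
  unfold ipt
  rw [← Finset.sum_add_distrib]
  refine Finset.sum_congr rfl fun a _ => ?_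
  rw [← Finset.sum_add_distrib]
  exact Finset.sum_congr rfl fun b _ => by ring

theorem ipt_smul_left (t : Matrix (Fin n) (Fin n) ℝ) (c : ℝ) (α β : Fin n → ℝ) :
    ipt t (fun a => c * α a) β = c * ipt t α β := by
  unfold ipt
  rw [Finset.mul_sum]
  refine Finset.sum_congr rfl fun a _ => ?_
  rw [Finset.mul_sum]
  exact Finset.sum_congr rfl fun b _ => by ring

theorem ipt_add_right (t : Matrix (Fin n) (Fin n) ℝ) (α β β' : Fin n → ℝ) :
    ipt t α (fun a => β a + β' a) = ipt t α β + ipt t α β' := by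
  unfold ipt
  rw [← Finset.sum_add_distrib]
  refine Finset.sum_congr rfl fun a _ => ?_
  rw [← Finset.sum_add_distrib]
  exact Finset.sum_congr rfl fun b _ => by ring

theorem ipt_smul_right (t : Matrix (Fin n) (Fin n) ℝ) (c : ℝ) (α β : Fin n → ℝ) :
    ipt t α (fun a => c * β a) = c * ipt t α β := by
  unfold ipt
  rw [Finset.mul_sum]
  refine Finset.sum_congr rfl fun a _ => ?_
  rw [Finset.mul_sum]
  exact Finset.sum_congr rfl fun b _ => by ring

theorem ipt_sum_left {ι : Type*} (s : Finset ι) (t : Matrix (Fin n) (Fin n) ℝ)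
    (α : ι → Fin n → ℝ) (β : Fin n → ℝ) :
    ipt t (fun a => ∑ i ∈ s, α i a) β = ∑ i ∈ s, ipt t (α i) β := by
  classical
  induction s using Finset.induction_on with
  | empty => simp [ipt]
  | insert i s hi ih =>
    simp only [Finset.sum_insert hi]
    rw [ipt_add_left, ih]

theorem ipt_sum_right {ι : Type*} (s : Finset ι) (t : Matrix (Fin n) (Fin n) ℝ)
    (α : Fin n → ℝ) (β : ι → Fin n → ℝ) :
    ipt t α (fun a => ∑ i ∈ s, β i a) = ∑ i ∈ s, ipt t α (β i) := by
  classical
  induction s using Finset.induction_on with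
  | empty => simp [ipt]
  | insert i s hi ih =>
    simp only [Finset.sum_insert hi]
    rw [ipt_add_right, ih]

theorem ipt_self_nonneg {t : Matrix (Fin n) (Fin n) ℝ} (ht : t.PosSemidef) (α : Fin n → ℝ) :
    0 ≤ ipt t α α := by
  have h := ht.dotProduct_mulVec_nonneg α
  simp only [star_trivial] at h
  have e : ipt t α α = α ⬝ᵥ t.mulVec α := by
    unfold ipt dotProduct Matrix.mulVec dotProduct
    refine Finset.sum_congr rfl fun a _ => ?_
    rw [Finset.mul_sum]
    exact Finset.sum_congr rfl fun b _ => by ring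
  rw [e]; exact h

/-- trace of the product of two positive semidefinite forms -/
theorem contract_nonneg {H : Matrix (Fin n) (Fin n) ℝ} (hH : H.PosSemidef)
    {M : Fin n → Fin n → ℝ} (hM : ∀ v : Fin n → ℝ, 0 ≤ ∑ k, ∑ l, v k * v l * M k l) :
    0 ≤ ∑ k, ∑ l, H k l * M k l := by
  obtain ⟨C, hC⟩ := Vale.Agent.P254.S2.pw_fact hH
  have e : ∀ k l, H k l = ∑ c, C c k * C c l := by
    intro k l
    rw [hC, Matrix.mul_apply]
    rfl
  have e2 : ∑ k, ∑ l, H k l * M k l = ∑ c, ∑ k, ∑ l, C c k * C c l * M k l := by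
    calc ∑ k, ∑ l, H k l * M k l = ∑ k, ∑ l, ∑ c, C c k * C c l * M k l := by
          refine Finset.sum_congr rfl fun k _ => Finset.sum_congr rfl fun l _ => ?_
          rw [e, Finset.sum_mul]
      _ = ∑ k, ∑ c, ∑ l, C c k * C c l * M k l :=
          Finset.sum_congr rfl fun k _ => Finset.sum_comm
      _ = _ := Finset.sum_comm
  rw [e2]
  exact Finset.sum_nonneg fun c _ => hM (fun k => C c k)

/-- quadratic polynomial nonnegative for all rationals -/
theorem sq_le_of_rat {a b c : ℝ} (h : ∀ q : ℚ, 0 ≤ a * (q : ℝ) ^ 2 - 2 * b * q + c) :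
    b ^ 2 ≤ a * c := by
  have hr : ∀ x : ℝ, 0 ≤ a * x ^ 2 - 2 * b * x + c := by
    intro x
    have hcl : IsClosed {x : ℝ | 0 ≤ a * x ^ 2 - 2 * b * x + c} :=
      isClosed_le continuous_const (by fun_prop)
    have hd : Dense (Set.range ((↑) : ℚ → ℝ)) := Rat.denseRange_cast
    have : Set.range ((↑) : ℚ → ℝ) ⊆ {x : ℝ | 0 ≤ a * x ^ 2 - 2 * b * x + c} := by
      rintro _ ⟨q, rfl⟩; exact h q
    have h2 := closure_minimal this hcl
    rw [hd.closure_eq] at h2
    exact h2 (Set.mem_univ x)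
  have h3 := discrim_le_zero (a := a) (b := -(2 * b)) (c := c) (fun x => by
    have := hr x
    nlinarith [this])
  unfold discrim at h3
  nlinarith [h3]

/-- the quadratic form `Σ H_kl <u_k, y_l>` -/
def qf (t H : Matrix (Fin n) (Fin n) ℝ) (u y : Fin n → Fin n → ℝ) : ℝ :=
  ∑ k, ∑ l, H k l * ipt t (u k) (y l)

theorem qf_self_nonneg {t H : Matrix (Fin n) (Fin n) ℝ} (ht : t.PosSemidef) (hH : H.PosSemidef)
    (u : Fin n → Fin n → ℝ) : 0 ≤ qf t H u u := by
  refine contract_nonneg hH (M := fun k l => ipt t (u k) (u l)) fun v => ?_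
  have h := ipt_self_nonneg ht (fun a => ∑ k, v k * u k a)
  rw [ipt_sum_left] at h
  have e : ∀ k, ipt t (fun a => v k * u k a) (fun a => ∑ k, v k * u k a) =
      ∑ l, v k * v l * ipt t (u k) (u l) := by
    intro k
    rw [ipt_smul_left, ipt_sum_right, Finset.mul_sum]
    refine Finset.sum_congr rfl fun l _ => ?_
    rw [ipt_smul_right]; ring
  simp only [e] at h
  exact h

theorem qf_comm {t H : Matrix (Fin n) (Fin n) ℝ} (ht : t.IsSymm) (hH : H.IsSymm)
    (u y : Fin n → Fin n → ℝ) : qf t H u y = qf t H y u := by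
  unfold qf
  rw [Finset.sum_comm]
  refine Finset.sum_congr rfl fun k _ => Finset.sum_congr rfl fun l _ => ?_
  have : H l k = H k l := hH.apply k l
  rw [this, ipt_comm ht]

/-- `y = H⁻¹ a` -/
theorem qf_inv_right {t H : Matrix (Fin n) (Fin n) ℝ} (hH : H.PosDef)
    (u a : Fin n → Fin n → ℝ) :
    qf t H u (fun l b => ∑ m, H⁻¹ l m * a m b) = ∑ k, ipt t (u k) (a k) := by
  have hu : IsUnit H.det := (Matrix.isUnit_iff_isUnit_det H).1 hH.isUnit
  have hI : H * H⁻¹ = 1 := Matrix.mul_nonsing_inv H hu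
  unfold qf
  refine Finset.sum_congr rfl fun k _ => ?_
  calc ∑ l, H k l * ipt t (u k) (fun b => ∑ m, H⁻¹ l m * a m b)
      = ∑ l, ∑ m, H k l * H⁻¹ l m * ipt t (u k) (a m) := by
        refine Finset.sum_congr rfl fun l _ => ?_
        rw [ipt_sum_right, Finset.mul_sum]
        refine Finset.sum_congr rfl fun m _ => ?_
        rw [ipt_smul_right]; ring
    _ = ∑ m, (H * H⁻¹) k m * ipt t (u k) (a m) := by
        rw [Finset.sum_comm]
        refine Finset.sum_congr rfl fun m _ => ?_
        rw [Matrix.mul_apply, Finset.sum_mul]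
    _ = _ := by
        rw [hI]
        simp [Matrix.one_apply]

/-- pointwise arithmetic-geometric form of the Cauchy-Schwarz inequality -/
theorem pw_amgm {t H : Matrix (Fin n) (Fin n) ℝ} (ht : t.PosSemidef) (hH : H.PosDef)
    (u a : Fin n → Fin n → ℝ) {r : ℝ} (hr : 0 < r) :
    2 * ∑ k, ipt t (u k) (a k) ≤ r * (∑ k, ∑ l, H⁻¹ k l * ipt t (a k) (a l)) + r⁻¹ * qf t H u u := by
  have hts : t.IsSymm := isSymm_of_psd ht
  have hHs : H.IsSymm := isSymm_of_psd hH.posSemidef
  set y : Fin n → Fin n → ℝ := fun l b => ∑ m, H⁻¹ l m * a m b with hy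
  have h1 : qf t H u y = ∑ k, ipt t (u k) (a k) := qf_inv_right hH u a
  have h2 : qf t H y y = ∑ k, ∑ l, H⁻¹ k l * ipt t (a k) (a l) := by
    have : qf t H y y = ∑ k, ipt t (y k) (a k) := qf_inv_right hH y a
    rw [this]
    refine Finset.sum_congr rfl fun k _ => ?_
    rw [hy]
    dsimp only
    rw [ipt_sum_left]
    refine Finset.sum_congr rfl fun l _ => ?_
    rw [ipt_smul_left, ipt_comm hts]
  rw [← h1, ← h2]
  have h3 := qf_self_nonneg ht hH.posSemidef (fun k b => u k b + (-r) * y k b)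
  have h4 : qf t H (fun k b => u k b + (-r) * y k b) (fun k b => u k b + (-r) * y k b) =
      qf t H u u - 2 * r * qf t H u y + r ^ 2 * qf t H y y := by
    have e1 : ∀ p q, ipt t (fun b => u p b + (-r) * y p b) (fun b => u q b + (-r) * y q b) =
        ipt t (u p) (u q) + (-r) * ipt t (u p) (y q) + ((-r) * ipt t (y p) (u q)
          + r ^ 2 * ipt t (y p) (y q)) := by
      intro p q
      rw [ipt_add_left, ipt_add_right, ipt_add_right, ipt_smul_left, ipt_smul_left,
        ipt_smul_right, ipt_smul_right]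
      ring
    have e2 : qf t H (fun k b => u k b + (-r) * y k b) (fun k b => u k b + (-r) * y k b) =
        qf t H u u + (-r) * qf t H u y + ((-r) * qf t H y u + r ^ 2 * qf t H y y) := by
      unfold qf
      simp only [e1, mul_add, Finset.sum_add_distrib, Finset.mul_sum]
      congr 1
      · congr 1
        exact Finset.sum_congr rfl fun p _ => Finset.sum_congr rfl fun q _ => by ring
      · congr 1
        · exact Finset.sum_congr rfl fun p _ => Finset.sum_congr rfl fun q _ => by ring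
        · exact Finset.sum_congr rfl fun p _ => Finset.sum_congr rfl fun q _ => by ring
    rw [e2, qf_comm hts hHs y u]
    ring
  rw [h4] at h3
  have h5 : 0 ≤ r⁻¹ * (qf t H u u - 2 * r * qf t H u y + r ^ 2 * qf t H y y) :=
    mul_nonneg (inv_nonneg.2 hr.le) h3
  have h6 : r⁻¹ * (qf t H u u - 2 * r * qf t H u y + r ^ 2 * qf t H y y) =
      r⁻¹ * qf t H u u - 2 * qf t H u y + r * qf t H y y := by
    field_simp
  rw [h6] at h5
  linarith

end Vale.Agent.P245.K2.Step
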