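import Vale.Agent.P245.K2.Step
import Vale.Agent.P245.H464.Ops
import Vale.Agent.P245.K.R1S

/-!
P245, row STEP (second): the operators `P = (1 + s/2 + s A)⁻¹` and `R = (1 + s EE)⁻¹` in the abstract form
of `K2/Step.lean`.
-/

set_option linter.all false

open MeasureTheory Filter Topology Set
open Vale.Agent.P227.M Vale.Agent.P227.M.K814 Vale.Agent.P254.SN

namespace Vale.Agent.P245.K2.StepInst

open Vale.Agent.P245.K
open Vale.Agent.P245.H464 (TE Lt mu integral_mu integrable_mu memLp_iff mu_ac ac_mu)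
open Vale.Agent.P245.K2.Step (BM BF PosOp FieldOp ipt)

variable {n : ℕ} {V : E n → ℝ} {t : E n → Matrix (Fin n) (Fin n) ℝ} {c C s : ℝ}

theorem fin_mu (hB : Base V t c C) : IsFiniteMeasure (mu V) := by
  unfold mu
  exact isFiniteMeasure_withDensity_ofReal hB.int.2

theorem to_mu {p : E n → Prop} (h : ∀ᵐ x, p x) : ∀ᵐ x ∂(mu V), p x := (mu_ac V).ae_le h

theorem of_mu (hB : Base V t c C) {p : E n → Prop} (h : ∀ᵐ x ∂(mu V), p x) : ∀ᵐ x, p x :=
  (ac_mu hB.V2.continuous).ae_le h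

theorem bm_of {f : E n → ℝ} (hf : Measurable f) {M : ℝ} (hb : ∀ᵐ x, |f x| ≤ M) : BM (mu V) f :=
  ⟨hf.aestronglyMeasurable, M, to_mu hb⟩

theorem l2_of_bm (hB : Base V t c C) {f : E n → ℝ} (hf : Measurable f) (hb : BM (mu V) f) :
    L2 V f := by
  obtain ⟨h1, M, hM⟩ := hb
  have hfin := fin_mu hB
  refine ⟨hf, (memLp_iff hB.V2.continuous hf.aestronglyMeasurable).1 ?_⟩
  exact MemLp.of_bound h1 M (by filter_upwards [hM] with x hx; rwa [Real.norm_eq_abs])

theorem bm_rep {f : E n → ℝ} (hb : BM (mu V) f) :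
    ∃ g : E n → ℝ, Measurable g ∧ f =ᵐ[mu V] g ∧ BM (mu V) g :=
  ⟨hb.1.mk f, hb.1.stronglyMeasurable_mk.measurable, hb.1.ae_eq_mk, hb.congr hb.1.ae_eq_mk⟩

/-- `(1 + s/2) u + s A u = f` -/
def Sol (V : E n → ℝ) (t : E n → Matrix (Fin n) (Fin n) ℝ) (s : ℝ) (f u : E n → ℝ) : Prop :=
  ∃ (Du : Fin n → E n → ℝ) (Au : E n → ℝ), Dom V t u Du Au ∧
    ∀ᵐ x, (1 + s / 2) * u x + s * Au x = f x

theorem Sol.l2 (hB : Base V t c C) {f u : E n → ℝ} (h : Sol V t s f u) : L2 V u := by
  obtain ⟨Du, Au, hd, _⟩ := h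
  exact ((H464.stmtLin n V t c C hB).2.1 u Au Du hd).u2

theorem Sol.lin (hB : Base V t c C) {f g u v : E n → ℝ} (h1 : Sol V t s f u) (h2 : Sol V t s g v)
    (p q : ℝ) : Sol V t s (fun x => p * f x + q * g x) (fun x => p * u x + q * v x) := by
  obtain ⟨Du, Au, hd, he⟩ := h1
  obtain ⟨Dv, Av, hd', he'⟩ := h2
  refine ⟨_, _, (H464.stmtLin n V t c C hB).1 u Au v Av Du Dv hd hd' p q, ?_⟩
  filter_upwards [he, he'] with x a b
  rw [← a, ← b]; ring

theorem Sol.congr {f g u : E n → ℝ} (h : Sol V t s f u) (hfg : ∀ᵐ x, f x = g x) :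
    Sol V t s g u := by
  obtain ⟨Du, Au, hd, he⟩ := h
  refine ⟨Du, Au, hd, ?_⟩
  filter_upwards [he, hfg] with x a b
  rw [a, b]

theorem Sol.nonneg (hB : Base V t c C) (hs : 0 < s) {f u : E n → ℝ} (h : Sol V t s f u)
    (hf : ∀ᵐ x, 0 ≤ f x) : ∀ᵐ x, 0 ≤ u x := by
  obtain ⟨Du, Au, hd, he⟩ := h
  have h1 : 0 < 1 + s / 2 := by positivity
  refine H464.stmtPos n V t c C hB (s / (1 + s / 2)) (by positivity) u Au Du hd ?_
  filter_upwards [he, hf] with x a b
  have e : u x + s / (1 + s / 2) * Au x = (1 + s / 2)⁻¹ * ((1 + s / 2) * u x + s * Au x) := by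
    field_simp
  rw [e, a]
  positivity

theorem Sol.mono (hB : Base V t c C) (hs : 0 < s) {f g u v : E n → ℝ} (h1 : Sol V t s f u)
    (h2 : Sol V t s g v) (hfg : ∀ᵐ x, f x ≤ g x) : ∀ᵐ x, u x ≤ v x := by
  have h3 := (h2.lin hB h1 1 (-1)).nonneg hB hs (by
    filter_upwards [hfg] with x hx; linarith)
  filter_upwards [h3] with x hx; linarith

theorem Sol.unique (hB : Base V t c C) (hs : 0 < s) {f g u v : E n → ℝ} (h1 : Sol V t s f u)
    (h2 : Sol V t s g v) (hfg : ∀ᵐ x, f x = g x) : ∀ᵐ x, u x = v x := by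
  filter_upwards [h1.mono hB hs h2 (hfg.mono fun x hx => hx.le),
    h2.mono hB hs h1 (hfg.mono fun x hx => hx.ge)] with x a b
  exact le_antisymm a b

theorem sol_const (hB : Base V t c C) (r : ℝ) : Sol V t s (fun _ => (1 + s / 2) * r) (fun _ => r) := by
  have h1 := (H464.stmtLin n V t c C hB).2.2.2.2.2
  have h0 : Sol V t s (fun _ => (1 + s / 2)) (fun _ => 1) :=
    ⟨_, _, h1, Eventually.of_forall fun x => by simp⟩
  have h2 := h0.lin hB h0 r 0
  have e1 : (fun _ : E n => r * (1 : ℝ) + 0 * 1) = fun _ => r := by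
    funext x; ring
  rw [e1] at h2
  exact h2.congr (Eventually.of_forall fun x => by ring)

theorem Sol.bdd (hB : Base V t c C) (hs : 0 < s) {f u : E n → ℝ} (h : Sol V t s f u) {M : ℝ}
    (hf : ∀ᵐ x, |f x| ≤ M) : ∀ᵐ x, |u x| ≤ M / (1 + s / 2) := by
  have h1 : 0 < 1 + s / 2 := by positivity
  have e1 := h.mono hB hs (sol_const hB (M / (1 + s / 2))) (by
    filter_upwards [hf] with x hx
    have e : (1 + s / 2) * (M / (1 + s / 2)) = M := by field_simp
    rw [e]; exact (le_abs_self _).trans hx)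
  have e2 := (sol_const (s := s) hB (-(M / (1 + s / 2)))).mono hB hs h (by
    filter_upwards [hf] with x hx
    have e : (1 + s / 2) * (-(M / (1 + s / 2))) = -M := by field_simp
    rw [e]; exact neg_le_of_neg_le ((neg_le_abs _).trans hx))
  filter_upwards [e1, e2] with x a b
  exact abs_le.2 ⟨b, a⟩

theorem Sol.bm (hB : Base V t c C) (hs : 0 < s) {f u : E n → ℝ} (h : Sol V t s f u)
    (hf : BM (mu V) f) : BM (mu V) u := by
  obtain ⟨_, M, hM⟩ := hf
  exact bm_of (h.l2 hB).1 (h.bdd hB hs (of_mu hB hM))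

theorem sol_exists (hB : Base V t c C) (hs : 0 < s) {f : E n → ℝ} (hf : BM (mu V) f) :
    ∃ u, Sol V t s f u := by
  obtain ⟨g, hg, hfg, hgb⟩ := bm_rep hf
  have h1 : 0 < 1 + s / 2 := by positivity
  have hg2 := l2_of_bm hB hg hgb
  have hg3 : BM (mu V) (fun x => (1 + s / 2)⁻¹ * g x) := (BM.const _).mul hgb
  have hg4 := l2_of_bm hB (hg.const_mul _) hg3
  obtain ⟨F, u, Du, Au, hd, he⟩ := H464.total hB.toTE hg4.1 hg4.2 (s := s / (1 + s / 2)) (by positivity)
  refine ⟨u, Du, Au, ⟨F, hd⟩, ?_⟩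
  filter_upwards [of_mu hB hfg] with x hx
  have e : (1 + s / 2) * u x + s * Au x = (1 + s / 2) * (u x + s / (1 + s / 2) * Au x) := by
    field_simp
  rw [e, he x, hx]
  field_simp

theorem Sol.symm (hB : Base V t c C) {f g u v : E n → ℝ} (hf : BM (mu V) f) (hg : BM (mu V) g)
    (h1 : Sol V t s f u) (h2 : Sol V t s g v) (hub : BM (mu V) u) (hvb : BM (mu V) v) :
    ∫ x, u x * g x ∂(mu V) = ∫ x, f x * v x ∂(mu V) := by
  have hV := hB.V2.continuous
  obtain ⟨Du, Au, ⟨F, hd⟩, he⟩ := h1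
  obtain ⟨Dv, Av, ⟨F', hd'⟩, he'⟩ := h2
  have e1 := hd.symm hB.toTB hd'
  have su := hd.su
  have sv := hd'.su
  have sA := hd.sA
  have sA' := hd'.sA
  have i1 := H464.Sq.int hV su sv
  have i2 := H464.Sq.int hV sA sv
  have i3 := H464.Sq.int hV su sA'
  rw [integral_mu hV, integral_mu hV]
  have k1 : ∫ x, u x * g x * Real.exp (-V x) =
      (1 + s / 2) * (∫ x, u x * v x * Real.exp (-V x)) + s * I V (fun x => u x * Av x) := by
    unfold I
    rw [← integral_const_mul, ← integral_const_mul, ← integral_add (i1.const_mul _) (i3.const_mul _)]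
    refine integral_congr_ae ?_
    filter_upwards [he'] with x hx
    rw [← hx]; ring
  have k2 : ∫ x, f x * v x * Real.exp (-V x) =
      (1 + s / 2) * (∫ x, u x * v x * Real.exp (-V x)) + s * I V (fun x => Au x * v x) := by
    unfold I
    rw [← integral_const_mul, ← integral_const_mul, ← integral_add (i1.const_mul _) (i2.const_mul _)]
    refine integral_congr_ae ?_
    filter_upwards [he] with x hx
    rw [← hx]; ring
  rw [k1, k2, e1]

/-- the resolvent on bounded functions -/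
theorem exists_P (hB : Base V t c C) (hs : 0 < s) : ∃ P : (E n → ℝ) → E n → ℝ,
    PosOp (mu V) P (1 / (1 + s / 2)) ∧ ∀ f, BM (mu V) f → Sol V t s f (P f) := by
  classical
  have h1 : 0 < 1 + s / 2 := by positivity
  set P : (E n → ℝ) → E n → ℝ := fun f => if h : ∃ u, Sol V t s f u then h.choose else 0 with hPdef
  have hS : ∀ f, BM (mu V) f → Sol V t s f (P f) := by
    intro f hf
    have h := sol_exists hB hs hf
    simp only [hPdef, dif_pos h]
    exact h.choose_spec
  refine ⟨P, ?_, hS⟩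
  refine ⟨fun f hf => (hS f hf).bm hB hs hf, fun f g hf hg => ?_, fun r f hf => ?_,
    fun f hf h0 => ?_, fun f g hf hg => ?_, ?_, by positivity⟩
  · refine to_mu ?_
    have e := (hS _ (hf.add hg)).unique hB hs ((hS f hf).lin hB (hS g hg) 1 1)
      (Eventually.of_forall fun x => by ring)
    filter_upwards [e] with x hx
    rw [hx]; ring
  · refine to_mu ?_
    have e := (hS _ ((BM.const r).mul hf)).unique hB hs ((hS f hf).lin hB (hS f hf) r 0)
      (Eventually.of_forall fun x => by ring)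
    filter_upwards [e] with x hx
    rw [hx]; ring
  · exact to_mu ((hS f hf).nonneg hB hs (of_mu hB h0))
  · exact Sol.symm hB hf hg (hS f hf) (hS g hg) ((hS f hf).bm hB hs hf) ((hS g hg).bm hB hs hg)
  · refine to_mu ?_
    have e := (hS _ (BM.const 1)).unique hB hs (sol_const hB (1 / (1 + s / 2)))
      (Eventually.of_forall fun x => by field_simp)
    exact e

/-! ## fields -/

theorem posT (hB : Base V t c C) (x : E n) : (t x).PosSemidef := R1S.posT hB.toTE x

theorem bm_t (hB : Base V t c C) (a b : Fin n) : BM (mu V) (fun x => t x a b) := by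
  obtain ⟨M, hM⟩ := hB.bt
  exact bm_of (tll hB.toTF a b).continuous.measurable (M := M) (Eventually.of_forall fun x => hM x a b)

theorem low_ip (hB : Base V t c C) (α : E n → Fin n → ℝ) (x : E n) :
    c * ∑ a, α x a ^ 2 ≤ ip t α α x := by
  have h1 := hB.low x (WithLp.toLp 2 fun a => α x a)
  rw [← H464.sum_sq_eq] at h1
  exact h1

/-- `U = (1 + s EE)⁻¹ α` up to null sets -/
def RS (V : E n → ℝ) (t : E n → Matrix (Fin n) (Fin n) ℝ) (s : ℝ) (α U : E n → Fin n → ℝ) : Prop :=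
  ∃ α' : E n → Fin n → ℝ, (∀ᵐ x, α' x = α x) ∧ R1 V t s α' U

theorem RS.lin (hB : Base V t c C) (hs : 0 < s) {α U β W : E n → Fin n → ℝ} (h1 : RS V t s α U)
    (h2 : RS V t s β W) (p q : ℝ) :
    RS V t s (fun x a => p * α x a + q * β x a) (fun x a => p * U x a + q * W x a) := by
  obtain ⟨α', ha, hr⟩ := h1
  obtain ⟨β', hb, hr'⟩ := h2
  refine ⟨_, ?_, (R1S.r1s n V t c C hB s hs α' U β' W hr hr').2 p q⟩
  filter_upwards [ha, hb] with x a b
  rw [a, b]

theorem RS.zero (hE : StmtR1E) (hB : Base V t c C) (hs : 0 < s) {α U : E n → Fin n → ℝ}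
    (h1 : RS V t s α U) (h0 : ∀ᵐ x, α x = 0) : ∀ᵐ x, U x = 0 := by
  have hV := hB.V2.continuous
  obtain ⟨α', ha, hr⟩ := h1
  obtain ⟨W, hW⟩ := hE n V t c C hB s hs U hr.U2
  have h2 := (R1S.r1s n V t c C hB s hs α' U U W hr hW).1
  have h3 : I V (ip t α' W) = 0 := by
    unfold I
    rw [← integral_zero (E n) ℝ (μ := volume)]
    refine integral_congr_ae ?_
    filter_upwards [ha, h0] with x a b
    unfold ip
    simp [a, b]
  rw [h3] at h2
  unfold I at h2
  have h4 : 0 ≤ fun x => ip t U U x * Real.exp (-V x) := fun x =>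
    mul_nonneg (R1S.ip_nonneg hB.toTE U x) (Real.exp_pos _).le
  have h5 := (integral_eq_zero_iff_of_nonneg h4 (R1S.int_ip hB.toTE hr.U2 hr.U2)).1 h2
  filter_upwards [h5] with x hx
  have h6 : ip t U U x = 0 := by
    have : ip t U U x * Real.exp (-V x) = 0 := hx
    exact (mul_eq_zero.1 this).resolve_right (Real.exp_pos _).ne'
  have h7 := low_ip hB U x
  rw [h6] at h7
  have h8 : ∑ a, U x a ^ 2 ≤ 0 := by
    have := hB.lam_pos
    by_contra hcon
    push Not at hcon
    have := mul_pos hB.lam_pos hcon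
    linarith
  funext a
  have h9 : U x a ^ 2 ≤ ∑ a, U x a ^ 2 :=
    Finset.single_le_sum (f := fun a => U x a ^ 2) (fun i _ => sq_nonneg _) (Finset.mem_univ a)
  have h10 : U x a ^ 2 = 0 := le_antisymm (h9.trans h8) (sq_nonneg _)
  simpa using h10

theorem RS.unique (hE : StmtR1E) (hB : Base V t c C) (hs : 0 < s) {α U β W : E n → Fin n → ℝ}
    (h1 : RS V t s α U) (h2 : RS V t s β W) (h0 : ∀ᵐ x, α x = β x) : ∀ᵐ x, U x = W x := by
  have h3 := (h1.lin hB hs h2 1 (-1)).zero hE hB hs (by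
    filter_upwards [h0] with x hx
    funext a
    rw [hx]; simp)
  filter_upwards [h3] with x hx
  funext a
  have := congrFun hx a
  simp only [Pi.zero_apply] at this
  linarith

theorem rs_exists (hE : StmtR1E) (hB : Base V t c C) (hs : 0 < s) {α : E n → Fin n → ℝ}
    (hα : BF (mu V) α) : ∃ U, RS V t s α U := by
  choose g hg1 hg2 hg3 using fun a => bm_rep (hα a)
  obtain ⟨U, hU⟩ := hE n V t c C hB s hs (fun x a => g a x) (fun a => l2_of_bm hB (hg1 a) (hg3 a))
  refine ⟨U, fun x a => g a x, ?_, hU⟩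
  have h1 : ∀ᵐ x, ∀ a, α x a = g a x := ae_all_iff.2 fun a => of_mu hB (hg2 a)
  filter_upwards [h1] with x hx
  funext a
  exact (hx a).symm

theorem RS.dom (hK : StmtKato) (hB : Base V t c C) (hs : 0 < s) {α U : E n → Fin n → ℝ}
    (h1 : RS V t s α U) {h : E n → ℝ} (hS : Sol V t s (fun x => Real.sqrt (ipt (t x) (α x) (α x))) h) :
    ∀ᵐ x, Real.sqrt (ipt (t x) (U x) (U x)) ≤ h x := by
  obtain ⟨α', ha, hr⟩ := h1
  obtain ⟨Dh, Ah, hd, he⟩ := hS
  refine hK n V t c C hB s hs α' U hr h Ah Dh hd ?_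
  filter_upwards [ha, he] with x a b
  rw [b]
  unfold nt
  have : ip t α' α' x = ipt (t x) (α x) (α x) := by
    rw [← a]; rfl
  rw [this]

theorem exists_R (hK : StmtKato) (hE : StmtR1E) (hB : Base V t c C) (hs : 0 < s)
    {P : (E n → ℝ) → E n → ℝ} (hP : PosOp (mu V) P (1 / (1 + s / 2)))
    (hPS : ∀ f, BM (mu V) f → Sol V t s f (P f)) :
    ∃ R : (E n → Fin n → ℝ) → E n → Fin n → ℝ, FieldOp (mu V) t P R ∧
      ∀ α, BF (mu V) α → RS V t s α (R α) := by
  classical
  have hV := hB.V2.continuous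
  set R : (E n → Fin n → ℝ) → E n → Fin n → ℝ := fun α =>
    if h : ∃ U, RS V t s α U then h.choose else 0 with hRdef
  have hS : ∀ α, BF (mu V) α → RS V t s α (R α) := by
    intro α hα
    have h := rs_exists hE hB hs hα
    simp only [hRdef, dif_pos h]
    exact h.choose_spec
  have hnt : ∀ α, BF (mu V) α → BM (mu V) (fun x => Real.sqrt (ipt (t x) (α x) (α x))) :=
    fun α hα => (BF.ipt (bm_t hB) hα hα).sqrt
  have hdom : ∀ α, BF (mu V) α → ∀ᵐ x, Real.sqrt (ipt (t x) (R α x) (R α x)) ≤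
      P (fun x => Real.sqrt (ipt (t x) (α x) (α x))) x := fun α hα =>
    (hS α hα).dom hK hB hs (hPS _ (hnt α hα))
  refine ⟨R, ⟨fun α hα => ?_, fun α β hα hβ => ?_, fun r α hα => ?_, fun α β hα hβ => ?_,
    fun α hα => to_mu (hdom α hα)⟩, hS⟩
  · obtain ⟨α', _, hr⟩ := hS α hα
    obtain ⟨_, M, hM⟩ := hP.mem _ (hnt α hα)
    intro a
    refine bm_of (hr.U2 a).1 (M := Real.sqrt (M ^ 2 / c)) ?_
    filter_upwards [hdom α hα, of_mu hB hM] with x h1 h2
    have h3 : Real.sqrt (ipt (t x) (R α x) (R α x)) ≤ M := h1.trans ((le_abs_self _).trans h2)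
    have h4 : ipt (t x) (R α x) (R α x) ≤ M ^ 2 := by
      have h5 := Step.ipt_self_nonneg (posT hB x) (R α x)
      calc ipt (t x) (R α x) (R α x) = (Real.sqrt (ipt (t x) (R α x) (R α x))) ^ 2 :=
            (Real.sq_sqrt h5).symm
        _ ≤ _ := pow_le_pow_left₀ (Real.sqrt_nonneg _) h3 2
    have h5 := low_ip hB (R α) x
    have h6 : R α x a ^ 2 ≤ ∑ a, R α x a ^ 2 :=
      Finset.single_le_sum (f := fun a => R α x a ^ 2) (fun i _ => sq_nonneg _) (Finset.mem_univ a)
    have h7 : c * R α x a ^ 2 ≤ M ^ 2 :=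
      (mul_le_mul_of_nonneg_left h6 hB.lam_pos.le).trans (h5.trans h4)
    refine Real.abs_le_sqrt ?_
    rw [le_div_iff₀ hB.lam_pos]
    linarith
  · refine to_mu ?_
    have e := (hS _ (BF.lin hα hβ)).unique hE hB hs ((hS α hα).lin hB hs (hS β hβ) 1 1)
      (Eventually.of_forall fun x => by funext a; ring)
    filter_upwards [e] with x hx
    rw [hx]
    funext a; ring
  · refine to_mu ?_
    have e := (hS _ (BF.smul (BM.const r) hα)).unique hE hB hs ((hS α hα).lin hB hs (hS α hα) r 0)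
      (Eventually.of_forall fun x => by funext a; ring)
    filter_upwards [e] with x hx
    rw [hx]
    funext a; ring
  · obtain ⟨α', ha, hr⟩ := hS α hα
    obtain ⟨β', hb, hr'⟩ := hS β hβ
    have e := (R1S.r1s n V t c C hB s hs α' (R α) β' (R β) hr hr').1
    rw [integral_mu hV, integral_mu hV]
    have e1 : ∫ x, ipt (t x) (R α x) (β x) * Real.exp (-V x) = I V (ip t (R α) β') := by
      unfold I
      refine integral_congr_ae ?_
      filter_upwards [hb] with x hx
      rw [← hx]; rfl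
    have e2 : ∫ x, ipt (t x) (α x) (R β x) * Real.exp (-V x) = I V (ip t α' (R β)) := by
      unfold I
      refine integral_congr_ae ?_
      filter_upwards [ha] with x hx
      rw [← hx]; rfl
    rw [e1, e2, e]

end Vale.Agent.P245.K2.StepInst
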